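import Crest.Agent.R227.Ev

/-! Row 227. Divisibility and first-order Taylor formula for `ev`; dual numbers. -/

set_option autoImplicit false

namespace Crest.R227

open MvPowerSeries

variable {R B : Type*} [CommRing R] [CommRing B] {σ τ : Type*} [Finite σ] [Finite τ]

omit [Finite τ] in
theorem mem_span_of_killCompl_aux (S : Finset τ) (f : MvPowerSeries τ R)
    (hf : ∀ m : τ →₀ ℕ, (∀ t ∈ S, m t = 0) → coeff m f = 0) :
    f ∈ Ideal.span ((X : τ → MvPowerSeries τ R) '' (S : Set τ)) := by
  classical
  induction S using Finset.induction_on generalizing f with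
  | empty =>
    have : f = 0 := by ext m; exact hf m (by simp)
    rw [this]; exact Ideal.zero_mem _
  | insert t S ht ih =>
    let g : MvPowerSeries τ R := fun m => if m t = 0 then coeff m f else 0
    have hg : ∀ m, coeff m g = if m t = 0 then coeff m f else 0 := fun m => rfl
    have h1 : g ∈ Ideal.span ((X : τ → MvPowerSeries τ R) '' (S : Set τ)) := by
      refine ih g fun m hm => ?_
      rw [hg]
      split_ifs with h
      · refine hf m fun t' ht' => ?_
        rcases Finset.mem_insert.1 ht' with rfl | ht'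
        exacts [h, hm t' ht']
      · rfl
    have h2 : (X t : MvPowerSeries τ R) ∣ f - g := by
      rw [X_dvd_iff]
      intro m hm
      rw [map_sub, hg, if_pos hm, sub_self]
    rw [← sub_add_cancel f g]
    refine Ideal.add_mem _ (Ideal.mem_of_dvd _ h2 (Ideal.subset_span ⟨t, by simp, rfl⟩))
      (Ideal.span_mono (Set.image_mono (by simp)) h1)

/-- A series all of whose monomials involve a variable outside the range of `e` lies in the ideal
generated by those variables (partition the monomials by the least such variable). -/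
theorem mem_span_of_killCompl (e : σ ↪ τ) {f : MvPowerSeries τ R} (hf : killCompl e f = 0) :
    f ∈ Ideal.span ((X : τ → MvPowerSeries τ R) '' (Set.range e)ᶜ) := by
  classical
  have := mem_span_of_killCompl_aux (Set.toFinite (Set.range e)ᶜ).toFinset f fun m hm => by
    have h1 : m ∈ Set.range (Finsupp.embDomain (M := ℕ) e) := by
      rw [Finsupp.mem_range_embDomain_iff]
      intro t ht
      by_contra h
      exact Finsupp.mem_support_iff.1 ht (hm t (by simpa using h))
    obtain ⟨x, rfl⟩ := h1
    rw [← coeff_killCompl, hf, map_zero]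
  rwa [Set.Finite.coe_toFinset] at this

/-- `f(a) - f(b) ∈ (a - b)`. (Universal case: `f(X+Y) - f(X) ∈ (Y)` in `R⟦σ ⊕ σ⟧` by
`mem_span_of_killCompl`.) -/
theorem ev_sub_ev_mem (I : Ideal B) [IsAdicComplete I B] (ι : R →+* B) {a b : σ → B}
    (ha : ∀ s, a s ∈ I.radical) (hb : ∀ s, b s ∈ I.radical) (f : MvPowerSeries σ R) :
    ev I ι a f - ev I ι b f ∈ Ideal.span (Set.range fun s => a s - b s) := by
  classical
  let u : σ → MvPowerSeries (σ ⊕ σ) R := fun s => X (Sum.inl s) + X (Sum.inr s)
  let v : σ → MvPowerSeries (σ ⊕ σ) R := fun s => X (Sum.inl s)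
  have hu : ∀ s, constantCoeff (u s) = 0 := fun s => by simp [u]
  have hv : ∀ s, constantCoeff (v s) = 0 := fun s => by simp [v]
  let e : σ ↪ σ ⊕ σ := Function.Embedding.inl
  have k1 : ∀ s, killCompl (R := R) e (X (Sum.inl s)) = X s := fun s => killCompl_X (e := e) s
  have k2 : ∀ s, killCompl (R := R) e (X (Sum.inr s)) = 0 := fun s =>
    killCompl_X_eq_zero (by simp [e])
  have key : ((killCompl e).comp (substAlgHom (hasSubst_of_constantCoeff_zero hu))).toRingHom =
      ((killCompl e).comp (substAlgHom (R := R) (hasSubst_of_constantCoeff_zero hv))).toRingHom := by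
    refine hom_ext (Ideal.span (Set.range (X : σ → MvPowerSeries σ R))) (fun s => ?_)
      (fun r => ?_) fun s => ?_
    · change killCompl e (substAlgHom (hasSubst_of_constantCoeff_zero hu) (X s)) ∈ _
      rw [substAlgHom_X, map_add, k1, k2, add_zero]
      exact Ideal.le_radical (Ideal.subset_span ⟨s, rfl⟩)
    · exact (AlgHom.commutes _ r).trans (AlgHom.commutes _ r).symm
    · change killCompl e (substAlgHom (hasSubst_of_constantCoeff_zero hu) (X s)) =
        killCompl e (substAlgHom (hasSubst_of_constantCoeff_zero hv) (X s))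
      rw [substAlgHom_X, substAlgHom_X, map_add, k2, add_zero]
  have h0 : killCompl e (subst u f - subst v f) = 0 := by
    rw [map_sub, sub_eq_zero, ← substAlgHom_apply (hasSubst_of_constantCoeff_zero hu),
      ← substAlgHom_apply (hasSubst_of_constantCoeff_zero hv)]
    exact RingHom.congr_fun key f
  let c : σ ⊕ σ → B := Sum.elim b fun s => a s - b s
  have hc : ∀ t, c t ∈ I.radical := by
    rintro (s | s)
    exacts [hb s, Ideal.sub_mem _ (ha s) (hb s)]
  have h1 := Ideal.mem_map_of_mem (ev I ι c) (mem_span_of_killCompl e h0)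
  rw [map_sub, ev_subst I ι hc hu, ev_subst I ι hc hv] at h1
  have e1 : (fun s => ev I ι c (u s)) = a := by
    funext s
    simp only [u, map_add, ev_X I ι hc, c, Sum.elim_inl, Sum.elim_inr]
    ring
  have e2 : (fun s => ev I ι c (v s)) = b := by
    funext s
    simp only [v, ev_X I ι hc, c, Sum.elim_inl]
  rw [e1, e2, Ideal.map_span] at h1
  refine Ideal.span_mono ?_ h1
  rintro _ ⟨_, ⟨t, ht, rfl⟩, rfl⟩
  rcases t with s | s
  · exact absurd ⟨s, rfl⟩ ht
  · exact ⟨s, (ev_X I ι hc (Sum.inr s)).symm⟩

theorem ev1_sub_ev1_mem (I : Ideal B) [IsAdicComplete I B] (ι : R →+* B) {a b : B}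
    (ha : a ∈ I.radical) (hb : b ∈ I.radical) (f : PowerSeries R) :
    ev1 I ι a f - ev1 I ι b f ∈ Ideal.span {a - b} := by
  have := ev_sub_ev_mem I ι (a := fun _ : Unit => a) (b := fun _ => b) (fun _ => ha)
    (fun _ => hb) f
  rwa [Set.range_const] at this

/-- The ideal of the dual numbers lying over `I`. -/
def dualI (I : Ideal B) : Ideal (DualNumber B) :=
  I.comap (TrivSqZeroExt.fstHom B B B).toRingHom

theorem mem_dualI_radical (I : Ideal B) {z : DualNumber B} :
    z ∈ (dualI I).radical ↔ z.fst ∈ I.radical := by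
  rw [dualI, ← Ideal.comap_radical]
  rfl

theorem dual_complete_mem (I : Ideal B) (k : ℕ) (z : DualNumber B) :
    z ∈ dualI I ^ (k + 1) ↔ z.fst ∈ I ^ (k + 1) ∧ z.snd ∈ I ^ k := by
  constructor
  · induction k generalizing z with
    | zero =>
      intro h
      rw [zero_add, Submodule.pow_one] at h
      rw [zero_add, pow_one, pow_zero, Ideal.one_eq_top]
      exact ⟨h, trivial⟩
    | succ k ih =>
      intro h
      rw [Submodule.pow_succ] at h
      refine Submodule.mul_induction_on h (fun x hx y hy => ?_) fun x y hx hy => ?_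
      · obtain ⟨h1, h2⟩ := ih x hx
        have hy' : y.fst ∈ I := hy
        refine ⟨?_, ?_⟩
        · rw [TrivSqZeroExt.fst_mul, pow_succ]
          exact Ideal.mul_mem_mul h1 hy'
        · rw [DualNumber.snd_mul]
          refine Ideal.add_mem _ (Ideal.mul_mem_right _ _ h1) ?_
          rw [pow_succ]
          exact Ideal.mul_mem_mul h2 hy'
      · exact ⟨Ideal.add_mem _ hx.1 hy.1, Ideal.add_mem _ hx.2 hy.2⟩
  · rintro ⟨h1, h2⟩
    have hle : I.map (algebraMap B (DualNumber B)) ≤ dualI I := by
      rw [Ideal.map_le_iff_le_comap]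
      intro x hx
      exact hx
    have hp : ∀ n, ∀ x ∈ I ^ n, algebraMap B (DualNumber B) x ∈ dualI I ^ n := fun n x hx => by
      refine Ideal.pow_right_mono hle n ?_
      rw [← Ideal.map_pow]
      exact Ideal.mem_map_of_mem _ hx
    have he : (DualNumber.eps : DualNumber B) ∈ dualI I := by
      change (0 : B) ∈ I
      exact I.zero_mem
    have : z = algebraMap B (DualNumber B) z.fst +
        algebraMap B (DualNumber B) z.snd * DualNumber.eps := by
      ext <;> simp [TrivSqZeroExt.algebraMap_eq_inl]
    rw [this]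
    refine Ideal.add_mem _ (hp _ _ h1) ?_
    rw [Submodule.pow_succ]
    exact Ideal.mul_mem_mul (hp _ _ h2) he

instance dual_complete (I : Ideal B) [IsAdicComplete I B] :
    IsAdicComplete (dualI I) (DualNumber B) := by
  have hH : IsHausdorff I B := inferInstance
  have hP : IsPrecomplete I B := inferInstance
  have e1 : IsHausdorff (dualI I) (DualNumber B) := by
    refine ⟨fun x hx => ?_⟩
    simp only [SModEq.zero, smul_eq_mul, Ideal.mul_top] at hx
    ext
    · refine hH.haus _ fun n => ?_
      rw [SModEq.zero, smul_eq_mul, Ideal.mul_top]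
      exact Ideal.pow_le_pow_right (Nat.le_succ n) ((dual_complete_mem I n x).1 (hx _)).1
    · refine hH.haus _ fun n => ?_
      rw [SModEq.zero, smul_eq_mul, Ideal.mul_top]
      exact ((dual_complete_mem I n x).1 (hx _)).2
  have e2 : IsPrecomplete (dualI I) (DualNumber B) := by
    refine ⟨fun f hf => ?_⟩
    simp only [SModEq.sub_mem, smul_eq_mul, Ideal.mul_top] at hf ⊢
    obtain ⟨L1, h1⟩ := hP.prec (f := fun n => (f (n + 1)).fst) fun {m n} h => by
      rw [SModEq.sub_mem, smul_eq_mul, Ideal.mul_top]
      exact Ideal.pow_le_pow_right (Nat.le_succ m)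
        ((dual_complete_mem I m _).1 (hf (Nat.succ_le_succ h))).1
    obtain ⟨L2, h2⟩ := hP.prec (f := fun n => (f (n + 1)).snd) fun {m n} h => by
      rw [SModEq.sub_mem, smul_eq_mul, Ideal.mul_top]
      exact ((dual_complete_mem I m _).1 (hf (Nat.succ_le_succ h))).2
    simp only [SModEq.sub_mem, smul_eq_mul, Ideal.mul_top] at h1 h2
    refine ⟨TrivSqZeroExt.inl L1 + TrivSqZeroExt.inr L2, fun n => ?_⟩
    have h3 : f (n + 2) - (TrivSqZeroExt.inl L1 + TrivSqZeroExt.inr L2) ∈ dualI I ^ (n + 1) := by
      rw [dual_complete_mem]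
      refine ⟨by simpa using h1 (n + 1), ?_⟩
      simpa using Ideal.pow_le_pow_right (Nat.le_succ n) (h2 (n + 1))
    rw [← sub_add_sub_cancel _ (f (n + 2))]
    exact Ideal.add_mem _ (hf (by omega)) (Ideal.pow_le_pow_right (Nat.le_succ n) h3)
  exact {}

/-- First-order Taylor formula (both sides are ring maps in `f`; use `eq_ev`). -/
theorem ev_dual [Fintype σ] (I : Ideal B) [IsAdicComplete I B] (ι : R →+* B) {a : σ → B}
    (ha : ∀ s, a s ∈ I.radical) (b : σ → B) (f : MvPowerSeries σ R) :
    ev (dualI I) ((algebraMap B (DualNumber B)).comp ι)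
        (fun s => TrivSqZeroExt.inl (a s) + TrivSqZeroExt.inr (b s)) f =
      TrivSqZeroExt.inl (ev I ι a f) +
        TrivSqZeroExt.inr (∑ s, b s * ev I ι a (pderiv R s f)) := by
  classical
  let φ : MvPowerSeries σ R →+* DualNumber B :=
    { toFun := fun f => TrivSqZeroExt.inl (ev I ι a f) +
        TrivSqZeroExt.inr (∑ s, b s * ev I ι a (pderiv R s f))
      map_one' := by ext <;> simp
      map_mul' := fun f g => by
        ext
        · simp
        · simp only [Derivation.leibniz, smul_eq_mul, map_add, map_mul, DualNumber.snd_mul,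
            TrivSqZeroExt.snd_add, TrivSqZeroExt.fst_add, TrivSqZeroExt.snd_inl,
            TrivSqZeroExt.snd_inr, TrivSqZeroExt.fst_inl, TrivSqZeroExt.fst_inr, zero_add,
            add_zero, Finset.mul_sum, Finset.sum_mul, ← Finset.sum_add_distrib]
          exact Finset.sum_congr rfl fun s _ => by ring
      map_zero' := by ext <;> simp
      map_add' := fun f g => by
        ext
        · simp
        · simp [mul_add, Finset.sum_add_distrib] }
  have key : φ = ev (dualI I) ((algebraMap B (DualNumber B)).comp ι)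
      (fun s => TrivSqZeroExt.inl (a s) + TrivSqZeroExt.inr (b s)) := by
    refine eq_ev _ _ (fun s => (mem_dualI_radical I).2 (by simpa using ha s)) (fun r => ?_)
      fun s => ?_
    · ext <;> simp [φ, ev_C, TrivSqZeroExt.algebraMap_eq_inl]
    · ext
      · simp [φ, ev_X I ι ha]
      · simp [φ, pderiv_X, Pi.single_apply, apply_ite (ev I ι a)]
  rw [← key]
  rfl

theorem ev1_dual (I : Ideal B) [IsAdicComplete I B] (ι : R →+* B) {a : B}
    (ha : a ∈ I.radical) (b : B) (f : PowerSeries R) :
    ev1 (dualI I) ((algebraMap B (DualNumber B)).comp ι)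
        (TrivSqZeroExt.inl a + TrivSqZeroExt.inr b) f =
      TrivSqZeroExt.inl (ev1 I ι a f) +
        TrivSqZeroExt.inr (b * ev1 I ι a (PowerSeries.derivative R f)) := by
  have := ev_dual I ι (a := fun _ : Unit => a) (fun _ => ha) (fun _ => b) f
  rw [Fintype.sum_unique] at this
  exact this

end Crest.R227
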