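import Crest.Agent.R227.FG2
import Crest.Agent.R227.Ev2

/-! Row 227. In characteristic `p` a homomorphism with vanishing linear coefficient factors
through Frobenius. -/

set_option autoImplicit false

namespace Crest.R227

open Crest.LubinTate

variable {R : Type*} [CommRing R] (p : ℕ) [Fact p.Prime] [CharP R p]

omit [Fact p.Prime] [CharP R p] in
theorem coeff_eq_zero_of_not_dvd_shape (F : FormalGroup R) {B : Type*} [CommRing B]
    (E : MvPowerSeries (Fin 2) R →+* B) :
    ∃ w : B, E F.toPowerSeries = E (MvPowerSeries.X 0) + E (MvPowerSeries.X 1) +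
      E (MvPowerSeries.X 0) * E (MvPowerSeries.X 1) * w := by
  obtain ⟨G, hG⟩ := fg_shape F
  exact ⟨E G, by rw [hG]; simp⟩

omit [Fact p.Prime] [CharP R p] in
theorem coeff_eq_zero_of_not_dvd_self (φ : PowerSeries R) :
    ev1 (Ideal.span {(PowerSeries.X : PowerSeries R)}) (PowerSeries.C : R →+* PowerSeries R)
      PowerSeries.X φ = φ := by
  have h := eq_ev (σ := Unit) (Ideal.span {(PowerSeries.X : PowerSeries R)})
    (PowerSeries.C : R →+* PowerSeries R) (a := fun _ => (PowerSeries.X : PowerSeries R))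
    (fun _ => Ideal.le_radical (Ideal.mem_span_singleton_self _)) (φ := RingHom.id _)
    (fun _ => rfl) (fun _ => rfl)
  exact (DFunLike.congr_fun h φ).symm

omit [Fact p.Prime] [CharP R p] in
theorem coeff_eq_zero_of_not_dvd_deriv {F G : FormalGroup R} {φ : PowerSeries R}
    (hφ : IsFGHom F G φ) (h1 : PowerSeries.coeff 1 φ = 0) :
    PowerSeries.derivative R φ = 0 := by
  set I : Ideal (PowerSeries R) := Ideal.span {(PowerSeries.X : PowerSeries R)} with hI
  set ι : R →+* DualNumber (PowerSeries R) :=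
    (algebraMap (PowerSeries R) (DualNumber (PowerSeries R))).comp PowerSeries.C with hι
  have hX : (PowerSeries.X : PowerSeries R) ∈ I.radical :=
    Ideal.le_radical (Ideal.mem_span_singleton_self _)
  set a : Fin 2 → DualNumber (PowerSeries R) :=
    ![TrivSqZeroExt.inl PowerSeries.X, TrivSqZeroExt.inr 1] with ha
  have har : ∀ s, a s ∈ (dualI I).radical := by
    intro s
    rw [mem_dualI_radical]
    fin_cases s
    · simpa [ha] using hX
    · simp [ha]
  have hE0 : ev (dualI I) ι a (MvPowerSeries.X 0) = TrivSqZeroExt.inl PowerSeries.X :=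
    ev_X _ _ har 0
  have hE1 : ev (dualI I) ι a (MvPowerSeries.X 1) = TrivSqZeroExt.inr 1 :=
    ev_X _ _ har 1
  obtain ⟨w, hw⟩ := coeff_eq_zero_of_not_dvd_shape F (ev (dualI I) ι a)
  have hF : ev (dualI I) ι a F.toPowerSeries =
      TrivSqZeroExt.inl PowerSeries.X + TrivSqZeroExt.inr (1 + PowerSeries.X * w.fst) := by
    rw [hw, hE0, hE1]
    ext <;> simp
  have hL : ev (dualI I) ι a (PowerSeries.subst F.toPowerSeries φ) =
      TrivSqZeroExt.inl φ +
        TrivSqZeroExt.inr ((1 + PowerSeries.X * w.fst) * PowerSeries.derivative R φ) := by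
    rw [ev_subst1 _ _ har F.zero_constantCoeff, hF, hι, ev1_dual I _ hX,
      coeff_eq_zero_of_not_dvd_self, coeff_eq_zero_of_not_dvd_self]
  have hb0 : ev (dualI I) ι a
      (PowerSeries.subst (MvPowerSeries.X 0 : MvPowerSeries (Fin 2) R) φ) =
      TrivSqZeroExt.inl φ := by
    have h := ev1_dual I PowerSeries.C hX 0 φ
    rw [coeff_eq_zero_of_not_dvd_self] at h
    rw [ev_subst1 _ _ har (by simp), hE0]
    simpa using h
  have hb1 : ev (dualI I) ι a
      (PowerSeries.subst (MvPowerSeries.X 1 : MvPowerSeries (Fin 2) R) φ) = 0 := by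
    have h := ev1_dual I PowerSeries.C (a := 0) (Ideal.zero_mem _) 1 φ
    have h0 : ∀ f : PowerSeries R, ev1 I PowerSeries.C 0 f =
        PowerSeries.C (PowerSeries.constantCoeff f) := fun f => ev_zero I PowerSeries.C f
    have h2 : PowerSeries.constantCoeff (PowerSeries.derivative R φ) = 0 := by
      rw [← PowerSeries.coeff_zero_eq_constantCoeff_apply, PowerSeries.coeff_derivative]
      simp [h1]
    rw [h0, h0, hφ.1, h2] at h
    rw [ev_subst1 _ _ har (by simp), hE1]
    simpa using h
  have hc : ∀ i : Fin 2, MvPowerSeries.constantCoeff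
      (PowerSeries.subst (MvPowerSeries.X i : MvPowerSeries (Fin 2) R) φ) = 0 := fun i =>
    PowerSeries.constantCoeff_subst_eq_zero (by simp) φ hφ.1
  have hs : MvPowerSeries.HasSubst
      ![PowerSeries.subst (MvPowerSeries.X 0 : MvPowerSeries (Fin 2) R) φ,
        PowerSeries.subst (MvPowerSeries.X 1 : MvPowerSeries (Fin 2) R) φ] :=
    MvPowerSeries.hasSubst_of_constantCoeff_zero fun s => by fin_cases s <;> simp [hc]
  obtain ⟨w', hw'⟩ := coeff_eq_zero_of_not_dvd_shape G ((ev (dualI I) ι a).comp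
    (MvPowerSeries.substAlgHom (R := R) hs :
      MvPowerSeries (Fin 2) R →+* MvPowerSeries (Fin 2) R))
  simp only [RingHom.comp_apply, RingHom.coe_coe, MvPowerSeries.substAlgHom_apply,
    MvPowerSeries.subst_X hs, Matrix.cons_val_zero, Matrix.cons_val_one, hb0, hb1, ← hφ.2,
    hL] at hw'
  have h3 := congrArg TrivSqZeroExt.snd hw'
  have hu : IsUnit (1 + PowerSeries.X * w.fst) := by
    rw [PowerSeries.isUnit_iff_constantCoeff]
    simp
  simpa [hu.mul_right_eq_zero] using h3

/-- Differentiate `φ(F(X,Y)) = G(φX,φY)` in `Y` at `Y = 0` (evaluate at `(X, ε)` in the dual numbers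
over `R⟦X⟧`, `ev_dual`): `φ'(X) * F_Y(X,0) = 0` with `F_Y(X,0)` a unit, so `k * φ_k = 0`. -/
theorem coeff_eq_zero_of_not_dvd {F G : FormalGroup R} {φ : PowerSeries R} (hφ : IsFGHom F G φ)
    (h1 : PowerSeries.coeff 1 φ = 0) {k : ℕ} (hk : ¬ p ∣ k) : PowerSeries.coeff k φ = 0 := by
  have hd := coeff_eq_zero_of_not_dvd_deriv hφ h1
  obtain ⟨m, rfl⟩ : ∃ m, k = m + 1 := Nat.exists_eq_succ_of_ne_zero (by rintro rfl; simp at hk)
  have h2 := congrArg (PowerSeries.coeff m) hd
  rw [PowerSeries.coeff_derivative, map_zero] at h2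
  have hu : IsUnit ((m + 1 : ℕ) : R) :=
    (CharP.isUnit_natCast_iff (Fact.out : p.Prime)).2 hk
  push_cast at hu
  exact hu.mul_left_eq_zero.1 h2

omit [Fact p.Prime] [CharP R p] in
theorem frob_factor_one_inj {σ : Type*} (hp : p ≠ 0) {f g : MvPowerSeries σ R}
    (h : MvPowerSeries.expand p hp f = MvPowerSeries.expand p hp g) : f = g := by
  ext m
  rw [← MvPowerSeries.coeff_expand_smul p hp f, h, MvPowerSeries.coeff_expand_smul]

omit [Fact p.Prime] [CharP R p] in
theorem frob_factor_one_subst {σ : Type*} (hp : p ≠ 0) {b : MvPowerSeries σ R}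
    (hb : PowerSeries.HasSubst b) (g : PowerSeries R) :
    PowerSeries.subst b (PowerSeries.expand p hp g) = PowerSeries.subst (b ^ p) g := by
  rw [PowerSeries.expand_apply, PowerSeries.subst_comp_subst_apply (PowerSeries.HasSubst.X_pow hp) hb,
    PowerSeries.subst_pow hb, PowerSeries.subst_X hb]

/-- One step: uses `MvPowerSeries.map_frobenius_expand` (`F^p = F^{(p)}(X^p,Y^p)`) and injectivity
of `expand`. -/
theorem frob_factor_one {F G : FormalGroup R} {φ : PowerSeries R} (hφ : IsFGHom F G φ)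
    (h1 : PowerSeries.coeff 1 φ = 0) :
    ∃ g : PowerSeries R, φ = PowerSeries.expand p (Fact.out : p.Prime).ne_zero g ∧
      IsFGHom (F.map (frobenius R p)) G g := by
  have hp : p ≠ 0 := (Fact.out : p.Prime).ne_zero
  obtain ⟨g, rfl⟩ : ∃ g : PowerSeries R, φ = PowerSeries.expand p hp g := by
    refine ⟨PowerSeries.mk fun n => PowerSeries.coeff (p * n) φ, ?_⟩
    ext n
    rw [PowerSeries.coeff_expand]
    split_ifs with h
    · rw [PowerSeries.coeff_mk, Nat.mul_div_cancel' h]
    · exact coeff_eq_zero_of_not_dvd p hφ h1 h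
  have hg : PowerSeries.constantCoeff g = 0 := by simpa using hφ.1
  refine ⟨g, rfl, hg, frob_factor_one_inj p hp ?_⟩
  have hc : ∀ i : Fin 2, MvPowerSeries.constantCoeff
      (PowerSeries.subst (MvPowerSeries.X i : MvPowerSeries (Fin 2) R) g) = 0 := fun i =>
    PowerSeries.constantCoeff_subst_eq_zero (by simp) g hg
  have hs : MvPowerSeries.HasSubst
      ![PowerSeries.subst (MvPowerSeries.X 0 : MvPowerSeries (Fin 2) R) g,
        PowerSeries.subst (MvPowerSeries.X 1 : MvPowerSeries (Fin 2) R) g] :=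
    MvPowerSeries.hasSubst_of_constantCoeff_zero fun s => by fin_cases s <;> simp [hc]
  have h2 := hφ.2
  rw [frob_factor_one_subst p hp (PowerSeries.HasSubst.of_constantCoeff_zero F.zero_constantCoeff),
    frob_factor_one_subst p hp (PowerSeries.HasSubst.X 0),
    frob_factor_one_subst p hp (PowerSeries.HasSubst.X 1),
    ← MvPowerSeries.map_frobenius_expand p hp, MvPowerSeries.map_expand] at h2
  rw [PowerSeries.expand_subst p hp (PowerSeries.HasSubst.of_constantCoeff_zero
    (F.map (frobenius R p)).zero_constantCoeff), MvPowerSeries.expand_subst p hp hs,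
    FormalGroup.map_toPowerSeries, h2]
  congr 1
  funext i
  fin_cases i <;> simp [PowerSeries.expand_subst p hp (PowerSeries.HasSubst.X _)]

theorem frob_factor {F G : FormalGroup R} {φ : PowerSeries R} (hφ : IsFGHom F G φ) (h : ℕ)
    (hz : ∀ j < h, PowerSeries.coeff (p ^ j) φ = 0) :
    ∃ g : PowerSeries R,
      φ = PowerSeries.expand (p ^ h) (pow_ne_zero h (Fact.out : p.Prime).ne_zero) g ∧
      IsFGHom (F.map (iterateFrobenius R p h)) G g := by
  induction h with
  | zero => exact ⟨φ, by simp, by rw [iterateFrobenius_zero, fg_map_id]; exact hφ⟩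
  | succ h ih =>
    obtain ⟨g, rfl, hg⟩ := ih fun j hj => hz j (by omega)
    have h1 : PowerSeries.coeff 1 g = 0 := by
      have := PowerSeries.coeff_expand_mul (p ^ h) (pow_ne_zero h (Fact.out : p.Prime).ne_zero) g 1
      rw [mul_one, hz h (by omega)] at this
      exact this.symm
    obtain ⟨g', rfl, hg'⟩ := frob_factor_one p hg h1
    refine ⟨g', ?_, ?_⟩
    · rw [← PowerSeries.expand_mul]
      rfl
    · rw [fg_map_map] at hg'
      rwa [add_comm, iterateFrobenius_add, iterateFrobenius_one]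

/-- A homomorphism all of whose coefficients at powers of `p` vanish is zero. -/
theorem eq_zero_of_coeff_pow {F G : FormalGroup R} {φ : PowerSeries R} (hφ : IsFGHom F G φ)
    (hz : ∀ j, PowerSeries.coeff (p ^ j) φ = 0) : φ = 0 := by
  ext k
  rcases Nat.eq_zero_or_pos k with rfl | hk
  · simpa using hφ.1
  obtain ⟨g, hg, -⟩ := frob_factor p hφ k fun j _ => hz j
  rw [hg, map_zero]
  refine PowerSeries.coeff_expand_of_not_dvd _ _ _ fun h => ?_
  have h1 := Nat.le_of_dvd hk h
  have h2 := Nat.lt_pow_self (n := k) (Fact.out : p.Prime).one_lt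
  omega

end Crest.R227
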