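import Crest.Agent.R227.FG2

/-! Row 227. The group of points of a commutative law in the topologically nilpotent elements of
a complete ring. -/

set_option autoImplicit false

namespace Crest.R227

open Crest.LubinTate

variable {B B' : Type*} [CommRing B] [CommRing B']

/-- Points of `F` in the radical of `I`. -/
@[ext]
structure Pt (I : Ideal B) (F : FormalGroup B) where
  val : B
  mem : val ∈ I.radical

namespace Pt

variable {I : Ideal B} [IsAdicComplete I B] {F G : FormalGroup B}

theorem vec_mem {a b : B} (ha : a ∈ I.radical) (hb : b ∈ I.radical) :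
    ∀ s, (![a, b] : Fin 2 → B) s ∈ I.radical := by
  intro s; fin_cases s <;> simpa

noncomputable instance : Add (Pt I F) :=
  ⟨fun a b => ⟨ev I (RingHom.id B) ![a.val, b.val] F.toPowerSeries,
    ev_mem_radical I _ (vec_mem a.mem b.mem) (by simp [F.zero_constantCoeff])⟩⟩

instance : Zero (Pt I F) := ⟨⟨0, I.radical.zero_mem⟩⟩

noncomputable instance : Neg (Pt I F) :=
  ⟨fun a => ⟨ev1 I (RingHom.id B) a.val (exists_negSeries F).choose,
    ev1_mem_radical I _ a.mem (by simp [(exists_negSeries F).choose_spec.1])⟩⟩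

theorem val_add (a b : Pt I F) :
    (a + b).val = ev I (RingHom.id B) ![a.val, b.val] F.toPowerSeries := rfl

omit [IsAdicComplete I B] in
@[simp] theorem val_zero : (0 : Pt I F).val = 0 := rfl

theorem ev_subst2 {τ : Type*} [Finite τ] {a : τ → B} (ha : ∀ t, a t ∈ I.radical)
    {f g : MvPowerSeries τ B} (hf : MvPowerSeries.constantCoeff f = 0)
    (hg : MvPowerSeries.constantCoeff g = 0) (Φ : MvPowerSeries (Fin 2) B) :
    ev I (RingHom.id B) a (MvPowerSeries.subst ![f, g] Φ) =
      ev I (RingHom.id B) ![ev I (RingHom.id B) a f, ev I (RingHom.id B) a g] Φ := by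
  rw [ev_subst I _ ha (by intro s; fin_cases s <;> simpa)]
  congr 2
  ext s
  fin_cases s <;> rfl

theorem ev1_fadd {a : B} (ha : a ∈ I.radical) {f g : PowerSeries B}
    (hf : PowerSeries.constantCoeff f = 0) (hg : PowerSeries.constantCoeff g = 0) :
    ev1 I (RingHom.id B) a (fadd F f g) =
      ev I (RingHom.id B) ![ev1 I (RingHom.id B) a f, ev1 I (RingHom.id B) a g] F.toPowerSeries :=
  ev_subst2 (fun _ => ha) hf hg _

theorem ev1_mem_span {a : B} (ha : a ∈ I.radical) {f : PowerSeries B}
    (hf : PowerSeries.constantCoeff f = 0) : ev1 I (RingHom.id B) a f ∈ Ideal.span {a} := by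
  simpa [hf] using ev1_sub_trunc_mem I (RingHom.id B) ha 1 f

theorem ev1_sub_mem_span {a : B} (ha : a ∈ I.radical) {f : PowerSeries B}
    (hf : PowerSeries.constantCoeff f = 0) :
    ev1 I (RingHom.id B) a f - PowerSeries.coeff 1 f * a ∈ Ideal.span {a ^ 2} := by
  simpa [hf, Finset.sum_range_succ] using ev1_sub_trunc_mem I (RingHom.id B) ha 2 f

theorem add_shape (a b : Pt I F) : ∃ w, (a + b).val = a.val + b.val + a.val * b.val * w := by
  obtain ⟨Φ, hΦ⟩ := fg_shape F
  refine ⟨ev I (RingHom.id B) ![a.val, b.val] Φ, ?_⟩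
  rw [val_add, hΦ]
  simp [ev_X I _ (vec_mem a.mem b.mem)]

theorem add_assoc' (a b c : Pt I F) : a + b + c = a + (b + c) := by
  have h3 : ∀ s, (![a.val, b.val, c.val] : Fin 3 → B) s ∈ I.radical := by
    intro s; fin_cases s
    · exact a.mem
    · exact b.mem
    · exact c.mem
  have h0 : ∀ i j : Fin 3, MvPowerSeries.constantCoeff (F.toPowerSeries.subst
      ![(MvPowerSeries.X i : MvPowerSeries (Fin 3) B), MvPowerSeries.X j]) = 0 := fun i j =>
    MvPowerSeries.constantCoeff_subst_eq_zero MvPowerSeries.HasSubst.X_X (by simp)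
      F.zero_constantCoeff
  have h := congrArg (ev I (RingHom.id B) ![a.val, b.val, c.val]) F.assoc
  rw [ev_subst2 h3 (h0 _ _) (by simp), ev_subst2 h3 (by simp) (h0 _ _),
    ev_subst2 h3 (by simp) (by simp), ev_subst2 h3 (by simp) (by simp)] at h
  simp only [ev_X I _ h3] at h
  exact Pt.ext h

theorem zero_add' (a : Pt I F) : 0 + a = a := by
  obtain ⟨w, hw⟩ := add_shape 0 a
  exact Pt.ext (by simpa using hw)

theorem add_zero' (a : Pt I F) : a + 0 = a := by
  obtain ⟨w, hw⟩ := add_shape a 0
  exact Pt.ext (by simpa using hw)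

theorem add_comm' [F.IsComm] (a b : Pt I F) : a + b = b + a := by
  have h2 := vec_mem a.mem b.mem
  have h := congrArg (ev I (RingHom.id B) ![a.val, b.val])
    (FormalGroup.IsComm.comm (F := F))
  rw [ev_subst2 h2 (by simp) (by simp)] at h
  simp only [ev_X I _ h2] at h
  exact Pt.ext h

theorem add_neg' (a : Pt I F) : a + -a = 0 := by
  obtain ⟨h0, h1⟩ := (exists_negSeries F).choose_spec
  have h := congrArg (ev1 I (RingHom.id B) a.val) h1
  rw [ev1_fadd a.mem (by simp) h0, ev1_X I _ a.mem, map_zero] at h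
  exact Pt.ext h

noncomputable instance [F.IsComm] : AddCommGroup (Pt I F) where
  add_assoc := add_assoc'
  zero_add := zero_add'
  add_zero := add_zero'
  nsmul := nsmulRec
  zsmul := zsmulRec
  neg_add_cancel a := by rw [add_comm', add_neg']
  add_comm := add_comm'

variable [F.IsComm] [G.IsComm]

theorem val_nsmul (m : ℕ) (a : Pt I F) :
    (m • a).val = ev1 I (RingHom.id B) a.val (mulSeries F m) := by
  induction m with
  | zero => simp [mulSeries]
  | succ m ih =>
    rw [succ_nsmul, val_add, ih]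
    have := ev1_fadd (F := F) a.mem (mulSeries_constantCoeff F m) (g := PowerSeries.X) (by simp)
    rw [ev1_X I _ a.mem] at this
    exact this.symm

theorem add_val_sub_mem (a b : Pt I F) :
    (a + b).val - a.val - b.val ∈ Ideal.span {a.val * b.val} := by
  obtain ⟨w, hw⟩ := add_shape a b
  exact Ideal.mem_span_singleton'.2 ⟨w, by rw [hw]; ring⟩

theorem nsmul_val_sub_mem (m : ℕ) (a : Pt I F) :
    (m • a).val - m * a.val ∈ Ideal.span {a.val ^ 2} := by
  have := ev1_sub_mem_span a.mem (mulSeries_constantCoeff F m)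
  rwa [mulSeries_coeff_one, ← val_nsmul] at this

theorem neg_val_mem (a : Pt I F) : (-a).val ∈ Ideal.span {a.val} := by
  exact ev1_mem_span a.mem (exists_negSeries F).choose_spec.1

theorem sub_val_mem_iff (J : Ideal B) (a b : Pt I F) :
    (a - b).val ∈ J ↔ a.val - b.val ∈ J := by
  constructor
  · intro h
    obtain ⟨w, hw⟩ := add_shape (a - b) b
    rw [sub_add_cancel] at hw
    have : a.val - b.val = (a - b).val * (1 + b.val * w) := by rw [hw]; ring
    rw [this]
    exact J.mul_mem_right _ h
  · intro h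
    have h1 := ev_sub_ev_mem I (RingHom.id B) (vec_mem a.mem (-b).mem) (vec_mem b.mem (-b).mem)
      F.toPowerSeries
    rw [← val_add, ← val_add, add_neg_cancel, val_zero, sub_zero, ← sub_eq_add_neg] at h1
    refine (Ideal.span_le.2 ?_) h1
    rintro _ ⟨s, rfl⟩
    fin_cases s
    · exact h
    · simp

/-- The points with coordinate in `J`. -/
def fil (I : Ideal B) [IsAdicComplete I B] (F : FormalGroup B) [F.IsComm] (J : Ideal B) :
    AddSubgroup (Pt I F) where
  carrier := {a | a.val ∈ J}
  zero_mem' := J.zero_mem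
  add_mem' := by
    intro a b ha hb
    have h := add_val_sub_mem a b
    have h2 : (a + b).val - a.val - b.val ∈ J :=
      (Ideal.span_le.2 (by simpa using J.mul_mem_right _ ha)) h
    have : (a + b).val = ((a + b).val - a.val - b.val) + a.val + b.val := by ring
    change (a + b).val ∈ J
    rw [this]
    exact J.add_mem (J.add_mem h2 ha) hb
  neg_mem' := by
    intro a ha
    exact (Ideal.span_le.2 (by simpa using ha)) (neg_val_mem a)

theorem mem_fil {J : Ideal B} {a : Pt I F} : a ∈ fil I F J ↔ a.val ∈ J := Iff.rfl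

open Classical in
/-- The map on points induced by a homomorphism `θ : F → G` (zero if `θ` is not one). -/
noncomputable def act (I : Ideal B) [IsAdicComplete I B] (F G : FormalGroup B) [F.IsComm]
    [G.IsComm] (θ : PowerSeries B) : Pt I F →+ Pt I G :=
  if h : IsFGHom F G θ then
    AddMonoidHom.mk' (fun a => ⟨ev1 I (RingHom.id B) a.val θ,
      ev1_mem_radical I _ a.mem (by simp [h.1])⟩) (by
        intro a b
        have h2 := vec_mem a.mem b.mem
        have h0 : ∀ i : Fin 2, MvPowerSeries.constantCoeff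
            (PowerSeries.subst (MvPowerSeries.X i : MvPowerSeries (Fin 2) B) θ) = 0 := fun i =>
          PowerSeries.constantCoeff_subst_eq_zero (by simp) _ h.1
        have h1 := congrArg (ev I (RingHom.id B) ![a.val, b.val]) h.2
        rw [ev_subst1 I _ h2 F.zero_constantCoeff, ev_subst2 h2 (h0 0) (h0 1),
          ev_subst1 I _ h2 (by simp), ev_subst1 I _ h2 (by simp), ev_X I _ h2, ev_X I _ h2] at h1
        exact Pt.ext h1)
  else 0

theorem act_val {θ : PowerSeries B} (h : IsFGHom F G θ) (a : Pt I F) :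
    (act I F G θ a).val = ev1 I (RingHom.id B) a.val θ := by
  unfold act
  rw [dif_pos h]
  rfl

theorem act_val_sub_mem {θ : PowerSeries B} (h : IsFGHom F G θ) (a : Pt I F) :
    (act I F G θ a).val - PowerSeries.coeff 1 θ * a.val ∈ Ideal.span {a.val ^ 2} := by
  rw [act_val h]
  exact ev1_sub_mem_span a.mem h.1

theorem act_val_mem (θ : PowerSeries B) (a : Pt I F) :
    (act I F G θ a).val ∈ Ideal.span {a.val} := by
  by_cases h : IsFGHom F G θ
  · rw [act_val h]
    exact ev1_mem_span a.mem h.1
  · unfold act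
    rw [dif_neg h]
    exact Ideal.zero_mem _

theorem act_X : act I F F PowerSeries.X = AddMonoidHom.id _ := by
  refine AddMonoidHom.ext fun a => Pt.ext ?_
  rw [act_val (isFGHom_X F), ev1_X I _ a.mem]
  rfl

theorem act_zero : act I F G 0 = 0 := by
  refine AddMonoidHom.ext fun a => Pt.ext ?_
  rw [act_val (isFGHom_zero F G), map_zero]
  rfl

theorem act_fadd {θ η : PowerSeries B} (hθ : IsFGHom F G θ) (hη : IsFGHom F G η) :
    act I F G (fadd G θ η) = act I F G θ + act I F G η := by
  refine AddMonoidHom.ext fun a => Pt.ext ?_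
  rw [act_val (isFGHom_fadd hθ hη), AddMonoidHom.add_apply, val_add, act_val hθ, act_val hη,
    ev1_fadd a.mem hθ.1 hη.1]

theorem act_cmp {H : FormalGroup B} [H.IsComm] {θ η : PowerSeries B} (hθ : IsFGHom F G θ)
    (hη : IsFGHom G H η) : act I F H (cmp η θ) = (act I G H η).comp (act I F G θ) := by
  refine AddMonoidHom.ext fun a => Pt.ext ?_
  rw [act_val (isFGHom_comp hθ hη), AddMonoidHom.comp_apply, act_val hη, act_val hθ]
  exact ev1_subst I _ a.mem hθ.1 η

/-- Base change of points along a ring map. -/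
noncomputable def map (I : Ideal B) [IsAdicComplete I B] (I' : Ideal B') [IsAdicComplete I' B']
    (F : FormalGroup B) [F.IsComm] (F' : FormalGroup B') [F'.IsComm] (ρ : B →+* B')
    (hρ : I ≤ I'.radical.comap ρ) (hF : F.map ρ = F') : Pt I F →+ Pt I' F' :=
  AddMonoidHom.mk' (fun a => ⟨ρ a.val, by
    obtain ⟨k, hk⟩ := a.mem
    have h1 : ρ a.val ^ k ∈ I'.radical := by simpa using hρ hk
    exact Ideal.radical_isRadical I' ⟨k, h1⟩⟩) (by
      intro a b
      have hm : ∀ c : Pt I F, ρ c.val ∈ I'.radical := fun c => by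
        obtain ⟨k, hk⟩ := c.mem
        have h1 : ρ c.val ^ k ∈ I'.radical := by simpa using hρ hk
        exact Ideal.radical_isRadical I' ⟨k, h1⟩
      have e : (fun s => ρ ((![a.val, b.val] : Fin 2 → B) s)) = ![ρ a.val, ρ b.val] := by
        ext s; fin_cases s <;> rfl
      have h2 := vec_mem (hm a) (hm b)
      refine Pt.ext ?_
      change ρ (ev I (RingHom.id B) ![a.val, b.val] F.toPowerSeries) =
        ev I' (RingHom.id B') ![ρ a.val, ρ b.val] F'.toPowerSeries
      rw [comp_ev I _ I' ρ (vec_mem a.mem b.mem) (fun s => by rw [congrFun e s]; exact h2 s), e,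
        ← hF, FormalGroup.map_toPowerSeries, ev_map I' _ h2]
      rfl)

theorem map_val (I' : Ideal B') [IsAdicComplete I' B'] (F' : FormalGroup B') [F'.IsComm]
    (ρ : B →+* B') (hρ : I ≤ I'.radical.comap ρ) (hF : F.map ρ = F') (a : Pt I F) :
    (map I I' F F' ρ hρ hF a).val = ρ a.val := rfl

/-- Two laws that are congruent modulo an open ideal `J` add points in the same way modulo `J`. -/
theorem add_val_congr {J : Ideal B} {k : ℕ} (hJ : I ^ k ≤ J)
    (hFG : ∀ γ, MvPowerSeries.coeff γ F.toPowerSeries - MvPowerSeries.coeff γ G.toPowerSeries ∈ J)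
    {a b : Pt I F} {a' b' : Pt I G} (ha : a.val - a'.val ∈ J) (hb : b.val - b'.val ∈ J) :
    (a + b).val - (a' + b').val ∈ J := by
  have h1 := ev_sub_ev_mem I (RingHom.id B) (vec_mem a.mem b.mem) (vec_mem a'.mem b'.mem)
    F.toPowerSeries
  have h1' : ev I (RingHom.id B) ![a.val, b.val] F.toPowerSeries -
      ev I (RingHom.id B) ![a'.val, b'.val] F.toPowerSeries ∈ J := by
    refine (Ideal.span_le.2 ?_) h1
    rintro _ ⟨s, rfl⟩
    fin_cases s
    · exact ha
    · exact hb
  have h2 := ev_mem_of_coeff_mem I (RingHom.id B) (vec_mem a'.mem b'.mem) J hJ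
    (f := F.toPowerSeries - G.toPowerSeries) (fun γ => by simpa using hFG γ)
  rw [map_sub] at h2
  have := J.add_mem h1' h2
  rwa [sub_add_sub_cancel] at this

theorem nsmul_val_congr {J : Ideal B} {k : ℕ} (hJ : I ^ k ≤ J)
    (hFG : ∀ γ, MvPowerSeries.coeff γ F.toPowerSeries - MvPowerSeries.coeff γ G.toPowerSeries ∈ J)
    {a : Pt I F} {a' : Pt I G} (ha : a.val - a'.val ∈ J) (m : ℕ) :
    (m • a).val - (m • a').val ∈ J := by
  induction m with
  | zero => simp
  | succ m ih =>
    rw [succ_nsmul, succ_nsmul]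
    exact add_val_congr hJ hFG ih ha

end Pt

end Crest.R227
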