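import Crest.Agent.R227.Ev2

/-! Row 227. Substitutions with invertible linear part are onto; ideals stable under derivations
in characteristic `p`. -/

set_option autoImplicit false

namespace Crest.R227

open MvPowerSeries

/-- The ideal generated by the `b s` equals `(X)` by Nakayama (the matrix of linear coefficients is
invertible: `Matrix.mulVec_injective_iff_isUnit`); then `surjective_of_mk_map_comp_surjective`. -/
theorem subst_surjective {L σ : Type*} [Field L] [Fintype σ] {b : σ → MvPowerSeries σ L}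
    (h0 : ∀ s, constantCoeff (b s) = 0)
    (h1 : ∀ ξ : σ → L, (∀ i, ∑ s, ξ s * coeff (Finsupp.single s 1) (b i) = 0) → ξ = 0)
    (F : MvPowerSeries σ L) : ∃ Φ : MvPowerSeries σ L, subst b Φ = F := by
  classical
  have hs : HasSubst b := hasSubst_of_constantCoeff_zero h0
  set m : Ideal (MvPowerSeries σ L) := Ideal.span (Set.range X) with hm
  have hone : ∀ g : MvPowerSeries σ L, constantCoeff g = 0 → g ∈ m := fun g hg => by
    have h := mem_span_X_pow (d := 1) (f := g) fun γ hγ => by
      have : γ = 0 := (Finsupp.degree_eq_zero_iff γ).1 (by omega)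
      subst this
      simpa using hg
    rwa [pow_one] at h
  let A : Matrix σ σ L := Matrix.of fun i s => coeff (Finsupp.single s 1) (b i)
  have hA : IsUnit A := by
    rw [← Matrix.mulVec_injective_iff_isUnit]
    intro ξ η h
    rw [← sub_eq_zero]
    refine h1 _ fun i => ?_
    have := congrFun (sub_eq_zero.2 h) i
    rw [← Matrix.mulVec_sub] at this
    simpa [Matrix.mulVec, dotProduct, A, mul_comm] using this
  obtain ⟨B, hB⟩ := hA.exists_left_inv
  have hlin : ∀ i, b i - ∑ s, C (A i s) * X s ∈ m ^ 2 := fun i => by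
    refine mem_span_X_pow fun γ hγ => ?_
    by_cases hz : γ.degree = 0
    · have : γ = 0 := (Finsupp.degree_eq_zero_iff γ).1 hz
      subst this
      simp [h0]
    · have h1 : γ ∈ Set.range fun s : σ => Finsupp.single s 1 := by
        rw [Finsupp.range_single_one]
        change γ.degree = 1
        omega
      obtain ⟨t, rfl⟩ := h1
      simp only [map_sub, map_sum, coeff_C_mul, coeff_X, Finsupp.single_left_inj one_ne_zero]
      simp [A]
  have hle : m ≤ Ideal.span (Set.range b) := by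
    refine Submodule.le_of_le_smul_of_le_jacobson_bot (I := m)
      (Submodule.fg_span (Set.finite_range _)) (IsAdicComplete.le_jacobson_bot m) ?_
    refine Ideal.span_le.2 (Set.range_subset_iff.2 fun t => ?_)
    have e : (X t : MvPowerSeries σ L) = ∑ i, C (B t i) * b i -
        ∑ i, C (B t i) * (b i - ∑ s, C (A i s) * X s) := by
      rw [← Finset.sum_sub_distrib]
      simp only [mul_sub, sub_sub_cancel, Finset.mul_sum, ← mul_assoc, ← map_mul]
      rw [Finset.sum_comm]
      simp only [← Finset.sum_mul, ← map_sum, ← Matrix.mul_apply, hB, Matrix.one_apply]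
      simp [apply_ite C]
    rw [e]
    refine Submodule.sub_mem _ (Submodule.mem_sup_left ?_) (Submodule.mem_sup_right ?_)
    · exact Ideal.sum_mem _ fun i _ => Ideal.mul_mem_left _ _ (Ideal.subset_span ⟨i, rfl⟩)
    · rw [smul_eq_mul, ← sq]
      exact Ideal.sum_mem _ fun i _ => Ideal.mul_mem_left _ _ (hlin i)
  have hmap : m.map (substAlgHom (R := L) hs : MvPowerSeries σ L →+* MvPowerSeries σ L) = m := by
    rw [hm, Ideal.map_span, ← Set.range_comp]
    have : ((substAlgHom (R := L) hs : MvPowerSeries σ L →+* MvPowerSeries σ L) ∘ X) = b := by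
      funext s
      simp [subst_X hs]
    rw [this]
    exact le_antisymm (Ideal.span_le.2 (Set.range_subset_iff.2 fun s => hone _ (h0 s))) hle
  have hH : IsHausdorff
      (m.map (substAlgHom (R := L) hs : MvPowerSeries σ L →+* MvPowerSeries σ L))
      (MvPowerSeries σ L) := by
    rw [hmap]; infer_instance
  have hsurj := surjective_of_mk_map_comp_surjective (I := m)
    (substAlgHom (R := L) hs : MvPowerSeries σ L →+* MvPowerSeries σ L) (by
      intro y
      obtain ⟨g, rfl⟩ := Ideal.Quotient.mk_surjective y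
      refine ⟨C (constantCoeff g), ?_⟩
      rw [RingHom.comp_apply, Ideal.Quotient.eq, hmap]
      refine hone _ ?_
      have : (substAlgHom (R := L) hs : MvPowerSeries σ L →+* MvPowerSeries σ L)
          (C (constantCoeff g)) = C (constantCoeff g) := by simp
      rw [this]
      simp)
  obtain ⟨Φ, hΦ⟩ := hsurj F
  exact ⟨Φ, by rw [← substAlgHom_apply hs]; exact hΦ⟩

theorem eq_bot_of_pderiv_stable_euler {L σ : Type*} [Field L] (s : σ) (Φ : MvPowerSeries σ L)
    (μ : σ →₀ ℕ) : coeff μ (X s * pderiv L s Φ) = (μ s : L) * coeff μ Φ := by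
  classical
  rw [X_def, coeff_monomial_mul]
  split_ifs with h
  · have h1 : 1 ≤ μ s := Finsupp.single_le_iff.1 h
    rw [one_mul, coeff_pderiv, tsub_add_cancel_of_le h, mul_comm]
    congr 1
    rw [Finsupp.tsub_apply, Finsupp.single_eq_same, Nat.cast_sub h1]
    simp
  · have h1 : μ s = 0 := by
      rw [Finsupp.single_le_iff] at h
      omega
    simp [h1]

theorem eq_bot_of_pderiv_stable_iter {L σ : Type*} [Field L]
    (𝓘 : Ideal (MvPowerSeries σ L)) (hd : ∀ Φ ∈ 𝓘, ∀ s, pderiv L s Φ ∈ 𝓘) (s : σ) (k : ℕ)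
    (Φ : MvPowerSeries σ L) (hΦ : Φ ∈ 𝓘) :
    ∃ Φ' ∈ 𝓘, ∀ μ, coeff μ Φ' = (μ s : L) ^ k * coeff μ Φ := by
  induction k with
  | zero => exact ⟨Φ, hΦ, fun μ => by simp⟩
  | succ k ih =>
    obtain ⟨Φ', h1, h2⟩ := ih
    refine ⟨X s * pderiv L s Φ', Ideal.mul_mem_left _ _ (hd _ h1 s), fun μ => ?_⟩
    rw [eq_bot_of_pderiv_stable_euler, h2]
    ring

theorem eq_bot_of_pderiv_stable_proj {L σ : Type*} [Field L] (p : ℕ) [Fact p.Prime] [CharP L p]
    (𝓘 : Ideal (MvPowerSeries σ L)) (hd : ∀ Φ ∈ 𝓘, ∀ s, pderiv L s Φ ∈ 𝓘) (S : Finset σ)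
    (Φ : MvPowerSeries σ L) (hΦ : Φ ∈ 𝓘) :
    ∃ Φ' ∈ 𝓘, ∀ μ, coeff μ Φ' = if ∀ s ∈ S, p ∣ μ s then coeff μ Φ else 0 := by
  classical
  have hpp : p.Prime := Fact.out
  induction S using Finset.induction_on with
  | empty => exact ⟨Φ, hΦ, fun μ => by simp⟩
  | insert s S _ ih =>
    obtain ⟨Φ', h1, h2⟩ := ih
    obtain ⟨Φ'', h3, h4⟩ := eq_bot_of_pderiv_stable_iter 𝓘 hd s (p - 1) Φ' h1
    refine ⟨Φ' - Φ'', 𝓘.sub_mem h1 h3, fun μ => ?_⟩
    rw [map_sub, h4, h2]
    by_cases hs : p ∣ μ s
    · rw [(CharP.cast_eq_zero_iff L p _).2 hs, zero_pow (by have := hpp.two_le; omega), zero_mul,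
        sub_zero]
      simp [hs]
    · have h5 : (μ s : L) ≠ 0 := fun h => hs ((CharP.cast_eq_zero_iff L p _).1 h)
      have h6 : (μ s : L) ^ (p - 1) = 1 := by
        have h7 : (μ s : L) ^ p = μ s := map_natCast (frobenius L p) (μ s)
        refine mul_right_cancel₀ h5 ?_
        rw [← pow_succ, Nat.sub_add_cancel hpp.one_le, h7, one_mul]
      rw [h6, one_mul, sub_self, if_neg]
      intro h
      exact hs (h s (Finset.mem_insert_self _ _))

/-- Take `Φ ∈ 𝓘` and `γ` with `coeff γ Φ ≠ 0` of least degree among all such pairs. If some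
`γ s` is prime to `p`, `∂_s Φ` has a smaller one. Otherwise apply `∏_s (1 - (X_s ∂_s)^{p-1})`, which
keeps exactly the monomials with exponent `≡ 0 mod p`; the result is `Ψ ^ p`
(`map_frobenius_expand`, `L` perfect), `Ψ ∈ 𝓘` has the smaller exponent `γ / p` unless `γ = 0`. -/
theorem eq_bot_of_pderiv_stable {L σ : Type*} [Field L] [Fintype σ] (p : ℕ) [Fact p.Prime]
    [CharP L p] [PerfectRing L p] (𝓘 : Ideal (MvPowerSeries σ L))
    (h0 : ∀ Φ ∈ 𝓘, constantCoeff Φ = 0) (hd : ∀ Φ ∈ 𝓘, ∀ s, pderiv L s Φ ∈ 𝓘)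
    (hp : ∀ Φ, Φ ^ p ∈ 𝓘 → Φ ∈ 𝓘) : 𝓘 = ⊥ := by
  classical
  have hpp : p.Prime := Fact.out
  have key : ∀ (n : ℕ) (γ : σ →₀ ℕ), γ.degree = n → ∀ Φ ∈ 𝓘, coeff γ Φ = 0 := by
    intro n
    induction n using Nat.strong_induction_on with
    | _ n ih =>
      intro γ hγ Φ hΦ
      by_cases hz : γ = 0
      · subst hz
        simpa using h0 Φ hΦ
      by_cases hall : ∀ s, p ∣ γ s
      · obtain ⟨δ, rfl⟩ : ∃ δ, p • δ = γ := ⟨γ.mapRange (fun a => a / p) (by simp), by
          ext i; simp [Nat.mul_div_cancel' (hall i)]⟩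
        obtain ⟨Φ', hΦ', hc⟩ := eq_bot_of_pderiv_stable_proj p 𝓘 hd Finset.univ Φ hΦ
        obtain ⟨Ψ, hΨ⟩ : ∃ Ψ : MvPowerSeries σ L,
            ∀ μ, coeff μ Ψ = (frobeniusEquiv L p).symm (coeff (p • μ) Φ') :=
          ⟨fun μ => (frobeniusEquiv L p).symm (coeff (p • μ) Φ'), fun _ => rfl⟩
        have hpow : Ψ ^ p = Φ' := by
          rw [← map_frobenius_expand p hpp.ne_zero]
          ext μ
          rw [coeff_map]
          by_cases hμ : ∀ s, p ∣ μ s
          · obtain ⟨ν, rfl⟩ : ∃ ν, p • ν = μ := ⟨μ.mapRange (fun a => a / p) (by simp), by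
              ext i; simp [Nat.mul_div_cancel' (hμ i)]⟩
            rw [coeff_expand_smul, hΨ, frobenius_apply_frobeniusEquiv_symm]
          · rw [hc, if_neg (by simpa using hμ)]
            obtain ⟨s, hs⟩ := not_forall.1 hμ
            rw [coeff_expand_of_not_dvd _ _ _ hs, map_zero]
        have hδ : δ.degree < n := by
          have h1 : δ.degree ≠ 0 := fun h => hz (by
            rw [(Finsupp.degree_eq_zero_iff δ).1 h, smul_zero])
          rw [map_nsmul, smul_eq_mul] at hγ
          have := hpp.two_le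
          rw [← hγ]
          nlinarith [Nat.pos_of_ne_zero h1]
        have h2 := ih _ hδ δ rfl Ψ (hp _ (hpow ▸ hΦ'))
        rw [hΨ, map_eq_zero_iff _ (frobeniusEquiv L p).symm.injective, hc,
          if_pos fun s _ => hall s] at h2
        exact h2
      · obtain ⟨s, hs⟩ := not_forall.1 hall
        have hs0 : γ s ≠ 0 := fun h => hs (h ▸ dvd_zero p)
        obtain ⟨δ, rfl⟩ : ∃ δ, δ + Finsupp.single s 1 = γ :=
          ⟨γ - Finsupp.single s 1, tsub_add_cancel_of_le (by
            rw [Finsupp.single_le_iff]; omega)⟩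
        have hδ : δ.degree < n := by
          rw [map_add, Finsupp.degree_single] at hγ
          omega
        have h2 := ih _ hδ δ rfl _ (hd Φ hΦ s)
        rw [coeff_pderiv] at h2
        refine (mul_eq_zero.1 h2).resolve_right fun h => hs ?_
        rw [← CharP.cast_eq_zero_iff L p]
        simpa using h
  rw [eq_bot_iff]
  intro Φ hΦ
  rw [Ideal.mem_bot]
  ext γ
  rw [key _ γ rfl Φ hΦ, map_zero]

end Crest.R227
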