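import Crest.Agent.R227.DL
import Crest.Agent.R227.Surj
import Crest.Agent.R227.Pt
import Crest.Agent.R227.FR

/-! Row 227. Artin's argument: an analytic relation over `F_Q` on a submonoid of points gives a
linear relation with coefficients in `End(G1)`. -/

set_option autoImplicit false

namespace Crest.R227

open MvPowerSeries Crest.LubinTate

variable {K : Type*} [NormedField K] [IsUltrametricDist K] [CompleteSpace K] {p : ℕ}
  [Fact p.Prime] [CharP K p] {h : ℕ} [NeZero h] (u : Unif K) (G1 : FormalGroup (Ffix K p h))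
  [G1.IsComm]

/-- Points of `G1` in `O`. -/
abbrev Mh := Pt u.I (G1.map (iF K p h))

/-- The action of a series over `F_Q` (zero unless it is an endomorphism). -/
noncomputable def actE (d : PowerSeries (Ffix K p h)) : Mh u G1 →+ Mh u G1 :=
  Pt.act u.I _ _ (PowerSeries.map (iF K p h) d)

/-- Series over `F_Q` vanishing on `Θ`. -/
noncomputable def van {σ : Type} [Fintype σ] (Θ : AddSubmonoid (σ → Mh u G1)) :
    Ideal (MvPowerSeries σ (Ffix K p h)) :=
  ⨅ θ ∈ Θ, RingHom.ker (ev u.I (iF K p h) fun s => (θ s).val)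

theorem mem_van {σ : Type} [Fintype σ] {Θ : AddSubmonoid (σ → Mh u G1)}
    {Φ : MvPowerSeries σ (Ffix K p h)} :
    Φ ∈ van u G1 Θ ↔ ∀ θ ∈ Θ, ev u.I (iF K p h) (fun s => (θ s).val) Φ = 0 := by
  simp [van, RingHom.mem_ker]

theorem Mh_nsmul_val (hG : mulSeries G1 p = PowerSeries.X ^ p ^ h) (a : Mh u G1) (m : ℕ) :
    (p ^ m • a).val = a.val ^ (p ^ h) ^ m := by
  induction m with
  | zero => simp
  | succ m ih =>
    rw [pow_succ', mul_smul, Pt.val_nsmul, ← map_mulSeries, hG, map_pow, PowerSeries.map_X,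
      map_pow, ev1_X _ _ (p ^ m • a).mem, ih, ← pow_mul, ← pow_succ]

variable {σ : Type} [Fintype σ]

/-- `dl_exact` (`Θ` is closed under `p^m •`). -/
theorem chi_mem_van (hG : mulSeries G1 p = PowerSeries.X ^ p ^ h)
    {Θ : AddSubmonoid (σ → Mh u G1)} {Ψ : MvPowerSeries σ (Ob K)}
    (hΨ : ∀ θ ∈ Θ, ev u.I (RingHom.id _) (fun s => (θ s).val) Ψ = 0)
    (χ : K →ₗ[Ffix K p h] Ffix K p h) : chi p h χ (map (Ob K).subtype Ψ) ∈ van u G1 Θ := by
  rw [mem_van]
  intro θ hθ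
  refine dl_exact p h u Ψ _ (fun s => (θ s).mem) (fun m => ?_) χ
  have h1 := hΨ (p ^ m • θ) (Θ.nsmul_mem hθ _)
  simpa only [Pi.smul_apply, Mh_nsmul_val u G1 hG] using h1

theorem van_pderiv_push {R B B' : Type*} [CommRing R] [CommRing B] [CommRing B'] {τ : Type*}
    [Finite τ] (J : Ideal B) [IsAdicComplete J B] (J' : Ideal B') [IsAdicComplete J' B']
    (ι : R →+* B) (ρ : B →+* B') (F : FormalGroup R) {x y : τ → B}
    (hx : ∀ t, x t ∈ J.radical) (hy : ∀ t, y t ∈ J.radical) (hx' : ∀ t, ρ (x t) ∈ J'.radical)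
    (hy' : ∀ t, ρ (y t) ∈ J'.radical) (Φ : MvPowerSeries τ R) :
    ρ (ev J ι (fun t => ev J ι ![x t, y t] F.toPowerSeries) Φ) =
      ev J' (ρ.comp ι) (fun t => ev J' (ρ.comp ι) ![ρ (x t), ρ (y t)] F.toPowerSeries) Φ := by
  have h2 : ∀ t s, (![x t, y t] : Fin 2 → B) s ∈ J.radical := fun t s => by
    fin_cases s
    exacts [hx t, hy t]
  have h2' : ∀ t s, (![ρ (x t), ρ (y t)] : Fin 2 → B') s ∈ J'.radical := fun t s => by
    fin_cases s
    exacts [hx' t, hy' t]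
  have e : ∀ t, (fun s => ρ ((![x t, y t] : Fin 2 → B) s)) = ![ρ (x t), ρ (y t)] := fun t => by
    funext s
    fin_cases s <;> rfl
  have h3 : ∀ t, ρ (ev J ι ![x t, y t] F.toPowerSeries) =
      ev J' (ρ.comp ι) ![ρ (x t), ρ (y t)] F.toPowerSeries := fun t => by
    rw [comp_ev J ι J' ρ (h2 t) (fun s => by rw [congrFun (e t) s]; exact h2' t s), e]
  rw [comp_ev J ι J' ρ
    (fun t => ev_mem_radical J ι (h2 t) (by rw [F.zero_constantCoeff, map_zero]; exact zero_mem _))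
    (fun t => by
      rw [h3]
      exact ev_mem_radical J' _ (h2' t) (by rw [F.zero_constantCoeff, map_zero]; exact zero_mem _))]
  simp only [h3]

theorem van_pderiv_dual {R B : Type*} [CommRing R] [CommRing B] {τ : Type*} [Fintype τ]
    (a : B) [IsAdicComplete (Ideal.span {a}) B] (ι : R →+* B) (F : FormalGroup R) {x : τ → B}
    (hx : ∀ t, x t ∈ (Ideal.span {a}).radical) (Φ : MvPowerSeries τ R) (s : τ) :
    ∃ w : B, coeff (Finsupp.single s 1) (ev (xI τ a) (C.comp ι)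
      (fun t => ev (xI τ a) (C.comp ι) ![C (x t), X t] F.toPowerSeries) Φ) =
        (1 + x s * w) * ev (Ideal.span {a}) ι x (pderiv R s Φ) := by
  classical
  obtain ⟨δ, hδ⟩ : ∃ δ : τ → B, ∀ t, δ t = if t = s then 1 else 0 := ⟨_, fun _ => rfl⟩
  have hz : ∀ t, (TrivSqZeroExt.inl ((fun _ => 0 : τ → B) t) + TrivSqZeroExt.inr (δ t) :
      DualNumber B) ∈ (dualI (Ideal.span {a})).radical := fun t => by
    rw [mem_dualI_radical]
    simp
  obtain ⟨ρ, hρ⟩ : ∃ ρ : MvPowerSeries τ B →+* DualNumber B, ρ = ev (dualI (Ideal.span {a}))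
      ((algebraMap B (DualNumber B)).comp (RingHom.id B))
      (fun t => TrivSqZeroExt.inl ((fun _ => 0 : τ → B) t) + TrivSqZeroExt.inr (δ t)) := ⟨_, rfl⟩
  have hC : ∀ r, ρ (C r) = TrivSqZeroExt.inl r := fun r => by
    rw [hρ, ev_C]
    rfl
  have hX : ∀ t, ρ (X t) = TrivSqZeroExt.inr (δ t) := fun t => by
    rw [hρ, ev_X _ _ hz]
    simp
  have hsnd : ∀ Ψ : MvPowerSeries τ B, (ρ Ψ).snd = coeff (Finsupp.single s 1) Ψ := fun Ψ => by
    rw [hρ, ev_dual (Ideal.span {a}) (RingHom.id B) (a := fun _ => 0) (fun _ => zero_mem _) δ Ψ]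
    simp only [TrivSqZeroExt.snd_add, TrivSqZeroExt.snd_inl, TrivSqZeroExt.snd_inr, zero_add,
      ev_zero, hδ, ite_mul, one_mul, zero_mul, Finset.sum_ite_eq', Finset.mem_univ, if_true,
      RingHom.id_apply]
    rw [← coeff_zero_eq_constantCoeff_apply, coeff_pderiv]
    simp
  have hι : ρ.comp (C.comp ι) = (algebraMap B (DualNumber B)).comp ι := by
    ext1 r
    rw [RingHom.comp_apply, RingHom.comp_apply, hC]
    rfl
  have hx' : ∀ t, (TrivSqZeroExt.inl (x t) : DualNumber B) ∈ (dualI (Ideal.span {a})).radical :=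
    fun t => by
      rw [mem_dualI_radical]
      simpa using hx t
  have hy' : ∀ t, (TrivSqZeroExt.inr (δ t) : DualNumber B) ∈ (dualI (Ideal.span {a})).radical :=
    fun t => by
      rw [mem_dualI_radical]
      simp
  have h1 := van_pderiv_push (xI τ a) (dualI (Ideal.span {a})) (C.comp ι) ρ F
    (x := fun t => C (x t)) (y := fun t => X t)
    (fun t => by rw [mem_xI_radical]; simpa using hx t)
    (fun t => by rw [mem_xI_radical]; simp)
    (fun t => by rw [hC]; exact hx' t) (fun t => by rw [hX]; exact hy' t) Φ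
  simp only [hC, hX, hι] at h1
  have h2 : ∀ t, ∃ w : B, ev (dualI (Ideal.span {a})) ((algebraMap B (DualNumber B)).comp ι)
      ![TrivSqZeroExt.inl (x t), TrivSqZeroExt.inr (δ t)] F.toPowerSeries =
      TrivSqZeroExt.inl (x t) + TrivSqZeroExt.inr (δ t * (1 + x t * w)) := fun t => by
    have h3 : ∀ i, (![TrivSqZeroExt.inl (x t), TrivSqZeroExt.inr (δ t)] : Fin 2 → DualNumber B) i ∈
        (dualI (Ideal.span {a})).radical := fun i => by
      fin_cases i
      exacts [hx' t, hy' t]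
    obtain ⟨w, hw⟩ := coeff_eq_zero_of_not_dvd_shape F (ev (dualI (Ideal.span {a}))
      ((algebraMap B (DualNumber B)).comp ι) ![TrivSqZeroExt.inl (x t), TrivSqZeroExt.inr (δ t)])
    refine ⟨w.fst, ?_⟩
    rw [hw, ev_X _ _ h3, ev_X _ _ h3]
    ext
    · simp
    · simp
      ring
  choose w hw using h2
  refine ⟨w s, ?_⟩
  rw [← hsnd, h1]
  simp only [hw]
  rw [ev_dual (Ideal.span {a}) ι hx (fun t => δ t * (1 + x t * w t)) Φ]
  simp [hδ]

/-- For `θ' ∈ Θ` let `Ψ(z) = Φ(θ' +_G z) ∈ O⟦σ⟧` (evaluate in `O⟦σ⟧` with the ideal `xI σ ϖ`). It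
vanishes on `Θ`, so by `chi_mem_van` and the hypothesis its linear coefficients vanish. Map
`O⟦σ⟧ → DualNumber O`, `z_s ↦ ε`, other variables `↦ 0`, and use `ev_dual`: the linear coefficient
is `w * (∂_s Φ)(θ')` with `w = G_Y(θ'_s, 0) ≡ 1` a unit. -/
theorem van_pderiv (hG : mulSeries G1 p = PowerSeries.X ^ p ^ h)
    {Θ : AddSubmonoid (σ → Mh u G1)}
    (h1 : ∀ Φ ∈ van u G1 Θ, ∀ s, coeff (Finsupp.single s 1) Φ = 0)
    {Φ : MvPowerSeries σ (Ffix K p h)} (hΦ : Φ ∈ van u G1 Θ) (s : σ) :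
    pderiv _ s Φ ∈ van u G1 Θ := by
  rw [mem_van] at hΦ ⊢
  intro θ' hθ'
  obtain ⟨w, hw⟩ := van_pderiv_dual u.ϖ (iF K p h) G1 (x := fun t => (θ' t).val)
    (fun t => (θ' t).mem) Φ s
  obtain ⟨Ψ, hΨ⟩ : ∃ Ψ, Ψ = ev (xI σ u.ϖ) (C.comp (iF K p h))
      (fun t => ev (xI σ u.ϖ) (C.comp (iF K p h)) ![C (θ' t).val, X t] G1.toPowerSeries) Φ :=
    ⟨_, rfl⟩
  rw [← hΨ] at hw
  have h2 : ∀ θ ∈ Θ, ev u.I (RingHom.id _) (fun s => (θ s).val) Ψ = 0 := fun θ hθ => by
    have hm : ∀ t, (θ t).val ∈ u.I.radical := fun t => (θ t).mem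
    have hι : (ev u.I (RingHom.id _) (fun s => (θ s).val)).comp (C.comp (iF K p h)) =
        iF K p h := by
      ext1 r
      rw [RingHom.comp_apply, RingHom.comp_apply, ev_C]
      rfl
    have h3 := van_pderiv_push (xI σ u.ϖ) u.I (C.comp (iF K p h))
      (ev u.I (RingHom.id _) (fun s => (θ s).val)) G1
      (x := fun t => C (θ' t).val) (y := fun t => X t)
      (fun t => by rw [mem_xI_radical]; simpa using (θ' t).mem)
      (fun t => by rw [mem_xI_radical]; simp)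
      (fun t => by rw [ev_C]; exact (θ' t).mem) (fun t => by rw [ev_X _ _ hm]; exact hm t) Φ
    rw [hΨ, h3, hι, ← hΦ (θ' + θ) (Θ.add_mem hθ' hθ)]
    congr 2
    funext t
    rw [Pi.add_apply, Pt.val_add, FormalGroup.map_toPowerSeries,
      ev_map _ _ (Pt.vec_mem (θ' t).mem (hm t)), ev_C, ev_X _ _ hm]
    rfl
  have h4 : ((coeff (Finsupp.single s 1) Ψ : Ob K) : K) = 0 :=
    eq_zero_of_forall_chi p h fun χ => h1 _ (chi_mem_van u G1 hG h2 χ) s
  have h5 : coeff (Finsupp.single s 1) Ψ = 0 := Subtype.ext h4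
  rw [h5] at hw
  refine (mul_eq_zero.1 hw.symm).resolve_left fun h6 => ?_
  have h7 : (1 : Ob K) ∈ u.I.radical := by
    rw [eq_neg_of_add_eq_zero_left h6]
    exact neg_mem (Ideal.mul_mem_right _ _ (θ' s).mem)
  rw [u.mem_radical] at h7
  simp at h7

theorem exists_linear_const {Θ : AddSubmonoid (σ → Mh u G1)} {Φ : MvPowerSeries σ (Ffix K p h)}
    (hΦ : Φ ∈ van u G1 Θ) : constantCoeff Φ = 0 := by
  have h1 := (mem_van u G1).1 hΦ 0 Θ.zero_mem
  simp only [Pi.zero_apply, Pt.val_zero, ev_zero] at h1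
  exact (map_eq_zero_iff _ (iF K p h).injective).1 h1

/-- `eq_bot_of_pderiv_stable`. -/
theorem exists_linear (hG : mulSeries G1 p = PowerSeries.X ^ p ^ h)
    {Θ : AddSubmonoid (σ → Mh u G1)} (hΘ : van u G1 Θ ≠ ⊥) :
    ∃ Φ ∈ van u G1 Θ, ∃ s, coeff (Finsupp.single s 1) Φ ≠ 0 := by
  by_contra hc
  push Not at hc
  refine hΘ (eq_bot_of_pderiv_stable p _ (fun Φ hΦ => exists_linear_const u G1 hΦ)
    (fun Φ hΦ s => van_pderiv u G1 hG hc hΦ s) fun Φ hΦ => ?_)
  rw [mem_van] at hΦ ⊢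
  intro θ hθ
  have h1 := hΦ θ hθ
  rw [map_pow] at h1
  exact pow_eq_zero_iff (Fact.out : p.Prime).ne_zero |>.1 h1

/-- Evaluate at `ϖ e_s` (`ev_sub_linear_mem`). -/
theorem van_top (hG : mulSeries G1 p = PowerSeries.X ^ p ^ h) :
    van u G1 (⊤ : AddSubmonoid (σ → Mh u G1)) = ⊥ := by
  classical
  by_contra hc
  obtain ⟨Φ, hΦ, s, hs⟩ := exists_linear u G1 hG hc
  have hϖ : u.ϖ ∈ u.I.radical := Ideal.le_radical (Ideal.mem_span_singleton_self _)
  obtain ⟨θ, hθ⟩ : ∃ θ : σ → Mh u G1, ∀ t, (θ t).val = if t = s then u.ϖ else 0 :=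
    ⟨fun t => ⟨if t = s then u.ϖ else 0, by split_ifs; exacts [hϖ, zero_mem _]⟩, fun _ => rfl⟩
  have h1 := ev_sub_linear_mem u.I (iF K p h) (a := fun t => (θ t).val) (fun t => (θ t).mem) Φ
  rw [(mem_van u G1).1 hΦ θ (AddSubmonoid.mem_top _), exists_linear_const u G1 hΦ] at h1
  have h2 := Ob.norm_le_of_mem_span_pow (f := fun t => (θ t).val) u.pos.le
    (fun t => by
      rw [hθ]
      split_ifs
      · exact le_rfl
      · simp) h1
  simp only [hθ, mul_ite, mul_zero, Finset.sum_ite_eq', Finset.mem_univ, if_true, map_zero,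
    sub_zero, zero_sub, NegMemClass.coe_neg, norm_neg, Subring.coe_mul, norm_mul] at h2
  have h3 : ‖((iF K p h (coeff (Finsupp.single s 1) Φ) : Ob K) : K)‖ = 1 :=
    Ob.isUnit_iff.1 ((IsUnit.mk0 _ hs).map _)
  rw [h3] at h2
  nlinarith [u.pos, u.lt]

/-- The point `g(θ)`. -/
noncomputable def evP (g : MvPowerSeries σ (Ffix K p h)) (hg : constantCoeff g = 0)
    (θ : σ → Mh u G1) : Mh u G1 :=
  ⟨ev u.I (iF K p h) (fun s => (θ s).val) g,
    ev_mem_radical _ _ (fun s => (θ s).mem) (by simp [hg])⟩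

theorem evP_add_van (hG : mulSeries G1 p = PowerSeries.X ^ p ^ h)
    {Θ : AddSubmonoid (σ → Mh u G1)} (hΘ : van u G1 Θ = ⊥) {Ψ : MvPowerSeries σ (Ob K)}
    (hΨ : ∀ θ ∈ Θ, ev u.I (RingHom.id _) (fun s => (θ s).val) Ψ = 0) : Ψ = 0 := by
  refine MvPowerSeries.ext fun γ => Subtype.ext (eq_zero_of_forall_chi p h fun χ => ?_)
  have h1 := chi_mem_van u G1 hG hΨ χ
  rw [hΘ, Ideal.mem_bot] at h1
  have h2 := congrArg (coeff γ) h1
  rw [coeff_chi, coeff_map, map_zero] at h2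
  exact h2

theorem evP_add_series {g : MvPowerSeries σ (Ffix K p h)} (hg : constantCoeff g = 0)
    (η : σ → Mh u G1) : ∃ Ψ : MvPowerSeries σ (Ob K), ∀ ζ : σ → Mh u G1,
      ev u.I (RingHom.id _) (fun s => (ζ s).val) Ψ =
        (evP u G1 g hg (ζ + η)).val - (evP u G1 g hg ζ + evP u G1 g hg η).val := by
  have hX : ∀ s, (X s : MvPowerSeries σ (Ob K)) ∈ (xI σ u.ϖ).radical := fun s =>
    mem_xI_radical.2 (by rw [constantCoeff_X]; exact Ideal.zero_mem _)
  have hC : u.I ≤ (xI σ u.ϖ).radical.comap (C : Ob K →+* MvPowerSeries σ (Ob K)) := fun a ha =>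
    mem_xI_radical.2 (by rw [constantCoeff_C]; exact Ideal.le_radical ha)
  obtain ⟨F', hF'⟩ : ∃ F' : FormalGroup (MvPowerSeries σ (Ob K)),
      (G1.map (iF K p h)).map (C : Ob K →+* MvPowerSeries σ (Ob K)) = F' := ⟨_, rfl⟩
  have : F'.IsComm := hF' ▸ inferInstance
  obtain ⟨c, hc⟩ : ∃ c : Mh u G1 → Pt (xI σ u.ϖ) F', ∀ a, (c a).val = C a.val :=
    ⟨Pt.map u.I (xI σ u.ϖ) _ F' C hC hF', fun _ => rfl⟩
  obtain ⟨z, hz⟩ : ∃ z : σ → Pt (xI σ u.ϖ) F', ∀ s, (z s).val = X s :=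
    ⟨fun s => ⟨X s, hX s⟩, fun _ => rfl⟩
  obtain ⟨E, hE⟩ : ∃ E : (σ → Pt (xI σ u.ϖ) F') → Pt (xI σ u.ϖ) F', ∀ y, (E y).val =
      ev (xI σ u.ϖ) ((C : Ob K →+* MvPowerSeries σ (Ob K)).comp (iF K p h))
        (fun s => (y s).val) g :=
    ⟨fun y => ⟨_, ev_mem_radical _ _ (fun s => (y s).mem)
      (by rw [hg, map_zero]; exact Ideal.zero_mem _)⟩, fun _ => rfl⟩
  refine ⟨(E fun s => z s + c (η s)).val - (E z + c (evP u G1 g hg η)).val, fun ζ => ?_⟩
  obtain ⟨ρ, hρ⟩ : ∃ ρ : MvPowerSeries σ (Ob K) →+* Ob K,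
      ρ = ev u.I (RingHom.id _) (fun s => (ζ s).val) := ⟨_, rfl⟩
  have hρC : ∀ a, ρ (C a) = a := fun a => by rw [hρ, ev_C, RingHom.id_apply]
  have hρX : ∀ s, ρ (X s) = (ζ s).val := fun s => by rw [hρ, ev_X _ _ fun s => (ζ s).mem]
  have hρC' : ρ.comp (C : Ob K →+* MvPowerSeries σ (Ob K)) = RingHom.id _ := RingHom.ext hρC
  have hρI : xI σ u.ϖ ≤ u.I.radical.comap ρ := fun f hf => by
    rw [Ideal.mem_comap, hρ]
    exact ev_mem_radical _ _ (fun s => (ζ s).mem) (Ideal.le_radical (mem_xI.1 hf))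
  have hρF : F'.map ρ = G1.map (iF K p h) := by
    rw [← hF', fg_map_map, hρC', fg_map_id]
  obtain ⟨π, hπ⟩ : ∃ π : Pt (xI σ u.ϖ) F' →+ Mh u G1, ∀ a, (π a).val = ρ a.val :=
    ⟨Pt.map (xI σ u.ϖ) u.I F' _ ρ hρI hρF, fun _ => rfl⟩
  have hπc : ∀ a, π (c a) = a := fun a => Pt.ext (by rw [hπ, hc, hρC])
  have hπz : ∀ s, π (z s) = ζ s := fun s => Pt.ext (by rw [hπ, hz, hρX])
  have hπE : ∀ y, π (E y) = evP u G1 g hg fun s => π (y s) := fun y => Pt.ext (by
    rw [hπ, hE, comp_ev _ _ u.I ρ (fun s => (y s).mem)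
      (fun s => by rw [← hπ]; exact (π (y s)).mem), ← RingHom.comp_assoc, hρC', RingHom.id_comp]
    simp only [← hπ]
    rfl)
  rw [← hρ, map_sub, ← hπ, ← hπ, map_add, hπE, hπE, hπc]
  simp only [map_add, hπc, hπz]
  rfl

/-- For fixed `θ''`, the point `g(z + θ'') - g(z) - g(θ'')` of `G1` in `O⟦σ⟧` (ideal `xI σ ϖ`;
evaluation at `ζ` is a `Pt.map`) vanishes on `Θ` when `θ'' ∈ Θ`, hence is `0` (`chi_mem_van`,
`eq_zero_of_forall_chi`): additivity for `(ζ, θ'')`, `ζ` arbitrary. Repeat with `ζ` fixed. -/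
theorem evP_add (hG : mulSeries G1 p = PowerSeries.X ^ p ^ h) {Θ : AddSubmonoid (σ → Mh u G1)}
    (hΘ : van u G1 Θ = ⊥) {g : MvPowerSeries σ (Ffix K p h)} (hg : constantCoeff g = 0)
    (hadd : ∀ θ ∈ Θ, ∀ θ' ∈ Θ, evP u G1 g hg (θ + θ') = evP u G1 g hg θ + evP u G1 g hg θ')
    (ζ ζ' : σ → Mh u G1) : evP u G1 g hg (ζ + ζ') = evP u G1 g hg ζ + evP u G1 g hg ζ' := by
  have key : ∀ η : σ → Mh u G1,
      (∀ θ ∈ Θ, evP u G1 g hg (θ + η) = evP u G1 g hg θ + evP u G1 g hg η) →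
      ∀ ζ, evP u G1 g hg (ζ + η) = evP u G1 g hg ζ + evP u G1 g hg η := fun η hη ζ => by
    obtain ⟨Ψ, hΨ⟩ := evP_add_series u G1 hg η
    have h0 : Ψ = 0 := evP_add_van u G1 hG hΘ fun θ hθ => by rw [hΨ, hη θ hθ, sub_self]
    have h1 := hΨ ζ
    rw [h0, map_zero] at h1
    exact Pt.ext (sub_eq_zero.1 h1.symm)
  refine key ζ' (fun θ hθ => ?_) ζ
  rw [add_comm θ, key θ (fun θ' hθ' => hadd θ' hθ' θ hθ) ζ', add_comm]

omit [G1.IsComm] in
theorem exists_end_of_add_val (a b : Mh u G1) :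
    (a + b).val = ev u.I (iF K p h) ![a.val, b.val] G1.toPowerSeries := by
  rw [Pt.val_add, FormalGroup.map_toPowerSeries, ev_map _ _ (Pt.vec_mem a.mem b.mem),
    RingHom.id_comp]

theorem exists_end_of_add_hom (hG : mulSeries G1 p = PowerSeries.X ^ p ^ h)
    {d : PowerSeries (Ffix K p h)} (hd : PowerSeries.constantCoeff d = 0)
    (D : Mh u G1 →+ Mh u G1) (hD : ∀ a, (D a).val = ev1 u.I (iF K p h) a.val d) :
    IsFGHom G1 G1 d := by
  refine ⟨hd, sub_eq_zero.1 ?_⟩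
  rw [← Ideal.mem_bot, ← van_top u G1 hG, mem_van]
  intro θ _
  have hm : ∀ s, (θ s).val ∈ u.I.radical := fun s => (θ s).mem
  have e : (fun s => (θ s).val) = ![(θ 0).val, (θ 1).val] := by
    funext s; fin_cases s <;> rfl
  have h0 : ∀ i : Fin 2, constantCoeff
      (PowerSeries.subst (X i : MvPowerSeries (Fin 2) (Ffix K p h)) d) = 0 := fun i =>
    PowerSeries.constantCoeff_subst_eq_zero (constantCoeff_X _) _ hd
  have h1 : ∀ i : Fin 2, ev u.I (iF K p h) (fun s => (θ s).val)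
      (PowerSeries.subst (X i : MvPowerSeries (Fin 2) (Ffix K p h)) d) = (D (θ i)).val := fun i => by
    rw [ev_subst1 _ _ hm (constantCoeff_X _), ev_X _ _ hm, hD]
  have e2 : (fun s => ev u.I (iF K p h) (fun s => (θ s).val)
      (![PowerSeries.subst (X 0 : MvPowerSeries (Fin 2) (Ffix K p h)) d,
        PowerSeries.subst (X 1 : MvPowerSeries (Fin 2) (Ffix K p h)) d] s)) =
      ![(D (θ 0)).val, (D (θ 1)).val] := by
    funext s
    fin_cases s
    · exact h1 0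
    · exact h1 1
  rw [map_sub, ev_subst1 _ _ hm G1.zero_constantCoeff,
    ev_subst _ _ hm (fun s => by fin_cases s; exacts [h0 0, h0 1]), e2, ← exists_end_of_add_val,
    ← map_add, hD, exists_end_of_add_val, ← e, sub_self]

/-- `d s = g(0,…,X,…,0)`; it is additive on points, so an endomorphism by `van_top` for `Fin 2`. -/
theorem exists_end_of_add (hG : mulSeries G1 p = PowerSeries.X ^ p ^ h)
    {g : MvPowerSeries σ (Ffix K p h)} (hg : constantCoeff g = 0)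
    (hadd : ∀ ζ ζ', evP u G1 g hg (ζ + ζ') = evP u G1 g hg ζ + evP u G1 g hg ζ') :
    ∃ d : σ → PowerSeries (Ffix K p h), (∀ s, IsFGHom G1 G1 (d s)) ∧
      ∀ ζ, evP u G1 g hg ζ = ∑ s, actE u G1 (d s) (ζ s) := by
  classical
  obtain ⟨E, hE⟩ : ∃ E : (σ → Mh u G1) →+ Mh u G1, ∀ ζ, E ζ = evP u G1 g hg ζ :=
    ⟨AddMonoidHom.mk' (evP u G1 g hg) hadd, fun _ => rfl⟩
  obtain ⟨b, hb⟩ : ∃ b : σ → σ → MvPowerSeries Unit (Ffix K p h),
      ∀ s t, b s t = if t = s then X () else 0 := ⟨_, fun _ _ => rfl⟩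
  have hb0 : ∀ s t, constantCoeff (b s t) = 0 := fun s t => by
    rw [hb]
    split_ifs
    · exact constantCoeff_X _
    · exact map_zero _
  have hd0 : ∀ s, PowerSeries.constantCoeff (subst (b s) g : PowerSeries (Ffix K p h)) = 0 :=
    fun s => constantCoeff_subst_eq_zero (hasSubst_of_constantCoeff_zero (hb0 s)) (hb0 s) hg
  have hD : ∀ s (a : Mh u G1), (E (Pi.single s a)).val =
      ev1 u.I (iF K p h) a.val (subst (b s) g : PowerSeries (Ffix K p h)) := fun s a => by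
    rw [hE, ev1, ev_subst _ _ (fun _ => a.mem) (hb0 s)]
    change ev u.I (iF K p h) (fun t => ((Pi.single s a : σ → Mh u G1) t).val) g = _
    congr 2
    funext t
    rw [hb]
    split_ifs with hts
    · rw [hts, Pi.single_eq_same, ev_X _ _ fun _ => a.mem]
    · rw [Pi.single_eq_of_ne hts, map_zero]
      rfl
  have hd : ∀ s, IsFGHom G1 G1 (subst (b s) g : PowerSeries (Ffix K p h)) := fun s =>
    exists_end_of_add_hom u G1 hG (hd0 s)
      (E.comp (AddMonoidHom.single (fun _ : σ => Mh u G1) s)) (hD s)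
  refine ⟨fun s => subst (b s) g, hd, fun ζ => ?_⟩
  rw [← hE]
  conv_lhs => rw [← Finset.univ_sum_single ζ]
  rw [map_sum]
  refine Finset.sum_congr rfl fun s _ => Pt.ext ?_
  rw [hD, actE, Pt.act_val (isFGHom_map (hd s) _), ev1_map _ _ (ζ s).mem, RingHom.id_comp]

theorem exists_implicit_cc {τ : Type} [Fintype τ] (u : Unif K)
    {b : σ → MvPowerSeries τ (Ffix K p h)} (hb : ∀ s, constantCoeff (b s) = 0)
    (G : MvPowerSeries σ (Ffix K p h)) : constantCoeff (subst b G) = constantCoeff G := by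
  apply (iF K p h).injective
  rw [← ev_zero u.I (iF K p h) (subst b G), ev_subst u.I _ (fun _ => u.I.radical.zero_mem) hb,
    ← ev_zero u.I (iF K p h) G]
  congr 2
  funext s
  rw [ev_zero, hb, map_zero]

theorem exists_implicit {Θ : AddSubmonoid (σ → Mh u G1)} {Φ : MvPowerSeries σ (Ffix K p h)}
    (hΦ : Φ ∈ van u G1 Θ) {s0 : σ} [Fintype {s // s ≠ s0}]
    (h1 : coeff (Finsupp.single s0 1) Φ ≠ 0) :
    ∃ (g : MvPowerSeries {s // s ≠ s0} (Ffix K p h)) (hg : constantCoeff g = 0),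
      ∀ θ ∈ Θ, θ s0 = evP u G1 g hg fun s => θ s.1 := by
  classical
  rw [mem_van] at hΦ
  have h0 : constantCoeff Φ = 0 := by
    apply (iF K p h).injective
    rw [map_zero, ← ev_zero u.I (iF K p h) Φ]
    exact hΦ 0 Θ.zero_mem
  let b : σ → MvPowerSeries σ (Ffix K p h) := fun s => if s = s0 then Φ else X s
  have hb : ∀ s, constantCoeff (b s) = 0 := by
    intro s
    by_cases hs : s = s0 <;> simp [b, hs, h0]
  obtain ⟨G, hG⟩ := subst_surjective hb (by
    intro ξ hξ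
    have h2 : ∀ i, i ≠ s0 → ξ i = 0 := by
      intro i hi
      have h3 := hξ i
      rw [Finset.sum_eq_single i] at h3
      · simpa [b, hi, coeff_X] using h3
      · intro s _ hs
        simp [b, hi, coeff_X, Finsupp.single_left_inj, hs]
      · simp
    funext i
    by_cases hi : i = s0
    · have h3 := hξ s0
      rw [Finset.sum_eq_single s0] at h3
      · simpa [b, hi, h1] using h3
      · intro s _ hs
        simp [h2 s hs]
      · simp
    · exact h2 i hi) (X s0)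
  let c : σ → MvPowerSeries {s // s ≠ s0} (Ffix K p h) :=
    fun s => if hs : s = s0 then 0 else X ⟨s, hs⟩
  have hc : ∀ s, constantCoeff (c s) = 0 := by
    intro s
    by_cases hs : s = s0 <;> simp [c, hs]
  refine ⟨subst c G, ?_, fun θ hθ => Pt.ext ?_⟩
  · rw [exists_implicit_cc u hc, ← exists_implicit_cc u hb, hG, constantCoeff_X]
  · change _ = ev u.I (iF K p h) (fun s : {s // s ≠ s0} => (θ s.1).val) (subst c G)
    rw [ev_subst u.I _ (fun s => (θ s.1).mem) hc,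
      ← ev_X u.I (iF K p h) (a := fun s => (θ s).val) (fun s => (θ s).mem) s0, ← hG,
      ev_subst u.I _ (fun s => (θ s).mem) hb]
    congr 2
    funext s
    by_cases hs : s = s0
    · simp only [b, c, hs, if_true, dif_pos, map_zero]
      exact hΦ θ hθ
    · simp only [b, c, hs, if_false, dif_neg, not_false_eq_true]
      rw [ev_X u.I _ (fun s => (θ s).mem), ev_X u.I _ (fun s : {s // s ≠ s0} => (θ s.1).mem)]

theorem artin_aux (hG : mulSeries G1 p = PowerSeries.X ^ p ^ h) (n : ℕ) :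
    ∀ (σ : Type) [Fintype σ] [DecidableEq σ], Fintype.card σ = n →
      ∀ {Θ : AddSubmonoid (σ → Mh u G1)}, van u G1 Θ ≠ ⊥ →
      ∃ (s0 : σ) (d : σ → PowerSeries (Ffix K p h)), (∀ s, IsFGHom G1 G1 (d s)) ∧
        ∀ θ ∈ Θ, θ s0 = ∑ s ∈ Finset.univ.erase s0, actE u G1 (d s) (θ s) := by
  induction n using Nat.strong_induction_on with
  | _ n ih =>
  intro σ _ _ hn Θ hΘ
  obtain ⟨Φ, hΦ, s0, h1⟩ := exists_linear u G1 hG hΘ
  let ρ : (σ → Mh u G1) →+ ({s // s ≠ s0} → Mh u G1) :=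
    AddMonoidHom.mk' (fun θ s => θ s.1) (fun _ _ => rfl)
  have hext : ∀ d' : {s // s ≠ s0} → PowerSeries (Ffix K p h), (∀ s, IsFGHom G1 G1 (d' s)) →
      ∃ d : σ → PowerSeries (Ffix K p h), (∀ s, IsFGHom G1 G1 (d s)) ∧ d s0 = 0 ∧
        ∀ s : {s // s ≠ s0}, d s.1 = d' s := by
    intro d' hd'
    refine ⟨fun s => if hs : s = s0 then 0 else d' ⟨s, hs⟩, fun s => ?_, by simp, fun s => ?_⟩
    · by_cases hs : s = s0
      · simpa [hs] using isFGHom_zero G1 G1
      · simpa [hs] using hd' ⟨s, hs⟩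
    · simp [s.2]
  have hsum : ∀ F : σ → Mh u G1,
      ∑ s ∈ Finset.univ.erase s0, F s = ∑ s : {s // s ≠ s0}, F s.1 := fun F =>
    Finset.sum_subtype _ (by simp) F
  by_cases hv : van u G1 (Θ.map ρ) = ⊥
  · obtain ⟨g, hg, hθg⟩ := exists_implicit u G1 hΦ h1
    have hadd := evP_add u G1 hG hv hg (by
      rintro _ ⟨θ, hθ, rfl⟩ _ ⟨θ', hθ', rfl⟩
      have e1 := hθg _ (Θ.add_mem hθ hθ')
      have e2 := hθg _ hθ
      have e3 := hθg _ hθ'
      change evP u G1 g hg (fun s => (θ + θ') s.1) = evP u G1 g hg (fun s => θ s.1) +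
        evP u G1 g hg (fun s => θ' s.1)
      rw [← e1, ← e2, ← e3, Pi.add_apply])
    obtain ⟨d', hd', hζ⟩ := exists_end_of_add u G1 hG hg hadd
    obtain ⟨d, hd, -, hdd⟩ := hext d' hd'
    refine ⟨s0, d, hd, fun θ hθ => ?_⟩
    rw [hsum, hθg θ hθ, hζ]
    exact Finset.sum_congr rfl fun s _ => by rw [hdd]
  · have hlt : Fintype.card {s // s ≠ s0} < n := by
      rw [← hn]
      exact Fintype.card_subtype_lt (x := s0) (by simp)
    obtain ⟨s1, d', hd', hθ'⟩ := ih _ hlt {s // s ≠ s0} rfl hv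
    obtain ⟨d, hd, hd0, hdd⟩ := hext d' hd'
    refine ⟨s1.1, d, hd, fun θ hθ => ?_⟩
    have e1 := hθ' (ρ θ) ⟨θ, hθ, rfl⟩
    have e0 : actE u G1 (d s0) (θ s0) = 0 := by
      rw [hd0, actE, map_zero, Pt.act_zero, AddMonoidHom.zero_apply]
    rw [Finset.sum_erase_eq_sub (Finset.mem_univ _)] at e1 ⊢
    rw [← Finset.add_sum_erase _ _ (Finset.mem_univ s0), e0, zero_add, hsum, hdd]
    simp only [hdd]
    exact e1

theorem artin (hG : mulSeries G1 p = PowerSeries.X ^ p ^ h) [DecidableEq σ]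
    {Θ : AddSubmonoid (σ → Mh u G1)} (hΘ : van u G1 Θ ≠ ⊥) :
    ∃ (s0 : σ) (d : σ → PowerSeries (Ffix K p h)), (∀ s, IsFGHom G1 G1 (d s)) ∧
      ∀ θ ∈ Θ, θ s0 = ∑ s ∈ Finset.univ.erase s0, actE u G1 (d s) (θ s) :=
  artin_aux u G1 hG _ σ rfl hΘ

theorem end_basis_fadd {φ η : PowerSeries (Ffix K p h)} (hφ : IsFGHom G1 G1 φ) (hη : IsFGHom G1 G1 η) :
    actE u G1 (fadd G1 φ η) = actE u G1 φ + actE u G1 η := by
  rw [actE, map_fadd G1 _ hφ.1 hη.1, Pt.act_fadd (isFGHom_map hφ _) (isFGHom_map hη _)]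
  rfl

theorem end_basis_top (hG : mulSeries G1 p = PowerSeries.X ^ p ^ h) {φ : PowerSeries (Ffix K p h)}
    (hφ : IsFGHom G1 G1 φ) (hz : ∀ i < h, PowerSeries.coeff (p ^ i) φ = 0) :
    ∃ g, IsFGHom G1 G1 g ∧ actE u G1 φ = p • actE u G1 g := by
  obtain ⟨g, rfl, hg⟩ := frob_factor p hφ h hz
  have e : iterateFrobenius (Ffix K p h) p h = RingHom.id _ := RingHom.ext fun c => Subtype.ext c.2
  rw [e, fg_map_id] at hg
  refine ⟨g, hg, ?_⟩
  have hp := isFGHom_mulSeries G1 p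
  rw [PowerSeries.expand_apply, ← hG, actE, map_cmp _ hp.1, Pt.act_cmp (isFGHom_map hp _) (isFGHom_map hg _)]
  refine AddMonoidHom.ext fun a => ?_
  have e2 : Pt.act u.I _ _ (PowerSeries.map (iF K p h) (mulSeries G1 p)) a = p • a :=
    Pt.ext (by rw [Pt.act_val (isFGHom_map hp _), Pt.val_nsmul, map_mulSeries])
  rw [AddMonoidHom.comp_apply, e2, map_nsmul]
  rfl

omit [NormedField K] [IsUltrametricDist K] [CompleteSpace K] [CharP K p] [NeZero h] in
theorem end_basis_coeff {R : Type*} [CommRing R] [CharP R p] {F : FormalGroup R} {φ η : PowerSeries R}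
    (hφ : IsFGHom F F φ) (hη : IsFGHom F F η) {j : ℕ} (h1 : ∀ i < j, PowerSeries.coeff (p ^ i) φ = 0)
    {i : ℕ} (hi : i ≤ j) : PowerSeries.coeff (p ^ i) (fadd F φ η) =
      PowerSeries.coeff (p ^ i) φ + PowerSeries.coeff (p ^ i) η := by
  obtain ⟨w, hw⟩ := fadd_shape F hφ.1 hη.1
  obtain ⟨g, hg, -⟩ := frob_factor p hφ j h1
  have d1 : PowerSeries.X ^ p ^ j ∣ φ := by
    rw [PowerSeries.X_pow_dvd_iff]
    intro m hm
    rcases Nat.eq_zero_or_pos m with rfl | hm0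
    · simpa using hφ.1
    rw [hg]
    exact PowerSeries.coeff_expand_of_not_dvd _ _ _ fun hd => absurd (Nat.le_of_dvd hm0 hd) (by omega)
  have d2 : PowerSeries.X ^ (p ^ j + 1) ∣ φ * η * w := by
    rw [pow_succ]
    exact (mul_dvd_mul d1 (PowerSeries.X_dvd_iff.2 hη.1)).mul_right w
  have h3 : p ^ i ≤ p ^ j := Nat.pow_le_pow_right (Fact.out : p.Prime).pos hi
  rw [hw, map_add, map_add, PowerSeries.X_pow_dvd_iff.1 d2 _ (by omega), add_zero]

/-- pairs (coefficient of `X^(p^j)`, action) of the endomorphisms of level `j` -/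
noncomputable def end_basis_T (j : ℕ) : AddSubmonoid (Ffix K p h × (Mh u G1 →+ Mh u G1)) where
  carrier := {t | ∃ φ, IsFGHom G1 G1 φ ∧ (∀ i < j, PowerSeries.coeff (p ^ i) φ = 0) ∧
    t = (PowerSeries.coeff (p ^ j) φ, actE u G1 φ)}
  zero_mem' := ⟨0, isFGHom_zero _ _, fun _ _ => map_zero _, by
    rw [map_zero, actE, map_zero, Pt.act_zero]; rfl⟩
  add_mem' := by
    rintro _ _ ⟨φ, h1, h2, rfl⟩ ⟨η, h3, h4, rfl⟩
    refine ⟨fadd G1 φ η, isFGHom_fadd h1 h3, fun i hi => ?_, ?_⟩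
    · rw [end_basis_coeff h1 h3 h2 hi.le, h2 i hi, h4 i hi, add_zero]
    · rw [end_basis_coeff h1 h3 h2 le_rfl, end_basis_fadd u G1 h1 h3]
      rfl

/-- For `j < h` let `L_j` be the additive subgroup of the finite field of the linear coefficients of
series `d'` with `expand (p^j) d'` an endomorphism; choose `ZMod p`-bases. Given an endomorphism
`d = expand (p^j) d'`, add natural multiples of the basis endomorphisms (`isFGHom_fadd`,
`Pt.act_fadd`, `fadd_shape`) to kill the coefficient of `X^{p^j}`; `frob_factor` moves on to `j+1`.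
At `j = h`: `d = d2(X^Q) = d2^Q = [p] ∘ d2` with `d2` an endomorphism since `G1^{(Q)} = G1`. -/
theorem end_basis (hG : mulSeries G1 p = PowerSeries.X ^ p ^ h) :
    ∃ (N : ℕ) (j : Fin N → ℕ) (d' : Fin N → PowerSeries (Ffix K p h)),
      (∀ i, j i < h ∧ PowerSeries.constantCoeff (d' i) = 0 ∧ IsFGHom G1 G1
        (PowerSeries.expand (p ^ j i) (pow_ne_zero _ (Fact.out : p.Prime).ne_zero) (d' i))) ∧
      (∀ (j0 : ℕ) (c : {i // j i = j0} → ℤ),
        ∑ i, (c i : Ffix K p h) * PowerSeries.coeff 1 (d' i.1) = 0 → ∀ i, (p : ℤ) ∣ c i) ∧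
      ∀ d, IsFGHom G1 G1 d → ∃ (c : Fin N → ℤ) (d2 : PowerSeries (Ffix K p h)),
        IsFGHom G1 G1 d2 ∧ actE u G1 d = ∑ i, c i • actE u G1
          (PowerSeries.expand (p ^ j i) (pow_ne_zero _ (Fact.out : p.Prime).ne_zero) (d' i)) +
          p • actE u G1 d2 := by
  classical
  let _ : Algebra (ZMod p) (Ffix K p h) := ZMod.algebra _ p
  have hp0 : ∀ j, p ^ j ≠ 0 := fun j => pow_ne_zero _ (Fact.out : p.Prime).ne_zero
  choose b hb1 hb2 hb3 using fun j : ℕ => exists_linearIndependent (ZMod p) 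
    (Prod.fst '' (end_basis_T u G1 j).carrier)
  have hβ : ∀ t : {t : Fin h × Ffix K p h // t.2 ∈ b t.1}, ∃ g : PowerSeries (Ffix K p h),
      PowerSeries.constantCoeff g = 0 ∧ IsFGHom G1 G1 (PowerSeries.expand (p ^ (t.1.1 : ℕ)) (hp0 _) g) ∧
      PowerSeries.coeff 1 g = t.1.2 ∧
      (t.1.2, actE u G1 (PowerSeries.expand (p ^ (t.1.1 : ℕ)) (hp0 _) g)) ∈ end_basis_T u G1 t.1.1 := fun t => by
    obtain ⟨_, ⟨φ, h1, h2, rfl⟩, h3⟩ := hb1 _ t.2
    obtain ⟨g, rfl, hg⟩ := frob_factor p h1 _ h2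
    have h4 := PowerSeries.coeff_expand_mul (p ^ (t.1.1 : ℕ)) (hp0 _) g 1
    rw [mul_one] at h4
    exact ⟨g, hg.1, h1, h4.symm.trans h3, _, h1, h2, by rw [← h3]⟩
  choose β hβ1 hβ2 hβ3 hβ4 using hβ
  let _ : Fintype {t : Fin h × Ffix K p h // t.2 ∈ b t.1} := Fintype.ofFinite _
  let e := (Fintype.equivFin {t : Fin h × Ffix K p h // t.2 ∈ b t.1}).symm
  refine ⟨_, fun i => (e i).1.1, fun i => β (e i), fun i => ⟨(e i).1.1.2, hβ1 _, hβ2 _⟩, fun j0 c hc i => ?_,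
    fun d hd => ?_⟩
  · have hl := (hb3 j0).comp (fun i : {i // ((e i).1.1 : ℕ) = j0} => (⟨(e i.1).1.2, by
      have := (e i.1).2
      rwa [i.2] at this⟩ : b j0))
      fun i i' hi => Subtype.ext (e.injective (Subtype.ext (Prod.ext (Fin.ext (i.2.trans i'.2.symm))
        (congrArg Subtype.val hi))))
    refine (ZMod.intCast_zmod_eq_zero_iff_dvd _ _).1
      (Fintype.linearIndependent_iff.1 hl (fun i => (c i : ZMod p)) ?_ i)
    refine Eq.trans (Finset.sum_congr rfl fun i _ => ?_) hc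
    rw [Algebra.smul_def, map_intCast, hβ3]
    rfl
  · set S := Submodule.span ℤ (Set.range fun i => actE u G1
      (PowerSeries.expand (p ^ ((e i).1.1 : ℕ)) (hp0 _) (β (e i)))) with hS
    have key : ∀ j ≤ h, ∃ φ, IsFGHom G1 G1 φ ∧ (∀ i < j, PowerSeries.coeff (p ^ i) φ = 0) ∧
        actE u G1 d - actE u G1 φ ∈ S := by
      intro j hj
      induction j with
      | zero => exact ⟨d, hd, fun i hi => absurd hi (by omega), by simp⟩
      | succ j ih =>
        obtain ⟨φ, h1, h2, h3⟩ := ih (by omega)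
        have h4 : ∀ x ∈ Submodule.span (ZMod p) (b j), ∃ A ∈ S, (x, A) ∈ end_basis_T u G1 j := by
          intro x hx
          induction hx using Submodule.span_induction with
          | mem x hx =>
            refine ⟨_, Submodule.subset_span ⟨e.symm ⟨(⟨j, hj⟩, x), hx⟩, rfl⟩, ?_⟩
            simp only [Equiv.apply_symm_apply]
            exact hβ4 ⟨(⟨j, hj⟩, x), hx⟩
          | zero => exact ⟨0, S.zero_mem, zero_mem _⟩
          | add x y _ _ hx hy =>
            obtain ⟨A, a1, a2⟩ := hx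
            obtain ⟨B, b1, b2⟩ := hy
            exact ⟨A + B, S.add_mem a1 b1, add_mem a2 b2⟩
          | smul a x _ hx =>
            obtain ⟨A, a1, a2⟩ := hx
            refine ⟨a.val • A, nsmul_mem a1 _, ?_⟩
            have := nsmul_mem a2 a.val
            rwa [Prod.smul_mk, ← Nat.cast_smul_eq_nsmul (ZMod p), ZMod.natCast_zmod_val] at this
        have h5 : PowerSeries.coeff (p ^ j) φ ∈ Submodule.span (ZMod p) (b j) := by
          rw [hb2]
          exact Submodule.subset_span ⟨_, ⟨φ, h1, h2, rfl⟩, rfl⟩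
        obtain ⟨A, a1, η, a2, a3, a4⟩ := h4 _ (neg_mem h5)
        obtain ⟨a5, rfl⟩ := Prod.mk.inj a4
        refine ⟨fadd G1 φ η, isFGHom_fadd h1 a2, fun i hi => ?_, ?_⟩
        · rw [end_basis_coeff h1 a2 h2 (by omega)]
          rcases (Nat.lt_succ_iff.1 hi).eq_or_lt with rfl | hi'
          · rw [← a5, add_neg_cancel]
          · rw [h2 i hi', a3 i hi', add_zero]
        · rw [end_basis_fadd u G1 h1 a2, ← sub_sub]
          exact S.sub_mem h3 a1
    obtain ⟨φ, h1, h2, h3⟩ := key h le_rfl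
    obtain ⟨g, g1, g2⟩ := end_basis_top u G1 hG h1 h2
    obtain ⟨c, hc⟩ := (Submodule.mem_span_range_iff_exists_fun ℤ).1 h3
    exact ⟨c, g, g1, by rw [hc, ← g2, sub_add_cancel]⟩

end Crest.R227
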