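import Crest.Agent.R227.Cpl

/-! Row 227. The unit ball of an ultrametric field. -/

set_option autoImplicit false

namespace Crest.R227

/-- The closed unit ball as a subring. -/
def Ob (K : Type*) [NormedField K] [IsUltrametricDist K] : Subring K where
  carrier := {a | ‖a‖ ≤ 1}
  mul_mem' := by
    intro a b ha hb
    simp only [Set.mem_setOf_eq, norm_mul] at *
    exact mul_le_one₀ ha (norm_nonneg _) hb
  one_mem' := by simp
  add_mem' := by
    intro a b ha hb
    exact (IsUltrametricDist.norm_add_le_max a b).trans (max_le ha hb)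
  zero_mem' := by simp
  neg_mem' := by intro a ha; simpa using ha

/-- A pseudo-uniformizer. -/
structure Unif (K : Type*) [NormedField K] [IsUltrametricDist K] where
  ϖ : Ob K
  pos : 0 < ‖(ϖ : K)‖
  lt : ‖(ϖ : K)‖ < 1

variable {K : Type*} [NormedField K] [IsUltrametricDist K]

abbrev Unif.I (u : Unif K) : Ideal (Ob K) := Ideal.span {u.ϖ}

theorem Ob.norm_le (a : Ob K) : ‖(a : K)‖ ≤ 1 := a.2

theorem Ob.mem_iff {a : K} : a ∈ Ob K ↔ ‖a‖ ≤ 1 := Iff.rfl

theorem Ob.mem_span_iff {a b : Ob K} : a ∈ Ideal.span {b} ↔ ‖(a : K)‖ ≤ ‖(b : K)‖ := by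
  rw [Ideal.mem_span_singleton]
  constructor
  · rintro ⟨c, rfl⟩
    rw [Subring.coe_mul, norm_mul]
    exact mul_le_of_le_one_right (norm_nonneg _) c.2
  · intro h
    by_cases hb : (b : K) = 0
    · rw [hb, norm_zero, norm_le_zero_iff] at h
      have : a = 0 := Subtype.ext h
      rw [this]
      exact dvd_zero _
    · have hb' : 0 < ‖(b : K)‖ := norm_pos_iff.2 hb
      refine ⟨⟨(a : K) / b, ?_⟩, Subtype.ext ?_⟩
      · rw [Ob.mem_iff, norm_div]
        exact (div_le_one hb').2 h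
      · rw [Subring.coe_mul]
        field_simp

theorem Ob.isUnit_iff {a : Ob K} : IsUnit a ↔ ‖(a : K)‖ = 1 := by
  rw [← Ideal.span_singleton_eq_top, Ideal.eq_top_iff_one, Ob.mem_span_iff, Subring.coe_one,
    norm_one]
  exact ⟨fun h => le_antisymm (Ob.norm_le a) h, fun h => h.ge⟩

theorem Unif.mem_pow (u : Unif K) {a : Ob K} {k : ℕ} :
    a ∈ u.I ^ k ↔ ‖(a : K)‖ ≤ ‖(u.ϖ : K)‖ ^ k := by
  rw [Ideal.span_singleton_pow, Ob.mem_span_iff, Subring.coe_pow, norm_pow]

theorem Unif.mem_radical (u : Unif K) {a : Ob K} : a ∈ u.I.radical ↔ ‖(a : K)‖ < 1 := by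
  constructor
  · rintro ⟨n, hn⟩
    rw [Ob.mem_span_iff, Subring.coe_pow, norm_pow] at hn
    by_contra h
    have h1 : ‖(a : K)‖ = 1 := le_antisymm (Ob.norm_le a) (not_lt.1 h)
    rw [h1, one_pow] at hn
    exact absurd u.lt (not_lt.2 hn)
  · intro h
    obtain ⟨n, hn⟩ := exists_pow_lt_of_lt_one u.pos h
    refine ⟨n, ?_⟩
    rw [Ob.mem_span_iff, Subring.coe_pow, norm_pow]
    exact hn.le

theorem Ob.norm_le_of_mem_span_pow {σ : Type*} {f : σ → Ob K} {ρ : ℝ} (hρ : 0 ≤ ρ)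
    (hf : ∀ s, ‖(f s : K)‖ ≤ ρ) {d : ℕ} {a : Ob K} (ha : a ∈ Ideal.span (Set.range f) ^ d) :
    ‖(a : K)‖ ≤ ρ ^ d := by
  have key : ∀ (I : Ideal (Ob K)) (r : ℝ), (∀ x ∈ I, ‖(x : K)‖ ≤ r) →
      ∀ x ∈ I * Ideal.span (Set.range f), ‖(x : K)‖ ≤ r * ρ := by
    intro I r hI x hx
    have hr : 0 ≤ r := by simpa using hI 0 I.zero_mem
    have h1 : ∀ y ∈ Ideal.span (Set.range f), ‖(y : K)‖ ≤ ρ := by
      intro y hy
      induction hy using Submodule.span_induction with
      | mem y hy =>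
        obtain ⟨s, rfl⟩ := hy
        exact hf s
      | zero => simpa using hρ
      | add y z _ _ hy hz =>
        rw [Subring.coe_add]
        exact (IsUltrametricDist.norm_add_le_max _ _).trans (max_le hy hz)
      | smul c y _ hy =>
        rw [smul_eq_mul, Subring.coe_mul, norm_mul]
        exact (mul_le_of_le_one_left (norm_nonneg _) c.2).trans hy
    refine Submodule.mul_induction_on hx (fun m hm n hn => ?_) (fun y z hy hz => ?_)
    · rw [Subring.coe_mul, norm_mul]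
      exact mul_le_mul (hI m hm) (h1 n hn) (norm_nonneg _) hr
    · rw [Subring.coe_add]
      exact (IsUltrametricDist.norm_add_le_max _ _).trans (max_le hy hz)
  induction d generalizing a with
  | zero => simpa using Ob.norm_le a
  | succ d ih =>
    rw [pow_succ] at ha ⊢
    exact key _ _ (fun x hx => ih hx) a ha

instance Unif.complete [CompleteSpace K] (u : Unif K) :
    IsAdicComplete (Ideal.span {u.ϖ}) (Ob K) := by
  have hm : ∀ (x y : Ob K) (n : ℕ),
      x ≡ y [SMOD (Ideal.span {u.ϖ} ^ n • ⊤ : Submodule (Ob K) (Ob K))] ↔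
        ‖(x : K) - y‖ ≤ ‖(u.ϖ : K)‖ ^ n := by
    intro x y n
    rw [SModEq.sub_mem, smul_eq_mul, Ideal.mul_top, u.mem_pow, AddSubgroupClass.coe_sub]
  have ht : Filter.Tendsto (fun n : ℕ => ‖(u.ϖ : K)‖ ^ n) Filter.atTop (nhds 0) :=
    tendsto_pow_atTop_nhds_zero_of_lt_one u.pos.le u.lt
  refine { haus' := fun x hx => ?_, prec' := fun f hf => ?_ }
  · have : ‖(x : K)‖ ≤ 0 := ge_of_tendsto' ht fun n => by simpa using (hm x 0 n).1 (hx n)
    exact Subtype.ext (norm_le_zero_iff.1 this)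
  · have hc : CauchySeq fun n => (f n : K) := by
      refine cauchySeq_of_le_tendsto_0' _ (fun n m hnm => ?_) ht
      rw [dist_eq_norm]
      exact (hm _ _ _).1 (hf hnm)
    obtain ⟨L, hL⟩ := cauchySeq_tendsto_of_complete hc
    have hL1 : L ∈ Ob K := le_of_tendsto' hL.norm fun n => Ob.norm_le (f n)
    refine ⟨⟨L, hL1⟩, fun n => (hm _ _ _).2 ?_⟩
    refine le_of_tendsto ((tendsto_const_nhds (x := (f n : K))).sub hL).norm ?_
    filter_upwards [Filter.eventually_ge_atTop n] with m hnm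
    exact (hm _ _ _).1 (hf hnm)

instance Ob.charP (p : ℕ) [CharP K p] : CharP (Ob K) p := CharP.subring K p _

instance Ob.perfectRing (p : ℕ) [Fact p.Prime] [CharP K p] [IsAlgClosed K] :
    PerfectRing (Ob K) p := by
  refine PerfectRing.ofSurjective (Ob K) p fun a => ?_
  obtain ⟨b, hb⟩ := IsAlgClosed.exists_pow_nat_eq (a : K) (Fact.out : p.Prime).pos
  have h1 : b ∈ Ob K := by
    rw [Ob.mem_iff, ← pow_le_one_iff_of_nonneg (norm_nonneg b) (Fact.out : p.Prime).ne_zero,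
      ← norm_pow, hb]
    exact a.2
  exact ⟨⟨b, h1⟩, Subtype.ext hb⟩

/-- The subfield of elements fixed by `c ↦ c ^ p ^ h`. -/
noncomputable def Ffix (K : Type*) [Field K] (p : ℕ) [Fact p.Prime] [CharP K p] (h : ℕ) :
    Subfield K :=
  RingHom.eqLocusField (iterateFrobenius K p h) (RingHom.id K)

theorem mem_Ffix {K : Type*} [Field K] {p : ℕ} [Fact p.Prime] [CharP K p] {h : ℕ} {c : K} :
    c ∈ Ffix K p h ↔ c ^ p ^ h = c := Iff.rfl

theorem norm_le_one_of_pow_eq {c : K} {Q : ℕ} (hQ : 2 ≤ Q) (hc : c ^ Q = c) : ‖c‖ ≤ 1 := by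
  by_contra h
  have h1 : 1 < ‖c‖ := not_le.1 h
  have h2 : ‖c‖ ^ 1 < ‖c‖ ^ Q := pow_lt_pow_right₀ h1 hQ
  rw [← norm_pow c Q, hc, pow_one] at h2
  exact lt_irrefl _ h2

/-- The inclusion of the finite field into the unit ball. -/
noncomputable def iF (K : Type*) [NormedField K] [IsUltrametricDist K] (p : ℕ) [Fact p.Prime]
    [CharP K p] (h : ℕ) [NeZero h] : Ffix K p h →+* Ob K :=
  (Ffix K p h).subtype.codRestrict (Ob K) fun c =>
    norm_le_one_of_pow_eq (Nat.one_lt_pow (NeZero.ne h) (Fact.out : p.Prime).one_lt) c.2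

theorem iF_coe (p : ℕ) [Fact p.Prime] [CharP K p] (h : ℕ) [NeZero h] (c : Ffix K p h) :
    ((iF K p h c : Ob K) : K) = c := rfl

instance Ffix.finite (K : Type*) [Field K] (p : ℕ) [Fact p.Prime] [CharP K p] (h : ℕ) [NeZero h] :
    Finite (Ffix K p h) := by
  classical
  have hQ : 1 < p ^ h := Nat.one_lt_pow (NeZero.ne h) (Fact.out : p.Prime).one_lt
  have hne : (Polynomial.X ^ p ^ h - Polynomial.X : Polynomial K) ≠ 0 :=
    FiniteField.X_pow_card_sub_X_ne_zero K hQ
  refine Set.Finite.to_subtype (s := (Ffix K p h : Set K)) ?_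
  refine (Polynomial.X ^ p ^ h - Polynomial.X : Polynomial K).roots.toFinset.finite_toSet.subset ?_
  intro c hc
  have hc' : c ^ p ^ h = c := hc
  simp only [Finset.mem_coe, Multiset.mem_toFinset]
  rw [Polynomial.mem_roots hne]
  simp [hc']

instance Ffix.charP (K : Type*) [Field K] (p : ℕ) [Fact p.Prime] [CharP K p] (h : ℕ) :
    CharP (Ffix K p h) p := CharP.subring K p (Ffix K p h).toSubring

end Crest.R227
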