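import Crest.Agent.R227.FG2
import Crest.Agent.R227.Ob

/-! Row 227. The Artin–Schreier system `ψ ∘ V = ψ^{(Q)}`. The coefficient of `X^k` in `ψ ∘ V` is
`ψ_k V₁^k + ∑_{j<k} ψ_j [X^k] V^j`. -/

set_option autoImplicit false

namespace Crest.R227

open Crest.LubinTate

/-- `ψ(V(X)) = ∑ ψ_k^Q X^k`. -/
def AS {B : Type*} [CommRing B] (Q : ℕ) (V ψ : PowerSeries B) : Prop :=
  PowerSeries.constantCoeff ψ = 0 ∧
    ∀ k, PowerSeries.coeff k (cmp ψ V) = PowerSeries.coeff k ψ ^ Q

variable {B B' : Type*} [CommRing B] [CommRing B']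

theorem as_rec {α : Type*} [Zero α] (P : ℕ → (ℕ → α) → α → Prop)
    (loc : ∀ k f g a, (∀ j < k, f j = g j) → P k f a → P k g a)
    (step : ∀ k f, (∀ j < k, P j f (f j)) → ∃ a, P k f a) : ∃ f : ℕ → α, ∀ k, P k f (f k) := by
  classical
  have st : ∀ k (f : {f : ℕ → α // ∀ j < k, P j f (f j)}),
      ∃ g : {f : ℕ → α // ∀ j < k + 1, P j f (f j)}, ∀ j < k, g.1 j = f.1 j := by
    intro k f
    obtain ⟨a, ha⟩ := step k f.1 f.2
    have hu : ∀ j < k, Function.update f.1 k a j = f.1 j := fun j hj =>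
      Function.update_of_ne hj.ne _ _
    refine ⟨⟨Function.update f.1 k a, fun j hj => ?_⟩, hu⟩
    rcases Nat.lt_succ_iff_lt_or_eq.1 hj with hj | rfl
    · rw [hu j hj]
      exact loc j _ _ _ (fun i hi => (hu i (hi.trans hj)).symm) (f.2 j hj)
    · rw [Function.update_self]
      exact loc j _ _ _ (fun i hi => (hu i hi).symm) ha
  choose nx hnx using st
  let seq : ∀ k, {f : ℕ → α // ∀ j < k, P j f (f j)} := fun k =>
    Nat.rec ⟨fun _ => 0, fun j hj => absurd hj (Nat.not_lt_zero j)⟩ (fun k s => nx k s) k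
  have hs : ∀ k, seq (k + 1) = nx k (seq k) := fun k => rfl
  have hst : ∀ n j, j < n → (seq n).1 j = (seq (j + 1)).1 j := by
    intro n
    induction n with
    | zero => intro j hj; exact absurd hj (Nat.not_lt_zero j)
    | succ n ih =>
      intro j hj
      rcases Nat.lt_succ_iff_lt_or_eq.1 hj with hj | rfl
      · rw [hs, hnx n _ j hj, ih j hj]
      · rfl
  refine ⟨fun k => (seq (k + 1)).1 k, fun k => ?_⟩
  exact loc k _ _ _ (fun j hj => hst _ j (hj.trans (Nat.lt_succ_self k)))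
    ((seq (k + 1)).2 k (Nat.lt_succ_self k))

theorem as_coeff_pow_lt {V : PowerSeries B} (h0 : PowerSeries.constantCoeff V = 0) {k j : ℕ}
    (h : k < j) : PowerSeries.coeff k (V ^ j) = 0 := by
  have : PowerSeries.X ^ j ∣ V ^ j := pow_dvd_pow_of_dvd (PowerSeries.X_dvd_iff.2 h0) j
  exact PowerSeries.X_pow_dvd_iff.1 this k h

theorem as_coeff_pow_self {V : PowerSeries B} (h0 : PowerSeries.constantCoeff V = 0) (k : ℕ) :
    PowerSeries.coeff k (V ^ k) = PowerSeries.coeff 1 V ^ k := by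
  obtain ⟨W, rfl⟩ := PowerSeries.X_dvd_iff.2 h0
  have h1 := PowerSeries.coeff_X_pow_mul (W ^ k) k 0
  have h2 := PowerSeries.coeff_X_pow_mul W 1 0
  rw [zero_add] at h1 h2
  rw [pow_one] at h2
  rw [mul_pow, h1, h2]
  simp

theorem as_coeff_cmp (ψ : PowerSeries B) {V : PowerSeries B}
    (h0 : PowerSeries.constantCoeff V = 0) (k : ℕ) :
    PowerSeries.coeff k (cmp ψ V) = PowerSeries.coeff k ψ * PowerSeries.coeff 1 V ^ k +
      ∑ j ∈ Finset.range k, PowerSeries.coeff j ψ * PowerSeries.coeff k (V ^ j) := by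
  rw [cmp, PowerSeries.coeff_subst' (PowerSeries.HasSubst.of_constantCoeff_zero' h0),
    finsum_eq_sum_of_support_subset (s := Finset.range (k + 1)), Finset.sum_range_succ,
    as_coeff_pow_self h0, add_comm]
  · simp only [smul_eq_mul]
  · intro j hj
    by_contra hk
    apply hj
    have : k < j := by simpa using hk
    simp [as_coeff_pow_lt h0 this]

theorem as_of_rec {Q : ℕ} {V : PowerSeries B} (h0 : PowerSeries.constantCoeff V = 0) (f : ℕ → B)
    (hf0 : f 0 = 0)
    (hf : ∀ k, f k ^ Q = f k * PowerSeries.coeff 1 V ^ k +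
      ∑ j ∈ Finset.range k, f j * PowerSeries.coeff k (V ^ j)) : AS Q V (PowerSeries.mk f) := by
  refine ⟨?_, fun k => ?_⟩
  · rw [← PowerSeries.coeff_zero_eq_constantCoeff_apply, PowerSeries.coeff_mk, hf0]
  · rw [as_coeff_cmp _ h0]
    simp only [PowerSeries.coeff_mk]
    exact (hf k).symm

theorem as_exists_root {K : Type*} [NormedField K] [IsUltrametricDist K] [IsAlgClosed K] {Q : ℕ}
    (hQ : 2 ≤ Q) (b c : Ob K) : ∃ a : Ob K, a ^ Q = a * b + c := by
  have hdeg : (Polynomial.X ^ Q - (Polynomial.C (b : K) * Polynomial.X + Polynomial.C (c : K)) :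
      Polynomial K).degree = Q := by
    rw [Polynomial.degree_sub_eq_left_of_degree_lt, Polynomial.degree_X_pow]
    rw [Polynomial.degree_X_pow]
    exact lt_of_le_of_lt Polynomial.degree_linear_le (by exact_mod_cast hQ)
  obtain ⟨a, ha⟩ := IsAlgClosed.exists_root _ (by
    rw [hdeg]; exact_mod_cast (by omega : Q ≠ 0))
  have ha' : a ^ Q = a * b + c := by
    have := ha
    simp only [Polynomial.IsRoot, Polynomial.eval_sub, Polynomial.eval_pow, Polynomial.eval_X,
      Polynomial.eval_add, Polynomial.eval_mul, Polynomial.eval_C] at this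
    linear_combination this
  have hn : ‖a‖ ≤ 1 := by
    by_contra hlt
    have hlt : 1 < ‖a‖ := not_le.1 hlt
    have h1 : ‖a ^ Q‖ ≤ ‖a‖ := by
      rw [ha']
      refine (IsUltrametricDist.norm_add_le_max _ _).trans (max_le ?_ ?_)
      · rw [norm_mul]; exact mul_le_of_le_one_right (norm_nonneg _) b.2
      · exact (Ob.norm_le c).trans hlt.le
    rw [norm_pow] at h1
    have h2 : ‖a‖ ^ 1 < ‖a‖ ^ Q := pow_lt_pow_right₀ hlt (by omega)
    rw [pow_one] at h2
    linarith
  exact ⟨⟨a, hn⟩, Subtype.ext ha'⟩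

theorem AS.map {Q : ℕ} {V ψ : PowerSeries B} (h : AS Q V ψ)
    (hV : PowerSeries.constantCoeff V = 0) (ρ : B →+* B') :
    AS Q (PowerSeries.map ρ V) (PowerSeries.map ρ ψ) := by
  refine ⟨?_, fun k => ?_⟩
  · rw [← PowerSeries.coeff_zero_eq_constantCoeff_apply, PowerSeries.coeff_map,
      PowerSeries.coeff_zero_eq_constantCoeff_apply, h.1, map_zero]
  · rw [← map_cmp ρ hV, PowerSeries.coeff_map, PowerSeries.coeff_map, h.2, map_pow]

/-- Strong recursion: `ψ₁^{Q-1} = V₁`, and `ψ_k` is a root of the monic `T^Q - V₁^k T - c`. -/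
theorem as_exists {K : Type*} [NormedField K] [IsUltrametricDist K] [IsAlgClosed K] {Q : ℕ}
    (hQ : 2 ≤ Q) {V : PowerSeries (Ob K)} (h0 : PowerSeries.constantCoeff V = 0)
    (h1 : PowerSeries.coeff 1 V ≠ 0) : ∃ ψ, AS Q V ψ ∧ PowerSeries.coeff 1 ψ ≠ 0 := by
  obtain ⟨f, hf⟩ := as_rec (α := Ob K) (fun k f a => (k = 0 → a = 0) ∧ (k = 1 → a ≠ 0) ∧
      a ^ Q = a * PowerSeries.coeff 1 V ^ k +
        ∑ j ∈ Finset.range k, f j * PowerSeries.coeff k (V ^ j))
    (fun k f g a hfg h => ⟨h.1, h.2.1, by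
      rw [h.2.2]
      congr 1
      exact Finset.sum_congr rfl fun j hj => by rw [hfg j (Finset.mem_range.1 hj)]⟩)
    (fun k f hf => by
      rcases k with _ | _ | k
      · exact ⟨0, fun _ => rfl, fun h => absurd h (by omega), by
          simp [show Q ≠ 0 by omega]⟩
      · have hf0 : f 0 = 0 := (hf 0 (by omega)).1 rfl
        obtain ⟨x, hx⟩ := IsAlgClosed.exists_pow_nat_eq ((PowerSeries.coeff 1 V : Ob K) : K)
          (n := Q - 1) (by omega)
        have hx1 : ‖x‖ ≤ 1 := by
          have : ‖x‖ ^ (Q - 1) ≤ 1 := by rw [← norm_pow, hx]; exact Ob.norm_le _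
          exact (pow_le_one_iff_of_nonneg (norm_nonneg _) (by omega)).1 this
        refine ⟨⟨x, hx1⟩, fun h => absurd h (by omega), fun _ h => h1 ?_, ?_⟩
        · have hx0 : x = 0 := congrArg Subtype.val h
          apply Subtype.ext
          rw [← hx, hx0, zero_pow (by omega)]
          rfl
        · apply Subtype.ext
          obtain ⟨m, rfl⟩ : ∃ m, Q = m + 1 := ⟨Q - 1, by omega⟩
          simp only [Nat.add_sub_cancel] at hx
          simp [hf0, ← hx, pow_succ, mul_comm]
      · obtain ⟨a, ha⟩ := as_exists_root hQ (PowerSeries.coeff 1 V ^ (k + 1 + 1))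
          (∑ j ∈ Finset.range (k + 1 + 1), f j * PowerSeries.coeff (k + 1 + 1) (V ^ j))
        exact ⟨a, fun h => absurd h (by omega), fun h => absurd h (by omega), ha⟩)
  refine ⟨PowerSeries.mk f, as_of_rec h0 f ((hf 0).1 rfl) fun k => (hf k).2.2, ?_⟩
  rw [PowerSeries.coeff_mk]
  exact (hf 1).2.1 rfl

/-- Strong recursion with Hensel's lemma (`IsAdicComplete.henselianRing`). -/
theorem as_lift (p : ℕ) [Fact p.Prime] (hp : (p : B) = 0) {h : ℕ} (hh : 1 ≤ h) (I : Ideal B)
    [IsAdicComplete I B] {V ψ0 : PowerSeries B} (h0 : PowerSeries.constantCoeff V = 0)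
    (h1 : IsUnit (PowerSeries.coeff 1 V)) (hψ0 : PowerSeries.constantCoeff ψ0 = 0)
    (hψ : ∀ k, PowerSeries.coeff k (cmp ψ0 V) - PowerSeries.coeff k ψ0 ^ p ^ h ∈ I) :
    ∃ ψ, AS (p ^ h) V ψ ∧ ∀ k, PowerSeries.coeff k ψ - PowerSeries.coeff k ψ0 ∈ I := by
  have hp2 := (Fact.out : p.Prime).two_le
  have hQ : 2 ≤ p ^ h := hp2.trans (Nat.le_self_pow (by omega) p)
  have hQ0 : ((p ^ h : ℕ) : B) = 0 := by
    rw [Nat.cast_pow, hp, zero_pow (by omega)]
  obtain ⟨f, hf⟩ := as_rec (α := B) (fun k f a => (k = 0 → a = 0) ∧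
      a - PowerSeries.coeff k ψ0 ∈ I ∧
      a ^ p ^ h = a * PowerSeries.coeff 1 V ^ k +
        ∑ j ∈ Finset.range k, f j * PowerSeries.coeff k (V ^ j))
    (fun k f g a hfg h => ⟨h.1, h.2.1, by
      rw [h.2.2]
      congr 1
      exact Finset.sum_congr rfl fun j hj => by rw [hfg j (Finset.mem_range.1 hj)]⟩)
    (fun k f hf => by
      rcases k with _ | k
      · exact ⟨0, fun _ => rfl, by simp [hψ0], by simp [show p ≠ 0 by omega]⟩
      · set b := PowerSeries.coeff 1 V ^ (k + 1) with hb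
        set c := ∑ j ∈ Finset.range (k + 1), f j * PowerSeries.coeff (k + 1) (V ^ j) with hc
        have hm : (Polynomial.X ^ p ^ h - (Polynomial.C b * Polynomial.X + Polynomial.C c) :
            Polynomial B).Monic :=
          Polynomial.monic_X_pow_sub
            (lt_of_le_of_lt Polynomial.degree_linear_le (by exact_mod_cast hQ))
        obtain ⟨a, ha, ha0⟩ := HenselianRing.is_henselian (I := I) _ hm
          (PowerSeries.coeff (k + 1) ψ0) (by
            have e1 := hψ (k + 1)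
            rw [as_coeff_cmp _ h0] at e1
            have e2 : ∑ j ∈ Finset.range (k + 1),
                (f j - PowerSeries.coeff j ψ0) * PowerSeries.coeff (k + 1) (V ^ j) ∈ I :=
              I.sum_mem fun j hj => I.mul_mem_right _ (hf j (Finset.mem_range.1 hj)).2.1
            have e3 := I.neg_mem (I.add_mem e1 e2)
            convert e3 using 1
            simp only [Polynomial.eval_sub, Polynomial.eval_pow, Polynomial.eval_X,
              Polynomial.eval_add, Polynomial.eval_mul, Polynomial.eval_C, sub_mul,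
              Finset.sum_sub_distrib, ← hc, ← hb]
            ring) (by
            apply IsUnit.map
            have : Polynomial.eval (PowerSeries.coeff (k + 1) ψ0) (Polynomial.derivative
                (Polynomial.X ^ p ^ h - (Polynomial.C b * Polynomial.X + Polynomial.C c) :
                  Polynomial B)) = -b := by
              rw [Polynomial.derivative_sub, Polynomial.derivative_X_pow, hQ0]
              simp
            rw [this]
            exact (h1.pow _).neg)
        refine ⟨a, fun h => absurd h (by omega), ha0, ?_⟩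
        simp only [Polynomial.IsRoot, Polynomial.eval_sub, Polynomial.eval_pow, Polynomial.eval_X,
          Polynomial.eval_add, Polynomial.eval_mul, Polynomial.eval_C] at ha
        linear_combination ha)
  refine ⟨PowerSeries.mk f, as_of_rec h0 f ((hf 0).1 rfl) fun k => (hf k).2.2, fun k => ?_⟩
  rw [PowerSeries.coeff_mk]
  exact (hf k).2.1

/-- `ε = ψ_k - ψ'_k` satisfies `ε (V₁^k - ε^{Q-1}) = 0` with a unit second factor. -/
theorem as_unique (p : ℕ) [Fact p.Prime] (hp : (p : B) = 0) {h : ℕ} (hh : 1 ≤ h)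
    {V ψ ψ' : PowerSeries B} (h0 : PowerSeries.constantCoeff V = 0)
    (h1 : IsUnit (PowerSeries.coeff 1 V)) (hψ : AS (p ^ h) V ψ) (hψ' : AS (p ^ h) V ψ')
    (hn : ∀ k, IsNilpotent (PowerSeries.coeff k ψ - PowerSeries.coeff k ψ')) : ψ = ψ' := by
  rcases subsingleton_or_nontrivial B with hB | hB
  · exact PowerSeries.ext fun k => Subsingleton.elim _ _
  have : CharP B p := (CharP.charP_iff_prime_eq_zero Fact.out).2 hp
  have hp2 := (Fact.out : p.Prime).two_le
  have hQ : 2 ≤ p ^ h := hp2.trans (Nat.le_self_pow (by omega) p)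
  ext k
  induction k using Nat.strong_induction_on with
  | _ k ih =>
    have e1 := hψ.2 k
    have e2 := hψ'.2 k
    rw [as_coeff_cmp _ h0] at e1 e2
    have e3 : ∑ j ∈ Finset.range k, PowerSeries.coeff j ψ * PowerSeries.coeff k (V ^ j) =
        ∑ j ∈ Finset.range k, PowerSeries.coeff j ψ' * PowerSeries.coeff k (V ^ j) :=
      Finset.sum_congr rfl fun j hj => by rw [ih j (Finset.mem_range.1 hj)]
    have e4 := sub_pow_char_pow (p := p) (n := h) (PowerSeries.coeff k ψ) (PowerSeries.coeff k ψ')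
    set ε := PowerSeries.coeff k ψ - PowerSeries.coeff k ψ' with hε
    obtain ⟨m, hm⟩ : ∃ m, p ^ h = m + 1 + 1 := ⟨p ^ h - 2, by omega⟩
    have e5 : ε * (PowerSeries.coeff 1 V ^ k - ε ^ (m + 1)) = 0 := by
      have : ε ^ (m + 1 + 1) = ε * PowerSeries.coeff 1 V ^ k := by
        rw [← hm, e4, ← e1, ← e2, e3, hε]; ring
      linear_combination -this
    have hu : IsUnit (PowerSeries.coeff 1 V ^ k - ε ^ (m + 1)) := by
      rw [sub_eq_add_neg]
      exact IsNilpotent.isUnit_add_left_of_commute ((hn k).pow_succ m).neg (h1.pow k)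
        (Commute.all _ _)
    exact sub_eq_zero.1 (hu.mul_left_eq_zero.1 e5)

theorem as_iff_inj {Q : ℕ} (hQ : Q ≠ 0) {f g : PowerSeries B}
    (h : PowerSeries.expand Q hQ f = PowerSeries.expand Q hQ g) : f = g := by
  ext m
  rw [← PowerSeries.coeff_expand_mul Q hQ f, h, PowerSeries.coeff_expand_mul]

/-- `map_iterateFrobenius_expand`. -/
theorem as_iff (p : ℕ) [Fact p.Prime] [CharP B p] (h : ℕ) {V ψ : PowerSeries B}
    (h0 : PowerSeries.constantCoeff V = 0) (hψ : PowerSeries.constantCoeff ψ = 0) :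
    AS (p ^ h) V ψ ↔
      cmp ψ (PowerSeries.expand (p ^ h) (pow_ne_zero h (Fact.out : p.Prime).ne_zero) V) =
        ψ ^ p ^ h := by
  have hp : p ≠ 0 := (Fact.out : p.Prime).ne_zero
  have e1 : cmp ψ (PowerSeries.expand (p ^ h) (pow_ne_zero h hp) V) =
      PowerSeries.expand (p ^ h) (pow_ne_zero h hp) (cmp ψ V) :=
    (PowerSeries.expand_subst (p ^ h) (pow_ne_zero h hp)
      (PowerSeries.HasSubst.of_constantCoeff_zero' h0) ψ).symm
  have e2 : ψ ^ p ^ h = PowerSeries.expand (p ^ h) (pow_ne_zero h hp)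
      (PowerSeries.map (iterateFrobenius B p h) ψ) := by
    rw [← PowerSeries.map_expand]
    exact (MvPowerSeries.map_iterateFrobenius_expand p hp ψ h).symm
  rw [e1, e2]
  constructor
  · intro hA
    congr 1
    ext k
    rw [hA.2, PowerSeries.coeff_map, iterateFrobenius_def]
  · intro hA
    refine ⟨hψ, fun k => ?_⟩
    rw [as_iff_inj _ hA, PowerSeries.coeff_map, iterateFrobenius_def]

theorem as_cmp (p : ℕ) [Fact p.Prime] [CharP B p] (h : ℕ) {V V' ψ θ : PowerSeries B}
    (h0 : PowerSeries.constantCoeff V = 0) (h0' : PowerSeries.constantCoeff V' = 0)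
    (hθ0 : PowerSeries.constantCoeff θ = 0) (hψ : AS (p ^ h) V ψ)
    (hθ : cmp θ (PowerSeries.expand (p ^ h) (pow_ne_zero h (Fact.out : p.Prime).ne_zero) V') =
      cmp (PowerSeries.expand (p ^ h) (pow_ne_zero h (Fact.out : p.Prime).ne_zero) V) θ) :
    AS (p ^ h) V' (cmp ψ θ) := by
  rw [as_iff p h h0' (constantCoeff_cmp hψ.1 hθ0),
    cmp_assoc ψ hθ0 (by rw [PowerSeries.constantCoeff_expand, h0']), hθ,
    ← cmp_assoc ψ (by rw [PowerSeries.constantCoeff_expand, h0]) hθ0, (as_iff p h h0 hψ.1).1 hψ]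
  exact PowerSeries.subst_pow (PowerSeries.HasSubst.of_constantCoeff_zero' hθ0) _ _

theorem map_mk_ne_zero_div {a : B} {f : PowerSeries B}
    (hf : PowerSeries.map (Ideal.Quotient.mk (Ideal.span {a})) f = 0) :
    ∃ g : PowerSeries B, f = PowerSeries.C a * g := by
  have h1 : ∀ k, ∃ c, PowerSeries.coeff k f = a * c := fun k => by
    have := congrArg (PowerSeries.coeff k) hf
    rw [PowerSeries.coeff_map, map_zero, Ideal.Quotient.eq_zero_iff_mem,
      Ideal.mem_span_singleton] at this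
    exact this
  choose c hc using h1
  refine ⟨PowerSeries.mk c, ?_⟩
  ext k
  rw [PowerSeries.coeff_C_mul, PowerSeries.coeff_mk, hc]

/-- If `ψ = ϖ^j ψ'` with `j ≥ 1` then `ψ'(P) = ϖ^{j(Q-1)} ψ'^Q ≡ 0` and `ψ'(P) ≡ ψ'(X^q)` mod `ϖ`, so
`ψ ∈ ϖ^{j+1}`; hence `ψ = 0`. -/
theorem map_mk_ne_zero {K : Type*} [NormedField K] [IsUltrametricDist K] (u : Unif K) {Q q : ℕ}
    (hQ : 2 ≤ Q) (hq : 1 ≤ q) {P ψ : PowerSeries (Ob K)} (hP0 : PowerSeries.constantCoeff P = 0)
    (hP : ∀ k, PowerSeries.coeff k (P - PowerSeries.X ^ q) ∈ u.I) (hψ : cmp ψ P = ψ ^ Q)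
    (hne : ψ ≠ 0) : PowerSeries.map (Ideal.Quotient.mk u.I) ψ ≠ 0 := by
  intro h0
  have hq0 : q ≠ 0 := by omega
  have hs := PowerSeries.HasSubst.of_constantCoeff_zero' hP0
  have hϖ : u.ϖ ≠ 0 := fun h => by
    have := u.pos
    rw [h, Subring.coe_zero, norm_zero] at this
    exact lt_irrefl _ this
  have hPq : PowerSeries.map (Ideal.Quotient.mk u.I) P = PowerSeries.X ^ q := by
    have : PowerSeries.map (Ideal.Quotient.mk u.I) (P - PowerSeries.X ^ q) = 0 := by
      ext k
      rw [PowerSeries.coeff_map, map_zero, Ideal.Quotient.eq_zero_iff_mem]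
      exact hP k
    rwa [map_sub, map_pow, PowerSeries.map_X, sub_eq_zero] at this
  have key : ∀ j : ℕ, ∃ g : PowerSeries (Ob K), ψ = PowerSeries.C u.ϖ ^ (j + 1) * g := by
    intro j
    induction j with
    | zero => simpa using map_mk_ne_zero_div h0
    | succ j ih =>
      obtain ⟨g, hg⟩ := ih
      obtain ⟨Q', rfl⟩ := Nat.exists_eq_add_of_le' hQ
      have hC : cmp (PowerSeries.C u.ϖ) P = PowerSeries.C u.ϖ := by
        rw [cmp, PowerSeries.subst_C]
        rfl
      have h1 : cmp ψ P = PowerSeries.C u.ϖ ^ (j + 1) * cmp g P := by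
        rw [hg, cmp, PowerSeries.subst_mul hs, PowerSeries.subst_pow hs]
        exact congrArg (fun t => t ^ (j + 1) * cmp g P) hC
      have hCne : (PowerSeries.C u.ϖ : PowerSeries (Ob K)) ^ (j + 1) ≠ 0 :=
        pow_ne_zero _ fun h => hϖ (PowerSeries.C_injective (by rw [h, map_zero]))
      have h2 : cmp g P = PowerSeries.C u.ϖ *
          (PowerSeries.C u.ϖ ^ (j + (j + 1) * Q') * g ^ (Q' + 2)) := by
        apply mul_left_cancel₀ hCne
        rw [← h1, hψ, hg]
        ring
      have h3 := congrArg (PowerSeries.map (Ideal.Quotient.mk u.I)) h2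
      rw [map_cmp _ hP0, hPq, map_mul, PowerSeries.map_C,
        Ideal.Quotient.eq_zero_iff_mem.2 (Ideal.mem_span_singleton_self _), map_zero, zero_mul,
        cmp, ← PowerSeries.expand_apply q hq0] at h3
      obtain ⟨g', hg'⟩ := map_mk_ne_zero_div (as_iff_inj hq0 (h3.trans (map_zero _).symm))
      exact ⟨g', by rw [hg, hg']; ring⟩
  apply hne
  ext k
  have h1 : ∀ j : ℕ, ‖((PowerSeries.coeff k ψ : Ob K) : K)‖ ≤ ‖(u.ϖ : K)‖ ^ j := fun j => by
    obtain ⟨g, hg⟩ := key j
    rw [← u.mem_pow, hg, ← map_pow, PowerSeries.coeff_C_mul, pow_succ, mul_assoc]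
    exact Ideal.mul_mem_right _ _ (Ideal.pow_mem_pow (Ideal.mem_span_singleton_self _) j)
  have h2 := ge_of_tendsto' (tendsto_pow_atTop_nhds_zero_of_lt_one u.pos.le u.lt) h1
  rw [norm_le_zero_iff] at h2
  rw [h2, map_zero, Subring.coe_zero]

/-- Transport `F` along `ψ` over the field `K`; the transported law `G` has `[p]_G = X^Q` (cancel
`ψ`), which is an endomorphism, so `G^Q = G(X^Q,Y^Q)` and all coefficients satisfy `c^Q = c`;
descend to `Ffix` (`exists_descend`) and to `O` (`isFGHom_of_map_injective`). -/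
theorem exists_G1 {K : Type*} [NormedField K] [IsUltrametricDist K] (p : ℕ) [Fact p.Prime]
    [CharP K p] (h : ℕ) [NeZero h] (F : FormalGroup (Ob K)) [F.IsComm] {ψ : PowerSeries (Ob K)}
    (hψ0 : PowerSeries.constantCoeff ψ = 0) (hψ1 : PowerSeries.coeff 1 ψ ≠ 0)
    (hψ : cmp ψ (mulSeries F p) = ψ ^ p ^ h) :
    ∃ G1 : FormalGroup (Ffix K p h), G1.IsComm ∧ mulSeries G1 p = PowerSeries.X ^ p ^ h ∧
      IsFGHom F (G1.map (iF K p h)) ψ := by
  have hp : p ≠ 0 := (Fact.out : p.Prime).ne_zero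
  have h0 : PowerSeries.constantCoeff (PowerSeries.map (Ob K).subtype ψ) = 0 := by
    change (Ob K).subtype (PowerSeries.constantCoeff ψ) = 0
    rw [hψ0, map_zero]
  have h1 : IsUnit (PowerSeries.coeff 1 (PowerSeries.map (Ob K).subtype ψ)) := by
    rw [PowerSeries.coeff_map, isUnit_iff_ne_zero]
    exact fun h => hψ1 (Subtype.ext h)
  obtain ⟨G, hG, hc⟩ := exists_transport (F.map (Ob K).subtype) h0 h1
  have : G.IsComm := hc inferInstance
  obtain ⟨η, e0, -, -, e2⟩ := exists_substInv h0 h1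
  have hm : mulSeries G p = PowerSeries.X ^ p ^ h := by
    have a := isFGHom_cmp_mulSeries hG p
    rw [← map_mulSeries, ← map_cmp _ (mulSeries_constantCoeff F p), hψ, map_pow] at a
    rw [← cmp_X (mulSeries G p), ← e2, ← cmp_assoc _ h0 e0, ← a, cmp,
      PowerSeries.subst_pow (PowerSeries.HasSubst.of_constantCoeff_zero' e0)]
  have hfix : ∀ γ, MvPowerSeries.coeff γ G.toPowerSeries ∈ (Ffix K p h).subtype.range := by
    have a := (isFGHom_mulSeries G p).2
    have hs : ∀ {f : MvPowerSeries (Fin 2) K}, MvPowerSeries.constantCoeff f = 0 →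
        PowerSeries.subst f (PowerSeries.X ^ p ^ h : PowerSeries K) = f ^ p ^ h := by
      intro f hf
      have hs := PowerSeries.HasSubst.of_constantCoeff_zero hf
      rw [PowerSeries.subst_pow hs, PowerSeries.subst_X hs]
    have e : G.toPowerSeries.subst ![(MvPowerSeries.X 0 : MvPowerSeries (Fin 2) K) ^ p ^ h,
        MvPowerSeries.X 1 ^ p ^ h] =
        MvPowerSeries.expand (p ^ h) (pow_ne_zero h hp) G.toPowerSeries := by
      rw [MvPowerSeries.expand, MvPowerSeries.coe_substAlgHom]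
      congr 1
      funext s
      fin_cases s <;> rfl
    rw [hm, hs G.zero_constantCoeff, hs (MvPowerSeries.constantCoeff_X _),
      hs (MvPowerSeries.constantCoeff_X _), e,
      ← MvPowerSeries.map_iterateFrobenius_expand p hp, MvPowerSeries.map_expand] at a
    intro γ
    have b := congrArg (MvPowerSeries.coeff ((p ^ h) • γ)) a
    rw [MvPowerSeries.coeff_expand_smul, MvPowerSeries.coeff_expand_smul, MvPowerSeries.coeff_map,
      iterateFrobenius_def] at b
    exact ⟨⟨_, mem_Ffix.2 b⟩, rfl⟩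
  have hi : Function.Injective (Ffix K p h).subtype := Subtype.val_injective
  obtain ⟨G1, rfl⟩ := exists_descend G hi hfix
  refine ⟨G1, isComm_of_map_injective G1 hi this, PowerSeries.map_injective _ hi ?_,
    isFGHom_of_map_injective (ρ := (Ob K).subtype) Subtype.val_injective ?_⟩
  · rw [map_mulSeries, hm, map_pow, PowerSeries.map_X]
  · rw [fg_map_map]
    exact hG

end Crest.R227
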