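import Crest.Agent.R227.AS

/-! Row 227. The estimate in the algebra of bounded sequences. -/

set_option autoImplicit false

namespace Crest.R227

open MvPowerSeries

variable (K : Type*) [NormedField K] [IsUltrametricDist K]

/-- Bounded sequences. -/
def Bd : Subalgebra K (ℕ → K) where
  carrier := {s | ∃ C : ℝ, ∀ m, ‖s m‖ ≤ C}
  mul_mem' := by
    rintro a b ⟨C, hC⟩ ⟨D, hD⟩
    refine ⟨C * D, fun m => ?_⟩
    rw [Pi.mul_apply, norm_mul]
    exact mul_le_mul (hC m) (hD m) (norm_nonneg _) ((norm_nonneg _).trans (hC m))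
  add_mem' := by
    rintro a b ⟨C, hC⟩ ⟨D, hD⟩
    exact ⟨C + D, fun m => (norm_add_le _ _).trans (add_le_add (hC m) (hD m))⟩
  algebraMap_mem' := fun c => ⟨‖c‖, fun _ => le_rfl⟩

/-- Sequences that are `O(t^{Q^m})` for large `m`. -/
def BdI (Q : ℕ) (t : ℝ) : Ideal (Bd K) where
  carrier := {s | ∃ (C : ℝ) (M : ℕ), ∀ m, M ≤ m → ‖s.1 m‖ ≤ C * t ^ Q ^ m}
  add_mem' := by
    rintro a b ⟨C, M, hC⟩ ⟨D, N, hD⟩
    refine ⟨C + D, max M N, fun m hm => ?_⟩
    rw [add_mul]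
    exact (norm_add_le _ _).trans
      (add_le_add (hC m (le_of_max_le_left hm)) (hD m (le_of_max_le_right hm)))
  zero_mem' := ⟨0, 0, fun _ _ => by simp⟩
  smul_mem' := by
    rintro ⟨c, D, hD⟩ a ⟨C, M, hC⟩
    refine ⟨D * C, M, fun m hm => ?_⟩
    change ‖c m * a.1 m‖ ≤ _
    rw [norm_mul, mul_assoc]
    exact mul_le_mul (hD m) (hC m hm) (norm_nonneg _) ((norm_nonneg _).trans (hD m))

variable {K}

theorem BdI_pow_mem {Q : ℕ} {t : ℝ} (ht : 0 ≤ t) {s : Bd K} (hs : s ∈ BdI K Q t) (L : ℕ) :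
    s ^ L ∈ BdI K Q (t ^ L) := by
  obtain ⟨C, M, hC⟩ := hs
  refine ⟨C ^ L, M, fun m hm => ?_⟩
  change ‖s.1 m ^ L‖ ≤ _
  rw [norm_pow, ← pow_mul, mul_comm L, pow_mul, ← mul_pow]
  exact pow_le_pow_left₀ (norm_nonneg _) (hC m hm) L

/-- Sequences in the unit ball are bounded. -/
def toBd : (ℕ → Ob K) →+* Bd K where
  toFun s := ⟨fun m => s m, 1, fun m => (s m).2⟩
  map_one' := rfl
  map_mul' _ _ := rfl
  map_zero' := rfl
  map_add' _ _ := rfl

variable [CompleteSpace K]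

/-- Pointwise evaluation agrees with evaluation in the quotient `B_L = Bd / BdI (t^L)`:
`G ↦ [(ev_{a m} G^{(m)})_m]` is a ring map sending the variables to nilpotents (`eq_ev` for `⊥`). -/
theorem mk_pointwise_ev (u : Unif K) {Q : ℕ} {t : ℝ} (ht : 0 ≤ t) (L : ℕ) {σ : Type*} [Finite σ]
    (a : ℕ → σ → Ob K) (ha : ∀ m s, a m s ∈ u.I.radical)
    (hn : ∀ s, toBd (fun m => a m s) ∈ BdI K Q t) (G : MvPowerSeries σ (ℕ → Ob K)) :
    Ideal.Quotient.mk (BdI K Q (t ^ L))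
        (toBd fun m => ev u.I (Pi.evalRingHom (fun _ => Ob K) m) (a m) G) =
      ev ⊥ ((Ideal.Quotient.mk (BdI K Q (t ^ L))).comp toBd)
        (fun s => Ideal.Quotient.mk (BdI K Q (t ^ L)) (toBd fun m => a m s)) G := by
  have h := eq_ev ⊥ ((Ideal.Quotient.mk (BdI K Q (t ^ L))).comp toBd)
    (a := fun s => Ideal.Quotient.mk (BdI K Q (t ^ L)) (toBd fun m => a m s))
    (fun s => ⟨L, by
      rw [← map_pow, Ideal.mem_bot, Ideal.Quotient.eq_zero_iff_mem]
      exact BdI_pow_mem ht (hn s) L⟩)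
    (φ := ((Ideal.Quotient.mk (BdI K Q (t ^ L))).comp toBd).comp
      (RingHom.pi fun m => ev u.I (Pi.evalRingHom (fun _ => Ob K) m) (a m)))
    (fun r => by
      rw [RingHom.comp_apply]
      congr 1
      funext m
      exact ev_C u.I _ _ r)
    (fun s => by
      rw [RingHom.comp_apply, RingHom.comp_apply]
      congr 2
      funext m
      exact ev_X u.I _ (ha m) s)
  rw [← h]
  rfl

omit [IsUltrametricDist K] [CompleteSpace K] in
theorem bl_lemma_pow_le {Q : ℕ} {t : ℝ} (L : ℕ) : BdI K Q t ^ L ≤ BdI K Q (t ^ L) := by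
  induction L with
  | zero =>
    intro s _
    obtain ⟨C, hC⟩ := s.2
    exact ⟨C, 0, fun m _ => by simpa using hC m⟩
  | succ L ih =>
    rw [pow_succ, Ideal.mul_le]
    intro a ha b hb
    obtain ⟨C, M, hC⟩ := ih ha
    obtain ⟨C', M', hC'⟩ := hb
    refine ⟨C * C', max M M', fun m hm => ?_⟩
    have h1 := hC m (le_of_max_le_left hm)
    have h2 := hC' m (le_of_max_le_right hm)
    have h3 : (a * b).1 m = a.1 m * b.1 m := rfl
    rw [h3, norm_mul]
    refine (mul_le_mul h1 h2 (norm_nonneg _) ((norm_nonneg _).trans h1)).trans (le_of_eq ?_)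
    rw [pow_succ t L, mul_pow]
    ring

omit [CompleteSpace K] in
theorem bl_lemma_mem (u : Unif K) {Q : ℕ} {a : ℕ → Ob K} {M : ℕ}
    (ha : ∀ m, M ≤ m → a m ∈ u.I ^ Q ^ m) : toBd a ∈ BdI K Q ‖(u.ϖ : K)‖ :=
  ⟨1, M, fun m hm => by
    rw [one_mul]
    exact u.mem_pow.1 (ha m hm)⟩

theorem bl_lemma_const {R B σ : Type*} [CommRing R] [CommRing B] [Finite σ] (κ : R →+* B)
    {d : σ → B} (hd : ∀ s, d s ∈ (⊥ : Ideal B).radical) (f : MvPowerSeries σ R) :
    IsNilpotent (ev ⊥ κ d f - κ (constantCoeff f)) :=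
  mem_nilradical.1 ((Ideal.span_le.2 (Set.range_subset_iff.2 hd)) (ev_sub_const_mem ⊥ κ hd f))

theorem bl_lemma_map0 {A B : Type*} [CommRing A] [CommRing B] (ρ : A →+* B) (f : PowerSeries A)
    (hf : PowerSeries.constantCoeff f = 0) :
    PowerSeries.constantCoeff (PowerSeries.map ρ f) = 0 := by
  rw [← PowerSeries.coeff_zero_eq_constantCoeff_apply, PowerSeries.coeff_map,
    PowerSeries.coeff_zero_eq_constantCoeff_apply, hf, map_zero]

theorem bl_lemma_AS (u : Unif K) {Q : ℕ} {σ : Type} [Fintype σ]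
    (VA : PowerSeries (MvPowerSeries σ (Ob K))) (hV0 : PowerSeries.constantCoeff VA = 0)
    (δ : ℕ → σ → Ob K) (ψm : ℕ → PowerSeries (Ob K))
    (hψm : ∀ m, AS Q (PowerSeries.map (ev u.I (RingHom.id _) (δ m)) VA) (ψm m)) :
    AS Q (PowerSeries.map (RingHom.pi fun m => ev u.I (RingHom.id _) (δ m)) VA)
      (PowerSeries.mk fun k m => PowerSeries.coeff k (ψm m)) := by
  have h0 : PowerSeries.constantCoeff
      (PowerSeries.map (RingHom.pi fun m => ev u.I (RingHom.id (Ob K)) (δ m)) VA) = 0 := by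
    rw [← PowerSeries.coeff_zero_eq_constantCoeff_apply, PowerSeries.coeff_map,
      PowerSeries.coeff_zero_eq_constantCoeff_apply, hV0, map_zero]
  refine ⟨?_, fun k => ?_⟩
  · rw [← PowerSeries.coeff_zero_eq_constantCoeff_apply, PowerSeries.coeff_mk]
    funext m
    rw [PowerSeries.coeff_zero_eq_constantCoeff_apply]
    exact (hψm m).1
  · funext m
    have h1 := congrArg (PowerSeries.coeff k) (map_cmp (Pi.evalRingHom (fun _ => Ob K) m) h0
      (PowerSeries.mk fun k m => PowerSeries.coeff k (ψm m)))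
    have h2 : PowerSeries.map (Pi.evalRingHom (fun _ => Ob K) m)
        (PowerSeries.mk fun k m => PowerSeries.coeff k (ψm m)) = ψm m := by
      ext1 j
      rw [PowerSeries.coeff_map, PowerSeries.coeff_mk]
      rfl
    have h3 : PowerSeries.map (Pi.evalRingHom (fun _ => Ob K) m)
        (PowerSeries.map (RingHom.pi fun m => ev u.I (RingHom.id (Ob K)) (δ m)) VA) =
        PowerSeries.map (ev u.I (RingHom.id _) (δ m)) VA := by
      ext1 j
      rw [PowerSeries.coeff_map, PowerSeries.coeff_map, PowerSeries.coeff_map]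
      rfl
    rw [PowerSeries.coeff_map, h2, h3, (hψm m).2 k] at h1
    rw [PowerSeries.coeff_mk]
    exact h1

theorem bl_lemma_core (p : ℕ) [Fact p.Prime] [CharP K p] {h : ℕ} (hh : 1 ≤ h) (u : Unif K)
    {σ : Type} [Fintype σ] (VA : PowerSeries (MvPowerSeries σ (Ob K)))
    (hV0 : PowerSeries.constantCoeff VA = 0)
    (hV1 : constantCoeff (PowerSeries.coeff 1 VA) ≠ 0) (ψ : PowerSeries (Ob K))
    (ψA : PowerSeries (MvPowerSeries σ K))
    (hψA : AS (p ^ h) (PowerSeries.map (map (Ob K).subtype) VA) ψA)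
    (hψc : ∀ k, constantCoeff (PowerSeries.coeff k ψA) = (PowerSeries.coeff k ψ : Ob K))
    (y : σ → MvPowerSeries σ (Ob K)) (hy : ∀ i, constantCoeff (y i) = 0)
    (Φ : MvPowerSeries σ K) (F : MvPowerSeries σ (Ob K))
    (hΦ : subst (fun i => ev1 (Ideal.span (Set.range X)) (RingHom.id _)
      (map (Ob K).subtype (y i)) ψA) Φ = map (Ob K).subtype F)
    (δ : ℕ → σ → Ob K) (ψm : ℕ → PowerSeries (Ob K))
    (hδ : ∀ m s, δ m s ∈ u.I ^ (p ^ h) ^ m)
    (hψm : ∀ m, AS (p ^ h) (PowerSeries.map (ev u.I (RingHom.id _) (δ m)) VA) (ψm m))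
    (hψψ : ∀ m k, k < (p ^ h) ^ m →
      PowerSeries.coeff k (ψm m) - PowerSeries.coeff k ψ ∈ u.I ^ (p ^ h) ^ m)
    {B : Type*} [CommRing B] (T : (ℕ → Ob K) →+* B) (κ : K →+* B)
    (hκ : κ.comp (Ob K).subtype = T.comp (Pi.constRingHom ℕ (Ob K)))
    (hTnil : ∀ (a : ℕ → Ob K) (M : ℕ), (∀ m, M ≤ m → a m ∈ u.I ^ (p ^ h) ^ m) →
      T a ∈ (⊥ : Ideal B).radical)
    (hpt : ∀ {τ : Type} [Finite τ] (a : ℕ → τ → Ob K), (∀ m s, a m s ∈ u.I ^ (p ^ h) ^ m) →
      ∀ G : MvPowerSeries τ (ℕ → Ob K),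
        T (fun m => ev u.I (Pi.evalRingHom (fun _ => Ob K) m) (a m) G) =
          ev ⊥ T (fun s => T fun m => a m s) G) :
    (∀ m i, ev1 u.I (RingHom.id _) (ev u.I (RingHom.id _) (δ m) (y i)) (ψm m) ∈
      u.I ^ (p ^ h) ^ m) ∧
    ev ⊥ κ (fun i => T fun m =>
        ev1 u.I (RingHom.id _) (ev u.I (RingHom.id _) (δ m) (y i)) (ψm m)) Φ =
      T fun m => ev u.I (RingHom.id _) (δ m) F := by
  have hp2 : 2 ≤ p := (Fact.out : p.Prime).two_le
  have hQ : 1 < p ^ h := Nat.one_lt_pow (by omega) (by omega)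
  have hrad : ∀ m, u.I ^ (p ^ h) ^ m ≤ u.I.radical := fun m =>
    (Ideal.pow_le_self (pow_ne_zero _ (by omega))).trans Ideal.le_radical
  let d : σ → B := fun s => T fun m => δ m s
  have hd : ∀ s, d s ∈ (⊥ : Ideal (B)).radical := fun s => hTnil _ 0 fun m _ => hδ m s
  have hδr : ∀ m s, δ m s ∈ u.I.radical := fun m s => hrad m (hδ m s)
  let ε : MvPowerSeries σ K →+* B := ev ⊥ κ d
  let E : MvPowerSeries σ (Ob K) →+* (ℕ → Ob K) :=
    RingHom.pi fun m => ev u.I (RingHom.id _) (δ m)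
  have hE : ∀ G, ε (map (Ob K).subtype G) = T (E G) := by
    intro G
    have h1 := hpt δ hδ (map (Pi.constRingHom ℕ (Ob K)) G)
    have h2 : (fun m => ev u.I (Pi.evalRingHom (fun _ => Ob K) m) (δ m)
        (map (Pi.constRingHom ℕ (Ob K)) G)) = E G := by
      funext m
      rw [ev_map _ _ (hδr m)]
      rfl
    rw [h2] at h1
    change ev ⊥ κ d _ = _
    rw [ev_map _ _ hd, hκ, ← ev_map _ _ hd]
    exact h1.symm
  set Ψ : PowerSeries (ℕ → Ob K) := PowerSeries.mk fun k m => PowerSeries.coeff k (ψm m) with hΨ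
  have hA1 := (bl_lemma_AS u VA hV0 δ ψm hψm).map (bl_lemma_map0 _ _ hV0) T
  have hA2 := hψA.map (bl_lemma_map0 _ _ hV0) ε
  have hVV : PowerSeries.map ε (PowerSeries.map (map (Ob K).subtype) VA) =
      PowerSeries.map T (PowerSeries.map E VA) := by
    ext1 k
    simp only [PowerSeries.coeff_map, hE]
  rw [hVV] at hA2
  have hconst : ∀ f : MvPowerSeries σ K, IsNilpotent (ε f - κ (constantCoeff f)) := fun f =>
    bl_lemma_const κ hd f
  have hunit : IsUnit (PowerSeries.coeff 1 (PowerSeries.map T (PowerSeries.map E VA))) := by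
    rw [← hVV, PowerSeries.coeff_map, PowerSeries.coeff_map]
    have h1 : constantCoeff (map (Ob K).subtype (PowerSeries.coeff 1 VA)) ≠ 0 := by
      rw [constantCoeff_map]
      exact fun h0 => hV1 (Subtype.ext h0)
    have h2 := (hconst (map (Ob K).subtype (PowerSeries.coeff 1 VA))).isUnit_add_right_of_commute
      ((IsUnit.mk0 _ h1).map κ) (Commute.all _ _)
    rwa [sub_add_cancel] at h2
  have hψψ' : PowerSeries.map ε ψA = PowerSeries.map T Ψ := by
    refine as_unique p ?_ hh (bl_lemma_map0 _ _ (bl_lemma_map0 _ _ hV0)) hunit hA2 hA1 fun k => ?_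
    · rw [← map_natCast κ, CharP.cast_eq_zero, map_zero]
    · rw [PowerSeries.coeff_map, PowerSeries.coeff_map, hΨ, PowerSeries.coeff_mk]
      have h1 := hconst (PowerSeries.coeff k ψA)
      have h2 : κ (constantCoeff (PowerSeries.coeff k ψA)) =
          T (Pi.constRingHom ℕ (Ob K) (PowerSeries.coeff k ψ)) := by
        rw [hψc]
        exact RingHom.congr_fun hκ _
      have h3 : IsNilpotent (T ((fun m => PowerSeries.coeff k (ψm m)) -
          Pi.constRingHom ℕ (Ob K) (PowerSeries.coeff k ψ))) :=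
        mem_nilradical.1 (hTnil _ k fun m hm => hψψ m k
          ((Nat.lt_pow_self hQ).trans_le (Nat.pow_le_pow_right (by omega) hm)))
      rw [map_sub, ← h2] at h3
      have h4 := (Commute.all _ _).isNilpotent_sub h1 h3
      rwa [sub_sub_sub_cancel_right] at h4
  let Y : ℕ → σ → Ob K := fun m i => ev u.I (RingHom.id _) (δ m) (y i)
  have hY : ∀ m i, Y m i ∈ u.I ^ (p ^ h) ^ m := by
    intro m i
    have h1 := ev_sub_const_mem u.I (RingHom.id _) (hδr m) (y i)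
    rw [hy, map_zero, sub_zero] at h1
    exact (Ideal.span_le.2 (Set.range_subset_iff.2 (hδ m))) h1
  let Z : ℕ → σ → Ob K := fun m i => ev1 u.I (RingHom.id _) (Y m i) (ψm m)
  have hZ : ∀ m i, Z m i ∈ u.I ^ (p ^ h) ^ m := by
    intro m i
    have h1 := ev_sub_const_mem u.I (RingHom.id _) (a := fun _ : Unit => Y m i)
      (fun _ => hrad m (hY m i)) (ψm m)
    have h2 : constantCoeff (ψm m) = 0 := (hψm m).1
    rw [h2, map_zero, sub_zero] at h1
    exact (Ideal.span_le.2 (Set.range_subset_iff.2 fun _ => hY m i)) h1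
  let z : σ → MvPowerSeries σ K := fun i =>
    ev1 (Ideal.span (Set.range X)) (RingHom.id _) (map (Ob K).subtype (y i)) ψA
  have hy0 : ∀ i, constantCoeff (map (Ob K).subtype (y i)) = 0 := fun i => by
    rw [constantCoeff_map, hy, map_zero]
  have hyr : ∀ i, map (Ob K).subtype (y i) ∈
      (Ideal.span (Set.range (X : σ → MvPowerSeries σ K))).radical := fun i =>
    mem_radical_of_constantCoeff _
      (fun s => Ideal.le_radical (Ideal.subset_span (Set.mem_range_self s))) (hy0 i)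
  have hz0 : ∀ i, constantCoeff (z i) = 0 := by
    intro i
    have h1 := ev_sub_const_mem (Ideal.span (Set.range (X : σ → MvPowerSeries σ K)))
      (RingHom.id _) (a := fun _ : Unit => map (Ob K).subtype (y i)) (fun _ => hyr i) ψA
    have h2 : constantCoeff ψA = 0 := hψA.1
    rw [h2, map_zero, sub_zero] at h1
    have h3 : Ideal.span (Set.range fun _ : Unit => map (Ob K).subtype (y i)) ≤
        RingHom.ker (constantCoeff : MvPowerSeries σ K →+* K) :=
      Ideal.span_le.2 (Set.range_subset_iff.2 fun _ => hy0 i)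
    exact h3 h1
  have hεz : ∀ i, ε (z i) = T fun m => Z m i := by
    intro i
    have hn : T (fun m => Y m i) ∈ (⊥ : Ideal (B)).radical := hTnil _ 0 fun m _ => hY m i
    have h0 : ε (map (Ob K).subtype (y i)) = T fun m => Y m i := hE (y i)
    have h1 : ε (z i) = ev1 ⊥ (ε.comp (RingHom.id _)) (ε (map (Ob K).subtype (y i))) ψA :=
      comp_ev1 _ _ ⊥ ε (hyr i) (by rw [h0]; exact hn) ψA
    have h2 := hpt (fun m (_ : Unit) => Y m i) (fun m _ => hY m i) Ψ
    have h3 : (fun m => ev u.I (Pi.evalRingHom (fun _ => Ob K) m) (fun _ : Unit => Y m i) Ψ) =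
        fun m => Z m i := by
      funext m
      have h4 : PowerSeries.map (Pi.evalRingHom (fun _ => Ob K) m) Ψ = ψm m := by
        ext1 j
        rw [PowerSeries.coeff_map, hΨ, PowerSeries.coeff_mk]
        rfl
      change _ = ev1 u.I (RingHom.id _) (Y m i) (ψm m)
      rw [← h4, ev1_map _ _ (hrad m (hY m i))]
      rfl
    rw [h3] at h2
    have h5 := ev1_map ⊥ (RingHom.id _) hn ε ψA
    have h6 := ev1_map ⊥ (RingHom.id _) hn T Ψ
    rw [h1, h0, RingHom.comp_id, ← RingHom.id_comp ε, ← h5, hψψ', h6, RingHom.id_comp]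
    exact h2.symm
  refine ⟨hZ, ?_⟩
  have h1 : ε (subst z Φ) = ev ⊥ κ (fun i => ε (z i)) Φ := ev_subst ⊥ κ hd hz0 Φ
  simp only [hεz] at h1
  rw [← h1, hΦ, hE]
  rfl

theorem bl_lemma_fin {A R σ : Type*} [CommRing A] [CommRing R] [Finite σ] (ι : R →+* A)
    (N J : Ideal A) {L : ℕ} (hL : N ^ L ≤ J) (Z : σ → A) (hZ : ∀ i, Z i ∈ N)
    (Φ : MvPowerSeries σ R)
    (h : ev ⊥ ((Ideal.Quotient.mk J).comp ι) (fun i => Ideal.Quotient.mk J (Z i)) Φ = 0) :
    MvPolynomial.eval₂ ι Z (truncTotal L Φ) ∈ J := by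
  have hZn : ∀ i, Ideal.Quotient.mk J (Z i) ∈ (⊥ : Ideal (A ⧸ J)).radical := fun i =>
    ⟨L, by
      rw [Ideal.mem_bot, ← map_pow, Ideal.Quotient.eq_zero_iff_mem]
      exact hL (Ideal.pow_mem_pow (hZ i) L)⟩
  have hfin := ev_sub_trunc_mem ⊥ ((Ideal.Quotient.mk J).comp ι) hZn L Φ
  rw [h, zero_sub, neg_mem_iff] at hfin
  have hbot : Ideal.span (Set.range fun i => Ideal.Quotient.mk J (Z i)) ^ L ≤ ⊥ := by
    have h1 : Ideal.span (Set.range fun i => Ideal.Quotient.mk J (Z i)) ≤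
        N.map (Ideal.Quotient.mk J) :=
      Ideal.span_le.2 (Set.range_subset_iff.2 fun i => Ideal.mem_map_of_mem _ (hZ i))
    refine (Ideal.pow_right_mono h1 L).trans ?_
    rw [← Ideal.map_pow, Ideal.map_le_iff_le_comap]
    intro s hs
    rw [Ideal.mem_comap, Ideal.mem_bot, Ideal.Quotient.eq_zero_iff_mem]
    exact hL hs
  rw [← Ideal.Quotient.eq_zero_iff_mem, MvPolynomial.hom_eval₂]
  exact Ideal.mem_bot.1 (hbot hfin)

theorem bl_lemma_mid (p : ℕ) [Fact p.Prime] [CharP K p] {h : ℕ} (hh : 1 ≤ h) (u : Unif K)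
    {σ : Type} [Fintype σ] (VA : PowerSeries (MvPowerSeries σ (Ob K)))
    (hV0 : PowerSeries.constantCoeff VA = 0)
    (hV1 : constantCoeff (PowerSeries.coeff 1 VA) ≠ 0) (ψ : PowerSeries (Ob K))
    (ψA : PowerSeries (MvPowerSeries σ K))
    (hψA : AS (p ^ h) (PowerSeries.map (map (Ob K).subtype) VA) ψA)
    (hψc : ∀ k, constantCoeff (PowerSeries.coeff k ψA) = (PowerSeries.coeff k ψ : Ob K))
    (y : σ → MvPowerSeries σ (Ob K)) (hy : ∀ i, constantCoeff (y i) = 0)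
    (Φ : MvPowerSeries σ K) (F : MvPowerSeries σ (Ob K))
    (hΦ : subst (fun i => ev1 (Ideal.span (Set.range X)) (RingHom.id _)
      (map (Ob K).subtype (y i)) ψA) Φ = map (Ob K).subtype F)
    (δ : ℕ → σ → Ob K) (ψm : ℕ → PowerSeries (Ob K))
    (hδ : ∀ m s, δ m s ∈ u.I ^ (p ^ h) ^ m)
    (hψm : ∀ m, AS (p ^ h) (PowerSeries.map (ev u.I (RingHom.id _) (δ m)) VA) (ψm m))
    (hψψ : ∀ m k, k < (p ^ h) ^ m →
      PowerSeries.coeff k (ψm m) - PowerSeries.coeff k ψ ∈ u.I ^ (p ^ h) ^ m)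
    {A : Type*} [CommRing A] (T : (ℕ → Ob K) →+* A) (ι : K →+* A) (N J : Ideal A) {L : ℕ}
    (hL : N ^ L ≤ J) (hκ : ι.comp (Ob K).subtype = T.comp (Pi.constRingHom ℕ (Ob K)))
    (hN : ∀ (a : ℕ → Ob K) (M : ℕ), (∀ m, M ≤ m → a m ∈ u.I ^ (p ^ h) ^ m) → T a ∈ N)
    (hpt : ∀ {τ : Type} [Finite τ] (a : ℕ → τ → Ob K), (∀ m s, a m s ∈ u.I ^ (p ^ h) ^ m) →
      ∀ G : MvPowerSeries τ (ℕ → Ob K),
        Ideal.Quotient.mk J (T fun m => ev u.I (Pi.evalRingHom (fun _ => Ob K) m) (a m) G) =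
          ev ⊥ ((Ideal.Quotient.mk J).comp T)
            (fun s => Ideal.Quotient.mk J (T fun m => a m s)) G)
    (hF : T (fun m => ev u.I (RingHom.id _) (δ m) F) ∈ J) :
    MvPolynomial.eval₂ ι (fun i => T fun m =>
      ev1 u.I (RingHom.id _) (ev u.I (RingHom.id _) (δ m) (y i)) (ψm m)) (truncTotal L Φ) ∈ J := by
  obtain ⟨hZ, h1⟩ := bl_lemma_core p hh u VA hV0 hV1 ψ ψA hψA hψc y hy Φ F hΦ δ ψm hδ hψm hψψ
    (B := A ⧸ J) ((Ideal.Quotient.mk J).comp T) ((Ideal.Quotient.mk J).comp ι)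
    (by rw [RingHom.comp_assoc, hκ, RingHom.comp_assoc])
    (fun a M ha => ⟨L, by
      rw [Ideal.mem_bot, ← map_pow, RingHom.comp_apply, Ideal.Quotient.eq_zero_iff_mem, map_pow]
      exact hL (Ideal.pow_mem_pow (hN a M ha) L)⟩) hpt
  exact bl_lemma_fin ι N J hL _ (fun i => hN _ 0 fun m _ => hZ m i) Φ
    (h1.trans (Ideal.Quotient.eq_zero_iff_mem.2 hF))

/-- Work in `B_L = Bd / BdI (t^L)`, `t = ‖ϖ‖`. Let `ε : K⟦σ⟧ → B_L`, `δ_s ↦ [(δ m s)_m]`. By
`mk_pointwise_ev`, `ε (map G) = [(ev (δ m) G)_m]` for `G ∈ O⟦σ⟧`. Both `map ε ψA` and the series with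
coefficients `[(coeff k (ψm m))_m]` solve `AS` for `map ε VA`, and differ from the constant `ψ` by
nilpotents, so they agree (`as_unique`). Hence `ε (z i) = [(Z m i)_m]` (`comp_ev1`,
`mk_pointwise_ev` for `Unit`), and `0 = ε (map F) = ε (subst z Φ) = ev [(Z m)] Φ`. The `[Z]` lie in
the image of `BdI t`, so `ev_sub_trunc_mem` with `d = L` ends the proof. -/
theorem bl_lemma (p : ℕ) [Fact p.Prime] [CharP K p] {h : ℕ} (hh : 1 ≤ h) (u : Unif K) {σ : Type}
    [Fintype σ] (VA : PowerSeries (MvPowerSeries σ (Ob K)))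
    (hV0 : PowerSeries.constantCoeff VA = 0)
    (hV1 : constantCoeff (PowerSeries.coeff 1 VA) ≠ 0) (ψ : PowerSeries (Ob K))
    (ψA : PowerSeries (MvPowerSeries σ K))
    (hψA : AS (p ^ h) (PowerSeries.map (map (Ob K).subtype) VA) ψA)
    (hψc : ∀ k, constantCoeff (PowerSeries.coeff k ψA) = (PowerSeries.coeff k ψ : Ob K))
    (y : σ → MvPowerSeries σ (Ob K)) (hy : ∀ i, constantCoeff (y i) = 0)
    (Φ : MvPowerSeries σ K) (F : MvPowerSeries σ (Ob K))
    (hΦ : subst (fun i => ev1 (Ideal.span (Set.range X)) (RingHom.id _)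
      (map (Ob K).subtype (y i)) ψA) Φ = map (Ob K).subtype F)
    (M : ℕ) (δ : ℕ → σ → Ob K) (ψm : ℕ → PowerSeries (Ob K))
    (hδ : ∀ m s, δ m s ∈ u.I ^ (p ^ h) ^ m)
    (hψm : ∀ m, AS (p ^ h) (PowerSeries.map (ev u.I (RingHom.id _) (δ m)) VA) (ψm m))
    (hψψ : ∀ m k, k < (p ^ h) ^ m →
      PowerSeries.coeff k (ψm m) - PowerSeries.coeff k ψ ∈ u.I ^ (p ^ h) ^ m)
    (hF : ∀ m, M ≤ m → ev u.I (RingHom.id _) (δ m) F = 0) (L : ℕ) :
    ∃ (C : ℝ) (M' : ℕ), ∀ m, M' ≤ m →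
      ‖MvPolynomial.eval (fun i => ((ev1 u.I (RingHom.id _)
          (ev u.I (RingHom.id _) (δ m) (y i)) (ψm m) : Ob K) : K)) (truncTotal L Φ)‖ ≤
        C * (‖(u.ϖ : K)‖ ^ L) ^ (p ^ h) ^ m := by
  have hp2 : 2 ≤ p := (Fact.out : p.Prime).two_le
  have ht : 0 ≤ ‖(u.ϖ : K)‖ := norm_nonneg _
  have hrad : ∀ m, u.I ^ (p ^ h) ^ m ≤ u.I.radical := fun m =>
    (Ideal.pow_le_self (pow_ne_zero _ (pow_ne_zero _ (by omega)))).trans Ideal.le_radical
  have h2 : toBd (fun m => ev u.I (RingHom.id _) (δ m) F) ∈ BdI K (p ^ h) (‖(u.ϖ : K)‖ ^ L) := by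
    refine ⟨0, M, fun m hm => ?_⟩
    have h2 : (toBd fun m => ev u.I (RingHom.id _) (δ m) F).1 m =
      ((ev u.I (RingHom.id _) (δ m) F : Ob K) : K) := rfl
    rw [h2, hF m hm]
    simp
  obtain ⟨C, M', hC⟩ := bl_lemma_mid p hh u VA hV0 hV1 ψ ψA hψA hψc y hy Φ F hΦ δ ψm hδ hψm hψψ
    toBd (algebraMap K (Bd K)) _ _ (bl_lemma_pow_le L) (RingHom.ext fun _ => rfl)
    (fun a M ha => bl_lemma_mem u ha)
    (fun a ha G => mk_pointwise_ev u ht L a (fun m s => hrad m (ha m s))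
      (fun s => bl_lemma_mem u (M := 0) fun m _ => ha m s) G) h2
  refine ⟨C, M', fun m hm => ?_⟩
  have h9 := MvPolynomial.hom_eval₂ (truncTotal L Φ) (algebraMap K (Bd K))
    ((Pi.evalRingHom (fun _ => K) m).comp (Bd K).val.toRingHom)
    (fun i => toBd fun m => ev1 u.I (RingHom.id _) (ev u.I (RingHom.id _) (δ m) (y i)) (ψm m))
  have h10 := hC m hm
  change ‖((Pi.evalRingHom (fun _ => K) m).comp (Bd K).val.toRingHom) _‖ ≤ _ at h10
  rw [h9] at h10
  exact h10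

end Crest.R227
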