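import Crest.Agent.R227.Pt
import Crest.Agent.R227.Ob

/-! Row 227. Balls in the group of points over the unit ball: `‖[p] a‖ ≤ ‖a‖ max(‖p‖, ‖a‖)`. -/

set_option autoImplicit false

namespace Crest.R227

open Crest.LubinTate

variable {K : Type*} [NormedField K] [IsUltrametricDist K] [CompleteSpace K] (u : Unif K)
  (F : FormalGroup (Ob K)) [F.IsComm] {p : ℕ}

theorem ball_sep_sub (a b : Pt u.I F) :
    ‖((a - b).val : K)‖ = ‖(a.val : K) - (b.val : K)‖ := by
  apply le_antisymm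
  · have h := (Pt.sub_val_mem_iff (Ideal.span {a.val - b.val}) a b).2
      (Ideal.mem_span_singleton_self _)
    simpa using Ob.mem_span_iff.1 h
  · have h := (Pt.sub_val_mem_iff (Ideal.span {(a - b).val}) a b).1
      (Ideal.mem_span_singleton_self _)
    simpa using Ob.mem_span_iff.1 h

theorem ball_sep_step {r : ℝ} (a : Pt u.I F) (ha : ‖(a.val : K)‖ ≤ r) :
    ‖((p • a).val : K)‖ ≤ max ‖(p : K)‖ r * ‖(a.val : K)‖ := by
  have h := Ob.mem_span_iff.1 (Pt.nsmul_val_sub_mem p a)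
  have e : ((p • a).val : K) = (((p • a).val - p * a.val : Ob K) : K) + (p : K) * (a.val : K) := by
    push_cast
    ring
  rw [e]
  refine (IsUltrametricDist.norm_add_le_max _ _).trans (max_le (h.trans ?_) ?_)
  · push_cast
    rw [norm_pow, pow_two]
    exact mul_le_mul_of_nonneg_right (ha.trans (le_max_right _ _)) (norm_nonneg _)
  · rw [norm_mul]
    exact mul_le_mul_of_nonneg_right (le_max_left _ _) (norm_nonneg _)

theorem ball_sep_pow (hp : ‖(p : K)‖ < 1) {r : ℝ} (hr : r < 1) (a : Pt u.I F)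
    (ha : ‖(a.val : K)‖ ≤ r) (N : ℕ) :
    ‖((p ^ N • a).val : K)‖ ≤ max ‖(p : K)‖ r ^ N * ‖(a.val : K)‖ := by
  have h0 : 0 ≤ max ‖(p : K)‖ r := le_max_of_le_left (norm_nonneg _)
  have h1 : max ‖(p : K)‖ r ≤ 1 := (max_lt hp hr).le
  induction N with
  | zero => simp
  | succ N ih =>
    have h2 : ‖((p ^ N • a).val : K)‖ ≤ r :=
      ih.trans ((mul_le_of_le_one_left (norm_nonneg _) (pow_le_one₀ h0 h1)).trans ha)
    rw [pow_succ', mul_smul, pow_succ', mul_assoc]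
    exact (ball_sep_step u F _ h2).trans (mul_le_mul_of_nonneg_left ih h0)

omit [CompleteSpace K] [F.IsComm] in
theorem ball_sep_zero {ρ C : ℝ} (h0 : 0 ≤ ρ) (h1 : ρ < 1) (z : Pt u.I F)
    (hz : ∀ N : ℕ, ‖(z.val : K)‖ ≤ C * ρ ^ N) : z = 0 := by
  have ht : Filter.Tendsto (fun N : ℕ => C * ρ ^ N) Filter.atTop (nhds 0) := by
    simpa using (tendsto_pow_atTop_nhds_zero_of_lt_one h0 h1).const_mul C
  have h := ge_of_tendsto' ht hz
  refine Pt.ext ?_
  rw [Pt.val_zero]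
  exact Subtype.ext (norm_le_zero_iff.1 h)

theorem ball_sep (hp : ‖(p : K)‖ < 1) {η : Ob K} (hη : ‖(η : K)‖ < 1) (z : Pt u.I F)
    (hz : ∀ N : ℕ, ∃ w ∈ Pt.fil u.I F (Ideal.span {η}), z = p ^ N • w) : z = 0 := by
  refine ball_sep_zero u F (C := 1) (le_max_of_le_left (norm_nonneg (p : K))) (max_lt hp hη) z
    fun N => ?_
  obtain ⟨w, hw, rfl⟩ := hz N
  refine (ball_sep_pow u F hp hη w (Ob.mem_span_iff.1 hw) N).trans ?_
  rw [mul_comm]
  exact mul_le_mul_of_nonneg_right (Ob.norm_le _)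
    (pow_nonneg (le_max_of_le_left (norm_nonneg (p : K))) _)

/-- `w N` is the limit (in `K`, which is complete) of the partial sums `∑_{k<L} p^k • c (N+k)`. -/
theorem ball_cpl (hp : ‖(p : K)‖ < 1) {η : Ob K} (hη : ‖(η : K)‖ < 1) (c : ℕ → Pt u.I F)
    (hc : ∀ k, c k ∈ Pt.fil u.I F (Ideal.span {η})) :
    ∃ w : ℕ → Pt u.I F, (∀ N, w N ∈ Pt.fil u.I F (Ideal.span {η})) ∧
      ∀ N, w N = c N + p • w (N + 1) := by
  set ρ := max ‖(p : K)‖ ‖(η : K)‖ with hρ
  have h0 : 0 ≤ ρ := le_max_of_le_left (norm_nonneg _)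
  have h1 : ρ < 1 := max_lt hp hη
  let s : ℕ → ℕ → Pt u.I F := fun N L => ∑ k ∈ Finset.range L, p ^ k • c (N + k)
  have hs : ∀ N L, s N L ∈ Pt.fil u.I F (Ideal.span {η}) := fun N L =>
    AddSubgroup.sum_mem _ fun k _ => AddSubgroup.nsmul_mem _ (hc _) _
  have hd : ∀ N L, dist ((s N L).val : K) ((s N (L + 1)).val : K) ≤ 1 * ρ ^ L := by
    intro N L
    rw [dist_comm, dist_eq_norm, ← ball_sep_sub]
    have e : s N (L + 1) - s N L = p ^ L • c (N + L) := by
      simp only [s, Finset.sum_range_succ, add_sub_cancel_left]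
    rw [e, mul_comm]
    exact (ball_sep_pow u F hp hη _ (Ob.mem_span_iff.1 (hc _)) L).trans
      (mul_le_mul_of_nonneg_left (Ob.norm_le _) (pow_nonneg h0 _))
  have hy : ∀ N, ∃ y : K, Filter.Tendsto (fun L => ((s N L).val : K)) Filter.atTop (nhds y) :=
    fun N => cauchySeq_tendsto_of_complete (cauchySeq_of_le_geometric ρ 1 h1 (hd N))
  choose y hy using hy
  have hyη : ∀ N, ‖y N‖ ≤ ‖(η : K)‖ := fun N =>
    le_of_tendsto' (hy N).norm fun L => Ob.mem_span_iff.1 (hs N L)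
  let w : ℕ → Pt u.I F := fun N => ⟨⟨y N, (hyη N).trans (Ob.norm_le η)⟩,
    u.mem_radical.2 ((hyη N).trans_lt hη)⟩
  have hw : ∀ N, w N ∈ Pt.fil u.I F (Ideal.span {η}) := fun N => Ob.mem_span_iff.2 (hyη N)
  have hws : ∀ N L, ‖((w N - s N L).val : K)‖ ≤ 1 / (1 - ρ) * ρ ^ L := by
    intro N L
    rw [ball_sep_sub, ← dist_eq_norm, dist_comm]
    have := dist_le_of_le_geometric_of_tendsto ρ 1 h1 (hd N) (hy N) L
    rwa [← div_mul_eq_mul_div] at this
  refine ⟨w, hw, fun N => ?_⟩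
  rw [← sub_eq_zero]
  refine ball_sep_zero u F (C := 2 / (1 - ρ)) h0 h1 _ fun L => ?_
  have e1 : s N (L + 1) = c N + p • s (N + 1) L := by
    simp only [s]
    rw [Finset.sum_range_succ', pow_zero, one_smul, add_zero, add_comm, Finset.smul_sum]
    congr 1
    refine Finset.sum_congr rfl fun k _ => ?_
    rw [← mul_smul, pow_succ', add_assoc, add_comm 1 k]
  have e2 : w N - (c N + p • w (N + 1)) =
      (w N - s N (L + 1)) - p • (w (N + 1) - s (N + 1) L) := by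
    rw [e1, smul_sub]
    abel
  have hpos : 0 ≤ 1 / (1 - ρ) := div_nonneg zero_le_one (by linarith)
  have h3 : ‖((p • (w (N + 1) - s (N + 1) L)).val : K)‖ ≤ 1 / (1 - ρ) * ρ ^ L := by
    refine (ball_sep_step u F _ (Ob.mem_span_iff.1
      (AddSubgroup.sub_mem _ (hw _) (hs _ _)))).trans ?_
    exact (mul_le_of_le_one_left (norm_nonneg _) h1.le).trans (hws _ _)
  have h4 : ‖((w N - s N (L + 1)).val : K)‖ ≤ 1 / (1 - ρ) * ρ ^ L :=
    (hws _ _).trans (mul_le_mul_of_nonneg_left (pow_le_pow_of_le_one h0 h1.le (Nat.le_succ L)) hpos)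
  rw [e2, ball_sep_sub]
  refine (norm_sub_le _ _).trans ((add_le_add h4 h3).trans (le_of_eq ?_))
  ring

end Crest.R227
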