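import Crest.Agent.R227.Ev

/-! Row 227. Completeness of power series rings over a complete ring. -/

set_option autoImplicit false

namespace Crest.R227

open MvPowerSeries

variable {R : Type*} [CommRing R]

/-- The ideal generated by the constant `a`. -/
noncomputable def cI (σ : Type*) (a : R) : Ideal (MvPowerSeries σ R) := Ideal.span {C a}

/-- The ideal generated by the constant `a` and the variables. -/
noncomputable def xI (σ : Type*) (a : R) : Ideal (MvPowerSeries σ R) :=
  Ideal.span {C a} ⊔ Ideal.span (Set.range X)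

variable {σ : Type*}

theorem mem_cI_pow_exists (g : (σ →₀ ℕ) → R) : ∃ f : MvPowerSeries σ R, ∀ γ, coeff γ f = g γ :=
  ⟨g, fun _ => rfl⟩

theorem mem_cI_pow {a : R} {k : ℕ} {f : MvPowerSeries σ R} :
    f ∈ cI σ a ^ k ↔ ∀ γ, coeff γ f ∈ Ideal.span {a} ^ k := by
  simp only [cI, Ideal.span_singleton_pow, Ideal.mem_span_singleton]
  constructor
  · rintro ⟨g, rfl⟩ γ
    rw [← map_pow, coeff_C_mul]
    exact dvd_mul_right _ _
  · intro h
    choose g hg using h
    obtain ⟨g', hg'⟩ := mem_cI_pow_exists g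
    refine ⟨g', MvPowerSeries.ext fun γ => ?_⟩
    rw [← map_pow, coeff_C_mul, hg, hg']

theorem mem_xI_upper [Finite σ] {a : R} {k d : ℕ} {f : MvPowerSeries σ R}
    (hf : f ∈ xI σ a ^ (k + d)) (γ : σ →₀ ℕ) (hγ : γ.degree < d) :
    coeff γ f ∈ Ideal.span {a} ^ k := by
  obtain ⟨u, hu, v, hv, rfl⟩ := Submodule.mem_sup.1 (Ideal.sup_pow_add_le_pow_sup_pow hf)
  rw [map_add, coeff_eq_zero_of_mem_span_X_pow hv γ hγ, add_zero]
  exact mem_cI_pow.1 hu γ

theorem mem_xI_lower [Finite σ] {a : R} {k : ℕ} {f : MvPowerSeries σ R}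
    (hf : ∀ γ : σ →₀ ℕ, γ.degree < k → coeff γ f ∈ Ideal.span {a} ^ k) : f ∈ xI σ a ^ k := by
  let g : MvPowerSeries σ R := fun γ => if γ.degree < k then coeff γ f else 0
  have hg : ∀ γ, coeff γ g = if γ.degree < k then coeff γ f else 0 := fun _ => rfl
  have h1 : g ∈ cI σ a ^ k := mem_cI_pow.2 fun γ => by
    rw [hg]
    split_ifs with h
    · exact hf γ h
    · exact Ideal.zero_mem _
  have h2 := mem_span_X_pow (d := k) (f := f - g) fun γ hγ => by
    rw [map_sub, hg, if_pos hγ, sub_self]
  have := Ideal.add_mem (xI σ a ^ k) (Ideal.pow_right_mono le_sup_left k h1)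
    (Ideal.pow_right_mono le_sup_right k h2)
  rwa [add_sub_cancel] at this

theorem mem_xI [Finite σ] {a : R} {f : MvPowerSeries σ R} :
    f ∈ xI σ a ↔ constantCoeff f ∈ Ideal.span {a} := by
  constructor
  · intro h
    refine (show xI σ a ≤ (Ideal.span {a}).comap (constantCoeff (σ := σ) (R := R)) from
      sup_le ?_ ?_) h
    · rw [Ideal.span_le]
      rintro _ rfl
      simp
    · rw [Ideal.span_le]
      rintro _ ⟨s, rfl⟩
      simp
  · intro h
    have := mem_xI_lower (a := a) (k := 1) (f := f) fun γ hγ => by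
      have : γ = 0 := (Finsupp.degree_eq_zero_iff γ).1 (by omega)
      subst this
      simpa using h
    simpa using this

theorem mem_xI_radical [Finite σ] {a : R} {f : MvPowerSeries σ R} :
    f ∈ (xI σ a).radical ↔ constantCoeff f ∈ (Ideal.span {a}).radical := by
  simp only [Ideal.mem_radical_iff, mem_xI, map_pow]

theorem cI_complete_mk (I : Ideal R) (h1 : ∀ x, (∀ n, x ∈ I ^ n) → x = 0)
    (h2 : ∀ f : ℕ → R, (∀ m n, m ≤ n → f m - f n ∈ I ^ m) → ∃ L, ∀ n, f n - L ∈ I ^ n) :
    IsAdicComplete I R where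
  haus' x hx := h1 x fun n => by simpa [SModEq.zero] using hx n
  prec' f hf := by
    obtain ⟨L, hL⟩ := h2 f fun m n hmn => by simpa [SModEq.sub_mem] using hf hmn
    exact ⟨L, fun n => by simpa [SModEq.sub_mem] using hL n⟩

theorem cI_complete_haus (I : Ideal R) [IsAdicComplete I R] {x : R} (h : ∀ n, x ∈ I ^ n) :
    x = 0 :=
  IsHausdorff.haus (I := I) (M := R) inferInstance x fun n => by simpa [SModEq.zero] using h n

theorem cI_complete_prec (I : Ideal R) [IsAdicComplete I R] (f : ℕ → R)
    (h : ∀ m n, m ≤ n → f m - f n ∈ I ^ m) : ∃ L, ∀ n, f n - L ∈ I ^ n := by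
  obtain ⟨L, hL⟩ := IsPrecomplete.prec (I := I) (M := R) inferInstance (f := f)
    fun {m n} hmn => by simpa [SModEq.sub_mem] using h m n hmn
  exact ⟨L, fun n => by simpa [SModEq.sub_mem] using hL n⟩

instance cI_complete (a : R) [IsAdicComplete (Ideal.span {a}) R] :
    IsAdicComplete (cI σ a) (MvPowerSeries σ R) := by
  refine cI_complete_mk _ (fun f h => MvPowerSeries.ext fun γ => ?_) fun f hf => ?_
  · exact cI_complete_haus (Ideal.span {a}) fun n => mem_cI_pow.1 (h n) γ
  · choose L hL using fun γ => cI_complete_prec (Ideal.span {a}) (fun n => coeff γ (f n))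
      fun m n hmn => by rw [← map_sub]; exact mem_cI_pow.1 (hf m n hmn) γ
    obtain ⟨L', hL'⟩ := mem_cI_pow_exists L
    exact ⟨L', fun n => mem_cI_pow.2 fun γ => by rw [map_sub, hL']; exact hL γ n⟩

instance xI_complete [Finite σ] (a : R) [IsAdicComplete (Ideal.span {a}) R] :
    IsAdicComplete (xI σ a) (MvPowerSeries σ R) := by
  refine cI_complete_mk _ (fun f h => MvPowerSeries.ext fun γ => ?_) fun f hf => ?_
  · exact cI_complete_haus (Ideal.span {a}) fun n =>
      mem_xI_upper (h (n + (γ.degree + 1))) γ (by omega)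
  · choose L hL using fun γ : σ →₀ ℕ => cI_complete_prec (Ideal.span {a})
      (fun n => coeff γ (f (n + (γ.degree + 1)))) fun m n hmn => by
        rw [← map_sub]
        exact mem_xI_upper (hf _ _ (by omega)) γ (by omega)
    obtain ⟨L', hL'⟩ := mem_cI_pow_exists L
    refine ⟨L', fun n => ?_⟩
    have h1 : f (n + n) - L' ∈ xI σ a ^ n := mem_xI_lower fun γ hγ => by
      have h2 := mem_xI_upper (hf (n + (γ.degree + 1)) (n + n) (by omega)) γ (by omega)
      have h3 := Ideal.sub_mem _ (hL γ n) h2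
      rw [map_sub, sub_sub_sub_cancel_left] at h3
      rw [map_sub, hL']
      exact h3
    have := Ideal.add_mem _ (hf n (n + n) (by omega)) h1
    rwa [sub_add_sub_cancel] at this

/-- A ring is complete for a nilpotent ideal. -/
theorem isAdicComplete_of_pow_eq_bot (I : Ideal R) {N : ℕ} (h : I ^ N = ⊥) :
    IsAdicComplete I R := by
  refine cI_complete_mk _ (fun x hx => by simpa [h] using hx N) fun f hf => ⟨f N, fun n => ?_⟩
  rcases le_total n N with h1 | h1
  · exact hf n N h1
  · have h2 := hf N n h1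
    rw [h, Ideal.mem_bot, sub_eq_zero] at h2
    rw [h2, sub_self]
    exact Ideal.zero_mem _

end Crest.R227
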