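import Crest.Agent.R227.FG2
import Crest.Agent.R227.Cpl

/-! Row 227. Notation and basic facts on the Lubin–Tate ring. -/

set_option autoImplicit false

namespace Crest.R227

open Crest.LubinTate MvPowerSeries

variable (p : ℕ) [Fact p.Prime] (n : ℕ)

abbrev kk := GaloisField p n
abbrev WW := WittVector p (GaloisField p n)
abbrev EE := LTRing p n

/-- Reduction `W → k`. -/
noncomputable abbrev resW : WW p n →+* kk p n := WittVector.constantCoeff

/-- Reduction `E → k`. -/
noncomputable abbrev resE : EE p n →+* kk p n := LTRing.residue p n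

/-- The maximal ideal of `E`. -/
noncomputable def mE : Ideal (EE p n) := xI (Fin (n - 1)) (p : WW p n)

instance mE_complete : IsAdicComplete (mE p n) (EE p n) := xI_complete _

theorem ker_resW : RingHom.ker (resW p n) = Ideal.span {(p : WW p n)} := by
  exact WittVector.ker_constantCoeff

theorem resW_surjective : Function.Surjective (resW p n) := by
  exact WittVector.constantCoeff_surjective p

theorem ker_resE : RingHom.ker (resE p n) = mE p n := by
  ext f
  rw [mE, mem_xI, ← ker_resW]
  rfl

theorem resE_surjective : Function.Surjective (resE p n) := by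
  intro c
  obtain ⟨w, rfl⟩ := resW_surjective p n c
  exact ⟨C w, by simp [LTRing.residue]⟩

theorem resE_comp : (resE p n).comp (algebraMap (WW p n) (EE p n)) = resW p n := by
  ext1 w
  simp [LTRing.residue, MvPowerSeries.algebraMap_apply]

theorem mE_eq_maximalIdeal : mE p n = IsLocalRing.maximalIdeal (EE p n) := by
  rw [← ker_resE]
  exact IsLocalRing.eq_maximalIdeal (RingHom.ker_isMaximal_of_surjective _ (resE_surjective p n))

theorem p_mem_mE : (p : EE p n) ∈ mE p n := by
  rw [← ker_resE, RingHom.mem_ker, map_natCast]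
  exact CharP.cast_eq_zero _ p

theorem X_mem_mE (i : Fin (n - 1)) : (X i : EE p n) ∈ mE p n := by
  rw [mE, mem_xI]
  simp

theorem kk_pow (hn : 1 ≤ n) (c : kk p n) : c ^ p ^ n = c := by
  let _ : Fintype (kk p n) := Fintype.ofFinite _
  have hcard : Fintype.card (kk p n) = p ^ n := by
    rw [← Nat.card_eq_fintype_card, GaloisField.card p n (by omega)]
  rw [← hcard]
  exact FiniteField.pow_card c

theorem p_not_mem_sq : (p : WW p n) ≠ 0 := by
  exact WittVector.p_nonzero p _

/-- A surjective endomorphism of a Noetherian ring is injective. -/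
theorem injective_of_surjective {R : Type*} [CommRing R] [IsNoetherianRing R] (φ : R →+* R)
    (h : Function.Surjective φ) : Function.Injective φ := by
  let f : ℕ →o Ideal R := ⟨fun k => RingHom.ker (φ ^ k), monotone_nat_of_le_succ fun k x hx => by
    rw [RingHom.mem_ker] at hx ⊢
    rw [pow_succ', RingHom.mul_def, RingHom.comp_apply, hx, map_zero]⟩
  obtain ⟨N, hN⟩ := monotone_stabilizes_iff_noetherian.2 (inferInstance : IsNoetherian R R) f
  rw [injective_iff_map_eq_zero]
  intro x hx
  have hs : Function.Surjective (φ ^ N) := by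
    rw [RingHom.coe_pow]
    exact h.iterate N
  obtain ⟨y, rfl⟩ := hs x
  have h1 : y ∈ f (N + 1) := by
    change (φ ^ (N + 1)) y = 0
    rw [pow_succ', RingHom.mul_def, RingHom.comp_apply, hx]
  rw [← hN (N + 1) (by omega)] at h1
  exact h1

/-- `surjective_of_mk_map_comp_surjective` for `mE`, then `injective_of_surjective`. -/
theorem bijective_of_map_mE (φ : EE p n →ₐ[WW p n] EE p n)
    (h : (mE p n).map φ.toRingHom = mE p n) : Function.Bijective φ := by
  have hs : Function.Surjective φ.toRingHom := by
    have : IsHausdorff ((mE p n).map φ.toRingHom) (EE p n) := by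
      rw [h]
      infer_instance
    refine surjective_of_mk_map_comp_surjective (I := mE p n) φ.toRingHom fun z => ?_
    obtain ⟨z, rfl⟩ := Ideal.Quotient.mk_surjective z
    obtain ⟨w, hw⟩ := resW_surjective p n (resE p n z)
    refine ⟨algebraMap (WW p n) (EE p n) w, ?_⟩
    rw [RingHom.comp_apply, Ideal.Quotient.eq, h, ← ker_resE, RingHom.mem_ker, map_sub, ← hw,
      AlgHom.toRingHom_eq_coe, RingHom.coe_coe, AlgHom.commutes, ← RingHom.comp_apply, resE_comp,
      sub_self]
  exact ⟨injective_of_surjective φ.toRingHom hs, hs⟩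

/-- The coefficient of `X ^ p ^ j` in the `p`-series. -/
noncomputable def vv (H : FormalGroup (EE p n)) (j : ℕ) : EE p n :=
  PowerSeries.coeff (p ^ j) (mulSeries H p)

/-- The Lubin–Tate model over `W`. -/
structure IsModel (F0 : FormalGroup (WW p n)) : Prop where
  mul : mulSeries (F0.map (resW p n)) p = PowerSeries.X ^ p ^ n
  hom : ∀ γ : Fin 2 →₀ ℕ, coeff γ F0.toPowerSeries ≠ 0 → γ.degree ≡ 1 [MOD p ^ n - 1]
  frob : ∀ γ : Fin 2 →₀ ℕ,
    resW p n (coeff γ F0.toPowerSeries) ^ p = resW p n (coeff γ F0.toPowerSeries)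

/-- Normalised data: `H` deforms the model and the variables are the height parameters. -/
structure IsNorm (F0 : FormalGroup (WW p n)) (H : FormalGroup (EE p n)) : Prop where
  hn : 1 ≤ n
  model : IsModel p n F0
  res : H.map (resE p n) = F0.map (resW p n)
  coord : ∀ i : Fin (n - 1), vv p n H (i + 1) = X i

/-- `X +_H [p^m]_H (a)`. -/
noncomputable def vartheta (H : FormalGroup (EE p n)) (a : PowerSeries (WW p n)) (m : ℕ) :
    PowerSeries (EE p n) :=
  fadd H PowerSeries.X
    (cmp (mulSeries H (p ^ m)) (PowerSeries.map (algebraMap (WW p n) (EE p n)) a))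

/-- `a` lifts an endomorphism of the reduction of `F0`. -/
def IsLift (F0 : FormalGroup (WW p n)) (a : PowerSeries (WW p n)) : Prop :=
  PowerSeries.constantCoeff a = 0 ∧
    IsFGHom (F0.map (resW p n)) (F0.map (resW p n)) (PowerSeries.map (resW p n) a)

/-- The family of automorphisms attached to `1 + p^m a`, with congruences modulo `Jm m`. -/
def Fam (F0 : FormalGroup (WW p n)) (H : FormalGroup (EE p n)) (J : Ideal (EE p n)) (M : ℕ)
    (Jm : ℕ → Ideal (EE p n)) : Prop :=
  ∀ a, IsLift p n F0 a → ∀ m, M ≤ m →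
    ∃ (φ : EE p n →ₐ[WW p n] EE p n) (θ : PowerSeries (EE p n)),
      IsFGHom (H.map φ.toRingHom) H θ ∧ (∀ f ∈ J, φ f ∈ J) ∧ (∀ f, φ f - f ∈ Jm m) ∧
      ∀ k, PowerSeries.coeff k θ - PowerSeries.coeff k (vartheta p n H a m) ∈ Jm m

/-- Congruence ideals in the case `h = 0`. -/
noncomputable def Jz : ℕ → Ideal (EE p n)
  | 0 => mE p n
  | m + 1 => Ideal.span {(p : EE p n)} * Jz m ⊔ Jz m ^ 2

/-- Congruence ideals in the case `h ≥ 1`. -/
noncomputable def Jh (H : FormalGroup (EE p n)) (h m : ℕ) : Ideal (EE p n) :=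
  heightIdeal p n H h ⊔ mE p n ^ (p ^ h) ^ m

/-- The variables that survive modulo `I_h`. -/
def eh (n h : ℕ) [NeZero h] : Fin (n - h) ↪ Fin (n - 1) :=
  ⟨fun s => ⟨h - 1 + s, by have := NeZero.ne h; omega⟩, fun s t hst => by
    have := congrArg Fin.val hst
    ext; simp at this; omega⟩

end Crest.R227
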