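import Crest.Agent.R227.Ob

/-! Row 227. Points of a Noetherian local ring in a complete algebraically closed valued field. -/

set_option autoImplicit false

namespace Crest.R227

open IsLocalRing

theorem exists_prime_avoid_dom {D : Type*} [CommRing D] [IsDomain D] [IsNoetherianRing D]
    [IsLocalRing D] {s : D} (hs : s ∈ maximalIdeal D) (hs0 : s ≠ 0)
    (h : ∀ P : Ideal D, P.IsPrime → P ≠ ⊥ → s ∈ P) :
    ∃ N : ℕ, maximalIdeal D ^ N ≤ Ideal.span {s} := by
  have hsm : Ideal.span {s} ≤ maximalIdeal D := (Ideal.span_singleton_le_iff_mem _).2 hs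
  have hmin : maximalIdeal D ∈ (Ideal.span {s}).minimalPrimes := by
    rw [← Ideal.subset_iUnion_iff_mem_of_isMaximal_of_finite
      (Ideal.finite_minimalPrimes_of_isNoetherianRing D _) ⊥ ⊥ (fun I hI _ _ => hI.1.1)
      bot_ne_top bot_ne_top]
    intro t ht
    by_cases ht0 : t = 0
    · obtain ⟨P, hP, -⟩ := Ideal.exists_minimalPrimes_le hsm
      exact Set.mem_biUnion hP (ht0 ▸ P.zero_mem)
    obtain ⟨P, hP, -⟩ := Ideal.exists_minimalPrimes_le
      ((Ideal.span_singleton_le_iff_mem _).2 ht : Ideal.span {t} ≤ maximalIdeal D)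
    have hPp : P.IsPrime := hP.1.1
    have htP : t ∈ P := (Ideal.span_singleton_le_iff_mem _).1 hP.1.2
    have hP1 := Ideal.height_le_one_of_isPrincipal_of_mem_minimalPrimes _ P hP
    have hsP : s ∈ P := h P hPp fun h0 => ht0 (by rw [h0] at htP; exact htP)
    obtain ⟨P', hP', hle⟩ := Ideal.exists_minimalPrimes_le
      ((Ideal.span_singleton_le_iff_mem _).2 hsP : Ideal.span {s} ≤ P)
    have hPp' : P'.IsPrime := hP'.1.1
    have hsP' : s ∈ P' := (Ideal.span_singleton_le_iff_mem _).1 hP'.1.2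
    rcases hle.lt_or_eq with hlt | rfl
    · exfalso
      have h1 := Ideal.height_add_one_le_of_lt_of_isPrime hlt
      have h2 : P'.height = 0 := by
        have h3 := h1.trans hP1
        generalize P'.height = a at h3
        induction a using ENat.recTopCoe with
        | top => simp at h3
        | coe a =>
          have : a + 1 ≤ 1 := by exact_mod_cast h3
          have : a = 0 := by omega
          simp [this]
      rw [Ideal.height_eq_zero_iff_eq_bot] at h2
      exact hs0 (by rw [h2] at hsP'; exact hsP')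
    · exact Set.mem_biUnion hP' htP
  refine Ideal.exists_pow_le_of_le_radical_of_fg ?_ (IsNoetherian.noetherian _)
  rw [Ideal.radical_eq_sInf]
  refine le_sInf fun P hP => ?_
  exact hmin.2 ⟨hP.2, hP.1⟩ (le_maximalIdeal hP.2.ne_top)

/-- Take `Q` maximal among ideals containing `J` and missing the powers of `s`. It is prime and every
larger prime contains `s`. In `R/Q` the minimal primes over `s` are finitely many of height one; if
the maximal ideal is not one of them pick `t` outside them (prime avoidance); a minimal prime over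
`t` has height `≤ 1`, is nonzero, contains `s`, so is one of them. Hence `𝔪 = √(Q + (s))`. -/
theorem exists_prime_avoid {R : Type*} [CommRing R] [IsNoetherianRing R] [IsLocalRing R]
    (J : Ideal R) {s : R} (hs : s ∈ maximalIdeal R) (hJ : s ∉ J.radical) :
    ∃ Q : Ideal R, Q.IsPrime ∧ J ≤ Q ∧ s ∉ Q ∧
      (∀ P : Ideal R, P.IsPrime → Q < P → s ∈ P) ∧
      ∃ N : ℕ, maximalIdeal R ^ N ≤ Q ⊔ Ideal.span {s} := by
  obtain ⟨Q, hJQ, hQ⟩ : ∃ Q : Ideal R, J ≤ Q ∧
      Maximal (fun I : Ideal R => Disjoint (I : Set R) (Submonoid.powers s)) Q := by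
    have h0 : Disjoint (J : Set R) (Submonoid.powers s) :=
      Set.disjoint_left.2 fun x hx ⟨n, hn⟩ => hJ ⟨n, by
        have hn' : s ^ n = x := hn
        rw [hn']; exact hx⟩
    obtain ⟨Q, hQ, hmax⟩ := set_has_maximal_iff_noetherian.2 (inferInstance : IsNoetherian R R)
      {I : Ideal R | J ≤ I ∧ Disjoint (I : Set R) (Submonoid.powers s)} ⟨J, le_rfl, h0⟩
    refine ⟨Q, hQ.1, hQ.2, fun I hI hle => ?_⟩
    by_contra hne
    exact hmax I ⟨hQ.1.trans hle, hI⟩ (lt_of_le_not_ge hle hne)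
  have hp : Q.IsPrime := Ideal.isPrime_of_maximally_disjoint _ _ hQ.1 fun _ => hQ.not_prop_of_gt
  have hsQ : s ∉ Q := fun h => Set.disjoint_left.1 hQ.1 h (Submonoid.mem_powers s)
  have hbig : ∀ P : Ideal R, P.IsPrime → Q < P → s ∈ P := by
    intro P hP hlt
    obtain ⟨x, hx, n, hn⟩ := Set.not_disjoint_iff.1 (hQ.not_prop_of_gt hlt)
    have hn' : s ^ n = x := hn
    exact hP.mem_of_pow_mem n (hn' ▸ hx)
  refine ⟨Q, hp, hJQ, hsQ, hbig, ?_⟩
  have hsurj : Function.Surjective (Ideal.Quotient.mk Q) := Ideal.Quotient.mk_surjective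
  have := IsLocalRing.of_surjective' (Ideal.Quotient.mk Q) hsurj
  have := IsLocalHom.of_surjective (Ideal.Quotient.mk Q) hsurj
  obtain ⟨N, hN⟩ := exists_prime_avoid_dom (D := R ⧸ Q) (s := Ideal.Quotient.mk Q s)
    (map_nonunit _ s hs) (fun h => hsQ (Ideal.Quotient.eq_zero_iff_mem.1 h))
    fun P hP hP0 => hbig (P.comap (Ideal.Quotient.mk Q)) (hP.comap _) (by
      refine lt_of_le_of_ne (fun x hx => ?_) fun h => hP0 ?_
      · rw [Ideal.mem_comap, Ideal.Quotient.eq_zero_iff_mem.2 hx]; exact P.zero_mem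
      · rw [eq_bot_iff]
        intro y hy
        obtain ⟨y, rfl⟩ := hsurj y
        exact Ideal.Quotient.eq_zero_iff_mem.2 (h ▸ hy))
  refine ⟨N, fun x hx => ?_⟩
  have h1 : Ideal.Quotient.mk Q x ∈ maximalIdeal (R ⧸ Q) ^ N := by
    have h2 := Ideal.mem_map_of_mem (Ideal.Quotient.mk Q) hx
    rw [Ideal.map_pow] at h2
    have h3 : (maximalIdeal R).map (Ideal.Quotient.mk Q) ≤ maximalIdeal (R ⧸ Q) :=
      Ideal.map_le_iff_le_comap.2 fun a ha => map_nonunit (Ideal.Quotient.mk Q) a ha
    exact Ideal.pow_right_mono h3 N h2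
  obtain ⟨c, hc⟩ := Ideal.mem_span_singleton'.1 (hN h1)
  obtain ⟨c, rfl⟩ := hsurj c
  rw [← map_mul, Ideal.Quotient.eq] at hc
  have : x = -(c * s - x) + c * s := by ring
  rw [this]
  exact Submodule.add_mem_sup (Q.neg_mem hc) (Ideal.mem_span_singleton'.2 ⟨c, rfl⟩)

theorem exists_valuationSubring_coarsen {L : Type*} [Field L] (V0 : ValuationSubring L) {σ : L}
    (hσ0 : σ ≠ 0) (hσ : V0.valuation σ < 1) :
    ∃ V : ValuationSubring L, V0 ≤ V ∧ V.valuation σ < 1 ∧
      ∀ y : L, V.valuation y < 1 → ∃ k : ℕ, V.valuation y ^ k ≤ V.valuation σ := by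
  let S : Subring L :=
    { carrier := {y | ∀ k : ℕ, V0.valuation y ^ k * V0.valuation σ ≤ 1}
      mul_mem' := by
        intro a b ha hb k
        have h1 := mul_le_one' (ha (2 * k)) (hb (2 * k))
        rw [← pow_le_one_iff (n := 2) two_ne_zero]
        convert h1 using 1
        rw [map_mul, mul_pow, mul_pow, mul_pow, ← pow_mul, ← pow_mul, mul_comm k 2, sq]
        ac_rfl
      one_mem' := fun k => by simpa using hσ.le
      add_mem' := by
        intro a b ha hb k
        rcases V0.valuation.map_add' a b with h | h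
        · exact (mul_le_mul_left (pow_le_pow_left' h k) _).trans (ha k)
        · exact (mul_le_mul_left (pow_le_pow_left' h k) _).trans (hb k)
      zero_mem' := fun k => mul_le_one' (pow_le_one' (by simp) k) hσ.le
      neg_mem' := fun {a} ha k => by simpa using ha k }
  have hle : V0.toSubring ≤ S := fun y hy k =>
    mul_le_one' (pow_le_one' ((V0.valuation_le_one_iff y).2 hy) k) hσ.le
  have hv0 : V0.valuation σ ≠ 0 := by simpa using hσ0
  refine ⟨V0.ofLE S hle, hle, ?_, fun y hy => ?_⟩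
  · refine (ValuationSubring.mem_nonunits_iff_or _).2 (Or.inr fun h => ?_)
    have h1 : V0.valuation σ⁻¹ ^ 2 * V0.valuation σ ≤ 1 := h 2
    rw [map_inv₀, sq, mul_assoc, inv_mul_cancel₀ hv0, mul_one,
      inv_le_one₀ (zero_lt_iff.2 hv0)] at h1
    exact absurd hσ (not_lt.2 h1)
  · by_cases hy0 : y = 0
    · exact ⟨1, by simp [hy0]⟩
    have h1 := ((ValuationSubring.mem_nonunits_iff_or _).1 hy).resolve_left hy0
    have h2 : ¬ ∀ k : ℕ, V0.valuation y⁻¹ ^ k * V0.valuation σ ≤ 1 := h1
    push Not at h2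
    obtain ⟨k, hk⟩ := h2
    have hy1 : 0 < V0.valuation y ^ k := pow_pos (zero_lt_iff.2 (by simpa using hy0)) k
    rw [map_inv₀, inv_pow, one_lt_inv_mul₀ hy1, ← map_pow] at hk
    obtain ⟨a, ha⟩ := (V0.valuation_le_iff _ _).1 hk.le
    refine ⟨k, ?_⟩
    rw [← map_pow]
    exact (ValuationSubring.valuation_le_iff _ _ _).2 ⟨⟨a, hle a.2⟩, ha⟩

/-- Take a valuation subring `V₀` of `L` dominating `R` (`LocalSubring.exists_le_valuationSubring`
or `Ideal.image_subset_nonunits_valuationSubring`), and coarsen at the prime `√(s V₀)`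
(`ValuationSubring.ofPrime`). A nonzero `y` of the algebraic extension `L` divides a nonzero element
of `R` in `V`, and a nonzero element of `R` divides a power of `s` in `V`. -/
theorem exists_valuationSubring {R : Type*} [CommRing R] [IsDomain R] [IsNoetherianRing R]
    [IsLocalRing R] {L : Type*} [Field L] [Algebra R L] [FaithfulSMul R L]
    [Algebra.IsAlgebraic R L] {s : R} (hs : s ∈ maximalIdeal R) (hs0 : s ≠ 0)
    (hprime : ∀ P : Ideal R, P.IsPrime → P ≠ ⊥ → s ∈ P)
    {N : ℕ} (hN : maximalIdeal R ^ N ≤ Ideal.span {s}) :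
    ∃ V : ValuationSubring L, (∀ r, algebraMap R L r ∈ V) ∧
      (∀ r ∈ maximalIdeal R, V.valuation (algebraMap R L r) < 1) ∧
      (∀ y : L, y ≠ 0 → ∃ k : ℕ, V.valuation (algebraMap R L s) ^ k ≤ V.valuation y) ∧
      ∀ y : L, V.valuation y < 1 → ∃ k : ℕ, V.valuation y ^ k ≤ V.valuation (algebraMap R L s) := by
  have hinj : Function.Injective (algebraMap R L) := FaithfulSMul.algebraMap_injective R L
  have hσ0 : algebraMap R L s ≠ 0 := (map_ne_zero_iff _ hinj).2 hs0
  obtain ⟨V0, hA, hI⟩ := Ideal.image_subset_nonunits_valuationSubring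
    (A := (algebraMap R L).range) (Ideal.span {⟨algebraMap R L s, s, rfl⟩}) (by
      rw [Ne, Ideal.eq_top_iff_one, Ideal.mem_span_singleton']
      rintro ⟨⟨_, a, rfl⟩, ha⟩
      have h1 : a * s = 1 := hinj (by simpa using congrArg Subtype.val ha)
      exact hs (IsUnit.of_mul_eq_one_right a h1))
  have hσ : V0.valuation (algebraMap R L s) < 1 := hI ⟨_, Ideal.subset_span rfl, rfl⟩
  obtain ⟨V, hle, hV1, hV2⟩ := exists_valuationSubring_coarsen V0 hσ0 hσ
  have hR : ∀ r, algebraMap R L r ∈ V := fun r => hle (hA ⟨r, rfl⟩)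
  have hdvd : ∀ {a b : R}, a ∣ b → V.valuation (algebraMap R L b) ≤ V.valuation (algebraMap R L a) := by
    rintro a _ ⟨c, rfl⟩
    exact (V.valuation_le_iff _ _).2 ⟨⟨_, hR c⟩, by simp [mul_comm]⟩
  refine ⟨V, hR, fun r hr => ?_, fun y hy => ?_, hV2⟩
  · have h1 := hdvd (Ideal.mem_span_singleton.1 (hN (Ideal.pow_mem_pow hr N)))
    rw [map_pow, map_pow] at h1
    by_contra h2
    exact absurd (h1.trans_lt hV1) (not_lt.2 (one_le_pow₀ (not_lt.1 h2)))
  · by_cases hyV : y ∈ V
    · obtain ⟨t, ht, r, hr, hyt⟩ := (Algebra.IsAlgebraic.isAlgebraic (R := R)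
        y).exists_nonzero_eq_adjoin_mul (mem_nonZeroDivisors_of_ne_zero hy)
      have htV : t ∈ V := by
        refine Algebra.adjoin_induction (p := fun t _ => t ∈ V) ?_ hR
          (fun _ _ _ _ h1 h2 => V.add_mem _ _ h1 h2) (fun _ _ _ _ h1 h2 => V.mul_mem _ _ h1 h2) ht
        rintro _ rfl
        exact hyV
      have h1 : s ∈ (Ideal.span {r}).radical := by
        rw [Ideal.radical_eq_sInf, Submodule.mem_sInf]
        rintro P ⟨h1, h2⟩
        refine hprime P h2 fun h3 => hr ?_
        rw [h3] at h1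
        exact h1 (Ideal.subset_span rfl)
      obtain ⟨k, hk⟩ := h1
      have h2 := hdvd (Ideal.mem_span_singleton.1 hk)
      rw [map_pow, map_pow] at h2
      exact ⟨k, h2.trans ((V.valuation_le_iff _ _).2 ⟨⟨t, htV⟩, by rw [← hyt, mul_comm]⟩)⟩
    · refine ⟨0, ?_⟩
      rw [pow_zero]
      exact (not_le.1 fun h => hyV ((V.valuation_le_one_iff y).1 h)).le

open Polynomial in
theorem isAlgClosed_of_dense_eval {K : Type*} [NormedField K] {f g : K[X]} {d : ℕ}
    (hf : f.natDegree = d) (hg : g.natDegree = d) {ε R : ℝ} (hR : 1 ≤ R)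
    (h : ∀ n, ‖g.coeff n - f.coeff n‖ < ε) {x : K} (hx : ‖x‖ ≤ R) :
    ‖g.eval x - f.eval x‖ ≤ (d + 1) * (ε * R ^ d) := by
  have hε : 0 ≤ ε := (norm_nonneg _).trans (h 0).le
  rw [eval_eq_sum_range, eval_eq_sum_range, hf, hg, ← Finset.sum_sub_distrib]
  refine (norm_sum_le _ _).trans ?_
  have : ∀ i ∈ Finset.range (d + 1), ‖g.coeff i * x ^ i - f.coeff i * x ^ i‖ ≤ ε * R ^ d := by
    intro i hi
    rw [← sub_mul, norm_mul, norm_pow]
    refine mul_le_mul (h i).le ?_ (by positivity) hε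
    refine (pow_le_pow_left₀ (norm_nonneg x) hx i).trans ?_
    exact pow_le_pow_right₀ hR (Nat.le_of_lt_succ (Finset.mem_range.1 hi))
  refine (Finset.sum_le_sum this).trans ?_
  simp

open Polynomial in
theorem isAlgClosed_of_dense_near {K : Type*} [NormedField K] {g : K[X]} (hg : g.Monic)
    (hs : g.Splits) (hd : g.natDegree ≠ 0) (a : K) :
    ∃ b, g.eval b = 0 ∧ ‖a - b‖ ^ g.natDegree ≤ ‖g.eval a‖ := by
  classical
  have hcard := hs.natDegree_eq_card_roots
  have hne : g.roots.toFinset.Nonempty := by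
    rw [Multiset.toFinset_nonempty]
    intro h0
    rw [h0] at hcard
    exact hd (by simpa using hcard)
  obtain ⟨b, hb, hmin⟩ := Finset.exists_min_image _ (fun b => ‖a - b‖) hne
  rw [Multiset.mem_toFinset] at hb
  refine ⟨b, (mem_roots hg.ne_zero).1 hb, ?_⟩
  rw [hs.eval_eq_prod_roots_of_monic hg]
  have h1 : ‖(g.roots.map (fun x => a - x)).prod‖ = (g.roots.map fun x => ‖a - x‖).prod := by
    induction g.roots using Multiset.induction_on with
    | empty => simp
    | cons c s ih => simp [ih]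
  rw [h1, hcard]
  have := Multiset.prod_map_le_prod_map₀ (s := g.roots) (fun _ => ‖a - b‖) (fun x => ‖a - x‖)
    (fun _ _ => norm_nonneg _) (fun x hx => hmin x (Multiset.mem_toFinset.2 hx))
  simpa using this

open Polynomial in
theorem isAlgClosed_of_dense_step {L K : Type*} [Field L] [IsAlgClosed L] [NormedField K]
    (j : L →+* K) (hj : DenseRange j) {f : K[X]} (hf : f.Monic) (hd : f.natDegree ≠ 0) (a : K)
    {δ : ℝ} (hδ : 0 < δ) :
    ∃ b, ‖f.eval b‖ ≤ δ ∧ ‖a - b‖ ^ f.natDegree ≤ ‖f.eval a‖ + δ := by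
  let _ : Algebra L K := j.toAlgebra
  set d := f.natDegree with hdd
  set R : ℝ := ‖a‖ + (‖f.eval a‖ + δ + 1) with hR
  have hR1 : 1 ≤ R := by have := norm_nonneg a; have := norm_nonneg (f.eval a); linarith
  have hpos : 0 < ((d : ℝ) + 1) * R ^ d := by positivity
  obtain ⟨g, hg, hdeg, hc⟩ := exists_monic_and_natDegree_eq_and_norm_map_algebraMap_coeff_sub_lt
    (K := L) (L := K) hj hf (ε := δ / ((d + 1) * R ^ d)) (by positivity)
  have hgd : (g.map (algebraMap L K)).natDegree = d := by rw [natDegree_map, ← hdeg]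
  have hb : ∀ x : K, ‖x‖ ≤ R → ‖(g.map (algebraMap L K)).eval x - f.eval x‖ ≤ δ := by
    intro x hx
    refine (isAlgClosed_of_dense_eval rfl hgd hR1 hc hx).trans (le_of_eq ?_)
    field_simp
    rfl
  obtain ⟨b, hb0, hb1⟩ := isAlgClosed_of_dense_near (hg.map (algebraMap L K))
    ((IsAlgClosed.splits g).map _) (by rwa [hgd]) a
  rw [hgd] at hb1
  have ha : ‖a‖ ≤ R := by have := norm_nonneg (f.eval a); linarith
  have h2 : ‖a - b‖ ^ d ≤ ‖f.eval a‖ + δ := by
    refine hb1.trans ?_
    have := norm_add_le ((g.map (algebraMap L K)).eval a - f.eval a) (f.eval a)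
    rw [sub_add_cancel] at this
    linarith [hb a ha]
  refine ⟨b, ?_, h2⟩
  have h3 : ‖a - b‖ ≤ ‖f.eval a‖ + δ + 1 := by
    rcases le_or_gt ‖a - b‖ 1 with h | h
    · have := norm_nonneg (f.eval a); linarith
    · have := le_self_pow₀ h.le hd
      linarith
  have h4 : ‖b‖ ≤ R := by
    have := norm_sub_le a (a - b)
    rw [sub_sub_cancel] at this
    linarith
  have := hb b h4
  rwa [hb0, zero_sub, norm_neg] at this

/-- Any characteristic, no Krasner: for monic `f` of degree `d` choose monic `f_j` over `L` with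
coefficients within `2^{-dj}`-ish of those of `f`, a root `a_0` of `f_0`, and inductively a root
`a_{j+1}` of `f_{j+1}` nearest to `a_j`: `‖a_{j+1} - a_j‖^d ≤ ‖f_{j+1}(a_j) - f_j(a_j)‖`; roots are
bounded, so `a_j` is Cauchy and its limit is a root of `f`.
See also `Mathlib/Analysis/Normed/Field/Approximation.lean`. -/
theorem isAlgClosed_of_dense {L K : Type*} [Field L] [IsAlgClosed L] [NormedField K]
    [CompleteSpace K] (j : L →+* K) (hj : DenseRange j) : IsAlgClosed K := by
  refine IsAlgClosed.of_exists_root K fun f hf hirr => ?_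
  have hd : f.natDegree ≠ 0 := hirr.natDegree_pos.ne'
  set d := f.natDegree with hdd
  let δ : ℕ → ℝ := fun n => (1 / 2) * ((1 / 2) ^ n) ^ d
  have hδ : ∀ n, 0 < δ n := fun n => by positivity
  have hδle : ∀ n, δ (n + 1) ≤ δ n := fun n => by
    refine mul_le_mul_of_nonneg_left (pow_le_pow_left₀ (by positivity) ?_ d) (by norm_num)
    exact pow_le_pow_of_le_one (by norm_num) (by norm_num) (Nat.le_succ n)
  choose F hF1 hF2 using fun (a : K) (n : ℕ) => isAlgClosed_of_dense_step j hj hf hd a (hδ n)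
  let a : ℕ → K := fun n => Nat.rec (F 0 0) (fun n x => F x (n + 1)) n
  have ha : ∀ n, ‖f.eval (a n)‖ ≤ δ n := by
    intro n
    cases n with
    | zero => exact hF1 0 0
    | succ n => exact hF1 (a n) (n + 1)
  have hdist : ∀ n, dist (a n) (a (n + 1)) ≤ 1 * (1 / 2) ^ n := by
    intro n
    rw [dist_eq_norm, one_mul]
    have h1 : ‖a n - a (n + 1)‖ ^ d ≤ ((1 / 2) ^ n) ^ d := by
      have h2 : ‖a n - a (n + 1)‖ ^ d ≤ ‖f.eval (a n)‖ + δ (n + 1) := hF2 (a n) (n + 1)
      have h3 : δ n + δ n = ((1 / 2) ^ n) ^ d := by simp only [δ]; ring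
      linarith [ha n, hδle n]
    exact (pow_le_pow_iff_left₀ (norm_nonneg _) (by positivity) hd).1 h1
  obtain ⟨x, hx⟩ := cauchySeq_tendsto_of_complete
    (cauchySeq_of_le_geometric (1 / 2) 1 (by norm_num) hdist)
  refine ⟨x, ?_⟩
  have h1 : Filter.Tendsto (fun n => ‖f.eval (a n)‖) Filter.atTop (nhds ‖f.eval x‖) :=
    ((f.continuous.tendsto x).comp hx).norm
  have h2 : Filter.Tendsto (fun n : ℕ => ((1 : ℝ) / 2) ^ n) Filter.atTop (nhds 0) :=
    tendsto_pow_atTop_nhds_zero_of_lt_one (by norm_num) (by norm_num)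
  have h3 : ‖f.eval x‖ ≤ 0 := by
    refine le_of_tendsto_of_tendsto' h1 h2 fun n => (ha n).trans ?_
    have h4 : (((1 : ℝ) / 2) ^ n) ^ d ≤ (1 / 2) ^ n :=
      pow_le_of_le_one (by positivity) (pow_le_one₀ (by norm_num) (by norm_num)) hd
    have h5 : (0 : ℝ) ≤ (1 / 2) ^ n := by positivity
    simp only [δ]
    linarith
  exact norm_le_zero_iff.1 h3

theorem exists_completion_arch {L : Type} [Field L] (V : ValuationSubring L) {s : L}
    (hs0 : s ≠ 0)
    (h1 : ∀ y : L, y ≠ 0 → ∃ k : ℕ, V.valuation s ^ k ≤ V.valuation y)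
    (h2 : ∀ y : L, V.valuation y < 1 → ∃ k : ℕ, V.valuation y ^ k ≤ V.valuation s) :
    MulArchimedean V.ValueGroup := by
  constructor
  intro x y hy
  obtain ⟨a, rfl⟩ := V.valuation_surjective x
  obtain ⟨b, rfl⟩ := V.valuation_surjective y
  by_cases ha : a = 0
  · exact ⟨0, by simp [ha]⟩
  have hb0 : V.valuation b ≠ 0 := (lt_trans zero_lt_one hy).ne'
  have hbpos : 0 < V.valuation b := lt_trans zero_lt_one hy
  have hapos : 0 < V.valuation a := by
    rw [zero_lt_iff]; simpa using ha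
  obtain ⟨k, hk⟩ := h1 a⁻¹ (inv_ne_zero ha)
  obtain ⟨m, hm⟩ := h2 b⁻¹ (by rw [map_inv₀]; exact inv_lt_one_of_one_lt₀ hy)
  refine ⟨m * k, ?_⟩
  have h3 : (V.valuation b⁻¹ ^ m) ^ k ≤ V.valuation a⁻¹ :=
    (pow_le_pow_left₀ zero_le hm k).trans hk
  rw [← pow_mul, map_inv₀, map_inv₀, inv_pow] at h3
  exact (inv_le_inv₀ (pow_pos hbpos _) hapos).mp h3

theorem exists_completion_abs {L : Type} [Field L] (V : ValuationSubring L) {s : L}
    (hs0 : s ≠ 0) (hs : V.valuation s < 1)
    (h1 : ∀ y : L, y ≠ 0 → ∃ k : ℕ, V.valuation s ^ k ≤ V.valuation y)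
    (h2 : ∀ y : L, V.valuation y < 1 → ∃ k : ℕ, V.valuation y ^ k ≤ V.valuation s) :
    ∃ a : AbsoluteValue L ℝ, (∀ x y, a (x + y) ≤ max (a x) (a y)) ∧
      (∀ y, V.valuation y ≤ 1 → a y ≤ 1) ∧ (∀ y, V.valuation y < 1 → a y < 1) := by
  haveI := exists_completion_arch V hs0 h1 h2
  haveI : V.valuation.IsNontrivial := ⟨⟨s, by simpa using hs0, hs.ne⟩⟩
  haveI : MulArchimedean (MonoidWithZeroHom.ValueGroup₀ (.ofClass V.valuation)) :=
    MulArchimedean.comap MonoidWithZeroHom.ValueGroup₀.embedding.toMonoidHom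
      MonoidWithZeroHom.ValueGroup₀.embedding_strictMono
  obtain ⟨hv⟩ := (Valuation.nonempty_rankOne_iff_mulArchimedean (v := V.valuation)).mpr this
  have hle : ∀ x y, V.valuation.norm x ≤ V.valuation.norm y ↔ V.valuation x ≤ V.valuation y := by
    intro x y
    rw [← V.valuation.restrict_le_iff, ← (Valuation.RankOne.strictMono V.valuation).le_iff_le]
    rfl
  have hone : V.valuation.norm 1 = 1 := by simp [Valuation.norm_def]
  refine ⟨{ toFun := V.valuation.norm
            map_mul' := by intro x y; simp [Valuation.norm_def]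
            nonneg' := V.valuation.norm_nonneg
            eq_zero' := by
              intro x
              constructor
              · exact V.valuation.norm_eq_zero
              · rintro rfl; simp [Valuation.norm_def]
            add_le' := by
              intro x y
              exact (V.valuation.norm_add_le x y).trans
                (max_le_add_of_nonneg (V.valuation.norm_nonneg _) (V.valuation.norm_nonneg _)) },
    V.valuation.norm_add_le, ?_, ?_⟩
  · intro y hy
    show V.valuation.norm y ≤ 1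
    rw [← hone, hle]; simpa using hy
  · intro y hy
    show V.valuation.norm y < 1
    rw [← hone, ← not_le, hle]; simpa using hy

/-- An archimedean valuation has rank one (`Valuation.nonempty_rankOne_iff_mulArchimedean`);
complete (`UniformSpace.Completion`, `isAlgClosed_of_dense`, cf. `PadicComplex`). -/
theorem exists_completion {L : Type} [Field L] [IsAlgClosed L] (V : ValuationSubring L) {s : L}
    (hs0 : s ≠ 0) (hs : V.valuation s < 1)
    (h1 : ∀ y : L, y ≠ 0 → ∃ k : ℕ, V.valuation s ^ k ≤ V.valuation y)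
    (h2 : ∀ y : L, V.valuation y < 1 → ∃ k : ℕ, V.valuation y ^ k ≤ V.valuation s) :
    ∃ (K : Type) (_ : NontriviallyNormedField K) (_ : IsUltrametricDist K) (_ : CompleteSpace K)
      (_ : IsAlgClosed K) (j : L →+* K),
      ∀ y, (y ∈ V → ‖j y‖ ≤ 1) ∧ (V.valuation y < 1 → ‖j y‖ < 1) := by
  obtain ⟨a, hadd, hle, hlt⟩ := exists_completion_abs V hs0 hs h1 h2
  let j : L →+* a.Completion :=
    (UniformSpace.Completion.coeRingHom (α := WithAbs a)).comp (WithAbs.equiv a).symm.toRingHom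
  have hj : ∀ y, ‖j y‖ = a y := by
    intro y
    show ‖((WithAbs.toAbs a y : WithAbs a) : UniformSpace.Completion (WithAbs a))‖ = a y
    rw [UniformSpace.Completion.norm_coe]; rfl
  have hd : DenseRange j := by
    have : Set.range j = Set.range ((↑) : WithAbs a → UniformSpace.Completion (WithAbs a)) := by
      ext z; constructor
      · rintro ⟨y, rfl⟩; exact ⟨WithAbs.toAbs a y, rfl⟩
      · rintro ⟨y, rfl⟩; exact ⟨y.ofAbs, rfl⟩
    unfold DenseRange
    rw [this]
    exact UniformSpace.Completion.denseRange_coe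
  have hU : IsUltrametricDist a.Completion := by
    refine IsUltrametricDist.isUltrametricDist_of_forall_norm_add_le_max_norm ?_
    intro x y
    induction x, y using UniformSpace.Completion.induction_on₂ with
    | hp => exact isClosed_le (by fun_prop) (by fun_prop)
    | ih x y =>
      rw [← UniformSpace.Completion.coe_add]
      simp only [UniformSpace.Completion.norm_coe]
      exact hadd x.ofAbs y.ofAbs
  letI : NontriviallyNormedField a.Completion :=
    { (inferInstance : NormedField a.Completion) with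
      non_trivial := ⟨j s⁻¹, by
        rw [hj, map_inv₀]
        exact (one_lt_inv₀ (a.pos hs0)).mpr (hlt s hs)⟩ }
  refine ⟨a.Completion, inferInstance, hU, inferInstance, isAlgClosed_of_dense j hd, j, ?_⟩
  intro y
  refine ⟨fun hy => ?_, fun hy => ?_⟩
  · rw [hj]; exact hle y ((V.valuation_le_one_iff y).mpr hy)
  · rw [hj]; exact hlt y hy

/-- Assembly. `ϖ` is a square root of the image of a generator of `𝔪` of largest norm. Use
`L = AlgebraicClosure (FractionRing (R ⧸ Q))`. -/
theorem exists_point {R : Type} [CommRing R] [IsNoetherianRing R] [IsLocalRing R]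
    (J : Ideal R) {s : R} (hs : s ∈ maximalIdeal R) (hJ : s ∉ J.radical) :
    ∃ (K : Type) (_ : NontriviallyNormedField K) (_ : IsUltrametricDist K) (_ : CompleteSpace K)
      (_ : IsAlgClosed K) (u : Unif K) (x : R →+* Ob K),
      (∀ f ∈ maximalIdeal R, x f ∈ u.I ^ 2) ∧ (∀ f ∈ J, x f = 0) ∧ x s ≠ 0 := by
  classical
  obtain ⟨Q, hp, hJQ, hsQ, hbig, N, hN⟩ := exists_prime_avoid J hs hJ
  have hsurj : Function.Surjective (Ideal.Quotient.mk Q) := Ideal.Quotient.mk_surjective
  have := IsLocalRing.of_surjective' (Ideal.Quotient.mk Q) hsurj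
  have := IsLocalHom.of_surjective (Ideal.Quotient.mk Q) hsurj
  let L := AlgebraicClosure (FractionRing (R ⧸ Q))
  have hinj : Function.Injective (algebraMap (R ⧸ Q) L) := by
    rw [IsScalarTower.algebraMap_eq (R ⧸ Q) (FractionRing (R ⧸ Q)) L]
    exact (algebraMap (FractionRing (R ⧸ Q)) L).injective.comp (IsFractionRing.injective _ _)
  have : FaithfulSMul (R ⧸ Q) L := (faithfulSMul_iff_algebraMap_injective _ _).2 hinj
  have : Algebra.IsAlgebraic (R ⧸ Q) L :=
    (IsFractionRing.comap_isAlgebraic_iff (K := FractionRing (R ⧸ Q))).2 inferInstance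
  have hs0 : Ideal.Quotient.mk Q s ≠ 0 := fun h => hsQ (Ideal.Quotient.eq_zero_iff_mem.1 h)
  have hsm : Ideal.Quotient.mk Q s ∈ maximalIdeal (R ⧸ Q) := map_nonunit _ s hs
  have hmap : (maximalIdeal R).map (Ideal.Quotient.mk Q) = maximalIdeal (R ⧸ Q) := by
    refine le_antisymm
      (Ideal.map_le_iff_le_comap.2 fun a ha => map_nonunit (Ideal.Quotient.mk Q) a ha) ?_
    intro y hy
    obtain ⟨y, rfl⟩ := hsurj y
    exact Ideal.mem_map_of_mem _ fun hu => hy (hu.map _)
  obtain ⟨V, hV1, hV2, hV3, hV4⟩ := exists_valuationSubring (R := R ⧸ Q) (L := L) hsm hs0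
    (fun P hP hP0 => hbig (P.comap (Ideal.Quotient.mk Q)) (hP.comap _) (by
      refine lt_of_le_of_ne (fun x hx => ?_) fun h => hP0 ?_
      · rw [Ideal.mem_comap, Ideal.Quotient.eq_zero_iff_mem.2 hx]; exact P.zero_mem
      · rw [eq_bot_iff]
        intro y hy
        obtain ⟨y, rfl⟩ := hsurj y
        exact Ideal.Quotient.eq_zero_iff_mem.2 (h ▸ hy))) (N := N) (by
      rw [← hmap, ← Ideal.map_pow]
      refine (Ideal.map_mono hN).trans ?_
      rw [Ideal.map_sup, Ideal.map_quotient_self, bot_sup_eq, Ideal.map_span, Set.image_singleton])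
  have hsL : algebraMap (R ⧸ Q) L (Ideal.Quotient.mk Q s) ≠ 0 := fun h =>
    hs0 (hinj (by rw [h, map_zero]))
  obtain ⟨K, i1, i2, i3, i4, j, hj⟩ := exists_completion V hsL (hV2 _ hsm) hV3 hV4
  let x0 : R →+* K := j.comp ((algebraMap (R ⧸ Q) L).comp (Ideal.Quotient.mk Q))
  let x : R →+* Ob K := x0.codRestrict (Ob K) fun r => (hj _).1 (hV1 _)
  have hx : ∀ r, (x r : K) = x0 r := fun _ => rfl
  have hlt : ∀ r ∈ maximalIdeal R, ‖x0 r‖ < 1 := fun r hr =>
    (hj _).2 (hV2 _ (map_nonunit (Ideal.Quotient.mk Q) r hr))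
  have hxs : x0 s ≠ 0 := fun h => hsL (j.injective (by rw [map_zero]; exact h))
  obtain ⟨T, hT⟩ := (IsNoetherian.noetherian (maximalIdeal R) : (maximalIdeal R).FG)
  obtain ⟨g, hg, hmax⟩ := Finset.exists_max_image (insert s T) (fun r => ‖x0 r‖)
    (Finset.insert_nonempty _ _)
  have hgm : g ∈ maximalIdeal R := by
    rcases Finset.mem_insert.1 hg with rfl | h
    · exact hs
    · rw [← hT]; exact Submodule.subset_span h
  obtain ⟨w, hw⟩ := IsAlgClosed.exists_pow_nat_eq (x0 g) two_pos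
  have hw2 : ‖w‖ ^ 2 = ‖x0 g‖ := by rw [← norm_pow, hw]
  have hw1 : ‖w‖ < 1 := by
    have := hlt g hgm
    nlinarith [norm_nonneg w]
  have hw0 : 0 < ‖w‖ := by
    have h1 := (norm_pos_iff.2 hxs).trans_le (hmax s (Finset.mem_insert_self _ _))
    rw [← hw2] at h1
    exact lt_of_le_of_ne (norm_nonneg w) fun h => by rw [← h] at h1; simp at h1
  let u : Unif K := ⟨⟨w, hw1.le⟩, hw0, hw1⟩
  refine ⟨K, i1, i2, i3, i4, u, x, fun f hf => ?_, fun f hf => ?_, fun h => hxs ?_⟩
  · have : maximalIdeal R ≤ (u.I ^ 2).comap x := by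
      rw [← hT, Submodule.span_le]
      intro r hr
      change x r ∈ u.I ^ 2
      rw [u.mem_pow]
      exact (hmax r (Finset.mem_insert_of_mem hr)).trans hw2.ge
    exact this hf
  · ext1
    rw [hx]
    simp [x0, Ideal.Quotient.eq_zero_iff_mem.2 (hJQ hf)]
  · rw [← hx, h]; rfl

end Crest.R227
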