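import Crest.Prelude.Def_LubinTate

/-! Row 227. Two self-contained lemmas for the characteristic-zero case. -/

set_option autoImplicit false

namespace Crest.R227

section dim
variable {k K : Type*} [Field k] [Fintype k] [NormedField K] [IsUltrametricDist K] (χ : k →*₀ K)

omit [IsUltrametricDist K] in
theorem dim_lemma_norm {c : k} (hc : c ≠ 0) : ‖χ c‖ = 1 := by
  have h : ‖χ c‖ ^ (Fintype.card k - 1) = 1 := by
    rw [← norm_pow, ← map_pow, FiniteField.pow_card_sub_one_eq_one c hc, map_one, norm_one]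
  have h1 : Fintype.card k - 1 ≠ 0 := by
    have := Fintype.one_lt_card (α := k)
    omega
  exact (pow_eq_one_iff_of_nonneg (norm_nonneg _) h1).1 h

theorem dim_lemma_eq (hχadd : ∀ c c', ‖χ (c + c') - χ c - χ c'‖ < 1) {u v : k}
    (h : ‖χ u - χ v‖ < 1) : u = v := by
  by_contra hne
  have h1 := dim_lemma_norm χ (sub_ne_zero.2 hne)
  have h2 := hχadd v (u - v)
  rw [add_sub_cancel] at h2
  have e : χ (u - v) = (χ u - χ v) + -(χ u - χ v - χ (u - v)) := by ring
  have := IsUltrametricDist.norm_add_le_max (χ u - χ v) (-(χ u - χ v - χ (u - v)))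
  rw [← e, norm_neg, h1] at this
  exact absurd (this.trans_lt (max_lt h h2)) (lt_irrefl _)

omit [IsUltrametricDist K] in
theorem dim_lemma_geom {c : k} (hc : c ≠ 0) (hc1 : χ c ≠ 1) :
    ∑ i ∈ Finset.range (Fintype.card k - 1), (χ c)⁻¹ ^ (i + 1) = 0 := by
  have h1 : (χ c)⁻¹ ^ (Fintype.card k - 1) = 1 := by
    rw [inv_pow, ← map_pow, FiniteField.pow_card_sub_one_eq_one c hc, map_one, inv_one]
  have h2 : (χ c)⁻¹ ≠ 1 := fun h => hc1 (inv_eq_one.1 h)
  simp only [pow_succ, ← Finset.sum_mul]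
  rw [geom_sum_eq h2, h1, sub_self, zero_div, zero_mul]

end dim

/-- `ℓ_i(y) = ∑_{c ≠ 0} χ(c)^{-i} λ(m_c y)`, `1 ≤ i ≤ q-1`, sum to `(q-1) λ`, so some `ℓ = ℓ_i ≠ 0`;
`ℓ(m_c y) = χ(c)^i ℓ(y)`. With `b = m_c + m_c' - m_{c+c'}`, `ℓ(b y) = β ℓ(y)`; smallness forces
`‖β‖ < 1`, so `c ↦ c^i` is additive on `k`, hence bijective, and the characters `χ^{i p^j}`
(`j < n`) are distinct. The functions `ℓ ∘ S^j` are nonzero eigenfunctions
(`linearIndependent_monoidHom`). -/
theorem dim_lemma (p : ℕ) [Fact p.Prime] (n : ℕ) (hn : 1 ≤ n) {K : Type*} [NormedField K]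
    [IsUltrametricDist K] {M : Type*} [AddCommGroup M] (χ : GaloisField p n →*₀ K)
    (hχadd : ∀ c c', ‖χ (c + c') - χ c - χ c'‖ < 1) (hp0 : (p : K) ≠ 0) (hp1 : ‖(p : K)‖ < 1)
    (mc : GaloisField p n → M →+ M) (mc_mul : ∀ c c' y, mc (c * c') y = mc c (mc c' y))
    (mc_one : ∀ y, mc 1 y = y) (mc_zero : ∀ y, mc 0 y = 0) (S : M → M)
    (hS : ∀ c y, S (mc c y) = mc (c ^ p) (S y)) (lam : M →+ K) (hne : lam ≠ 0)
    (hSn : ∀ c y, lam (mc c (S^[n] y)) = p * lam (mc c y))
    (hsmall : ∀ c c' y, ∀ ε : ℝ, 0 < ε → ∃ k : ℕ, ∀ c'',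
      ‖lam (mc c'' ((mc c + mc c' - mc (c + c'))^[k] y))‖ < ε)
    (U : Submodule K (M → K)) (hU : ∀ c, ∀ l < n, (fun y => lam (mc c (S^[l] y))) ∈ U) :
    ∃ v : Fin n → (M → K), LinearIndependent K v ∧ ∀ i, v i ∈ U := by
  classical
  let _ : Fintype (GaloisField p n) := Fintype.ofFinite _
  have hcard : Fintype.card (GaloisField p n) = p ^ n := by
    rw [← Nat.card_eq_fintype_card, GaloisField.card p n (by omega)]
  have hinj : ∀ u v, χ u = χ v → u = v := fun u v h =>
    dim_lemma_eq χ hχadd (by rw [h, sub_self, norm_zero]; exact one_pos)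
  obtain ⟨L, hL⟩ : ∃ L : ℕ → M →+ K, ∀ i y, L i y =
      ∑ c : (GaloisField p n)ˣ, (χ c)⁻¹ ^ (i + 1) * lam (mc c y) :=
    ⟨fun i => ∑ c : (GaloisField p n)ˣ,
      (AddMonoidHom.mulLeft ((χ c)⁻¹ ^ (i + 1))).comp (lam.comp (mc c)), fun i y => by
        simp [AddMonoidHom.finsetSum_apply]⟩
  -- some `L i` is non-zero
  obtain ⟨i, y₀, hy₀⟩ : ∃ i y₀, L i y₀ ≠ 0 := by
    by_contra hcon
    push Not at hcon
    apply hne
    ext y
    have h1 : ∑ i ∈ Finset.range (Fintype.card (GaloisField p n) - 1), L i y =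
        ((Fintype.card (GaloisField p n) - 1 : ℕ) : K) * lam y := by
      simp only [hL]
      rw [Finset.sum_comm, Finset.sum_eq_single (1 : (GaloisField p n)ˣ)]
      · simp [mc_one]
      · intro c _ hc
        rw [← Finset.sum_mul, dim_lemma_geom χ c.ne_zero, zero_mul]
        intro h
        exact hc (Units.ext (hinj _ _ (by rw [h, Units.val_one, map_one])))
      · simp
    simp only [hcon, Finset.sum_const_zero] at h1
    have h2 : ((Fintype.card (GaloisField p n) - 1 : ℕ) : K) ≠ 0 := by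
      rw [Nat.cast_sub Fintype.card_pos, hcard, Nat.cast_pow, Nat.cast_one, sub_ne_zero]
      intro h
      have := pow_lt_one₀ (norm_nonneg _) hp1 (show n ≠ 0 by omega)
      rw [← norm_pow, h, norm_one] at this
      exact lt_irrefl _ this
    exact (mul_eq_zero.1 h1.symm).resolve_left h2
  have heig : ∀ c y, L i (mc c y) = χ c ^ (i + 1) * L i y := by
    intro c y
    by_cases hc : c = 0
    · simp [hc, mc_zero]
    · rw [hL, hL, Finset.mul_sum]
      refine Fintype.sum_equiv (Equiv.mulRight (Units.mk0 c hc)) _ _ fun d => ?_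
      have h0 : χ c ≠ 0 := (map_ne_zero χ).2 hc
      simp only [Equiv.coe_mulRight, Units.val_mul, Units.val_mk0, map_mul, mc_mul, mul_inv,
        mul_pow, inv_pow]
      field_simp
  -- `c ↦ c ^ (i + 1)` is additive
  have hadd : ∀ c c' : GaloisField p n, (c + c') ^ (i + 1) = c ^ (i + 1) + c' ^ (i + 1) := by
    intro c c'
    obtain ⟨β, hβ⟩ : ∃ β, β = χ c ^ (i + 1) + χ c' ^ (i + 1) - χ (c + c') ^ (i + 1) := ⟨_, rfl⟩
    have h1 : ∀ (k : ℕ) (y : M), L i ((mc c + mc c' - mc (c + c'))^[k] y) = β ^ k * L i y := by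
      intro k
      induction k with
      | zero => simp
      | succ k ih =>
        intro y
        rw [Function.iterate_succ_apply', AddMonoidHom.sub_apply, AddMonoidHom.add_apply, map_sub,
          map_add, heig, heig, heig, ih, hβ]
        ring
    have h2 : ‖β‖ < 1 := by
      by_contra hcon
      obtain ⟨k, hk⟩ := hsmall c c' y₀ _ (norm_pos_iff.2 hy₀)
      obtain ⟨d, -, hd⟩ := IsUltrametricDist.exists_norm_finsetSum_le_of_nonempty
        (Finset.univ_nonempty (α := (GaloisField p n)ˣ))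
        (fun d => (χ d)⁻¹ ^ (i + 1) * lam (mc d ((mc c + mc c' - mc (c + c'))^[k] y₀)))
      rw [← hL, h1, norm_mul, norm_mul, norm_pow, norm_pow, norm_inv,
        dim_lemma_norm χ d.ne_zero, inv_one, one_pow, one_mul] at hd
      have h3 : 1 * ‖L i y₀‖ ≤ ‖β‖ ^ k * ‖L i y₀‖ :=
        mul_le_mul_of_nonneg_right (one_le_pow₀ (not_lt.1 hcon)) (norm_nonneg _)
      have := hk d
      linarith
    symm
    refine dim_lemma_eq χ hχadd ?_
    have e : χ (c ^ (i + 1) + c' ^ (i + 1)) - χ ((c + c') ^ (i + 1)) =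
        (χ (c ^ (i + 1) + c' ^ (i + 1)) - χ (c ^ (i + 1)) - χ (c' ^ (i + 1))) + β := by
      simp only [hβ, map_pow]
      ring
    rw [e]
    exact (IsUltrametricDist.norm_add_le_max _ _).trans_lt (max_lt (hχadd _ _) h2)
  have hsurj : Function.Surjective fun c : GaloisField p n => c ^ (i + 1) := by
    let φ : GaloisField p n →+* GaloisField p n :=
      { toFun := fun c => c ^ (i + 1)
        map_one' := one_pow _
        map_mul' := fun a b => mul_pow a b _
        map_zero' := zero_pow (Nat.succ_ne_zero i)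
        map_add' := hadd }
    exact Finite.surjective_of_injective φ.injective
  -- the characters
  let ψ : Fin n → (GaloisField p n →* K) := fun j =>
    (χ : GaloisField p n →* K).comp (powMonoidHom (p ^ (j : ℕ) * (i + 1)))
  have hψ : ∀ j c, ψ j c = χ (c ^ p ^ (j : ℕ)) ^ (i + 1) := fun j c => by
    simp [ψ, pow_mul]
  have hψinj : Function.Injective ψ := by
    intro j j' h
    have hb := (FiniteField.bijective_frobeniusAlgHom_pow (ZMod p) (GaloisField p n)).1
    have hr := GaloisField.finrank p (show n ≠ 0 by omega)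
    have := @hb (j.cast hr.symm) (j'.cast hr.symm) (by
      ext d
      obtain ⟨c, rfl⟩ := hsurj d
      have h1 := DFunLike.congr_fun h c
      rw [hψ, hψ, ← map_pow, ← map_pow] at h1
      have h2 := hinj _ _ h1
      simp only [AlgHom.coe_pow, FiniteField.coe_frobeniusAlgHom, pow_iterate, ZMod.card,
        Fin.val_cast]
      rw [← pow_mul, ← pow_mul, mul_comm, mul_comm (i + 1), pow_mul, pow_mul]
      exact h2)
    exact Fin.cast_injective _ this
  have hSj : ∀ (j : ℕ) c y, S^[j] (mc c y) = mc (c ^ p ^ j) (S^[j] y) := by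
    intro j
    induction j with
    | zero => simp
    | succ j ih =>
      intro c y
      rw [Function.iterate_succ_apply', Function.iterate_succ_apply', ih, hS, ← pow_mul, pow_succ]
  refine ⟨fun j y => L i (S^[j] y), ?_, fun j => ?_⟩
  · rw [Fintype.linearIndependent_iff]
    intro a ha j
    have hli := Fintype.linearIndependent_iff.1
      ((linearIndependent_monoidHom (GaloisField p n) K).comp ψ hψinj)
      (fun j' => a j' * L i (S^[j'] (S^[n - j] y₀))) (by
        ext c
        have := congrFun ha (mc c (S^[n - j] y₀))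
        simp only [Finset.sum_apply, Pi.smul_apply, smul_eq_mul, hSj, heig, Pi.zero_apply] at this
        simp only [Finset.sum_apply, Pi.smul_apply, smul_eq_mul, Function.comp_apply, hψ,
          Pi.zero_apply]
        rw [← this]
        exact Finset.sum_congr rfl fun j' _ => by ring) j
    have h1 : L i (S^[j] (S^[n - j] y₀)) = p * L i y₀ := by
      rw [← Function.iterate_add_apply, Nat.add_sub_cancel' j.2.le, hL, hL, Finset.mul_sum]
      exact Finset.sum_congr rfl fun c _ => by rw [hSn]; ring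
    rw [h1] at hli
    exact (mul_eq_zero.1 hli).resolve_right (mul_ne_zero hp0 hy₀)
  · have e : (fun y => L i (S^[j] y)) = ∑ c : (GaloisField p n)ˣ,
        ((χ c)⁻¹ ^ (i + 1)) • fun y => lam (mc c (S^[j] y)) := by
      ext y
      simp [hL]
    change (fun y => L i (S^[j] y)) ∈ U
    rw [e]
    exact U.sum_mem fun c _ => U.smul_mem _ (hU c j j.2)

/-- `g` is a pointwise limit of elements of a finite-dimensional space of functions
(`Submodule.closed_of_finiteDimensional` for the product topology). -/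
theorem la0 {K : Type*} [NontriviallyNormedField K] [CompleteSpace K] {X σ : Type*} [Fintype σ]
    (π : K) (hπ0 : π ≠ 0) (hπ : ‖π‖ < 1) (w : σ → K) (s0 : σ) (hw : w s0 ≠ 0) (lam g : X → K)
    (L : σ → X → K) (M0 : ℕ) (C : ℝ) (uu : ℕ → K) (δ : ℕ → σ → K)
    (hu : ∀ m, M0 ≤ m → ‖uu m‖ ≤ 1)
    (hwδ : ∀ m, M0 ≤ m → ‖∑ s, w s * δ m s‖ ≤ (C * ‖π‖ ^ m) ^ 2)
    (h : ∀ m, M0 ≤ m → ∀ y,
      ‖lam y + π ^ m * g y - uu m * (lam y + ∑ s, L s y * δ m s)‖ ≤ (C * ‖π‖ ^ m) ^ 2) :
    g ∈ Submodule.span K (insert lam (Set.range fun s : {s // s ≠ s0} =>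
      fun y => L s y - w s / w s0 * L s0 y)) := by
  classical
  set V := Submodule.span K (insert lam (Set.range fun s : {s // s ≠ s0} =>
      fun y => L s y - w s / w s0 * L s0 y)) with hV
  have : FiniteDimensional K V :=
    FiniteDimensional.span_of_finite K ((Set.finite_range _).insert _)
  have hL' : ∀ s, (fun y => L s y - w s / w s0 * L s0 y) ∈ V := fun s => by
    by_cases hs : s = s0
    · have : (fun y => L s y - w s / w s0 * L s0 y) = 0 := by
        ext y
        rw [hs, div_self hw, one_mul, sub_self, Pi.zero_apply]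
      rw [this]
      exact V.zero_mem
    · exact Submodule.subset_span (Or.inr ⟨⟨s, hs⟩, rfl⟩)
  set G : ℕ → X → K := fun m => (π ^ m)⁻¹ • ((uu m - 1) • lam +
    uu m • ∑ s, δ m s • fun y => L s y - w s / w s0 * L s0 y) with hG
  have hGV : ∀ m, G m ∈ V := fun m => V.smul_mem _ (V.add_mem
    (V.smul_mem _ (Submodule.subset_span (Or.inl rfl)))
    (V.smul_mem _ (V.sum_mem fun s _ => V.smul_mem _ (hL' s))))
  refine V.closed_of_finiteDimensional.mem_of_tendsto (f := G) (b := Filter.atTop) ?_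
    (Filter.Eventually.of_forall hGV)
  rw [tendsto_pi_nhds]
  intro y
  rw [tendsto_iff_norm_sub_tendsto_zero]
  have hlim : Filter.Tendsto (fun m : ℕ => C ^ 2 * (1 + ‖L s0 y / w s0‖) * ‖π‖ ^ m) Filter.atTop
      (nhds 0) := by
    simpa using (tendsto_pow_atTop_nhds_zero_of_lt_one (norm_nonneg π) hπ).const_mul
      (C ^ 2 * (1 + ‖L s0 y / w s0‖))
  refine squeeze_zero' (Filter.Eventually.of_forall fun m => norm_nonneg _)
    ((Filter.eventually_ge_atTop M0).mono fun m hm => ?_) hlim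
  have hpm : π ^ m ≠ 0 := pow_ne_zero _ hπ0
  have hnm : 0 < ‖π‖ ^ m := pow_pos (norm_pos_iff.2 hπ0) _
  have hsum : ∑ s, δ m s * (L s y - w s / w s0 * L s0 y) =
      ∑ s, L s y * δ m s - L s0 y / w s0 * ∑ s, w s * δ m s := by
    rw [Finset.mul_sum, ← Finset.sum_sub_distrib]
    exact Finset.sum_congr rfl fun s _ => by ring
  have e : π ^ m * (g y - G m y) =
      (lam y + π ^ m * g y - uu m * (lam y + ∑ s, L s y * δ m s)) +
        uu m * (L s0 y / w s0) * ∑ s, w s * δ m s := by
    simp only [hG, Pi.smul_apply, Pi.add_apply, Finset.sum_apply, smul_eq_mul]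
    rw [hsum, mul_sub, mul_inv_cancel_left₀ hpm]
    ring
  have h1 : ‖π‖ ^ m * ‖G m y - g y‖ ≤ (C * ‖π‖ ^ m) ^ 2 + 1 * ‖L s0 y / w s0‖ *
      (C * ‖π‖ ^ m) ^ 2 := by
    rw [norm_sub_rev, ← norm_pow, ← norm_mul, e, norm_pow]
    refine (norm_add_le _ _).trans (add_le_add (h m hm y) ?_)
    rw [norm_mul, norm_mul]
    exact mul_le_mul (mul_le_mul_of_nonneg_right (hu m hm) (norm_nonneg _)) (hwδ m hm)
      (norm_nonneg _) (by positivity)
  refine le_of_mul_le_mul_left (h1.trans_eq ?_) hnm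
  ring

/-- A set of power series over a domain of characteristic zero, closed under partial derivatives
up to a nonzero scalar and with zero constant terms, is zero. -/
theorem eq_zero_of_pderiv_stable {A σ : Type*} [CommRing A] [IsDomain A] [CharZero A]
    (T : Set (MvPowerSeries σ A)) (h0 : ∀ f ∈ T, MvPowerSeries.constantCoeff f = 0)
    (hd : ∀ f ∈ T, ∀ s, ∃ g ∈ T, ∃ c : A,
      MvPowerSeries.pderiv A s f = MvPowerSeries.C c * g) {f : MvPowerSeries σ A} (hf : f ∈ T) :
    f = 0 := by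
  classical
  have key : ∀ (d : ℕ) (γ : σ →₀ ℕ), γ.degree = d → ∀ f ∈ T, MvPowerSeries.coeff γ f = 0 := by
    intro d
    induction d with
    | zero =>
      intro γ hγ f hf
      rw [(Finsupp.degree_eq_zero_iff γ).1 hγ, MvPowerSeries.coeff_zero_eq_constantCoeff_apply]
      exact h0 f hf
    | succ d ih =>
      intro γ hγ f hf
      obtain ⟨s, hs⟩ : ∃ s, γ s ≠ 0 := by
        by_contra hc
        push Not at hc
        have : γ = 0 := Finsupp.ext hc
        simp [this] at hγ
      obtain ⟨γ', rfl⟩ : ∃ γ', γ = γ' + Finsupp.single s 1 :=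
        ⟨γ - Finsupp.single s 1, (tsub_add_cancel_of_le
          (Finsupp.single_le_iff.2 (Nat.one_le_iff_ne_zero.2 hs))).symm⟩
      obtain ⟨g, hg, c, hc⟩ := hd f hf s
      have h1 := congrArg (MvPowerSeries.coeff γ') hc
      rw [MvPowerSeries.coeff_pderiv, MvPowerSeries.coeff_C_mul,
        ih γ' (by simpa using hγ) g hg, mul_zero] at h1
      exact (mul_eq_zero.1 h1).resolve_right (Nat.cast_add_one_ne_zero _)
  ext γ
  exact key _ γ rfl f hf

end Crest.R227
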