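import Crest.Agent.R227.HI
import Crest.Agent.R227.Pt

/-! Row 227. The family of automorphisms near the identity and its congruences. -/

set_option autoImplicit false

namespace Crest.R227

open Crest.LubinTate MvPowerSeries

section rigaux

variable {B : Type*} [CommRing B] {σ : Type*}

/-- Series all of whose coefficients lie in `𝔞`. -/
noncomputable def rigK (σ : Type*) (𝔞 : Ideal B) : Ideal (MvPowerSeries σ B) :=
  RingHom.ker (MvPowerSeries.map (σ := σ) (Ideal.Quotient.mk 𝔞))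

theorem mem_rigK {𝔞 : Ideal B} {f : MvPowerSeries σ B} :
    f ∈ rigK σ 𝔞 ↔ ∀ γ, coeff γ f ∈ 𝔞 := by
  rw [rigK, RingHom.mem_ker, MvPowerSeries.ext_iff]
  simp only [coeff_map, map_zero, Ideal.Quotient.eq_zero_iff_mem]

theorem mem_rigK_one {𝔞 : Ideal B} {f : PowerSeries B} :
    f ∈ rigK Unit 𝔞 ↔ ∀ k, PowerSeries.coeff k f ∈ 𝔞 := by
  rw [mem_rigK]
  refine ⟨fun h k => h _, fun h γ => ?_⟩
  have := h (γ ())
  rwa [PowerSeries.coeff_def (s := γ) rfl] at this

theorem rigK_mono {𝔞 𝔟 : Ideal B} (h : 𝔞 ≤ 𝔟) : rigK σ 𝔞 ≤ rigK σ 𝔟 := fun _ hf =>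
  mem_rigK.2 fun γ => h (mem_rigK.1 hf γ)

theorem rigK_mul {𝔞 𝔟 : Ideal B} {f g : MvPowerSeries σ B} (hf : f ∈ rigK σ 𝔞)
    (hg : g ∈ rigK σ 𝔟) : f * g ∈ rigK σ (𝔞 * 𝔟) := by
  classical
  refine mem_rigK.2 fun γ => ?_
  rw [coeff_mul]
  exact Ideal.sum_mem _ fun x _ => Ideal.mul_mem_mul (mem_rigK.1 hf _) (mem_rigK.1 hg _)

theorem rigK_pow {𝔞 : Ideal B} {f : MvPowerSeries σ B} (hf : f ∈ rigK σ 𝔞) (k : ℕ) :
    f ^ k ∈ rigK σ (𝔞 ^ k) := by
  induction k with
  | zero => exact mem_rigK.2 fun γ => by simp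
  | succ k ih => rw [pow_succ, pow_succ]; exact rigK_mul ih hf

theorem rigK_C {𝔞 : Ideal B} {r : B} (hr : r ∈ 𝔞) : (C r : MvPowerSeries σ B) ∈ rigK σ 𝔞 := by
  rw [rigK, RingHom.mem_ker, map_C, Ideal.Quotient.eq_zero_iff_mem.2 hr, map_zero]

/-- The ideal of the variables. -/
noncomputable abbrev rigI (σ : Type*) (B : Type*) [CommRing B] : Ideal (MvPowerSeries σ B) :=
  Ideal.span (Set.range (X : σ → MvPowerSeries σ B))

theorem rigI_X (t : σ) : (X t : MvPowerSeries σ B) ∈ (rigI σ B).radical :=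
  Ideal.le_radical (Ideal.subset_span ⟨t, rfl⟩)

variable [Finite σ]

/-- A series without constant term as a point. -/
noncomputable def rigP (F : FormalGroup B) (f : MvPowerSeries σ B) (hf : constantCoeff f = 0) :
    Pt (rigI σ B) (F.map (C : B →+* MvPowerSeries σ B)) :=
  ⟨f, mem_radical_of_constantCoeff _ rigI_X hf⟩

theorem rigP_add (F : FormalGroup B) {f g : MvPowerSeries σ B} (hf : constantCoeff f = 0)
    (hg : constantCoeff g = 0) :
    (rigP F f hf + rigP F g hg).val = F.toPowerSeries.subst ![f, g] := by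
  have h2 := Pt.vec_mem (rigP F f hf).mem (rigP F g hg).mem
  rw [Pt.val_add, FormalGroup.map_toPowerSeries, ev_map _ _ h2, RingHom.id_comp]
  exact ev_eq_subst _ rigI_X (by intro s; fin_cases s <;> simpa) _

theorem rigP_nsmul (F : FormalGroup B) [F.IsComm] {f : MvPowerSeries σ B}
    (hf : constantCoeff f = 0) (m : ℕ) :
    (m • rigP F f hf).val = PowerSeries.subst f (mulSeries F m) := by
  rw [Pt.val_nsmul, ← map_mulSeries, ev1_map _ _ (rigP F f hf).mem, RingHom.id_comp]
  exact ev_eq_subst _ rigI_X (fun _ => hf) _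

theorem rigP_step (F : FormalGroup B) [F.IsComm] {𝔞 : Ideal B} (m : ℕ)
    {x : Pt (rigI σ B) (F.map (C : B →+* MvPowerSeries σ B))} (hx : x.val ∈ rigK σ 𝔞) :
    (m • x).val ∈ rigK σ (Ideal.span {(m : B)} * 𝔞 ⊔ 𝔞 ^ 2) := by
  have h1 := Pt.nsmul_val_sub_mem m x
  have h2 : (m • x).val - m * x.val ∈ rigK σ (𝔞 ^ 2) :=
    (Ideal.span_le.2 (by simpa using rigK_pow hx 2)) h1
  have h3 : (m : MvPowerSeries σ B) * x.val ∈ rigK σ (Ideal.span {(m : B)} * 𝔞) := by
    rw [← map_natCast (C : B →+* MvPowerSeries σ B)]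
    exact rigK_mul (rigK_C (Ideal.mem_span_singleton_self _)) hx
  have := Ideal.add_mem _ (rigK_mono le_sup_right h2) (rigK_mono le_sup_left h3)
  rwa [sub_add_cancel] at this

theorem rigP_step' (F : FormalGroup B) [F.IsComm] {𝔞 𝔟 : Ideal B} (m Q : ℕ)
    (hQ : ∀ k < Q, PowerSeries.coeff k (mulSeries F m) ∈ 𝔟)
    {x : Pt (rigI σ B) (F.map (C : B →+* MvPowerSeries σ B))} (hx : x.val ∈ rigK σ 𝔞) :
    (m • x).val ∈ rigK σ (𝔟 ⊔ 𝔞 ^ Q) := by
  rw [Pt.val_nsmul, ← map_mulSeries, ev1_map _ _ x.mem, RingHom.id_comp]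
  have h1 := ev1_sub_trunc_mem (rigI σ B) (C : B →+* MvPowerSeries σ B) x.mem Q (mulSeries F m)
  have h2 := (Ideal.span_le.2 (show ({x.val ^ Q} : Set _) ⊆ rigK σ (𝔞 ^ Q) by
    simpa using rigK_pow hx Q)) h1
  have h3 : ∑ k ∈ Finset.range Q, (C (PowerSeries.coeff k (mulSeries F m)) : MvPowerSeries σ B) *
      x.val ^ k ∈ rigK σ 𝔟 :=
    Ideal.sum_mem _ fun k hk => Ideal.mul_mem_right _ _ (rigK_C (hQ k (Finset.mem_range.1 hk)))
  have := Ideal.add_mem _ (rigK_mono le_sup_right h2) (rigK_mono le_sup_left h3)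
  rwa [sub_add_cancel] at this

theorem rig_cmp_sub {𝔞 𝔟 : Ideal B} {ε g g' : PowerSeries B} (hε : ε ∈ rigK Unit 𝔞)
    (hg : PowerSeries.constantCoeff g = 0) (hg' : PowerSeries.constantCoeff g' = 0)
    (h : g - g' ∈ rigK Unit 𝔟) : cmp ε g - cmp ε g' ∈ rigK Unit (𝔞 * 𝔟) := by
  refine mem_rigK_one.2 fun k => ?_
  have hs := PowerSeries.HasSubst.of_constantCoeff_zero' hg
  have hs' := PowerSeries.HasSubst.of_constantCoeff_zero' hg'
  rw [map_sub, PowerSeries.coeff_subst' hs, PowerSeries.coeff_subst' hs',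
    ← finsum_sub_distrib (PowerSeries.coeff_subst_finite' hs ε k)
      (PowerSeries.coeff_subst_finite' hs' ε k)]
  refine finsum_induction (· ∈ 𝔞 * 𝔟) (Ideal.zero_mem _) (fun _ _ => Ideal.add_mem _) fun d => ?_
  rw [← smul_sub, ← map_sub, smul_eq_mul]
  refine Ideal.mul_mem_mul (mem_rigK_one.1 hε d) (mem_rigK_one.1 ?_ k)
  exact Ideal.mem_of_dvd _ (sub_dvd_pow_sub_pow g g' d) h

theorem rig_isFGHom_map_iff {B' : Type*} [CommRing B'] {F G : FormalGroup B} {θ : PowerSeries B}
    (h0 : PowerSeries.constantCoeff θ = 0) (ρ : B →+* B') :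
    IsFGHom (F.map ρ) (G.map ρ) (PowerSeries.map ρ θ) ↔
      PowerSeries.subst F.toPowerSeries θ - G.toPowerSeries.subst
        ![PowerSeries.subst (X 0 : MvPowerSeries (Fin 2) B) θ,
          PowerSeries.subst (X 1 : MvPowerSeries (Fin 2) B) θ] ∈
        RingHom.ker (MvPowerSeries.map (σ := Fin 2) ρ) := by
  rw [RingHom.mem_ker, map_sub, sub_eq_zero, isFGHom_map_lhs, isFGHom_map_rhs G h0]
  refine ⟨fun h => h.2, fun h => ⟨?_, h⟩⟩
  change ρ (PowerSeries.constantCoeff θ) = 0
  rw [h0, map_zero]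

/-- The defect of additivity of `a`, as a point. -/
noncomputable def rigD (H : FormalGroup B) [H.IsComm] (a : PowerSeries B)
    (h0 : PowerSeries.constantCoeff a = 0) :
    Pt (rigI (Fin 2) B) (H.map (C : B →+* MvPowerSeries (Fin 2) B)) :=
  rigP H (PowerSeries.subst H.toPowerSeries a) (transport_c1 H.zero_constantCoeff h0) -
    (rigP H (PowerSeries.subst (X 0 : MvPowerSeries (Fin 2) B) a) (transport_c1 (by simp) h0) +
      rigP H (PowerSeries.subst (X 1 : MvPowerSeries (Fin 2) B) a) (transport_c1 (by simp) h0))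

theorem rigD_mem (H : FormalGroup B) [H.IsComm] {a : PowerSeries B}
    (h0 : PowerSeries.constantCoeff a = 0) {B' : Type*} [CommRing B'] (ρ : B →+* B')
    (h : IsFGHom (H.map ρ) (H.map ρ) (PowerSeries.map ρ a)) :
    (rigD H a h0).val ∈ rigK (Fin 2) (RingHom.ker ρ) := by
  rw [rigD, Pt.sub_val_mem_iff, rigP_add]
  have h1 := (rig_isFGHom_map_iff h0 ρ).1 h
  rw [RingHom.mem_ker, MvPowerSeries.ext_iff] at h1
  refine mem_rigK.2 fun γ => ?_
  have := h1 γ
  rwa [coeff_map, map_zero] at this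

theorem rigD_hom (H : FormalGroup B) [H.IsComm] {a : PowerSeries B}
    (h0 : PowerSeries.constantCoeff a = 0) (𝔞 : Ideal B) (N : ℕ)
    (h : (N • rigD H a h0).val ∈ rigK (Fin 2) 𝔞) :
    IsFGHom (H.map (Ideal.Quotient.mk 𝔞)) (H.map (Ideal.Quotient.mk 𝔞))
      (PowerSeries.map (Ideal.Quotient.mk 𝔞) (cmp (mulSeries H N) a)) := by
  have hc := constantCoeff_cmp (mulSeries_constantCoeff H N) h0
  have hs := PowerSeries.HasSubst.of_constantCoeff_zero' h0
  have key : ∀ (f : MvPowerSeries (Fin 2) B) (hf : constantCoeff f = 0),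
      N • rigP H (PowerSeries.subst f a) (transport_c1 hf h0) =
        rigP H (PowerSeries.subst f (cmp (mulSeries H N) a)) (transport_c1 hf hc) := fun f hf => by
    refine Pt.ext ?_
    rw [rigP_nsmul]
    exact (PowerSeries.subst_comp_subst_apply hs
      (PowerSeries.HasSubst.of_constantCoeff_zero hf) _).symm
  rw [rigD, nsmul_sub, nsmul_add, key _ H.zero_constantCoeff, key _ (by simp), key _ (by simp),
    Pt.sub_val_mem_iff, rigP_add] at h
  exact (rig_isFGHom_map_iff hc _).2 h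

omit [Finite σ] in
theorem rig_sup_pow (I J : Ideal B) (Q : ℕ) : (I ⊔ J) ^ Q ≤ I ⊔ J ^ Q := by
  induction Q with
  | zero => simp
  | succ Q ih =>
    rw [pow_succ, pow_succ]
    refine (Ideal.mul_mono_left ih).trans ?_
    rw [Ideal.sup_mul, Ideal.mul_sup (J ^ Q)]
    have h1 : I * (I ⊔ J) ≤ I := Ideal.mul_le_left
    have h2 : J ^ Q * I ≤ I := Ideal.mul_le_right
    exact sup_le (h1.trans le_sup_left) (sup_le (h2.trans le_sup_left) le_sup_right)

end rigaux

/-- Rigidity. Let `δ = θ -_G θ'` (a homomorphism; or argue with points in `B⟦X⟧`). If its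
coefficients lie in `𝔪^k` then `δ([p]_F X) = [p]_G δ` has coefficients in `𝔪^{k+1}` and is
`≡ δ(X^q)`, so those of `δ` lie in `𝔪^{k+1}`. -/
theorem rigidity {B : Type*} [CommRing B] (𝔪 : Ideal B) {N : ℕ} (hN : 𝔪 ^ N = ⊥) (p q : ℕ)
    (hq : q ≠ 0) (hp : (p : B) ∈ 𝔪) {F G : FormalGroup B} [F.IsComm] [G.IsComm]
    (hF : ∀ k, PowerSeries.coeff k (mulSeries F p - PowerSeries.X ^ q) ∈ 𝔪)
    {θ θ' : PowerSeries B} (hθ : IsFGHom F G θ) (hθ' : IsFGHom F G θ')
    (h : ∀ k, PowerSeries.coeff k θ - PowerSeries.coeff k θ' ∈ 𝔪) : θ = θ' := by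
  have c0 : MvPowerSeries.constantCoeff (σ := Unit) θ = 0 := hθ.1
  have c0' : MvPowerSeries.constantCoeff (σ := Unit) θ' = 0 := hθ'.1
  have key : ∀ k, θ - θ' ∈ rigK Unit (𝔪 ^ (k + 1)) := fun k => by
    induction k with
    | zero => exact mem_rigK_one.2 fun j => by simpa using h j
    | succ k ih =>
      have h1 : (rigP (σ := Unit) G θ c0 - rigP (σ := Unit) G θ' c0').val ∈
          rigK Unit (𝔪 ^ (k + 1)) := (Pt.sub_val_mem_iff _ _ _).2 ih
      have hle : Ideal.span {(p : B)} * 𝔪 ^ (k + 1) ⊔ (𝔪 ^ (k + 1)) ^ 2 ≤ 𝔪 ^ (k + 1 + 1) := by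
        refine sup_le ?_ ?_
        · rw [pow_succ' 𝔪 (k + 1)]
          exact Ideal.mul_mono_left ((Ideal.span_singleton_le_iff_mem _).2 hp)
        · rw [← pow_mul]
          exact Ideal.pow_le_pow_right (by omega)
      have h2 := rigK_mono hle (rigP_step G p h1)
      rw [nsmul_sub, Pt.sub_val_mem_iff, rigP_nsmul G c0, rigP_nsmul G c0'] at h2
      have hs := PowerSeries.HasSubst.of_constantCoeff_zero' (mulSeries_constantCoeff F p)
      have h3 : cmp (θ - θ') (mulSeries F p) ∈ rigK Unit (𝔪 ^ (k + 1 + 1)) := by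
        have e : cmp (θ - θ') (mulSeries F p) =
            cmp θ (mulSeries F p) - cmp θ' (mulSeries F p) := by
          simp only [cmp, ← PowerSeries.coe_substAlgHom hs, map_sub]
        rw [e, isFGHom_cmp_mulSeries hθ, isFGHom_cmp_mulSeries hθ']
        exact h2
      have h4 := rig_cmp_sub ih (mulSeries_constantCoeff F p)
        (g' := PowerSeries.X ^ q) (by simp [hq]) (mem_rigK_one.2 hF)
      rw [← pow_succ] at h4
      have h5 := Ideal.sub_mem _ h3 h4
      rw [sub_sub_cancel] at h5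
      refine mem_rigK_one.2 fun j => ?_
      have h6 := mem_rigK_one.1 h5 (q * j)
      rwa [cmp, ← PowerSeries.expand_apply q hq, PowerSeries.coeff_expand_mul] at h6
  have h7 : 𝔪 ^ (N + 1) ≤ ⊥ := hN ▸ Ideal.pow_le_pow_right (Nat.le_succ N)
  ext j
  have := h7 (mem_rigK_one.1 (key N) j)
  rwa [Ideal.mem_bot, map_sub, sub_eq_zero] at this

variable (p : ℕ) [Fact p.Prime] (n : ℕ)

theorem end_Jz_cc {F0 : FormalGroup (WW p n)} {a : PowerSeries (WW p n)}
    (ha : IsLift p n F0 a) : PowerSeries.constantCoeff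
      (PowerSeries.map (algebraMap (WW p n) (EE p n)) a) = 0 := by
  change algebraMap (WW p n) (EE p n) (PowerSeries.constantCoeff a) = 0
  rw [ha.1, map_zero]

theorem end_Jz_base {F0 : FormalGroup (WW p n)} {H : FormalGroup (EE p n)} [H.IsComm]
    (hres : H.map (resE p n) = F0.map (resW p n)) {a : PowerSeries (WW p n)}
    (ha : IsLift p n F0 a) :
    (rigD H _ (end_Jz_cc p n ha)).val ∈ rigK (Fin 2) (mE p n) := by
  rw [← ker_resE]
  refine rigD_mem H _ _ ?_
  have e : PowerSeries.map (resE p n) (PowerSeries.map (algebraMap (WW p n) (EE p n)) a) =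
      PowerSeries.map (resW p n) a := by
    rw [← resE_comp, PowerSeries.map_comp, RingHom.comp_apply]
  rw [hres, e]
  exact ha.2

/-- In the group of points of `H` in `E⟦X,Y⟧` let `D = a(X+Y) - a(X) - a(Y)`; its coefficients lie
in `𝔪`. If the coefficients of `D` lie in `𝔞`, those of `[p] D = p D + D² g` lie in `p𝔞 + 𝔞²`. -/
theorem end_Jz {F0 : FormalGroup (WW p n)} {H : FormalGroup (EE p n)} [H.IsComm]
    (hres : H.map (resE p n) = F0.map (resW p n)) {a : PowerSeries (WW p n)}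
    (ha : IsLift p n F0 a) (m : ℕ) :
    IsFGHom (H.map (Ideal.Quotient.mk (Jz p n m))) (H.map (Ideal.Quotient.mk (Jz p n m)))
      (PowerSeries.map (Ideal.Quotient.mk (Jz p n m)) (cmp (mulSeries H (p ^ m))
        (PowerSeries.map (algebraMap (WW p n) (EE p n)) a))) := by
  refine rigD_hom H (end_Jz_cc p n ha) _ _ ?_
  induction m with
  | zero => rw [pow_zero, one_nsmul]; exact end_Jz_base p n hres ha
  | succ m ih => rw [pow_succ, mul_nsmul]; exact rigP_step H p ih

theorem end_Jh_coeff (H : FormalGroup (EE p n)) [H.IsComm] {h : ℕ} (hh : 1 ≤ h) (k : ℕ)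
    (hk : k < p ^ h) : PowerSeries.coeff k (mulSeries H p) ∈ heightIdeal p n H h := by
  by_cases htop : heightIdeal p n H h = ⊤
  · rw [htop]; trivial
  have : Nontrivial (EE p n ⧸ heightIdeal p n H h) := Ideal.Quotient.nontrivial_iff.2 htop
  have hp0 : ((p : ℕ) : EE p n ⧸ heightIdeal p n H h) = 0 := by
    rw [← map_natCast (Ideal.Quotient.mk (heightIdeal p n H h)), Ideal.Quotient.eq_zero_iff_mem,
      ← vv_zero p n H]
    exact vv_mem p n H hh
  have : CharP (EE p n ⧸ heightIdeal p n H h) p :=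
    (CharP.charP_iff_prime_eq_zero Fact.out).2 hp0
  obtain ⟨g, hg, hg'⟩ := frob_factor p
    (isFGHom_mulSeries (H.map (Ideal.Quotient.mk (heightIdeal p n H h))) p) h fun j hj => by
      rw [← map_mulSeries, PowerSeries.coeff_map, Ideal.Quotient.eq_zero_iff_mem]
      exact vv_mem p n H hj
  rw [← Ideal.Quotient.eq_zero_iff_mem, ← PowerSeries.coeff_map, map_mulSeries]
  rcases Nat.eq_zero_or_pos k with rfl | hk0
  · rw [PowerSeries.coeff_zero_eq_constantCoeff_apply, mulSeries_constantCoeff]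
  · rw [hg]
    exact PowerSeries.coeff_expand_of_not_dvd _ _ _ fun hd => absurd (Nat.le_of_dvd hk0 hd) (by omega)

/-- As `end_Jz`, over `E/I_h` where `[p] D = V(D^Q) = D^Q g` (`frob_factor`). -/
theorem end_Jh {F0 : FormalGroup (WW p n)} {H : FormalGroup (EE p n)} [H.IsComm]
    (hres : H.map (resE p n) = F0.map (resW p n)) {a : PowerSeries (WW p n)}
    (ha : IsLift p n F0 a) {h : ℕ} (hh : 1 ≤ h) (m : ℕ) :
    IsFGHom (H.map (Ideal.Quotient.mk (Jh p n H h m))) (H.map (Ideal.Quotient.mk (Jh p n H h m)))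
      (PowerSeries.map (Ideal.Quotient.mk (Jh p n H h m)) (cmp (mulSeries H (p ^ m))
        (PowerSeries.map (algebraMap (WW p n) (EE p n)) a))) := by
  refine rigD_hom H (end_Jz_cc p n ha) _ _ ?_
  induction m with
  | zero =>
    rw [pow_zero, one_nsmul]
    refine rigK_mono ?_ (end_Jz_base p n hres ha)
    rw [Jh, pow_zero, pow_one]
    exact le_sup_right
  | succ m ih =>
    rw [pow_succ, mul_nsmul]
    refine rigK_mono ?_ (rigP_step' H p (p ^ h) (end_Jh_coeff p n H hh) ih)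
    refine sup_le le_sup_left ?_
    rw [Jh, Jh, pow_succ (p ^ h) m, pow_mul]
    exact rig_sup_pow _ _ _

theorem fam_of_end_mul {k : Type*} [CommRing k] {Γ : FormalGroup k} [Γ.IsComm] {p q : ℕ}
    (hq : q ≠ 0) (h : mulSeries Γ p = PowerSeries.X ^ q) (m : ℕ) :
    mulSeries Γ (p ^ m) = PowerSeries.X ^ q ^ m := by
  induction m with
  | zero =>
    rw [pow_zero, pow_zero, pow_one]
    exact Γ.zero_add (PowerSeries.HasSubst.of_constantCoeff_zero' PowerSeries.constantCoeff_X)
  | succ m ih =>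
    have hs : PowerSeries.HasSubst ((PowerSeries.X : PowerSeries k) ^ q) :=
      PowerSeries.HasSubst.of_constantCoeff_zero' (by simp [hq])
    rw [pow_succ, mulSeries_mul, ih, h, cmp, PowerSeries.subst_pow hs, PowerSeries.subst_X hs,
      ← pow_mul, pow_succ']

theorem fam_of_end_coeff {k : Type*} [CommRing k] (Γ : FormalGroup k) {a : PowerSeries k}
    (ha : PowerSeries.constantCoeff a = 0) {Q i : ℕ} (hi : i < Q) :
    PowerSeries.coeff i (fadd Γ PowerSeries.X (cmp (PowerSeries.X ^ Q) a)) =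
      PowerSeries.coeff i PowerSeries.X := by
  have hs : PowerSeries.HasSubst a := PowerSeries.HasSubst.of_constantCoeff_zero' ha
  have e : cmp (PowerSeries.X ^ Q) a = a ^ Q := by
    rw [cmp, PowerSeries.subst_pow hs, PowerSeries.subst_X hs]
  have h0 : PowerSeries.constantCoeff (a ^ Q) = 0 := by
    rw [map_pow, ha, zero_pow (by omega)]
  obtain ⟨w, hw⟩ := fadd_shape Γ (f := PowerSeries.X) (by simp) h0
  have hd : PowerSeries.X ^ Q ∣ a ^ Q + PowerSeries.X * a ^ Q * w := by
    have : PowerSeries.X ^ Q ∣ a ^ Q := pow_dvd_pow_of_dvd (PowerSeries.X_dvd_iff.2 ha) Q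
    exact dvd_add this ((this.mul_left _).mul_right _)
  rw [e, hw, add_assoc, map_add, PowerSeries.X_pow_dvd_iff.1 hd i hi, add_zero]

/-- `ϑ = vartheta` reduces to the automorphism `g = X +_Γ [p^m] a ≡ X mod X^{q^m}`, `q^m > M`.
Let `G` be the transport of `H` along `ϑ⁻¹` (a deformation of `Γ`); universality over `E` gives `φ`
and a ⋆-isomorphism `η : φ_* H → G`; `θ = ϑ ∘ η`; stability gives `φ J ⊆ J`. Over `B = E/Jm m`,
`ϑ` is an endomorphism, so `G_B = H_B` (`transport_unique'`) and `mk ∘ φ`, `mk` both classify `H_B`;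
hence `mk ∘ φ = mk`, and `η_B = X` by `rigidity`. -/
theorem fam_of_end {F0 : FormalGroup (WW p n)} [F0.IsComm] {H : FormalGroup (EE p n)} [H.IsComm]
    (hN : IsNorm p n F0 H) (hH : IsUniversalDeformation p n (F0.map (resW p n)) H) {M : ℕ}
    (hM : 1 ≤ M) {J : Ideal (EE p n)} (hJ : IsStableIdeal p n (F0.map (resW p n)) H M J)
    (Jm : ℕ → Ideal (EE p n)) (h1 : ∀ m, Jm m ≤ mE p n) (h2 : ∀ m, ∃ N, mE p n ^ N ≤ Jm m)
    (hend : ∀ a, IsLift p n F0 a → ∀ m,
      IsFGHom (H.map (Ideal.Quotient.mk (Jm m))) (H.map (Ideal.Quotient.mk (Jm m)))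
        (PowerSeries.map (Ideal.Quotient.mk (Jm m)) (cmp (mulSeries H (p ^ m))
          (PowerSeries.map (algebraMap (WW p n) (EE p n)) a)))) :
    Fam p n F0 H J M Jm := by
  intro a ha m hm
  have hp2 : 2 ≤ p := (Fact.out : p.Prime).two_le
  have hn := hN.hn
  have hq : p ^ n ≠ 0 := pow_ne_zero _ (by omega)
  have hq2 : 1 < p ^ n := Nat.one_lt_pow (by omega) (by omega)
  have hMq : M < (p ^ n) ^ m := lt_of_le_of_lt hm (Nat.lt_pow_self hq2)
  have hcomp : (resE p n).comp (algebraMap (WW p n) (EE p n)) = resW p n := resE_comp p n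
  set aE := PowerSeries.map (algebraMap (WW p n) (EE p n)) a with haE
  have haE0 : PowerSeries.constantCoeff aE = 0 := by
    change algebraMap (WW p n) (EE p n) (PowerSeries.constantCoeff a) = 0
    rw [ha.1, map_zero]
  have hres_a : PowerSeries.map (resE p n) aE = PowerSeries.map (resW p n) a := by
    rw [haE, ← hcomp, PowerSeries.map_comp]
    rfl
  set c := cmp (mulSeries H (p ^ m)) aE with hc
  have hc0 : PowerSeries.constantCoeff c = 0 :=
    constantCoeff_cmp (mulSeries_constantCoeff _ _) haE0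
  have hv : vartheta p n H a m = fadd H PowerSeries.X c := rfl
  have hX0 : PowerSeries.constantCoeff (PowerSeries.X : PowerSeries (EE p n)) = 0 := by simp
  have hv0 : PowerSeries.constantCoeff (vartheta p n H a m) = 0 := fadd_constantCoeff H hX0 hc0
  set g := PowerSeries.map (resE p n) (vartheta p n H a m) with hg
  have hg' : g = fadd (F0.map (resW p n)) PowerSeries.X
      (cmp (mulSeries (F0.map (resW p n)) (p ^ m)) (PowerSeries.map (resW p n) a)) := by
    rw [hg, hv, map_fadd H _ hX0 hc0, hc, map_cmp _ haE0, map_mulSeries, hN.res, hres_a,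
      PowerSeries.map_X]
  have hgend : IsFGHom (F0.map (resW p n)) (F0.map (resW p n)) g := by
    rw [hg']
    exact isFGHom_fadd (isFGHom_X _) (isFGHom_comp ha.2 (isFGHom_mulSeries _ _))
  have hgc : ∀ i, i ≤ M → PowerSeries.coeff i g = PowerSeries.coeff i PowerSeries.X := by
    intro i hi
    rw [hg', fam_of_end_mul hq hN.model.mul]
    exact fam_of_end_coeff _ ha.2.1 (by omega)
  have hg1 : PowerSeries.coeff 1 g = 1 := by rw [hgc 1 hM, PowerSeries.coeff_one_X]
  have hkE : RingHom.ker (resE p n) = IsLocalRing.maximalIdeal (EE p n) := by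
    rw [ker_resE, mE_eq_maximalIdeal]
  have hv1 : IsUnit (PowerSeries.coeff 1 (vartheta p n H a m)) := by
    by_contra hu
    have : PowerSeries.coeff 1 (vartheta p n H a m) ∈ RingHom.ker (resE p n) := by
      rw [hkE]; exact hu
    rw [RingHom.mem_ker, ← PowerSeries.coeff_map, ← hg, hg1] at this
    exact one_ne_zero this
  obtain ⟨η0, e0, e1, e2, e3⟩ := exists_substInv hv0 hv1
  obtain ⟨G, hG, -⟩ := exists_transport H e0 e1
  have hGv : IsFGHom G H (vartheta p n H a m) := isFGHom_symm hG hv0 e3 e2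
  have hGres : G.map (resE p n) = F0.map (resW p n) := by
    have := isFGHom_map hGv (resE p n)
    rw [hN.res] at this
    exact transport_unique' this hgend (by rw [hg1]; exact isUnit_one)
  have hcE : IsAdicComplete (IsLocalRing.maximalIdeal (EE p n)) (EE p n) := by
    rw [← mE_eq_maximalIdeal]; infer_instance
  obtain ⟨φ, ⟨hφ, η, hη, hηX⟩, -⟩ :=
    hH.2 (EE p n) hcE (resE p n) (resE_surjective p n) hkE hcomp G hGres
  have hθ : IsFGHom (H.map φ.toRingHom) H (cmp (vartheta p n H a m) η) := isFGHom_comp hη hGv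
  have hθg : PowerSeries.map (resE p n) (cmp (vartheta p n H a m) η) = g := by
    rw [map_cmp _ hη.1, hηX, cmp_X]
  have hst := hJ g φ ⟨hgend, by rw [hg1]; exact isUnit_one⟩ (fun i hi => hgc i hi.le)
    ⟨hφ, _, hθ, hθg⟩
  -- the quotient
  have hne : Jm m ≠ ⊤ := by
    intro ht
    have := h1 m
    rw [ht, mE_eq_maximalIdeal, top_le_iff] at this
    exact (IsLocalRing.maximalIdeal.isMaximal _).ne_top this
  have : Nontrivial (EE p n ⧸ Jm m) := Ideal.Quotient.nontrivial_iff.2 hne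
  have : IsLocalRing (EE p n ⧸ Jm m) :=
    IsLocalRing.of_surjective' (Ideal.Quotient.mk (Jm m)) Ideal.Quotient.mk_surjective
  set π := Ideal.Quotient.mk (Jm m) with hπ
  let r : EE p n ⧸ Jm m →+* kk p n := Ideal.Quotient.lift (Jm m) (resE p n) fun x hx => by
    have := h1 m hx
    rwa [← ker_resE] at this
  have hrπ : r.comp π = resE p n := by
    ext1 x
    rfl
  have hr : Function.Surjective r := by
    intro y
    obtain ⟨x, rfl⟩ := resE_surjective p n y
    exact ⟨π x, rfl⟩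
  have hkr : RingHom.ker r = IsLocalRing.maximalIdeal _ :=
    IsLocalRing.eq_maximalIdeal (RingHom.ker_isMaximal_of_surjective r hr)
  obtain ⟨N, hNN⟩ := h2 m
  have hpow : IsLocalRing.maximalIdeal (EE p n ⧸ Jm m) ^ N = ⊥ := by
    have h3 : IsLocalRing.maximalIdeal (EE p n ⧸ Jm m) ≤ (mE p n).map π := by
      intro y hy
      obtain ⟨x, rfl⟩ := Ideal.Quotient.mk_surjective y
      rw [← hkr] at hy
      refine Ideal.mem_map_of_mem _ ?_
      rw [← ker_resE]
      exact hy
    refine le_bot_iff.1 ((Ideal.pow_right_mono h3 N).trans ?_)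
    rw [← Ideal.map_pow, le_bot_iff, Ideal.map_eq_bot_iff_le_ker, hπ, Ideal.mk_ker]
    exact hNN
  have hra : r.comp (algebraMap (WW p n) (EE p n ⧸ Jm m)) = WittVector.constantCoeff := by
    rw [← show resW p n = WittVector.constantCoeff from rfl, ← hcomp]
    ext1 x
    rfl
  have hHB : (H.map π).map r = F0.map (resW p n) := by rw [fg_map_map, hrπ, hN.res]
  have hvB : IsFGHom (H.map π) (H.map π) (PowerSeries.map π (vartheta p n H a m)) := by
    rw [hv, map_fadd H _ hX0 hc0, PowerSeries.map_X]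
    exact isFGHom_fadd (isFGHom_X _) (hend a ha m)
  have hGB : G.map π = H.map π :=
    transport_unique' (isFGHom_map hGv π) hvB (by
      rw [PowerSeries.coeff_map]; exact hv1.map π)
  have hηB : IsFGHom ((H.map φ.toRingHom).map π) (H.map π) (PowerSeries.map π η) := by
    rw [← hGB]; exact isFGHom_map hη π
  have hηr : PowerSeries.map r (PowerSeries.map π η) = PowerSeries.X := by
    rw [← hηX, ← hrπ, PowerSeries.map_comp]
    rfl
  have huniq := (hH.2 (EE p n ⧸ Jm m) (isAdicComplete_of_pow_eq_bot _ hpow) r hr hkr hra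
    (H.map π) hHB).unique (y₁ := (Ideal.Quotient.mkₐ (WW p n) (Jm m)).comp φ)
    (y₂ := Ideal.Quotient.mkₐ (WW p n) (Jm m))
    ⟨by rw [← hφ]; ext1 x; rfl, PowerSeries.map π η, by rw [fg_map_map] at hηB; exact hηB, hηr⟩
    ⟨hrπ, PowerSeries.X, isFGHom_X _, PowerSeries.map_X _⟩
  have hπφ : π.comp φ.toRingHom = π := by
    ext1 x
    exact DFunLike.congr_fun huniq x
  rw [fg_map_map, hπφ] at hηB
  have hηBX : PowerSeries.map π η = PowerSeries.X := by
    refine rigidity _ hpow p (p ^ n) hq ?_ ?_ hηB (isFGHom_X _) ?_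
    · rw [← hkr, RingHom.mem_ker, map_natCast]
      exact CharP.cast_eq_zero _ p
    · intro k
      rw [← hkr, RingHom.mem_ker, ← PowerSeries.coeff_map, map_sub, map_mulSeries, hHB,
        hN.model.mul, map_pow, PowerSeries.map_X, sub_self, map_zero]
    · intro k
      rw [← hkr, RingHom.mem_ker, ← map_sub, ← PowerSeries.coeff_map, map_sub, hηr,
        PowerSeries.map_X, sub_self, map_zero]
  refine ⟨φ, _, hθ, fun f hf => ?_, fun f => ?_, fun k => ?_⟩
  · rw [← hst] at hf
    exact hf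
  · rw [← Ideal.Quotient.eq]
    exact DFunLike.congr_fun hπφ f
  · rw [← Ideal.Quotient.eq, ← hπ, ← PowerSeries.coeff_map, ← PowerSeries.coeff_map,
      map_cmp _ hη.1, hηBX, cmp_X]

theorem Jz_le (m : ℕ) : Jz p n m ≤ mE p n := by
  induction m with
  | zero => exact le_rfl
  | succ m ih =>
    refine sup_le (Ideal.mul_le_right.trans ih) ?_
    exact (Ideal.pow_le_self two_ne_zero).trans ih

theorem pow_le_Jz (m : ℕ) : mE p n ^ 2 ^ m ≤ Jz p n m := by
  induction m with
  | zero => exact (pow_one _).le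
  | succ m ih =>
    rw [pow_succ, pow_mul]
    exact (Ideal.pow_right_mono ih 2).trans le_sup_right

end Crest.R227
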