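import Crest.Agent.R227.Wei
import Crest.Agent.R227.Pt

/-! Row 227. `[p]` is onto the points over an algebraically closed field. -/

set_option autoImplicit false

namespace Crest.R227

open Crest.LubinTate

variable {K : Type*} [NormedField K] [IsUltrametricDist K] [CompleteSpace K] [IsAlgClosed K]
  (u : Unif K) (F : FormalGroup (Ob K)) [F.IsComm] {p q : ℕ}

/-- `exists_root` for `[p](X) - z`. -/
theorem nsmul_surjective (hq : 1 ≤ q)
    (hF : ∀ k, PowerSeries.coeff k (mulSeries F p - PowerSeries.X ^ q) ∈ u.I) (z : Pt u.I F) :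
    ∃ w : Pt u.I F, p • w = z := by
  have hn : ∀ k, ‖((PowerSeries.coeff k (mulSeries F p - PowerSeries.X ^ q) : Ob K) : K)‖ < 1 :=
    fun k => u.mem_radical.1 (Ideal.le_radical (hF k))
  have hz : ‖(z.val : K)‖ < 1 := u.mem_radical.1 z.mem
  obtain ⟨w, hw, hw0⟩ := exists_root u (f := mulSeries F p - PowerSeries.C z.val) hq
    (fun i hi => by
      have h := hn i
      rw [map_sub, PowerSeries.coeff_X_pow, if_neg hi.ne, sub_zero] at h
      rw [map_sub, PowerSeries.coeff_C]
      split_ifs with h0
      · subst h0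
        rw [PowerSeries.coeff_zero_eq_constantCoeff_apply, mulSeries_constantCoeff, zero_sub]
        simpa using hz
      · rwa [sub_zero])
    (by
      have h := hn q
      rw [map_sub, PowerSeries.coeff_X_pow, if_pos rfl] at h
      rw [map_sub, PowerSeries.coeff_C, if_neg (by omega), sub_zero]
      push_cast at h
      have e : ((PowerSeries.coeff q (mulSeries F p) : Ob K) : K) =
          1 + (((PowerSeries.coeff q (mulSeries F p) : Ob K) : K) - 1) := by ring
      rw [e, IsUltrametricDist.norm_add_eq_max_of_norm_ne_norm (by rw [norm_one]; exact h.ne'),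
        norm_one]
      exact max_eq_left h.le)
  refine ⟨⟨w, u.mem_radical.2 hw⟩, Pt.ext ?_⟩
  rw [Pt.val_nsmul]
  rw [map_sub, ev1_C, sub_eq_zero] at hw0
  exact hw0

theorem exists_tower (hq : 1 ≤ q)
    (hF : ∀ k, PowerSeries.coeff k (mulSeries F p - PowerSeries.X ^ q) ∈ u.I) (z : Pt u.I F) :
    ∃ w : ℕ → Pt u.I F, w 0 = z ∧ ∀ N, p • w (N + 1) = w N := by
  choose g hg using nsmul_surjective u F hq hF
  exact ⟨fun N => g^[N] z, rfl, fun N => by
    simp only [Function.iterate_succ_apply', hg]⟩

end Crest.R227
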