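import Crest.Agent.R227.Tau
import Crest.Agent.R227.Tower
import Crest.Agent.R227.Pure0
import Crest.Agent.R227.Point
import Crest.Agent.R227.Rig

/-! Row 227. The case `h = 0`. -/

set_option autoImplicit false

namespace Crest.R227

open Crest.LubinTate MvPowerSeries

variable {p : ℕ} [Fact p.Prime] {n : ℕ}
variable {K : Type*} [NontriviallyNormedField K] [IsUltrametricDist K] [CompleteSpace K]

/-- Towers modulo `ϖ` whose term of index `N1` lies in `ϖ O`. -/
def MZ (p : ℕ) (u : Unif K) (F : FormalGroup (Ob K)) [F.IsComm] (N1 : ℕ) :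
    AddSubgroup (ℕ → Pt u.I F) where
  carrier := {y | IsSeq p y ∧ (y N1).val ∈ u.I}
  zero_mem' := ⟨fun N => by simp, by simp⟩
  add_mem' := fun ha hb => ⟨ha.1.add hb.1, (Pt.fil u.I F u.I).add_mem ha.2 hb.2⟩
  neg_mem' := fun ha => ⟨ha.1.neg, (Pt.fil u.I F u.I).neg_mem ha.2⟩

variable {u : Unif K} {x : EE p n →+* Ob K} {F0 : FormalGroup (WW p n)} [F0.IsComm]
  {H : FormalGroup (EE p n)} [H.IsComm]

/-- The Teichmüller character into `O`. -/
noncomputable def chiO (x : EE p n →+* Ob K) (c : kk p n) : Ob K :=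
  iota x (WittVector.teichmuller p c)

omit [CompleteSpace K] in
theorem exists_ops_pow (hn : 1 ≤ n) (c : kk p n) : chiO x c ^ p ^ n = chiO x c := by
  rw [chiO, ← map_pow, ← map_pow, kk_pow p n hn]

omit [CompleteSpace K] [F0.IsComm] in
theorem exists_ops_hom (hn : 1 ≤ n) (hF : IsModel p n F0) (c : kk p n) :
    IsFGHom (F0.map (iota x)) (F0.map (iota x)) (PowerSeries.C (chiO x c) * PowerSeries.X) :=
  isFGHom_scalar (d := p ^ n - 1) (fun γ hγ => hF.hom γ fun h0 => hγ (by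
      change iota x (coeff γ F0.toPowerSeries) = 0
      rw [h0, map_zero])) (by
      rw [Nat.sub_add_cancel (Nat.one_le_pow _ _ (Fact.out : p.Prime).pos), exists_ops_pow hn])

theorem exists_ops_val (hn : 1 ≤ n) (hF : IsModel p n F0) (c : kk p n)
    (a : Pt u.I (F0.map (iota x))) :
    (Pt.act u.I (F0.map (iota x)) (F0.map (iota x))
      (PowerSeries.C (chiO x c) * PowerSeries.X) a).val = chiO x c * a.val := by
  rw [Pt.act_val (exists_ops_hom hn hF c), map_mul, ev1_C, ev1_X _ _ a.mem, RingHom.id_apply]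

theorem exists_ops_nsmul (hF : IsModel p n F0) (hx : IsPoint u x)
    (a : Pt u.I (F0.map (iota x))) : (p • a).val - a.val ^ p ^ n ∈ u.I := by
  have h := ev_mem_of_coeff_mem u.I (RingHom.id (Ob K)) (a := fun _ : Unit => a.val)
    (fun _ => a.mem) u.I (k := 1) (by rw [pow_one])
    (f := (mulSeries (F0.map (iota x)) p - PowerSeries.X ^ p ^ n : PowerSeries (Ob K)))
    (fun γ => by
      have h1 := model_mulSeries_mem hF hx (γ ())
      rw [RingHom.id_apply, Finsupp.unique_single γ]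
      exact h1)
  have h2 : ev1 u.I (RingHom.id (Ob K)) a.val
      (mulSeries (F0.map (iota x)) p - PowerSeries.X ^ p ^ n) ∈ u.I := h
  rwa [map_sub, map_pow, ev1_X _ _ a.mem, ← Pt.val_nsmul] at h2

/-- The operators on `MZ`: `mc c` is termwise multiplication by `[c]` (`Pt.act` of the scalar,
`isFGHom_scalar`), `S` the termwise `p`-th power. A sequence is `IsSeq` iff
`y_{N+1}^q ≡ y_N mod ϖ` (`model_mulSeries_mem`). -/
theorem exists_ops (hN : IsNorm p n F0 H) (hx : IsPoint u x) (N1 : ℕ) :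
    ∃ (mc : kk p n → MZ p u (F0.map (iota x)) N1 →+ MZ p u (F0.map (iota x)) N1)
      (S : MZ p u (F0.map (iota x)) N1 → MZ p u (F0.map (iota x)) N1),
      (∀ c y N, ((mc c y).1 N).val = chiO x c * (y.1 N).val) ∧
      ∀ y N, ((S y).1 N).val = (y.1 N).val ^ p := by
  have hp0 : p ≠ 0 := (Fact.out : p.Prime).ne_zero
  obtain ⟨A, hA⟩ : ∃ A : kk p n → Pt u.I (F0.map (iota x)) →+ Pt u.I (F0.map (iota x)),
      ∀ c a, (A c a).val = chiO x c * a.val := ⟨_, exists_ops_val hN.hn hN.model⟩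
  obtain ⟨P, hP⟩ : ∃ P : Pt u.I (F0.map (iota x)) → Pt u.I (F0.map (iota x)),
      ∀ a, (P a).val = a.val ^ p :=
    ⟨fun a => ⟨a.val ^ p, Ideal.pow_mem_of_mem _ a.mem p (Nat.pos_of_ne_zero hp0)⟩, fun _ => rfl⟩
  have h1 : ∀ c (y : MZ p u (F0.map (iota x)) N1),
      (fun N => A c (y.1 N)) ∈ MZ p u (F0.map (iota x)) N1 := fun c y => by
    refine ⟨fun N => ?_, ?_⟩
    · rw [← map_nsmul, hA, hA, ← mul_sub]
      exact u.I.mul_mem_left _ (y.2.1 N)
    · change (A c (y.1 N1)).val ∈ u.I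
      rw [hA]
      exact u.I.mul_mem_left _ y.2.2
  have h2 : ∀ y : MZ p u (F0.map (iota x)) N1,
      (fun N => P (y.1 N)) ∈ MZ p u (F0.map (iota x)) N1 := fun y => by
    refine ⟨fun N => ?_, ?_⟩
    · have e1 := exists_ops_nsmul hN.model hx (P (y.1 (N + 1)))
      have e2 := exists_ops_nsmul hN.model hx (y.1 (N + 1))
      have e3 : (y.1 (N + 1)).val ^ p ^ n - (y.1 N).val ∈ u.I := by
        have := u.I.sub_mem (y.2.1 N) e2
        rwa [sub_sub_sub_cancel_left] at this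
      have e4 : ((y.1 (N + 1)).val ^ p ^ n) ^ p - (y.1 N).val ^ p ∈ u.I := by
        obtain ⟨w, hw⟩ := sub_dvd_pow_sub_pow ((y.1 (N + 1)).val ^ p ^ n) (y.1 N).val p
        rw [hw]
        exact u.I.mul_mem_right _ e3
      rw [hP, ← pow_mul, mul_comm, pow_mul] at e1
      have := u.I.add_mem e1 e4
      rw [sub_add_sub_cancel] at this
      rw [hP]
      exact this
    · change (P (y.1 N1)).val ∈ u.I
      rw [hP]
      exact Ideal.pow_mem_of_mem _ y.2.2 p (Nat.pos_of_ne_zero hp0)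
  refine ⟨fun c => AddMonoidHom.mk' (fun y => ⟨_, h1 c y⟩) fun y y' =>
    Subtype.ext (funext fun N => (A c).map_add (y.1 N) (y'.1 N)), fun y => ⟨_, h2 y⟩,
    fun c y N => hA c _, fun y N => hP _⟩

/-- `λ(y) = L(π_x y)`. -/
noncomputable def lamZ (hN : IsNorm p n F0 H) (hx : IsPoint u x)
    (y : ℕ → Pt u.I (F0.map (iota x))) : K :=
  (logF p ((near_x hN hx).pi p y) : Ob K)

/-- The linear coefficients of `L(π_δ y) ∈ O⟦δ⟧`. -/
noncomputable def linZ (hN : IsNorm p n F0 H) (hx : IsPoint u x) (s : Fin (n - 1))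
    (y : ℕ → Pt u.I (F0.map (iota x))) : K :=
  (coeff (Finsupp.single s 1)
    (logF p ((near_tau hN hx (Function.Embedding.refl _)).pi p y)) : Ob K)

omit [Fact p.Prime] [CompleteSpace K] in
theorem lamZ_add_nzd (hp : (p : K) ≠ 0) : (p : Ob K) ∈ nonZeroDivisors (Ob K) := by
  refine mem_nonZeroDivisors_of_ne_zero fun h => hp ?_
  have := congrArg (fun a : Ob K => (a : K)) h
  simpa using this

theorem lamZ_add_isLog (hN : IsNorm p n F0 H) (hx : IsPoint u x) {N1 : ℕ}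
    (hN1 : u.I ^ (N1 + 1) ≤ Ideal.span {(p : Ob K) ^ 2}) (y : MZ p u (F0.map (iota x)) N1) :
    IsLog p ((near_x hN hx).pi p y.1) (logF p ((near_x hN hx).pi p y.1)) :=
  isLog_logF hx.p_mem (hN1 ((near_x hN hx).pi_mem_pow hx.p_mem y.2.1 y.2.2))

theorem lamZ_add (hN : IsNorm p n F0 H) (hx : IsPoint u x) (hp : (p : K) ≠ 0) {N1 : ℕ}
    (hN1 : u.I ^ (N1 + 1) ≤ Ideal.span {(p : Ob K) ^ 2}) (y y' : MZ p u (F0.map (iota x)) N1) :
    lamZ hN hx (y + y').1 = lamZ hN hx y.1 + lamZ hN hx y'.1 := by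
  have h1 := (lamZ_add_isLog hN hx hN1 y).add hx.p_mem (lamZ_add_isLog hN hx hN1 y')
  have h2 : (near_x hN hx).pi p (y + y').1 = (near_x hN hx).pi p y.1 + (near_x hN hx).pi p y'.1 :=
    (near_x hN hx).pi_add hx.p_mem y.2.1 y'.2.1
  unfold lamZ
  rw [h2, h1.logF_eq (lamZ_add_nzd hp), Subring.coe_add]

omit [CompleteSpace K] in
theorem dim_Z_chi_mul (c c' : kk p n) : chiO x (c * c') = chiO x c * chiO x c' := by
  unfold chiO
  rw [map_mul, map_mul]

omit [CompleteSpace K] in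
theorem dim_Z_chi_one : chiO x (1 : kk p n) = 1 := by
  unfold chiO
  rw [map_one, map_one]

omit [CompleteSpace K] in
theorem dim_Z_chi_zero : chiO x (0 : kk p n) = 0 := by
  unfold chiO
  rw [WittVector.teichmuller_zero, map_zero]

omit [CompleteSpace K] in
theorem dim_Z_chi_pow (c : kk p n) (m : ℕ) : chiO x (c ^ m) = chiO x c ^ m := by
  unfold chiO
  rw [map_pow, map_pow]

omit [CompleteSpace K] in
theorem dim_Z_chi_add (c c' : kk p n) :
    ∃ r : Ob K, chiO x c + chiO x c' - chiO x (c + c') = r * p := by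
  have h : WittVector.teichmuller p c + WittVector.teichmuller p c' -
      WittVector.teichmuller p (c + c') ∈ RingHom.ker (resW p n) := by
    rw [RingHom.mem_ker, map_sub, map_add]
    simp [WittVector.constantCoeff_apply, WittVector.teichmuller_coeff_zero]
  rw [ker_resW] at h
  obtain ⟨r, hr⟩ := Ideal.mem_span_singleton'.1 h
  refine ⟨iota x r, ?_⟩
  unfold chiO
  rw [← map_add, ← map_sub, ← hr, map_mul, map_natCast]

omit [Fact p.Prime] in
theorem dim_Z_frob {F : FormalGroup (Ob K)} [F.IsComm] {q : ℕ}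
    (hF : ∀ k, PowerSeries.coeff k (mulSeries F p - PowerSeries.X ^ q) ∈ u.I) (a : Pt u.I F) :
    (p • a).val - a.val ^ q ∈ u.I := by
  have h : ev1 u.I (RingHom.id _) a.val (mulSeries F p - PowerSeries.X ^ q) ∈ u.I :=
    ev_mem_of_coeff_mem u.I (RingHom.id _) (fun _ : Unit => a.mem) u.I (k := 1) (pow_one _).le
      fun γ => by
        have := hF (γ ())
        rw [PowerSeries.coeff_def (s := γ) rfl]  at *
        exact this
  rwa [map_sub, map_pow, ev1_X u.I _ a.mem, ← Pt.val_nsmul] at h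

omit [Fact p.Prime] in
theorem dim_Z_step {F : FormalGroup (Ob K)} [F.IsComm] {α β γ r t : Ob K}
    (hr : α + β - γ = r * p) {A B C : Pt u.I F} (hA : A.val = α * t) (hB : B.val = β * t)
    (hC : C.val = γ * t) :
    ‖((A + B - C).val : K)‖ ≤ ‖(t : K)‖ * max ‖(p : K)‖ ‖(t : K)‖ := by
  obtain ⟨s, hs⟩ : ∃ s : Ob K, ‖(s : K)‖ = max ‖(p : K)‖ ‖(t : K)‖ := by
    rcases le_total ‖(p : K)‖ ‖(t : K)‖ with h | h
    · exact ⟨t, (max_eq_right h).symm⟩
    · exact ⟨p, by rw [max_eq_left h, Subring.coe_natCast]⟩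
  have h1 : (p : Ob K) ∈ Ideal.span {s} := by
    rw [Ob.mem_span_iff, hs, Subring.coe_natCast]
    exact le_max_left _ _
  have h2 : t ∈ Ideal.span {s} := by
    rw [Ob.mem_span_iff, hs]
    exact le_max_right _ _
  obtain ⟨a, ha⟩ := Ideal.mem_span_singleton'.1 h1
  obtain ⟨b, hb⟩ := Ideal.mem_span_singleton'.1 h2
  rw [← hs, ← norm_mul, ← Subring.coe_mul, ← Ob.mem_span_iff, Pt.sub_val_mem_iff]
  obtain ⟨w, hw⟩ := Pt.add_shape A B
  refine Ideal.mem_span_singleton'.2 ⟨r * a + α * β * w * b, ?_⟩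
  rw [hw, hA, hB, hC]
  linear_combination (t * r) * ha + (α * β * w * t) * hb - t * hr

theorem dim_Z_ne [IsAlgClosed K] (hN : IsNorm p n F0 H) (hx : IsPoint u x) (hp : (p : K) ≠ 0)
    (N1 : ℕ) : ∃ y : MZ p u (F0.map (iota x)) N1, lamZ hN hx y.1 ≠ 0 := by
  have hϖ : u.ϖ ∈ u.I := Ideal.mem_span_singleton_self _
  let z0 : Pt u.I (H.map x) := ⟨(p : Ob K) ^ 2 * u.ϖ, Ideal.le_radical (u.I.mul_mem_left _ hϖ)⟩
  obtain ⟨w, hw0, hw⟩ := exists_tower u (H.map x) (p := p) (q := p ^ n)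
    (Nat.one_le_pow _ _ (Fact.out : p.Prime).pos) (point_mulSeries_mem hN hx) z0
  let z : ℕ → Pt u.I (H.map x) := fun N => p ^ N1 • w N
  have hz : ∀ N, p • z (N + 1) = z N := fun N => by
    change p • p ^ N1 • w (N + 1) = p ^ N1 • w N
    rw [smul_comm, hw]
  have hzN : ∀ N, p ^ N • w N = z0 := fun N => by
    induction N with
    | zero => rw [pow_zero, one_smul, hw0]
    | succ N ih => rw [pow_succ, mul_smul, hw, ih]
  let y : ℕ → Pt u.I (F0.map (iota x)) := fun N => ⟨(z N).val, (z N).mem⟩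
  have hy : IsSeq p y := fun N => by
    have h1 := Pt.nsmul_val_congr (I := u.I) (J := u.I) (k := 1) (pow_one _).le
      (near_x hN hx).near (a := z (N + 1)) (a' := y (N + 1))
      (by rw [sub_self]; exact u.I.zero_mem) p
    rw [hz] at h1
    have h2 := u.I.neg_mem h1
    rw [neg_sub] at h2
    exact h2
  have hy1 : (y N1).val ∈ u.I := by
    change (p ^ N1 • w N1).val ∈ u.I
    rw [hzN]
    exact u.I.mul_mem_left _ hϖ
  refine ⟨⟨y, hy, hy1⟩, fun h => ?_⟩
  have hpi : (near_x hN hx).pi p y = z 0 :=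
    (near_x hN hx).pi_eq_of_exact hx.p_mem hz fun N => by
      change (z N).val - (z N).val ∈ u.I
      rw [sub_self]
      exact u.I.zero_mem
  have hz0 : z 0 = p ^ N1 • z0 := by
    change p ^ N1 • w 0 = _
    rw [hw0]
  obtain ⟨v, hv1, hv⟩ := isLog_witness hx.p_mem (Y := z0) (y := u.ϖ) rfl N1
  have hmem : (z 0).val ∈ Ideal.span {(p : Ob K) ^ 2} := by
    rw [hz0, hv]
    exact Ideal.mem_span_singleton'.2 ⟨(p : Ob K) ^ N1 * (u.ϖ * v), by ring⟩
  have hL := isLog_logF hx.p_mem hmem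
  have h0 : logF p (z 0) = 0 := by
    unfold lamZ at h
    rw [hpi] at h
    exact Subtype.ext h
  rw [h0] at hL
  have h3 := hL.eq_zero hx.p_mem (lamZ_add_nzd hp)
  rw [hz0] at h3
  rw [h3, Pt.val_zero] at hv
  have hp' : (p : Ob K) ≠ 0 := nonZeroDivisors.ne_zero (lamZ_add_nzd hp)
  have hϖ0 : u.ϖ ≠ 0 := fun h => by
    have := u.pos
    rw [h] at this
    simp at this
  have hv0 : v = 0 := by
    rcases mul_eq_zero.1 hv.symm with h4 | h4
    · exact absurd (pow_eq_zero_iff (by omega) |>.1 h4) hp'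
    · exact (mul_eq_zero.1 h4).resolve_left hϖ0
  rw [hv0, zero_sub, Ob.mem_span_iff] at hv1
  have := u.lt
  simp at hv1
  linarith

theorem dim_Z_small (hN : IsNorm p n F0 H) (hx : IsPoint u x) (hp : (p : K) ≠ 0) {N1 : ℕ}
    (hN1 : u.I ^ (N1 + 1) ≤ Ideal.span {(p : Ob K) ^ 2}) {ε : ℝ} (hε : 0 < ε) :
    ∃ N0 : ℕ, ∀ y : MZ p u (F0.map (iota x)) N1, (y.1 N0).val ∈ u.I → ‖lamZ hN hx y.1‖ < ε := by
  have hp0 : 0 < ‖(p : K)‖ := norm_pos_iff.2 hp
  have hp1 : ‖(p : K)‖ ≤ 1 := by simpa using Ob.norm_le (p : Ob K)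
  obtain ⟨N0, hN0⟩ := exists_pow_lt_of_lt_one (mul_pos hε (pow_pos hp0 2)) u.lt
  have hN0' : ‖(u.ϖ : K)‖ ^ (N0 + 1) < ε * ‖(p : K)‖ ^ 2 :=
    (pow_le_pow_of_le_one u.pos.le u.lt.le (Nat.le_succ N0)).trans_lt hN0
  refine ⟨N0, fun y hy => ?_⟩
  have h1 := (near_x hN hx).pi_mem_pow hx.p_mem y.2.1 hy
  obtain ⟨y0, hy0⟩ := Ideal.mem_span_singleton'.1
    (hN1 ((near_x hN hx).pi_mem_pow hx.p_mem y.2.1 y.2.2))
  have h2 := (lamZ_add_isLog hN hx hN1 y).mem_sup hx.p_mem (lamZ_add_nzd hp)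
    (y := y0) (by rw [← hy0, mul_comm]) (N0 + 1)
  obtain ⟨a, ha, b, hb, hab⟩ := Submodule.mem_sup.1 h2
  rw [← hy0, u.mem_pow, Subring.coe_mul, Subring.coe_pow, Subring.coe_natCast, norm_mul,
    norm_pow] at h1
  have h3 : ‖(y0 : K)‖ < ε := lt_of_mul_lt_mul_right (h1.trans_lt hN0') (pow_pos hp0 2).le
  rw [Ob.mem_span_iff] at ha
  rw [u.mem_pow] at hb
  have h4 : ε * ‖(p : K)‖ ^ 2 ≤ ε := mul_le_of_le_one_right hε.le (pow_le_one₀ hp0.le hp1)
  unfold lamZ
  rw [← hab, Subring.coe_add]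
  exact (IsUltrametricDist.norm_add_le_max _ _).trans_lt
    (max_lt (ha.trans_lt h3) (hb.trans_lt (hN0'.trans_le h4)))

/-- The hypotheses of `dim_lemma`. Nonvanishing: take an exact `[p]_{H_x}`-tower `z` with
`z_{N1} = p² ϖ` (`exists_tower` upwards, multiples downwards), `pi_eq_of_exact`, `IsLog.nsmul_p`,
`IsLog.eq_zero`. `S^n y ≡ p • y` termwise mod `ϖ`. Smallness: `b` maps a term of norm `t` to one of
norm `≤ t max(‖p‖, t)`, so after `k` steps the term of index `N0` lies in `ϖ O`; then `pi_mem_pow`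
and `IsLog.mem_sup`. -/
theorem dim_Z [IsAlgClosed K] (hN : IsNorm p n F0 H) (hx : IsPoint u x) (hp : (p : K) ≠ 0) {N1 : ℕ}
    (hN1 : u.I ^ (N1 + 1) ≤ Ideal.span {(p : Ob K) ^ 2})
    (mc : kk p n → MZ p u (F0.map (iota x)) N1 →+ MZ p u (F0.map (iota x)) N1)
    (S : MZ p u (F0.map (iota x)) N1 → MZ p u (F0.map (iota x)) N1)
    (hmc : ∀ c y N, ((mc c y).1 N).val = chiO x c * (y.1 N).val)
    (hS : ∀ y N, ((S y).1 N).val = (y.1 N).val ^ p)
    (U : Submodule K (MZ p u (F0.map (iota x)) N1 → K))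
    (hU : ∀ c, ∀ l < n, (fun y => lamZ hN hx (mc c (S^[l] y)).1) ∈ U) :
    ∃ v : Fin n → (MZ p u (F0.map (iota x)) N1 → K), LinearIndependent K v ∧ ∀ i, v i ∈ U := by
  have hp1 : ‖(p : K)‖ < 1 := by
    have h := hx.p_mem
    rw [Ob.mem_span_iff, Subring.coe_natCast] at h
    exact h.trans_lt u.lt
  let χ : GaloisField p n →*₀ K :=
    { toFun := fun c => (chiO x c : K)
      map_zero' := by rw [dim_Z_chi_zero, Subring.coe_zero]
      map_one' := by rw [dim_Z_chi_one, Subring.coe_one]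
      map_mul' := fun c c' => by rw [dim_Z_chi_mul, Subring.coe_mul] }
  let lam : MZ p u (F0.map (iota x)) N1 →+ K :=
    AddMonoidHom.mk' (fun y => lamZ hN hx y.1) (lamZ_add hN hx hp hN1)
  have hext : ∀ y y' : MZ p u (F0.map (iota x)) N1, (∀ N, (y.1 N).val = (y'.1 N).val) → y = y' :=
    fun y y' h => Subtype.ext (funext fun N => Pt.ext (h N))
  have hSl : ∀ l y N, ((S^[l] y).1 N).val = (y.1 N).val ^ p ^ l := by
    intro l
    induction l with
    | zero => intro y N; rw [Function.iterate_zero, id, pow_zero, pow_one]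
    | succ l ih => intro y N; rw [Function.iterate_succ_apply', hS, ih, ← pow_mul, pow_succ]
  refine dim_lemma p n hN.hn χ (fun c c' => ?_) hp hp1 mc (fun c c' y => hext _ _ fun N => ?_)
    (fun y => hext _ _ fun N => ?_) (fun y => hext _ _ fun N => ?_) S
    (fun c y => hext _ _ fun N => ?_) lam ?_ (fun c y => ?_) (fun c c' y ε hε => ?_) U hU
  · obtain ⟨r, hr⟩ := dim_Z_chi_add (x := x) c c'
    have h1 := congrArg (fun a : Ob K => (a : K)) hr
    simp only [AddSubgroupClass.coe_sub, Subring.coe_add, Subring.coe_mul,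
      Subring.coe_natCast] at h1
    have h2 : χ (c + c') - χ c - χ c' = -((r : K) * p) := by
      rw [← h1]
      change (chiO x (c + c') : K) - (chiO x c : K) - (chiO x c' : K) = _
      ring
    rw [h2, norm_neg, norm_mul]
    exact (mul_le_of_le_one_left (norm_nonneg _) (Ob.norm_le r)).trans_lt hp1
  · rw [hmc, hmc, hmc, dim_Z_chi_mul, mul_assoc]
  · rw [hmc, dim_Z_chi_one, one_mul]
  · rw [hmc, dim_Z_chi_zero, zero_mul]
    rfl
  · rw [hS, hmc, hmc, hS, dim_Z_chi_pow, mul_pow]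
  · obtain ⟨y, hy⟩ := dim_Z_ne hN hx hp N1
    intro h
    exact hy (DFunLike.congr_fun h y)
  · have h1 : (near_x hN hx).pi p (p • mc c y).1 = (near_x hN hx).pi p (mc c (S^[n] y)).1 :=
      (near_x hN hx).pi_congr hx.p_mem (p • mc c y).2.1 fun N => by
        have h2 := dim_Z_frob (model_mulSeries_mem hN.model hx) ((mc c y).1 N)
        rw [hmc, mul_pow, ← dim_Z_chi_pow, kk_pow p n hN.hn] at h2
        rw [hmc, hSl]
        exact h2
    have h2 : lam (mc c (S^[n] y)) = lam (p • mc c y) := by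
      change lamZ hN hx _ = lamZ hN hx _
      unfold lamZ
      rw [h1]
    rw [h2, map_nsmul, nsmul_eq_mul]
  · obtain ⟨N0, hN0⟩ := dim_Z_small hN hx hp hN1 hε
    obtain ⟨r, hr⟩ := dim_Z_chi_add (x := x) c c'
    have ht : ‖((y.1 N0).val : K)‖ < 1 := u.mem_radical.1 (y.1 N0).mem
    obtain ⟨ρ, hρ⟩ : ∃ ρ : ℝ, ρ = max ‖(p : K)‖ ‖((y.1 N0).val : K)‖ := ⟨_, rfl⟩
    have hρ1 : ρ < 1 := hρ ▸ max_lt hp1 ht
    have hρ0 : 0 ≤ ρ := hρ ▸ le_max_of_le_left (norm_nonneg _)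
    have key : ∀ k : ℕ,
        ‖((((mc c + mc c' - mc (c + c'))^[k] y).1 N0).val : K)‖ ≤ ρ ^ (k + 1) := by
      intro k
      induction k with
      | zero =>
        rw [Function.iterate_zero, id, zero_add, pow_one, hρ]
        exact le_max_right _ _
      | succ k ih =>
        rw [Function.iterate_succ_apply']
        generalize (⇑(mc c + mc c' - mc (c + c')))^[k] y = y' at ih ⊢
        have h1 := dim_Z_step hr (hmc c y' N0) (hmc c' y' N0) (hmc (c + c') y' N0)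
        have h2 : ρ ^ (k + 1) ≤ ρ := pow_le_of_le_one hρ0 hρ1.le (by omega)
        refine le_trans h1 ?_
        rw [pow_succ ρ (k + 1)]
        refine mul_le_mul ih (max_le ?_ (ih.trans h2)) (le_max_of_le_left (norm_nonneg _))
          (pow_nonneg hρ0 _)
        rw [hρ]
        exact le_max_left _ _
    obtain ⟨k, hk⟩ := exists_pow_lt_of_lt_one u.pos hρ1
    refine ⟨k, fun c'' => hN0 _ ?_⟩
    rw [hmc]
    refine u.I.mul_mem_left _ ?_
    rw [Ob.mem_span_iff]
    exact (key k).trans ((pow_le_pow_of_le_one hρ0 hρ1.le (Nat.le_succ k)).trans hk.le)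

omit [CompleteSpace K] in
theorem norm_Jz_step {m : ℕ} {r t : ℝ} (hr : 0 ≤ r) (hpt : ‖(p : K)‖ ≤ t) (hrt : r ≤ t)
    (h : ∀ f ∈ Jz p n m, ‖(x f : K)‖ ≤ r) : ∀ f ∈ Jz p n (m + 1), ‖(x f : K)‖ ≤ r * t := by
  have ht : 0 ≤ t := hr.trans hrt
  obtain ⟨B, hB⟩ : ∃ B : Ideal (EE p n), ∀ f, f ∈ B ↔ ‖(x f : K)‖ ≤ r * t :=
    ⟨{ carrier := {f | ‖(x f : K)‖ ≤ r * t}
       zero_mem' := by
        change ‖(x 0 : K)‖ ≤ r * t
        rw [map_zero, Subring.coe_zero, norm_zero]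
        exact mul_nonneg hr ht
       add_mem' := fun {a b} ha hb => by
        change ‖(x (a + b) : K)‖ ≤ r * t
        rw [map_add, Subring.coe_add]
        exact (IsUltrametricDist.norm_add_le_max _ _).trans (max_le ha hb)
       smul_mem' := fun c a ha => by
        change ‖(x (c * a) : K)‖ ≤ r * t
        rw [map_mul, Subring.coe_mul, norm_mul]
        exact (mul_le_of_le_one_left (norm_nonneg _) (Ob.norm_le _)).trans ha },
      fun _ => Iff.rfl⟩
  have hle : Jz p n (m + 1) ≤ B := by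
    rw [Jz, pow_two]
    refine sup_le (Ideal.mul_le.2 fun a ha b hb => ?_) (Ideal.mul_le.2 fun a ha b hb => ?_)
    · obtain ⟨c, rfl⟩ := Ideal.mem_span_singleton'.1 ha
      rw [mul_assoc]
      refine B.mul_mem_left _ ((hB _).2 ?_)
      rw [map_mul, map_natCast, Subring.coe_mul, norm_mul, mul_comm, SubringClass.coe_natCast]
      exact mul_le_mul (h b hb) hpt (norm_nonneg _) hr
    · rw [hB, map_mul, Subring.coe_mul, norm_mul]
      exact mul_le_mul (h a ha) ((h b hb).trans hrt) (norm_nonneg _) hr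
  exact fun f hf => (hB f).1 (hle hf)

omit [CompleteSpace K] in
theorem norm_Jz_p (hx : IsPoint u x) : ‖(p : K)‖ ≤ ‖(u.ϖ : K)‖ ^ 2 := by
  have h := u.mem_pow.1 (hx _ (p_mem_mE p n))
  rwa [map_natCast, SubringClass.coe_natCast] at h

/-- `ρ_{m+1} ≤ ρ_m max(‖p‖, ρ_m)` with `ρ_0 = ‖ϖ‖²`, `‖p‖ ≤ ρ_0`. -/
theorem norm_Jz (hx : IsPoint u x) (hp : (p : K) ≠ 0) :
    ∃ C : ℝ, ∀ m, ∀ f ∈ Jz p n m, ‖(x f : K)‖ ≤ C * ‖(p : K)‖ ^ m := by
  have hp0 : 0 < ‖(p : K)‖ := norm_pos_iff.2 hp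
  have hr0 : 0 ≤ ‖(u.ϖ : K)‖ ^ 2 := by positivity
  have hr1 : ‖(u.ϖ : K)‖ ^ 2 < 1 := pow_lt_one₀ (norm_nonneg _) u.lt two_ne_zero
  have hpr := norm_Jz_p hx
  have hp1 : ‖(p : K)‖ ≤ 1 := hpr.trans hr1.le
  have A1 : ∀ m, ∀ f ∈ Jz p n m, ‖(x f : K)‖ ≤ (‖(u.ϖ : K)‖ ^ 2) ^ (m + 1) := by
    intro m
    induction m with
    | zero =>
      intro f hf
      rw [zero_add, pow_one]
      exact u.mem_pow.1 (hx f hf)
    | succ m ih =>
      rw [pow_succ _ (m + 1)]
      exact norm_Jz_step (pow_nonneg hr0 _) hpr (pow_le_of_le_one hr0 hr1.le (by omega)) ih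
  obtain ⟨m0, hm0⟩ := exists_pow_lt_of_lt_one hp0 hr1
  have A2 : ∀ k, ∀ f ∈ Jz p n (m0 + k), ‖(x f : K)‖ ≤ ‖(p : K)‖ ^ (k + 1) := by
    intro k
    induction k with
    | zero =>
      intro f hf
      rw [zero_add, pow_one]
      exact (A1 m0 f hf).trans ((pow_le_pow_of_le_one hr0 hr1.le (by omega)).trans hm0.le)
    | succ k ih =>
      rw [pow_succ _ (k + 1)]
      exact norm_Jz_step (pow_nonneg hp0.le _) le_rfl (pow_le_of_le_one hp0.le hp1 (by omega)) ih
  refine ⟨(‖(p : K)‖ ^ m0)⁻¹, fun m f hf => ?_⟩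
  rw [← div_eq_inv_mul, le_div_iff₀ (pow_pos hp0 _)]
  rcases le_total m0 m with hm | hm
  · obtain ⟨k, rfl⟩ := Nat.exists_eq_add_of_le hm
    rw [pow_add, mul_comm]
    exact mul_le_mul_of_nonneg_left
      ((A2 k f hf).trans (pow_le_pow_of_le_one hp0.le hp1 (by omega))) (pow_nonneg hp0.le _)
  · exact (mul_le_of_le_one_left (pow_nonneg hp0.le _) (Ob.norm_le _)).trans
      (pow_le_pow_of_le_one hp0.le hp1 hm)

theorem expand_Z_lin {σ : Type} [Fintype σ] {d : σ → Ob K} (hd : ∀ s, d s ∈ u.I.radical) {ρ : ℝ}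
    (hρ : 0 ≤ ρ) (hδ : ∀ s, ‖(d s : K)‖ ≤ ρ) (g : MvPowerSeries σ (Ob K)) :
    ‖((ev u.I (RingHom.id _) d g : Ob K) : K) - (((constantCoeff g : Ob K) : K) +
      ∑ s, ((coeff (Finsupp.single s 1) g : Ob K) : K) * d s)‖ ≤ ρ ^ 2 := by
  have h := Ob.norm_le_of_mem_span_pow hρ hδ (ev_sub_linear_mem u.I (RingHom.id _) hd g)
  simpa only [RingHom.id_apply, AddSubgroupClass.coe_sub, AddSubmonoidClass.coe_finsetSum,
    Subring.coe_mul, sub_sub, Subring.coe_add] using h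

omit [Fact p.Prime] in
theorem expand_Z_pow {B : Type*} [CommRing B] {I : Ideal B} [IsAdicComplete I B]
    {F : FormalGroup B} [F.IsComm] (hp : (p : B) ∈ I) {Y : Pt I F} {L : B} (h : IsLog p Y L)
    (m : ℕ) : IsLog p (p ^ m • Y) ((p : B) ^ m * L) := by
  induction m with
  | zero => rwa [pow_zero, pow_zero, one_smul, one_mul]
  | succ m ih =>
    rw [pow_succ' p, mul_smul, pow_succ', mul_assoc]
    exact ih.nsmul_p hp

omit [Fact p.Prime] in
theorem expand_Z_log {σ : Type} {G0 G' : FormalGroup (Ob K)} [G0.IsComm] [G'.IsComm]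
    {G : FormalGroup (MvPowerSeries σ (Ob K))} [G.IsComm]
    (h : Near u G0 (cI σ u.ϖ) (C : Ob K →+* MvPowerSeries σ (Ob K)) G)
    (h' : Near u G0 u.I (RingHom.id _) G') (hp : (p : Ob K) ∈ u.I) {N1 : ℕ}
    (hN1 : u.I ^ (N1 + 1) ≤ Ideal.span {(p : Ob K) ^ 2}) (β : MvPowerSeries σ (Ob K) →+* Ob K)
    (hρ : β.comp C = RingHom.id _) (hF : G.map β = G') (y : MZ p u G0 N1) :
    IsLog p (h'.pi p y.1) (β (logF p (h.pi p y.1))) := by
  have hβ : cI σ u.ϖ ≤ u.I.comap β := by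
    rw [cI, Ideal.span_singleton_le_iff_mem, Ideal.mem_comap, ← RingHom.comp_apply, hρ]
    exact Ideal.mem_span_singleton_self _
  have hβ' : cI σ u.ϖ ≤ u.I.radical.comap β := hβ.trans (Ideal.comap_mono Ideal.le_radical)
  have hI : cI σ u.ϖ ^ (N1 + 1) ≤ Ideal.span {(p : MvPowerSeries σ (Ob K)) ^ 2} := by
    have h1 := Ideal.map_mono (f := (C : Ob K →+* MvPowerSeries σ (Ob K))) hN1
    rwa [Ideal.map_pow, Ideal.map_span, Ideal.map_span, Set.image_singleton, Set.image_singleton,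
      map_pow, map_natCast] at h1
  have h1 := (isLog_logF (h.isPi_p hp) (hI (h.pi_mem_pow hp y.2.1 y.2.2))).map β hβ hβ' hF
  rwa [h.pi_map h' hp β hβ hβ' hρ hF y.2.1] at h1

/-- First-order expansion of the equivariance identity: apply `IsLog.act`, `IsLog.add`,
`IsLog.nsmul_p` to `eqv`; `x ∘ φ = ev δ ∘ τ` (`tau_eval`), `Near.pi_map` and `IsLog.map` along
`ev δ`, and `ev_sub_linear_mem`; `constantCoeff` of the logarithm over `O⟦δ⟧` is `lamZ`. -/
theorem expand_Z (hN : IsNorm p n F0 H) (hx : IsPoint u x) (hp : (p : K) ≠ 0) {N1 : ℕ}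
    (hN1 : u.I ^ (N1 + 1) ≤ Ideal.span {(p : Ob K) ^ 2}) {a : PowerSeries (WW p n)}
    (ha : PowerSeries.constantCoeff a = 0) {m : ℕ} (φ : EE p n →ₐ[WW p n] EE p n)
    {θ : PowerSeries (EE p n)} (hθ : IsFGHom (H.map φ.toRingHom) H θ)
    (hφ : ∀ f, φ f - f ∈ mE p n)
    (hθm : ∀ k, PowerSeries.coeff k θ - PowerSeries.coeff k (vartheta p n H a m) ∈ mE p n) :
    ∃ (uu : K) (δ : Fin (n - 1) → K), ‖uu‖ ≤ 1 ∧
      (∀ s, (u.ϖ : K) * δ s = x (φ (X s) - X s)) ∧
      ∀ ρ : ℝ, 0 ≤ ρ → (∀ s, ‖δ s‖ ≤ ρ) →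
        (∀ f, x f = 0 → x (φ f) = 0 →
          ‖∑ s, ((coeff (Finsupp.single s 1) (tau u x (Function.Embedding.refl _) f) : Ob K) : K) *
            δ s‖ ≤ ρ ^ 2) ∧
        ∀ y ya : MZ p u (F0.map (iota x)) N1,
          (∀ N, (ya.1 N).val - ev1 u.I (iota x) (y.1 N).val a ∈ u.I) →
          ‖lamZ hN hx y.1 + (p : K) ^ m * lamZ hN hx ya.1 -
            uu * (lamZ hN hx y.1 + ∑ s, linZ hN hx s y.1 * δ s)‖ ≤ ρ ^ 2 := by
  have hd : ∀ s : Fin (n - 1), ∃ d : Ob K, d ∈ u.I ∧ u.ϖ * d = x (φ (X s) - X s) := fun s => by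
    have h := hx _ (hφ (X s))
    rw [Ideal.span_singleton_pow, Ideal.mem_span_singleton'] at h
    obtain ⟨c, hc⟩ := h
    exact ⟨c * u.ϖ, u.I.mul_mem_left _ (Ideal.mem_span_singleton_self _), by rw [← hc]; ring⟩
  choose d hdI hd using hd
  have hdr : ∀ s, d s ∈ u.I.radical := fun s => Ideal.le_radical (hdI s)
  have hι : iota (x.comp φ.toRingHom) = iota x := RingHom.ext fun w => by
    rw [iota, iota, RingHom.comp_apply, RingHom.comp_apply, RingHom.comp_apply]
    exact congrArg x (φ.commutes w)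
  have hev : (ev u.I (RingHom.id _) d).comp (tau u x (Function.Embedding.refl _)) =
      x.comp φ.toRingHom :=
    tau_eval hx _ hι d hdr (fun s => by
      rw [hd, map_sub, Function.Embedding.refl_apply, add_sub_cancel, RingHom.comp_apply]
      exact congrArg x rfl) fun i hi => absurd ⟨i, rfl⟩ hi
  have hcon := tau_const (e := Function.Embedding.refl (Fin (n - 1))) hx
  have h' : Near u (F0.map (iota x)) u.I (RingHom.id _) (H.map (x.comp φ.toRingHom)) :=
    near_of (x := x) hN.res (Ideal.mem_span_singleton_self u.ϖ) _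
      (hι.trans (RingHom.id_comp (iota x)).symm) fun f hf => by
        have h1 := (mE p n).add_mem (hφ f) hf
        rw [sub_add_cancel] at h1
        exact hx.mem h1
  have hθx : IsFGHom (H.map (x.comp φ.toRingHom)) (H.map x) (PowerSeries.map x θ) := by
    rw [← fg_map_map]
    exact isFGHom_map hθ x
  refine ⟨(PowerSeries.coeff 1 (PowerSeries.map x θ) : Ob K), fun s => d s, Ob.norm_le _,
    fun s => by rw [← hd, Subring.coe_mul], fun ρ hρ hδ => ⟨fun f h1 h2 => ?_, fun y ya hyy => ?_⟩⟩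
  · have h3 := expand_Z_lin hdr hρ hδ (tau u x (Function.Embedding.refl _) f)
    have h4 := RingHom.congr_fun hev f
    have h5 := RingHom.congr_fun hcon f
    rw [RingHom.comp_apply, RingHom.comp_apply] at h4
    rw [RingHom.comp_apply] at h5
    have h6 : x (φ.toRingHom f) = 0 := h2
    rw [h4, h5, h6, h1, Subring.coe_zero, zero_add, zero_sub, norm_neg] at h3
    exact h3
  · have e1 := expand_Z_log (near_tau hN hx (Function.Embedding.refl _)) h' hx.p_mem hN1
      (ev u.I (RingHom.id _) d) (RingHom.ext fun r => ev_C _ _ _ r)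
      (by rw [fg_map_map, hev]) y
    have e2 := expand_Z_log (near_tau hN hx (Function.Embedding.refl _)) (near_x hN hx) hx.p_mem hN1
      constantCoeff (RingHom.ext fun r => by rw [RingHom.comp_apply, constantCoeff_C, RingHom.id_apply]) (by rw [fg_map_map, hcon]) y
    have e3 := e1.act hx.p_mem hθx
    rw [eqv hN hx ha φ hθ hθm h' y.2.1 ya.2.1 hyy] at e3
    have e4 := (lamZ_add_isLog hN hx hN1 y).add hx.p_mem
      (expand_Z_pow hx.p_mem (lamZ_add_isLog hN hx hN1 ya) m)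
    have e5 := congrArg (fun a : Ob K => (a : K)) (e4.unique (lamZ_add_nzd hp) e3)
    simp only [Subring.coe_add, Subring.coe_mul, SubmonoidClass.coe_pow,
      SubringClass.coe_natCast] at e5
    have h3 := expand_Z_lin hdr hρ hδ
      (logF p ((near_tau hN hx (Function.Embedding.refl _)).pi p y.1))
    rw [← e2.logF_eq (lamZ_add_nzd hp)] at h3
    unfold lamZ linZ
    rw [e5, ← mul_sub, norm_mul]
    exact (mul_le_of_le_one_left (norm_nonneg _) (Ob.norm_le _)).trans h3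

theorem first_order_dim {K : Type*} [Field K] {X : Type*} {n : ℕ} (s0 : Fin (n - 1)) (lam : X → K)
    (L : {s // s ≠ s0} → X → K) (v : Fin n → X → K) (hv : LinearIndependent K v)
    (h : ∀ i, v i ∈ Submodule.span K (insert lam (Set.range L))) : False := by
  classical
  have e : insert lam (Set.range L) = Set.range fun o : Option {s // s ≠ s0} => o.elim lam L := by
    rw [Option.range_eq]
    rfl
  rw [e] at h
  have h1 := finrank_range_le_card (R := K) fun o : Option {s // s ≠ s0} => o.elim lam L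
  have : FiniteDimensional K (Submodule.span K
      (Set.range fun o : Option {s // s ≠ s0} => o.elim lam L)) :=
    FiniteDimensional.span_of_finite K (Set.finite_range _)
  have h2 : LinearIndependent K fun i => (⟨v i, h i⟩ : Submodule.span K
      (Set.range fun o : Option {s // s ≠ s0} => o.elim lam L)) :=
    LinearIndependent.of_comp (Submodule.subtype _) hv
  have h3 := h2.fintype_card_le_finrank
  have h4 := s0.2
  rw [Set.finrank, Fintype.card_option, Fintype.card_subtype_compl, Fintype.card_subtype_eq,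
    Fintype.card_fin] at h1
  rw [Fintype.card_fin] at h3
  omega

/-- If some linear coefficient `w_{s0}` were nonzero, `la0` (with `a = [c] X^{p^l}`,
`isLift_monomial`) puts all functions `y ↦ λ([c] y^{p^l})` in a space spanned by `n - 1` functions,
against `dim_Z`. -/
theorem first_order [IsAlgClosed K] (hN : IsNorm p n F0 H) (hx : IsPoint u x) (hp : (p : K) ≠ 0)
    {J : Ideal (EE p n)} {M : ℕ} (hF : Fam p n F0 H J M (Jz p n)) (hJ : ∀ f ∈ J, x f = 0)
    {f : EE p n} (hf : f ∈ J) (s : Fin (n - 1)) :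
    coeff (Finsupp.single s 1) (tau u x (Function.Embedding.refl _) f) = 0 := by
  by_contra hw
  have hp0 : 0 < ‖(p : K)‖ := norm_pos_iff.2 hp
  have hp1 : ‖(p : K)‖ < 1 :=
    (norm_Jz_p hx).trans_lt (pow_lt_one₀ (norm_nonneg _) u.lt two_ne_zero)
  obtain ⟨N1, hN1⟩ : ∃ N1 : ℕ, u.I ^ (N1 + 1) ≤ Ideal.span {(p : Ob K) ^ 2} := by
    obtain ⟨N1, h⟩ := exists_pow_lt_of_lt_one (pow_pos hp0 2) u.lt
    refine ⟨N1, fun a ha => Ob.mem_span_iff.2 ?_⟩
    rw [Subring.coe_pow, SubringClass.coe_natCast, norm_pow]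
    exact (u.mem_pow.1 ha).trans
      ((pow_le_pow_of_le_one (norm_nonneg _) u.lt.le (by omega)).trans h.le)
  obtain ⟨mc, S, hmc, hS⟩ := exists_ops hN hx N1
  obtain ⟨C, hC⟩ := norm_Jz hx hp
  have hC0 : 0 ≤ C := by
    have := (norm_nonneg _).trans (hC 0 0 (Ideal.zero_mem _))
    rwa [pow_zero, mul_one] at this
  have hSl : ∀ l (y : MZ p u (F0.map (iota x)) N1) N,
      ((S^[l] y).1 N).val = (y.1 N).val ^ p ^ l := by
    intro l
    induction l with
    | zero => intro y N; rw [Function.iterate_zero_apply, pow_zero, pow_one]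
    | succ l ih => intro y N; rw [Function.iterate_succ_apply', hS, ih, ← pow_mul, ← pow_succ]
  obtain ⟨w, hwd⟩ : ∃ w : Fin (n - 1) → K, ∀ s, w s =
      ((coeff (Finsupp.single s 1) (tau u x (Function.Embedding.refl _) f) : Ob K) : K) :=
    ⟨_, fun _ => rfl⟩
  have hw' : w s ≠ 0 := by
    rw [hwd]
    exact fun h => hw (Subtype.ext h)
  obtain ⟨v, hv, hvU⟩ := dim_Z hN hx hp hN1 mc S hmc hS
    (Submodule.span K (insert (fun y => lamZ hN hx y.1) (Set.range fun t : {t // t ≠ s} =>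
      fun y => linZ hN hx t y.1 - w t / w s * linZ hN hx s y.1))) (fun c l _ => by
    have ha := isLift_monomial p n hN.hn hN.model c l
    have key : ∀ m, ∃ (uu : K) (δ : Fin (n - 1) → K), M ≤ m → ‖uu‖ ≤ 1 ∧
        ‖∑ t, w t * δ t‖ ≤ (C / ‖(u.ϖ : K)‖ * ‖(p : K)‖ ^ m) ^ 2 ∧
        ∀ y : MZ p u (F0.map (iota x)) N1,
          ‖lamZ hN hx y.1 + (p : K) ^ m * lamZ hN hx (mc c (S^[l] y)).1 -
            uu * (lamZ hN hx y.1 + ∑ t, linZ hN hx t y.1 * δ t)‖ ≤
            (C / ‖(u.ϖ : K)‖ * ‖(p : K)‖ ^ m) ^ 2 := fun m => by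
      by_cases hm : M ≤ m
      · obtain ⟨φ, θ, hθ, hφJ, hφ, hθm⟩ := hF _ ha m hm
        obtain ⟨uu, δ, hu, hδ, h⟩ := expand_Z hN hx hp hN1 ha.1 φ hθ
          (fun g => Jz_le p n m (hφ g)) (fun k => Jz_le p n m (hθm k))
        obtain ⟨h1, h2⟩ := h (C / ‖(u.ϖ : K)‖ * ‖(p : K)‖ ^ m)
          (mul_nonneg (div_nonneg hC0 (norm_nonneg _)) (pow_nonneg hp0.le _)) (fun t => by
            have e := hC m _ (hφ (X t))
            rw [← hδ, norm_mul] at e
            rw [div_mul_eq_mul_div, le_div_iff₀ u.pos, mul_comm]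
            exact e)
        refine ⟨uu, δ, fun _ => ⟨hu, ?_, fun y => h2 y _ fun N => ?_⟩⟩
        · simp only [hwd]
          exact h1 f (hJ f hf) (hJ _ (hφJ f hf))
        · rw [hmc, hSl, map_mul, map_pow, ev1_C, ev1_X _ _ (y.1 N).mem, chiO, sub_self]
          exact u.I.zero_mem
      · exact ⟨0, 0, fun h => absurd h hm⟩
    choose uu δ hk using key
    exact la0 (p : K) hp hp1 w s hw' (fun y : MZ p u (F0.map (iota x)) N1 => lamZ hN hx y.1)
      (fun y => lamZ hN hx (mc c (S^[l] y)).1) (fun t y => linZ hN hx t y.1) M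
      (C / ‖(u.ϖ : K)‖) uu δ (fun m hm => (hk m hm).1) (fun m hm => (hk m hm).2.1)
      (fun m hm => (hk m hm).2.2))
  exact first_order_dim s _ _ v hv hvU

omit [CompleteSpace K] in
theorem main0_charZero (hx : IsPoint u x) (hp : (p : Ob K) ≠ 0) : CharZero (Ob K) := by
  obtain ⟨q, hq⟩ := CharP.exists (Ob K)
  rcases CharP.char_is_prime_or_zero (Ob K) q with hq' | rfl
  · exfalso
    have hpp : p.Prime := Fact.out
    have hnd : ¬ q ∣ p := fun h => hp ((CharP.cast_eq_zero_iff (Ob K) q p).2 h)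
    have hu : IsUnit (p : Ob K) := (CharP.isUnit_natCast_iff (R := Ob K) hq').2 hnd
    have h1 := Ob.isUnit_iff.1 hu
    have h2 := Ob.mem_span_iff.1 hx.p_mem
    linarith [u.lt]
  · exact CharP.charP_to_charZero (Ob K)

theorem main0_inj {A : Type*} [CommRing A] [IsDomain A] (ι : WW p n →+* A) (hp : (p : A) ≠ 0)
    {w : WW p n} (hw : ι w = 0) : w = 0 := by
  by_contra h
  obtain ⟨m, b, rfl⟩ := WittVector.exists_eq_pow_p_mul' w h
  rw [map_mul, map_pow, map_natCast] at hw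
  exact mul_ne_zero (pow_ne_zero _ hp) (b.isUnit.map ι).ne_zero hw

theorem main0_pderiv [IsAlgClosed K] (hN : IsNorm p n F0 H) (hx : IsPoint u x)
    (hp : (p : Ob K) ≠ 0) {J : Ideal (EE p n)} {M : ℕ} (hF : Fam p n F0 H J M (Jz p n))
    (hJ : ∀ f ∈ J, x f = 0) {f : EE p n} (hf : f ∈ J) (s : Fin (n - 1)) :
    x (pderiv (WW p n) s f) = 0 := by
  have hp' : (p : K) ≠ 0 := fun h => hp (Subtype.ext (by simpa using h))
  have h1 := first_order hN hx hp' hF hJ hf s
  have h2 := congrArg (coeff 0) (tau_pderiv (e := Function.Embedding.refl _) hx s f)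
  rw [coeff_pderiv, zero_add, h1, zero_mul, coeff_C_mul, coeff_zero_eq_constantCoeff_apply] at h2
  have h3 := RingHom.congr_fun (tau_const (e := Function.Embedding.refl _) hx)
    (pderiv (WW p n) s f)
  rw [RingHom.comp_apply] at h3
  have hϖ : u.ϖ ≠ 0 := fun h => by
    have := u.pos
    rw [h] at this
    simp at this
  rw [← h3]
  exact (mul_eq_zero.1 h2.symm).resolve_left hϖ

theorem main0_stable [IsAlgClosed K] (hx : IsPoint u x) (hp : (p : Ob K) ≠ 0)
    {J : Ideal (EE p n)} (hJ : ∀ f ∈ J, x f = 0)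
    (hd : ∀ f ∈ J, ∀ s, pderiv (WW p n) s f ∈ J) : J = ⊥ := by
  have := main0_charZero hx hp
  refine eq_bot_iff.2 fun f hf => ?_
  have h0 : tau u x (Function.Embedding.refl _) f = 0 := by
    refine eq_zero_of_pderiv_stable (tau u x (Function.Embedding.refl _) '' (J : Set (EE p n)))
      ?_ ?_ ⟨f, hf, rfl⟩
    · rintro _ ⟨g, hg, rfl⟩
      have h3 := RingHom.congr_fun (tau_const (e := Function.Embedding.refl _) hx) g
      rw [RingHom.comp_apply] at h3
      rw [h3, hJ g hg]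
    · rintro _ ⟨g, hg, rfl⟩ s
      exact ⟨_, ⟨_, hd g hg s, rfl⟩, u.ϖ, tau_pderiv hx s g⟩
  rw [Ideal.mem_bot]
  ext1 γ
  have h1 := tau_inj hx (fun i hi => absurd ⟨i, rfl⟩ hi) h0 γ
  have h2 : γ.embDomain (Function.Embedding.refl _) = γ := by
    ext i
    exact Finsupp.embDomain_apply_self (Function.Embedding.refl _) γ i
  rw [h2] at h1
  rw [map_zero]
  exact main0_inj _ hp h1

/-- Let `J' = (J : p)`; it is radical, `p ∉ J'`, and `Fam` holds for it. If `f ∈ J'` and `∂f ∉ J'`,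
take a point killing `J'` with `x(p ∂f) ≠ 0`: `first_order`, `tau_pderiv`, `tau_const` give
`x(∂f) = 0`. So `J'` is stable under `∂`; at a point with `x(p) ≠ 0`,
`eq_zero_of_pderiv_stable` gives `τ(J') = 0`, and `tau_inj` (with `ι : W → O` injective) `J' = 0`. -/
theorem main0 (hN : IsNorm p n F0 H) {J : Ideal (EE p n)} (hrad : J.IsRadical)
    (hp : (p : EE p n) ∉ J) {M : ℕ} (hF : Fam p n F0 H J M (Jz p n)) : J = ⊥ := by
  let J' : Ideal (EE p n) := Submodule.comap (LinearMap.mul (EE p n) (EE p n) (p : EE p n)) J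
  have hmem : ∀ f, f ∈ J' ↔ (p : EE p n) * f ∈ J := fun f => Iff.rfl
  have hle : J ≤ J' := fun f hf => (hmem f).2 (J.mul_mem_left _ hf)
  have hcan : ∀ g, (p : EE p n) * g ∈ J'.radical → g ∈ J' := by
    rintro g ⟨k, hk⟩
    rw [hmem] at hk ⊢
    refine hrad ⟨k + 1, ?_⟩
    have : ((p : EE p n) * g) ^ (k + 1) = g * (p * (p * g) ^ k) := by ring
    rw [this]
    exact J.mul_mem_left _ hk
  have hF' : Fam p n F0 H J' M (Jz p n) := by
    intro a ha m hm
    obtain ⟨φ, θ, h1, h2, h3⟩ := hF a ha m hm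
    refine ⟨φ, θ, h1, fun f hf => ?_, h3⟩
    rw [hmem] at hf ⊢
    have := h2 _ hf
    rwa [map_mul, map_natCast] at this
  have hpt : ∀ g, g ∉ J' → ∃ (K : Type) (_ : NontriviallyNormedField K) (_ : IsUltrametricDist K)
      (_ : CompleteSpace K) (_ : IsAlgClosed K) (u : Unif K) (x : EE p n →+* Ob K),
      IsPoint u x ∧ (∀ f ∈ J', x f = 0) ∧ (p : Ob K) ≠ 0 ∧ x g ≠ 0 := by
    intro g hg
    have hs : (p : EE p n) * g ∈ IsLocalRing.maximalIdeal (EE p n) := by
      rw [← mE_eq_maximalIdeal]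
      exact Ideal.mul_mem_right _ _ (p_mem_mE p n)
    obtain ⟨K, i1, i2, i3, i4, u, x, h1, h2, h3⟩ := exists_point J' hs fun h => hg (hcan g h)
    rw [map_mul, map_natCast] at h3
    refine ⟨K, i1, i2, i3, i4, u, x, fun f hf => h1 f ?_, h2, left_ne_zero_of_mul h3,
      right_ne_zero_of_mul h3⟩
    rwa [← mE_eq_maximalIdeal]
  have hd : ∀ f ∈ J', ∀ s, pderiv (WW p n) s f ∈ J' := by
    intro f hf s
    by_contra hg
    obtain ⟨K, i1, i2, i3, i4, u, x, h1, h2, h3, h4⟩ := hpt _ hg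
    exact h4 (main0_pderiv hN h1 h3 hF' h2 hf s)
  have h1 : (1 : EE p n) ∉ J' := fun h => hp (by simpa using (hmem 1).1 h)
  obtain ⟨K, i1, i2, i3, i4, u, x, h1, h2, h3, -⟩ := hpt _ h1
  exact le_bot_iff.1 (hle.trans (main0_stable h1 h3 h2 hd).le)

end Crest.R227
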