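import Crest.Agent.R227.Base
import Crest.Agent.R227.FR

/-! Row 227. Height ideals. -/

set_option autoImplicit false

namespace Crest.R227

open Crest.LubinTate MvPowerSeries

variable (p : ℕ) [Fact p.Prime] (n : ℕ)

theorem heightIdeal_mono (H : FormalGroup (EE p n)) : Monotone (heightIdeal p n H) := by
  exact monotone_nat_of_le_succ fun h => le_sup_left

theorem vv_mem (H : FormalGroup (EE p n)) {j h : ℕ} (hj : j < h) :
    vv p n H j ∈ heightIdeal p n H h := by
  exact heightIdeal_mono p n H (show j + 1 ≤ h from hj)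
    (Ideal.mem_sup_right (Ideal.subset_span rfl))

theorem vv_zero (H : FormalGroup (EE p n)) : vv p n H 0 = p := by
  rw [vv, pow_zero, mulSeries_coeff_one]

theorem heightIdeal_eq_span (H : FormalGroup (EE p n)) (h : ℕ) :
    heightIdeal p n H h = Ideal.span (vv p n H '' {j | j < h}) := by
  refine le_antisymm ?_ (Ideal.span_le.2 ?_)
  · induction h with
    | zero => exact bot_le
    | succ h ih =>
      refine sup_le (ih.trans (Ideal.span_mono (Set.image_mono fun j (hj : j < h) =>
        show j < h + 1 by omega))) (Ideal.span_mono ?_)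
      rintro _ rfl
      exact ⟨h, Nat.lt_succ_self h, rfl⟩
  · rintro _ ⟨j, hj, rfl⟩
    exact vv_mem p n H hj

theorem heightIdeal_le_mE (H : FormalGroup (EE p n))
    (hH : mulSeries (H.map (resE p n)) p = PowerSeries.X ^ p ^ n) {h : ℕ} (hh : h ≤ n) :
    heightIdeal p n H h ≤ mE p n := by
  rw [heightIdeal_eq_span, Ideal.span_le]
  rintro _ ⟨j, hj, rfl⟩
  have hj' : j < h := hj
  rw [← ker_resE, SetLike.mem_coe, RingHom.mem_ker, vv, ← PowerSeries.coeff_map, map_mulSeries, hH,
    PowerSeries.coeff_X_pow, if_neg]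
  intro e
  have := Nat.pow_right_injective (Fact.out : p.Prime).two_le e
  omega

theorem heightIdeal_map (H : FormalGroup (EE p n)) (φ : EE p n →+* EE p n) (h : ℕ) :
    heightIdeal p n (H.map φ) h = (heightIdeal p n H h).map φ := by
  rw [heightIdeal_eq_span, heightIdeal_eq_span, Ideal.map_span, Set.image_image]
  congr 2
  funext j
  rw [vv, vv, ← map_mulSeries, PowerSeries.coeff_map]

theorem heightIdeal_iso_dvd {B : Type*} [CommRing B] (F : FormalGroup B) [F.IsComm] (h : ℕ)
    (hz : ∀ j < h, PowerSeries.coeff (p ^ j) (mulSeries F p) = 0) :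
    PowerSeries.X ^ p ^ h ∣ mulSeries F p := by
  rw [PowerSeries.X_pow_dvd_iff]
  intro m hm
  rcases Nat.eq_zero_or_pos m with rfl | hm0
  · simpa using mulSeries_constantCoeff F p
  rcases subsingleton_or_nontrivial B with hB | hB
  · exact Subsingleton.elim _ _
  have hh : 0 < h := by
    by_contra hh
    rw [show h = 0 by omega, pow_zero] at hm
    omega
  have h0 := hz 0 hh
  rw [pow_zero, mulSeries_coeff_one] at h0
  have : CharP B p := (CharP.charP_iff_prime_eq_zero (Fact.out : p.Prime)).2 h0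
  obtain ⟨g, hg, -⟩ := frob_factor p (isFGHom_mulSeries F p) h hz
  rw [hg]
  exact PowerSeries.coeff_expand_of_not_dvd _ _ _ fun hd => absurd (Nat.le_of_dvd hm0 hd) (by omega)

omit [Fact p.Prime] in
theorem heightIdeal_iso_const {B : Type*} [CommRing B] (f : PowerSeries B) {g : PowerSeries B}
    (hg : PowerSeries.constantCoeff g = 0) :
    PowerSeries.constantCoeff (cmp f g) = PowerSeries.constantCoeff f := by
  have hs := PowerSeries.HasSubst.of_constantCoeff_zero' hg
  have h := constantCoeff_cmp (f := f - PowerSeries.C (PowerSeries.constantCoeff f)) (by simp) hg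
  rw [cmp, PowerSeries.subst_sub hs, PowerSeries.subst_C, map_sub, sub_eq_zero] at h
  exact h

theorem heightIdeal_iso_coeff {B : Type*} [CommRing B] {F G : FormalGroup B} [F.IsComm] [G.IsComm]
    {θ : PowerSeries B} (hθ : IsFGHom F G θ) (h : ℕ)
    (hF : ∀ j < h, PowerSeries.coeff (p ^ j) (mulSeries F p) = 0)
    (hG : ∀ j < h, PowerSeries.coeff (p ^ j) (mulSeries G p) = 0) :
    PowerSeries.coeff 1 θ * PowerSeries.coeff (p ^ h) (mulSeries F p) =
      PowerSeries.coeff 1 θ ^ p ^ h * PowerSeries.coeff (p ^ h) (mulSeries G p) := by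
  have e := isFGHom_cmp_mulSeries hθ p
  have h0 := mulSeries_constantCoeff F p
  obtain ⟨a, ha⟩ := heightIdeal_iso_dvd p F h hF
  obtain ⟨b, hb⟩ := heightIdeal_iso_dvd p G h hG
  obtain ⟨t, ht⟩ := PowerSeries.X_dvd_iff.2 hθ.1
  have hs := PowerSeries.HasSubst.of_constantCoeff_zero' h0
  have hs' := PowerSeries.HasSubst.of_constantCoeff_zero' hθ.1
  have hc : ∀ (d : ℕ) (f : PowerSeries B),
      PowerSeries.coeff d (PowerSeries.X ^ d * f) = PowerSeries.constantCoeff f := fun d f => by
    simpa using PowerSeries.coeff_X_pow_mul f d 0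
  have e1 : cmp θ (mulSeries F p) = PowerSeries.X ^ p ^ h * (a * cmp t (mulSeries F p)) := by
    rw [← mul_assoc, ← ha]
    conv_lhs => rw [ht]
    rw [cmp, PowerSeries.subst_mul hs, PowerSeries.subst_X hs]
  have e2 : cmp (mulSeries G p) θ = PowerSeries.X ^ p ^ h * (t ^ p ^ h * cmp b θ) := by
    rw [← mul_assoc, ← mul_pow, ← ht, hb, cmp, PowerSeries.subst_mul hs', PowerSeries.subst_pow hs',
      PowerSeries.subst_X hs']
  have e3 := congrArg (PowerSeries.coeff (p ^ h)) e
  rw [e1, e2, hc, hc, map_mul, map_mul, map_pow, heightIdeal_iso_const _ h0,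
    heightIdeal_iso_const _ hθ.1] at e3
  have e4 : PowerSeries.coeff 1 θ = PowerSeries.constantCoeff t := by
    rw [ht]; simp
  rw [ha, hb, hc, hc, e4, mul_comm, e3]

/-- Induction on `h`; modulo `I_h` (`h ≥ 1`, characteristic `p` or the zero ring) both `p`-series
are series in `X ^ p ^ h` (`frob_factor`), and `θ ∘ [p]_H = [p]_{H'} ∘ θ` gives
`θ₁ v_h = v'_h θ₁ ^ p ^ h`. -/
theorem heightIdeal_iso {H H' : FormalGroup (EE p n)} [H.IsComm] [H'.IsComm]
    {θ : PowerSeries (EE p n)} (hθ : IsFGHom H H' θ) (h1 : IsUnit (PowerSeries.coeff 1 θ))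
    (h : ℕ) : heightIdeal p n H h = heightIdeal p n H' h := by
  induction h with
  | zero => rfl
  | succ h ih =>
    let π := Ideal.Quotient.mk (heightIdeal p n H h)
    have key := heightIdeal_iso_coeff p (isFGHom_map hθ π) h
      (fun j hj => by
        rw [← map_mulSeries, PowerSeries.coeff_map]
        exact Ideal.Quotient.eq_zero_iff_mem.2 (vv_mem p n H hj))
      (fun j hj => by
        rw [← map_mulSeries, PowerSeries.coeff_map]
        exact Ideal.Quotient.eq_zero_iff_mem.2 (ih ▸ vv_mem p n H' hj))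
    rw [← map_mulSeries, ← map_mulSeries, PowerSeries.coeff_map, PowerSeries.coeff_map,
      PowerSeries.coeff_map, ← map_pow, ← map_mul, ← map_mul, Ideal.Quotient.eq] at key
    change heightIdeal p n H h ⊔ _ = heightIdeal p n H' h ⊔ _
    rw [← ih]
    refine le_antisymm (sup_le le_sup_left ?_) (sup_le le_sup_left ?_)
    · rw [Ideal.span_singleton_le_iff_mem, ← Ideal.unit_mul_mem_iff_mem _ h1,
        ← sub_add_cancel (_ * _) (_ * _)]
      exact Ideal.add_mem _ (Ideal.mem_sup_left key)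
        (Ideal.mem_sup_right (Ideal.mul_mem_left _ _ (Ideal.subset_span rfl)))
    · rw [Ideal.span_singleton_le_iff_mem, ← Ideal.unit_mul_mem_iff_mem _ (h1.pow (p ^ h)),
        ← sub_sub_cancel (_ * _) (_ * _)]
      exact Ideal.sub_mem _ (Ideal.mem_sup_right (Ideal.mul_mem_left _ _ (Ideal.subset_span rfl)))
        (Ideal.mem_sup_left key)

/-- Over `B = E/(I_n + 𝔪²)`: `[p] = w(X^q)` with `w : H_B^{(q)} → H_B` a ⋆-isomorphism, so the
`W`-algebra maps `mk` and `Frob^n ∘ mk` both classify `H_B`; uniqueness gives `𝔪 ≤ I_n + 𝔪²`;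
Nakayama. `B` is complete by `isAdicComplete_of_pow_eq_bot`. -/
theorem heightIdeal_top (hn : 1 ≤ n) (Γ : FormalGroup (kk p n))
    (hΓ : mulSeries Γ p = PowerSeries.X ^ p ^ n) (H : FormalGroup (EE p n)) [H.IsComm]
    (hH : IsUniversalDeformation p n Γ H) : heightIdeal p n H n = mE p n := by
  have hp : p.Prime := Fact.out
  have hq : p ^ n ≠ 0 := pow_ne_zero n hp.ne_zero
  have hle : heightIdeal p n H n ≤ mE p n :=
    heightIdeal_le_mE p n H (by rw [show H.map (resE p n) = Γ from hH.1]; exact hΓ) le_rfl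
  refine le_antisymm hle ?_
  obtain ⟨J, hJ⟩ : ∃ J : Ideal (EE p n), J = heightIdeal p n H n ⊔ mE p n ^ 2 := ⟨_, rfl⟩
  have hJm : J ≤ mE p n := by rw [hJ]; exact sup_le hle (Ideal.pow_le_self two_ne_zero)
  have hIJ : heightIdeal p n H n ≤ J := by rw [hJ]; exact le_sup_left
  have hmJ : mE p n ^ 2 ≤ J := by rw [hJ]; exact le_sup_right
  have hJtop : J ≠ ⊤ := fun h => by
    rw [h, top_le_iff, mE_eq_maximalIdeal] at hJm
    exact (IsLocalRing.maximalIdeal.isMaximal _).ne_top hJm
  have hpJ : (p : EE p n) ∈ J := hIJ (by rw [← vv_zero p n H]; exact vv_mem p n H (by omega))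
  have : Nontrivial (EE p n ⧸ J) := Ideal.Quotient.nontrivial_iff.2 hJtop
  have : IsLocalRing (EE p n ⧸ J) :=
    IsLocalRing.of_surjective' (Ideal.Quotient.mk J) Ideal.Quotient.mk_surjective
  have hp0 : (p : EE p n ⧸ J) = 0 := by
    rw [← map_natCast (Ideal.Quotient.mk J), Ideal.Quotient.eq_zero_iff_mem]; exact hpJ
  have : CharP (EE p n ⧸ J) p := (CharP.charP_iff_prime_eq_zero hp).2 hp0
  obtain ⟨r, hr⟩ : ∃ r : (EE p n ⧸ J) →+* kk p n, r.comp (Ideal.Quotient.mk J) = resE p n :=
    ⟨Ideal.Quotient.lift J (resE p n) fun a ha => by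
      rw [← RingHom.mem_ker, ker_resE]; exact hJm ha, Ideal.Quotient.lift_comp_mk _ _ _⟩
  have hr' : ∀ x, r (Ideal.Quotient.mk J x) = resE p n x := fun x => DFunLike.congr_fun hr x
  have hrs : Function.Surjective r := fun c => by
    obtain ⟨x, hx⟩ := resE_surjective p n c
    exact ⟨_, (hr' x).trans hx⟩
  have hcomp : IsAdicComplete (IsLocalRing.maximalIdeal (EE p n ⧸ J)) (EE p n ⧸ J) := by
    refine isAdicComplete_of_pow_eq_bot _ (N := 2) ?_
    rw [← IsLocalRing.map_maximalIdeal_of_surjective (Ideal.Quotient.mk J)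
      Ideal.Quotient.mk_surjective, ← Ideal.map_pow, ← mE_eq_maximalIdeal,
      Ideal.map_eq_bot_iff_le_ker, Ideal.mk_ker]
    exact hmJ
  have hW : r.comp (algebraMap (WW p n) (EE p n ⧸ J)) = WittVector.constantCoeff := by
    rw [← show (resE p n).comp (algebraMap (WW p n) (EE p n)) = WittVector.constantCoeff from
      resE_comp p n, ← hr]
    rfl
  have hG : (H.map (Ideal.Quotient.mk J)).map r = Γ := by rw [fg_map_map, hr]; exact hH.1
  obtain ⟨φ, -, huniq⟩ := hH.2 (EE p n ⧸ J) hcomp r hrs (IsLocalRing.ker_eq_maximalIdeal r hrs) hW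
    (H.map (Ideal.Quotient.mk J)) hG
  have e1 : Ideal.Quotient.mkₐ (WW p n) J = φ :=
    huniq _ ⟨hr, PowerSeries.X, isFGHom_X _, PowerSeries.map_X r⟩
  obtain ⟨ψ, hψ⟩ : ∃ ψ : EE p n →ₐ[WW p n] (EE p n ⧸ J),
      ψ.toRingHom = (iterateFrobenius (EE p n ⧸ J) p n).comp (Ideal.Quotient.mk J) := by
    refine ⟨⟨(iterateFrobenius (EE p n ⧸ J) p n).comp (Ideal.Quotient.mk J), fun w => ?_⟩, rfl⟩
    have h1 : w ^ p ^ n - w ∈ Ideal.span {(p : WW p n)} := by
      rw [← ker_resW, RingHom.mem_ker, map_sub, map_pow, kk_pow p n hn, sub_self]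
    obtain ⟨c, hc⟩ := Ideal.mem_span_singleton'.1 h1
    have h2 := congrArg (algebraMap (WW p n) (EE p n ⧸ J)) hc
    rw [map_mul, map_natCast, hp0, mul_zero, map_sub, map_pow] at h2
    exact (sub_eq_zero.1 h2.symm)
  have hψ' : ∀ x, ψ x = (Ideal.Quotient.mk J x) ^ p ^ n := fun x => DFunLike.congr_fun hψ x
  obtain ⟨g, hg, hg'⟩ := frob_factor p (isFGHom_mulSeries (H.map (Ideal.Quotient.mk J)) p) n
    (fun j hj => by
      rw [← map_mulSeries, PowerSeries.coeff_map, Ideal.Quotient.eq_zero_iff_mem]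
      exact hIJ (vv_mem p n H hj))
  have e2 : ψ = φ := by
    refine huniq _ ⟨?_, g, ?_, ?_⟩
    · ext1 x
      change r (ψ x) = resE p n x
      rw [hψ', map_pow, hr', kk_pow p n hn]
    · rw [hψ, ← fg_map_map]
      exact hg'
    · have h1 : PowerSeries.map r (mulSeries (H.map (Ideal.Quotient.mk J)) p) =
          PowerSeries.X ^ p ^ n := by rw [map_mulSeries, hG, hΓ]
      ext k
      have h2 := congrArg (PowerSeries.coeff (p ^ n * k)) h1
      rw [hg, PowerSeries.coeff_map, PowerSeries.coeff_expand_mul, PowerSeries.coeff_X_pow] at h2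
      rw [PowerSeries.coeff_map, h2, PowerSeries.coeff_X]
      simp only [Nat.mul_eq_left hq]
  have hmain : mE p n ≤ heightIdeal p n H n ⊔ mE p n • mE p n := by
    intro x hx
    have h1 : Ideal.Quotient.mk J x = (Ideal.Quotient.mk J x) ^ p ^ n := by
      rw [← hψ', e2, ← e1]; rfl
    have h2 : 2 ≤ p ^ n := le_trans hp.two_le (Nat.le_self_pow (by omega) p)
    have h3 : x ^ p ^ n ∈ J := hmJ (Ideal.pow_le_pow_right h2 (Ideal.pow_mem_pow hx _))
    rw [← map_pow, Ideal.Quotient.eq_zero_iff_mem.2 h3, Ideal.Quotient.eq_zero_iff_mem, hJ] at h1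
    rwa [smul_eq_mul, ← pow_two]
  refine Submodule.le_of_le_smul_of_le_jacobson_bot (IsNoetherian.noetherian _) ?_ hmain
  rw [mE_eq_maximalIdeal]
  exact IsLocalRing.maximalIdeal_le_jacobson _

/-- The height parameters are coordinates: `α = ev mE C (v_{i+1})`, `bijective_of_map_mE`. -/
theorem exists_alpha (hn : 1 ≤ n) (H : FormalGroup (EE p n))
    (hH : heightIdeal p n H n = mE p n) :
    ∃ α : EE p n ≃ₐ[WW p n] EE p n, (∀ i : Fin (n - 1), α (X i) = vv p n H (i + 1)) ∧
      ∀ f, resE p n (α f) = resE p n f := by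
  have hv : ∀ i : Fin (n - 1), vv p n H (i + 1) ∈ mE p n := fun i => by
    rw [← hH]; exact vv_mem p n H (by omega)
  have hv' : ∀ i : Fin (n - 1), vv p n H (i + 1) ∈ (mE p n).radical := fun i =>
    Ideal.le_radical (hv i)
  obtain ⟨α, hα⟩ : ∃ α : EE p n →ₐ[WW p n] EE p n,
      α.toRingHom = ev (mE p n) (C : WW p n →+* EE p n) fun i : Fin (n - 1) => vv p n H (i + 1) :=
    ⟨⟨ev (mE p n) (C : WW p n →+* EE p n) fun i : Fin (n - 1) => vv p n H (i + 1),
      fun w => ev_C _ _ _ w⟩, rfl⟩
  have hα' : ∀ f, α f = ev (mE p n) (C : WW p n →+* EE p n)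
      (fun i : Fin (n - 1) => vv p n H (i + 1)) f := fun f => DFunLike.congr_fun hα f
  have hX : ∀ i : Fin (n - 1), α (X i) = vv p n H (i + 1) := fun i => by rw [hα', ev_X _ _ hv']
  have hres : ∀ f, resE p n (α f) = resE p n f := fun f => by
    have h1 := ev_sub_const_mem (mE p n) (C : WW p n →+* EE p n) hv' f
    have h2 := (Ideal.span_le.2 (Set.range_subset_iff.2 hv)) h1
    rw [← hα', ← ker_resE, RingHom.mem_ker, map_sub, sub_eq_zero] at h2
    rw [h2]
    simp [LTRing.residue]
  have hmap : (mE p n).map α.toRingHom = mE p n := by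
    apply le_antisymm
    · rw [Ideal.map_le_iff_le_comap]
      intro f hf
      rw [Ideal.mem_comap]
      rw [← ker_resE, RingHom.mem_ker] at hf ⊢
      exact (hres f).trans hf
    · conv_lhs => rw [← hH, heightIdeal_eq_span]
      rw [Ideal.span_le]
      rintro _ ⟨j, hj, rfl⟩
      rcases j with _ | j
      · rw [vv_zero, ← map_natCast α.toRingHom]
        exact Ideal.mem_map_of_mem _ (p_mem_mE p n)
      · have hj' : j + 1 < n := hj
        rw [← hX ⟨j, by omega⟩]
        exact Ideal.mem_map_of_mem α.toRingHom (X_mem_mE p n _)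
  exact ⟨AlgEquiv.ofBijective α (bijective_of_map_mE p n α hmap), hX, hres⟩

/-- `mem_span_of_killCompl` and `ker_resW`. -/
theorem heightIdeal_eq_ker (H : FormalGroup (EE p n))
    (hc : ∀ i : Fin (n - 1), vv p n H (i + 1) = X i) (h : ℕ) [NeZero h] (hh : h ≤ n) :
    heightIdeal p n H h = RingHom.ker
      ((killCompl (R := kk p n) (eh n h)).toRingHom.comp (MvPowerSeries.map (resW p n))) := by
  have hh0 := NeZero.pos h
  refine le_antisymm ?_ fun f hf => ?_
  · rw [heightIdeal_eq_span, Ideal.span_le]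
    rintro _ ⟨j, hj, rfl⟩
    have hj' : j < h := hj
    rw [SetLike.mem_coe, RingHom.mem_ker]
    rcases j with _ | j
    · rw [vv_zero, map_natCast, ← map_natCast (C : kk p n →+* _), CharP.cast_eq_zero, map_zero]
    · rw [hc ⟨j, by omega⟩, RingHom.comp_apply, map_X]
      refine killCompl_X_eq_zero ?_
      rintro ⟨s, hs⟩
      have : h - 1 + s = j := congrArg Fin.val hs
      omega
  · have h1 : rename (eh n h) (killCompl (eh n h) f) ∈ heightIdeal p n H h := by
      have h2 : killCompl (eh n h) f ∈ cI (Fin (n - h)) (p : WW p n) ^ 1 := by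
        rw [mem_cI_pow]
        intro γ
        rw [pow_one, ← ker_resW, RingHom.mem_ker, ← coeff_map, ← killCompl_map]
        have : killCompl (eh n h) (MvPowerSeries.map (resW p n) f) = 0 := hf
        rw [this, map_zero]
      rw [pow_one, cI, Ideal.mem_span_singleton', map_natCast] at h2
      obtain ⟨c, hc'⟩ := h2
      rw [← hc', map_mul, map_natCast, ← vv_zero p n H]
      exact Ideal.mul_mem_left _ _ (vv_mem p n H hh0)
    have h2 := mem_span_of_killCompl (eh n h) (f := f - rename (eh n h) (killCompl (eh n h) f))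
      (by rw [map_sub, killCompl_rename_app, sub_self])
    have h3 : Ideal.span ((X : Fin (n - 1) → EE p n) '' (Set.range (eh n h))ᶜ) ≤
        heightIdeal p n H h := by
      rw [Ideal.span_le]
      rintro _ ⟨i, hi, rfl⟩
      rw [← hc]
      refine vv_mem p n H ?_
      by_contra h4
      exact hi ⟨⟨i - (h - 1), by omega⟩, Fin.ext (show h - 1 + (i - (h - 1)) = i by omega)⟩
    have := Ideal.add_mem _ (h3 h2) h1
    rwa [sub_add_cancel] at this

theorem heightIdeal_isPrime (H : FormalGroup (EE p n))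
    (hc : ∀ i : Fin (n - 1), vv p n H (i + 1) = X i) {h : ℕ} (hh : h ≤ n) :
    (heightIdeal p n H h).IsPrime := by
  rcases Nat.eq_zero_or_pos h with rfl | h0
  · have : IsDomain (EE p n) := NoZeroDivisors.to_isDomain _
    exact Ideal.isPrime_bot
  · have : NeZero h := ⟨h0.ne'⟩
    have : IsDomain (MvPowerSeries (Fin (n - h)) (kk p n)) := NoZeroDivisors.to_isDomain _
    rw [heightIdeal_eq_ker p n H hc h hh]
    exact RingHom.ker_isPrime _

/-- `θ₁` is a unit because its residue is; `φ(I_h) = I_h(φ_* H) = I_h(H)`; for `h = n` this makes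
`φ` bijective, so `comap φ I_h = I_h`. -/
theorem heightIdeal_stable (Γ : FormalGroup (kk p n)) (H : FormalGroup (EE p n)) [H.IsComm]
    (hH : heightIdeal p n H n = mE p n) (M h : ℕ) :
    IsStableIdeal p n Γ H M (heightIdeal p n H h) := by
  rintro g φ hg - ⟨-, θ, hθ, hθg⟩
  have h1 : IsUnit (PowerSeries.coeff 1 θ) := by
    by_contra hu
    have h2 : PowerSeries.coeff 1 θ ∈ RingHom.ker (resE p n) := by
      rw [ker_resE, mE_eq_maximalIdeal]; exact hu
    have h3 := hg.2
    rw [← hθg, PowerSeries.coeff_map] at h3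
    exact h3.ne_zero h2
  have hmap : ∀ j, (heightIdeal p n H j).map φ.toRingHom = heightIdeal p n H j := fun j => by
    rw [← heightIdeal_map, heightIdeal_iso p n hθ h1]
  have hb := bijective_of_map_mE p n φ (by rw [← hH]; exact hmap n)
  conv_lhs => rw [← hmap h]
  exact Ideal.comap_map_of_bijective φ.toRingHom hb

end Crest.R227
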