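import Crest.Agent.R227.Tau
import Crest.Agent.R227.Tower
import Crest.Agent.R227.HI
import Crest.Agent.R227.AS

/-! Row 227. The case `h ≥ 1`: the universal cover, the lattice and the Jacobian. -/

set_option autoImplicit false

namespace Crest.R227

open Crest.LubinTate MvPowerSeries

variable {p : ℕ} [Fact p.Prime] {n : ℕ}
variable {K : Type*} [NormedField K] [IsUltrametricDist K] [CompleteSpace K] [IsAlgClosed K]
  [CharP K p]
variable {u : Unif K} {x : EE p n →+* Ob K} {F0 : FormalGroup (WW p n)} [F0.IsComm]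
  {H : FormalGroup (EE p n)} [H.IsComm]

/-- In characteristic `p` the map `W → O` factors through `k`. -/
theorem exists_iotak (x : EE p n →+* Ob K) :
    ∃ ιk : kk p n →+* Ob K, ιk.comp (resW p n) = iota x := by
  refine ⟨(resW p n).liftOfSurjective (resW_surjective p n) ⟨iota x, ?_⟩,
    RingHom.liftOfSurjective_comp _ _ _⟩
  rw [ker_resW, Ideal.span_singleton_le_iff_mem, RingHom.mem_ker, map_natCast]
  exact CharP.cast_eq_zero _ p

theorem model_mulSeries (hF : IsModel p n F0) (x : EE p n →+* Ob K) :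
    mulSeries (F0.map (iota x)) p = PowerSeries.X ^ p ^ n := by
  obtain ⟨j, hj⟩ := exists_iotak x
  rw [← hj, ← fg_map_map, ← map_mulSeries, hF.mul, map_pow, PowerSeries.map_X]

theorem model_frob (hF : IsModel p n F0) (x : EE p n →+* Ob K) (γ : Fin 2 →₀ ℕ) :
    coeff γ (F0.map (iota x)).toPowerSeries ^ p = coeff γ (F0.map (iota x)).toPowerSeries := by
  obtain ⟨j, hj⟩ := exists_iotak x
  rw [← hj, FormalGroup.map_toPowerSeries, coeff_map, RingHom.comp_apply, ← map_pow, hF.frob]

theorem IsLift.isFGHom {a : PowerSeries (WW p n)} (ha : IsLift p n F0 a) (x : EE p n →+* Ob K) :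
    IsFGHom (F0.map (iota x)) (F0.map (iota x)) (PowerSeries.map (iota x) a) := by
  obtain ⟨j, hj⟩ := exists_iotak x
  have h1 := isFGHom_map ha.2 j
  rw [fg_map_map, ← RingHom.comp_apply, ← PowerSeries.map_comp, hj] at h1
  exact h1

theorem model_nsmul_bijective_aux {F : FormalGroup (Ob K)} [F.IsComm]
    (hF : mulSeries F p = PowerSeries.X ^ p ^ n) :
    Function.Bijective fun y : Pt u.I F => p • y := by
  refine ⟨fun a b hab => Pt.ext (iterateFrobenius_inj (Ob K) p n ?_), fun z => ?_⟩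
  · have h1 := congrArg Pt.val hab
    simp only [Pt.val_nsmul, hF, map_pow, ev1_X _ _ a.mem, ev1_X _ _ b.mem] at h1
    exact h1
  · exact nsmul_surjective u F (Nat.one_le_iff_ne_zero.2
      (pow_ne_zero n (Fact.out : p.Prime).ne_zero))
      (fun k => by rw [hF, sub_self, map_zero]; exact zero_mem _) z

/-- `[p]` is bijective on the points of the model (it is the `q`-th power map and `O` is perfect). -/
theorem model_nsmul_bijective (hN : IsNorm p n F0 H) (x : EE p n →+* Ob K) :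
    Function.Bijective fun y : Pt u.I (F0.map (iota x)) => p • y := by
  exact model_nsmul_bijective_aux (model_mulSeries hN.model x)

/-- The exact tower `y, y/p, y/p², …`. -/
noncomputable def sq (hN : IsNorm p n F0 H) (x : EE p n →+* Ob K) (u : Unif K)
    (y : Pt u.I (F0.map (iota x))) (N : ℕ) : Pt u.I (F0.map (iota x)) :=
  (Equiv.ofBijective _ (model_nsmul_bijective (u := u) hN x)).symm^[N] y

theorem sq_zero (hN : IsNorm p n F0 H) (y : Pt u.I (F0.map (iota x))) : sq hN x u y 0 = y := rfl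

theorem sq_succ (hN : IsNorm p n F0 H) (y : Pt u.I (F0.map (iota x))) (N : ℕ) :
    p • sq hN x u y (N + 1) = sq hN x u y N := by
  unfold sq
  rw [Function.iterate_succ_apply']
  exact (Equiv.ofBijective _ (model_nsmul_bijective (u := u) hN x)).apply_symm_apply _

theorem sq_isSeq (hN : IsNorm p n F0 H) (y : Pt u.I (F0.map (iota x))) :
    IsSeq p (sq hN x u y) := by
  intro N
  rw [sq_succ, sub_self]
  exact zero_mem _

theorem sq_map_eq (hN : IsNorm p n F0 H) {y : ℕ → Pt u.I (F0.map (iota x))}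
    (hy : ∀ N, p • y (N + 1) = y N) : sq hN x u (y 0) = y := by
  funext N
  induction N with
  | zero => rfl
  | succ N ih =>
    refine (model_nsmul_bijective (u := u) hN x).1 ?_
    change p • sq hN x u (y 0) (N + 1) = p • y (N + 1)
    rw [sq_succ, ih, hy]

/-- Additive endomorphisms commute with `sq`. -/
theorem sq_map (hN : IsNorm p n F0 H)
    (f : Pt u.I (F0.map (iota x)) →+ Pt u.I (F0.map (iota x))) (y : Pt u.I (F0.map (iota x)))
    (N : ℕ) : sq hN x u (f y) N = f (sq hN x u y N) := by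
  exact congrFun (sq_map_eq hN (y := fun N => f (sq hN x u y N)) fun N => by
    rw [← map_nsmul, sq_succ]) N

theorem sq_add (hN : IsNorm p n F0 H) (y y' : Pt u.I (F0.map (iota x))) :
    sq hN x u (y + y') = sq hN x u y + sq hN x u y' := by
  exact sq_map_eq hN (y := sq hN x u y + sq hN x u y') fun N => by
    rw [Pi.add_apply, Pi.add_apply, nsmul_add, sq_succ, sq_succ]

/-- `Π_F : M → F(B)`. -/
noncomputable def PiP (hN : IsNorm p n F0 H) (hx : IsPoint u x) {B : Type*} [CommRing B]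
    {I : Ideal B} [IsAdicComplete I B] {ρ : Ob K →+* B} {F : FormalGroup B} [F.IsComm]
    (h : Near u (F0.map (iota x)) I ρ F) : Pt u.I (F0.map (iota x)) →+ Pt I F :=
  AddMonoidHom.mk' (fun y => h.pi p (sq hN x u y)) fun y y' => by
    rw [sq_add, h.pi_add hx.p_mem (sq_isSeq hN y) (sq_isSeq hN y')]

theorem PiP_apply (hN : IsNorm p n F0 H) (hx : IsPoint u x) {B : Type*} [CommRing B]
    {I : Ideal B} [IsAdicComplete I B] {ρ : Ob K →+* B} {F : FormalGroup B} [F.IsComm]
    (h : Near u (F0.map (iota x)) I ρ F) (y : Pt u.I (F0.map (iota x))) :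
    PiP hN hx h y = h.pi p (sq hN x u y) := rfl

omit [Fact p.Prime] [IsAlgClosed K] [CharP K p] in
theorem PiP_surjective_aux {G F : FormalGroup (Ob K)} [G.IsComm] [F.IsComm]
    (h : Near u G u.I (RingHom.id _) F) (hp : (p : Ob K) ∈ u.I) {w : ℕ → Pt u.I F}
    (hw : ∀ N, p • w (N + 1) = w N) :
    ∃ y : ℕ → Pt u.I G, (∀ N, p • y (N + 1) = y N) ∧ h.pi p y = w 0 := by
  obtain ⟨v, hv⟩ : ∃ v : ℕ → Pt u.I G, ∀ N, (v N).val = (w N).val :=
    ⟨fun N => ⟨(w N).val, (w N).mem⟩, fun _ => rfl⟩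
  have hs : ∀ N, IsSeq p fun M => v (N + M) := fun N M => by
    have h1 := h.cast_nsmul p (v (N + (M + 1)))
    have e : h.cast (v (N + (M + 1))) = w (N + M + 1) := Pt.ext (hv _)
    rw [e, hw, ← hv] at h1
    exact h1
  refine ⟨fun N => piF p fun M => v (N + M), fun N => ?_, h.pi_eq_of_exact hp hw fun N => ?_⟩
  · have h1 := isPi_piF hp (hs (N + 1))
    have e : (fun M => v (N + 1 + M)) = fun M => v (N + (M + 1)) := by
      funext M
      rw [add_assoc, add_comm 1 M]
    refine ((IsPi.shift hp (hs N) ?_).piF_eq).symm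
    rw [← e]
    exact h1
  · have h1 := isPi_piF hp (hs N) 0
    rw [pow_zero, one_nsmul, zero_add, pow_one, hv] at h1
    exact h1

/-- Given `z`, take an exact tower `z_N` for `H_x` (`exists_tower`, `point_mulSeries_mem`), view it
as an `IsSeq` for the model, put `y^{(N)} = piF (shift^N z)` in the model; `p • y^{(N+1)} = y^{(N)}`
(`IsPi.shift`), so `y^{(N)} = sq y^{(0)} N ≡ z_N`, and `pi_eq_of_exact`. -/
theorem PiP_surjective (hN : IsNorm p n F0 H) (hx : IsPoint u x) :
    Function.Surjective (PiP hN hx (near_x hN hx)) := by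
  intro z
  obtain ⟨w, hw0, hw⟩ := exists_tower u (H.map x) (Nat.one_le_iff_ne_zero.2
    (pow_ne_zero n (Fact.out : p.Prime).ne_zero)) (point_mulSeries_mem hN hx) z
  obtain ⟨y, hy, hy'⟩ := PiP_surjective_aux (near_x hN hx) hx.p_mem hw
  exact ⟨y 0, by rw [PiP_apply, sq_map_eq hN hy, hy', hw0]⟩

variable {h : ℕ} [NeZero h]

/-- The hypotheses on the point in the case `1 ≤ h < n`. -/
structure IsPointH (u : Unif K) (x : EE p n →+* Ob K) (H : FormalGroup (EE p n)) (h : ℕ) :
    Prop where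
  pt : IsPoint u x
  lt : h < n
  ker : ∀ f ∈ heightIdeal p n H h, x f = 0
  ne : x (vv p n H h) ≠ 0

theorem exists_VA_aux {A O σ : Type*} [CommRing A] [CommRing O] [CharP O p] (G : FormalGroup A)
    [G.IsComm] (τ : A →+* MvPowerSeries σ O) (y : A →+* O)
    (hy : (constantCoeff : MvPowerSeries σ O →+* O).comp τ = y) (k : ℕ)
    (hz : ∀ j < k, τ (PowerSeries.coeff (p ^ j) (mulSeries G p)) = 0) :
    ∃ VA : PowerSeries (MvPowerSeries σ O),
      mulSeries (G.map τ) p =
        PowerSeries.expand (p ^ k) (pow_ne_zero k (Fact.out : p.Prime).ne_zero) VA ∧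
      IsFGHom ((G.map y).map (iterateFrobenius O p k)) (G.map y)
        (PowerSeries.map (constantCoeff : MvPowerSeries σ O →+* O) VA) := by
  have : CharP (MvPowerSeries σ O) p :=
    charP_of_injective_ringHom (f := (C : O →+* MvPowerSeries σ O)) (C_injective) p
  obtain ⟨g, hg, hg'⟩ := frob_factor p (isFGHom_mulSeries (G.map τ) p) k fun j hj => by
    rw [← map_mulSeries, PowerSeries.coeff_map, hz j hj]
  refine ⟨g, hg, ?_⟩
  have h1 := isFGHom_map hg' (constantCoeff : MvPowerSeries σ O →+* O)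
  rw [fg_map_map (G.map τ), RingHom.iterateFrobenius_comm, ← fg_map_map (G.map τ),
    fg_map_map G τ, hy] at h1
  exact h1

/-- `frob_factor` over `O⟦δ⟧` (`τ` kills `p` and `v_j = u_{j-1}` for `1 ≤ j < h`: `tau_X'`). -/
theorem exists_VA (hN : IsNorm p n F0 H) (hx : IsPointH u x H h) :
    ∃ VA : PowerSeries (MvPowerSeries (Fin (n - h)) (Ob K)),
      mulSeries (H.map (tau u x (eh n h))) p =
        PowerSeries.expand (p ^ h) (pow_ne_zero h (Fact.out : p.Prime).ne_zero) VA ∧
      IsFGHom ((H.map x).map (iterateFrobenius (Ob K) p h)) (H.map x)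
        (PowerSeries.map (constantCoeff : MvPowerSeries (Fin (n - h)) (Ob K) →+* Ob K) VA) := by
  refine exists_VA_aux H (tau u x (eh n h)) x (tau_const hx.pt) h fun j hj => ?_
  change tau u x (eh n h) (vv p n H j) = 0
  have h0 := hx.ker _ (vv_mem p n H hj)
  have hlt := hx.lt
  rcases j with _ | i
  · rw [vv_zero, map_natCast, ← map_natCast (C : Ob K →+* MvPowerSeries (Fin (n - h)) (Ob K)),
      CharP.cast_eq_zero, map_zero]
  · have e := hN.coord ⟨i, by omega⟩
    rw [e] at h0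
    rw [e, tau_X' hx.pt, h0, map_zero]
    rintro ⟨s, hs⟩
    have h1 : h - 1 + (s : ℕ) = i := congrArg Fin.val hs
    omega

theorem simple_zero_shape {B B' : Type*} [CommRing B] [CommRing B'] (I : Ideal B')
    [IsAdicComplete I B'] (ι : B →+* B') (F : FormalGroup B) {a b : B'} (ha : a ∈ I.radical)
    (hb : b ∈ I.radical) : ∃ w, ev I ι ![a, b] F.toPowerSeries = a + b + a * b * w := by
  obtain ⟨Φ, hΦ⟩ := fg_shape F
  have h2 := Pt.vec_mem ha hb
  refine ⟨ev I ι ![a, b] Φ, ?_⟩
  rw [hΦ, map_add, map_add, map_mul, map_mul, ev_X I ι h2, ev_X I ι h2]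
  rfl

theorem simple_zero_aux {B : Type*} [CommRing B] (I : Ideal B) [IsAdicComplete I B]
    {F G : FormalGroup B} {V : PowerSeries B} (hV : IsFGHom F G V) {z : B} (hz : z ∈ I.radical)
    (h0 : ev1 I (RingHom.id _) z V = 0) :
    ∃ c, c * ev1 I (RingHom.id _) z (PowerSeries.derivative _ V) = PowerSeries.coeff 1 V := by
  set ι : B →+* DualNumber B := (algebraMap B (DualNumber B)).comp (RingHom.id B) with hι
  have ha : (TrivSqZeroExt.inl z : DualNumber B) ∈ (dualI I).radical :=
    (mem_dualI_radical I).2 (by simpa using hz)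
  have hb : ∀ c : B, (TrivSqZeroExt.inr c : DualNumber B) ∈ (dualI I).radical := fun c =>
    (mem_dualI_radical I).2 (by simp)
  have h2 := Pt.vec_mem ha (hb 1)
  have hc : ∀ i : Fin 2, constantCoeff
      (PowerSeries.subst (X i : MvPowerSeries (Fin 2) B) V) = 0 := fun i =>
    PowerSeries.constantCoeff_subst_eq_zero (by simp) _ hV.1
  have e1 : ev1 (dualI I) ι (TrivSqZeroExt.inl z) V = 0 := by
    have := ev1_dual I (RingHom.id B) hz 0 V
    rw [TrivSqZeroExt.inr_zero, add_zero, h0, zero_mul, TrivSqZeroExt.inr_zero,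
      TrivSqZeroExt.inl_zero, add_zero] at this
    exact this
  have e2 : ev1 (dualI I) ι (TrivSqZeroExt.inr 1) V = TrivSqZeroExt.inr (PowerSeries.coeff 1 V) := by
    have := ev1_dual I (RingHom.id B) (I.radical.zero_mem) 1 V
    have z1 : ∀ f : PowerSeries B, ev1 I (RingHom.id B) 0 f = PowerSeries.constantCoeff f :=
      fun f => ev_zero I (RingHom.id B) f
    rw [TrivSqZeroExt.inl_zero, zero_add, z1, z1, hV.1, TrivSqZeroExt.inl_zero, zero_add, one_mul,
      ← PowerSeries.coeff_zero_eq_constantCoeff_apply, PowerSeries.coeff_derivative,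
      Nat.cast_zero, zero_add, zero_add, mul_one] at this
    exact this
  have h1 := congrArg (ev (dualI I) ι ![TrivSqZeroExt.inl z, TrivSqZeroExt.inr 1]) hV.2
  rw [ev_subst1 _ _ h2 F.zero_constantCoeff,
    ev_subst _ _ h2 (fun s => by fin_cases s <;> exact hc _)] at h1
  have e3 : (fun s => ev (dualI I) ι ![TrivSqZeroExt.inl z, TrivSqZeroExt.inr 1]
      ((![PowerSeries.subst (X 0 : MvPowerSeries (Fin 2) B) V,
        PowerSeries.subst (X 1 : MvPowerSeries (Fin 2) B) V] :
          Fin 2 → MvPowerSeries (Fin 2) B) s)) =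
      ![0, TrivSqZeroExt.inr (PowerSeries.coeff 1 V)] := by
    funext s
    fin_cases s
    · change ev _ _ _ (PowerSeries.subst (X 0 : MvPowerSeries (Fin 2) B) V) = 0
      rw [ev_subst1 _ _ h2 (by simp), ev_X _ _ h2]
      exact e1
    · change ev _ _ _ (PowerSeries.subst (X 1 : MvPowerSeries (Fin 2) B) V) =
        TrivSqZeroExt.inr (PowerSeries.coeff 1 V)
      rw [ev_subst1 _ _ h2 (by simp), ev_X _ _ h2]
      exact e2
  obtain ⟨w, hw⟩ := simple_zero_shape (dualI I) ι F ha (hb 1)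
  obtain ⟨w', hw'⟩ := simple_zero_shape (dualI I) ι G (dualI I).radical.zero_mem
    (hb (PowerSeries.coeff 1 V))
  have e4 : (TrivSqZeroExt.inl z + TrivSqZeroExt.inr 1 +
      TrivSqZeroExt.inl z * TrivSqZeroExt.inr 1 * w : DualNumber B) =
      TrivSqZeroExt.inl z + TrivSqZeroExt.inr (1 + z * w.fst) := by
    ext <;> simp
  rw [e3, hw, hw', e4, hι, ev1_dual I (RingHom.id B) hz] at h1
  refine ⟨1 + z * w.fst, ?_⟩
  simpa using congrArg TrivSqZeroExt.snd h1

/-- A homomorphism with nonzero linear coefficient has simple zeros: evaluate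
`V(z +_F ε) = V(z) +_G V(ε)` in the dual numbers. -/
theorem simple_zero {F G : FormalGroup (Ob K)} {V : PowerSeries (Ob K)} (hV : IsFGHom F G V)
    (h1 : PowerSeries.coeff 1 V ≠ 0) {z : Ob K} (hz : ‖(z : K)‖ < 1)
    (h0 : ev1 u.I (RingHom.id _) z V = 0) :
    ev1 u.I (RingHom.id _) z (PowerSeries.derivative _ V) ≠ 0 := by
  obtain ⟨c, hc⟩ := simple_zero_aux u.I hV (u.mem_radical.2 hz) h0
  intro h
  rw [h, mul_zero] at hc
  exact h1 hc.symm

/-- A group with at least `p^r` elements killed by `p` has `r` of them independent modulo `p`. -/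
theorem exists_indep {G : Type*} [AddCommGroup G] (p : ℕ) [Fact p.Prime] (r : ℕ) (s : Finset G)
    (hs : p ^ r ≤ s.card) (hp : ∀ z ∈ s, p • z = 0) :
    ∃ z : Fin r → G, (∀ i, p • z i = 0) ∧
      ∀ c : Fin r → ℤ, ∑ i, c i • z i = 0 → ∀ i, (p : ℤ) ∣ c i := by
  classical
  have hpp : p.Prime := Fact.out
  induction r with
  | zero => exact ⟨Fin.elim0, fun i => i.elim0, fun _ _ i => i.elim0⟩
  | succ r ih =>
    have hlt : p ^ r < s.card := (Nat.pow_lt_pow_right hpp.one_lt (Nat.lt_succ_self r)).trans_le hs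
    obtain ⟨z, hz, hind⟩ := ih hlt.le
    have hcard : (Finset.univ.image fun c : Fin r → Fin p => ∑ i, (c i : ℕ) • z i).card <
        s.card := by
      refine Finset.card_image_le.trans_lt ?_
      simpa using hlt
    obtain ⟨w, hw, hwT⟩ := Finset.exists_mem_notMem_of_card_lt_card hcard
    have hzero : ∀ (g : G) (m : ℤ), p • g = 0 → (p : ℤ) ∣ m → m • g = 0 := by
      rintro g _ hg ⟨k, rfl⟩
      rw [mul_comm, mul_smul, natCast_zsmul, hg, smul_zero]
    refine ⟨Fin.cons w z, fun i => ?_, fun c hc => ?_⟩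
    · refine Fin.cases ?_ (fun i => ?_) i
      · exact hp w hw
      · exact hz i
    · rw [Fin.sum_univ_succ] at hc
      simp only [Fin.cons_zero, Fin.cons_succ] at hc
      have h0 : (p : ℤ) ∣ c 0 := by
        by_contra hnd
        obtain ⟨a, b, hab⟩ := ((Nat.prime_iff_prime_int.1 hpp).irreducible.coprime_iff_not_dvd).2 hnd
        have hp0 : (0 : ℤ) < p := by exact_mod_cast hpp.pos
        refine hwT (Finset.mem_image.2 ⟨fun i => ⟨((-b * c i.succ) % p).toNat, ?_⟩,
          Finset.mem_univ _, ?_⟩)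
        · have := Int.emod_lt_of_pos (-b * c i.succ) hp0
          have := Int.emod_nonneg (-b * c i.succ) hp0.ne'
          omega
        · have e1 : ∀ i, ((-b * c i.succ) % p).toNat • z i = (-b * c i.succ) • z i := fun i => by
            rw [← natCast_zsmul, Int.toNat_of_nonneg (Int.emod_nonneg _ hp0.ne'), Int.emod_def,
              sub_smul, hzero (z i) _ (hz i) (dvd_mul_right _ _), sub_zero]
          have e2 : w = (b * c 0) • w := by
            have : (a * p + b * c 0) • w = w := by rw [hab, one_smul]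
            rw [add_smul, hzero w _ (hp w hw) (dvd_mul_left _ _), zero_add] at this
            exact this.symm
          simp only [e1]
          rw [e2, mul_smul, eq_neg_of_add_eq_zero_left hc, smul_neg, Finset.smul_sum,
            ← Finset.sum_neg_distrib]
          refine Finset.sum_congr rfl fun i _ => ?_
          rw [smul_smul, neg_mul, neg_smul]
      rw [hzero w _ (hp w hw) h0, zero_add] at hc
      intro i
      refine Fin.cases h0 (fun i => hind (fun i => c i.succ) hc i) i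

omit [CharP K p] [Fact p.Prime] in
theorem exists_lattice_aux (u : Unif K) {F F' : FormalGroup (Ob K)} [F.IsComm] {Q d : ℕ}
    (hQ : Q ≠ 0) {V : PowerSeries (Ob K)} (hV : IsFGHom F' F V)
    (hmul : mulSeries F p = PowerSeries.expand Q hQ V) (h1 : PowerSeries.coeff 1 V ≠ 0)
    (hF : ∀ k, PowerSeries.coeff k (mulSeries F p - PowerSeries.X ^ (Q * d)) ∈ u.I) :
    ∃ s : Finset (Pt u.I F), s.card = d ∧ ∀ z ∈ s, p • z = 0 := by
  classical
  have hn : ∀ k, ‖((PowerSeries.coeff k V - if k = d then 1 else 0 : Ob K) : K)‖ < 1 := fun k => by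
    have := u.mem_radical.1 (Ideal.le_radical (hF (Q * k)))
    rw [map_sub, hmul, PowerSeries.coeff_expand_mul, PowerSeries.coeff_X_pow] at this
    simpa [hQ] using this
  obtain ⟨s, hs, hsz⟩ := exists_roots_of_simple u (f := V) (d := d)
    (fun i hi => by simpa [hi.ne] using hn i)
    (by
      have h := hn d
      rw [if_pos rfl] at h
      push_cast at h
      have e : ((PowerSeries.coeff d V : Ob K) : K) =
          1 + (((PowerSeries.coeff d V : Ob K) : K) - 1) := by ring
      rw [e, IsUltrametricDist.norm_add_eq_max_of_norm_ne_norm (by rw [norm_one]; exact h.ne'),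
        norm_one]
      exact max_eq_left h.le)
    (fun z hz h0 => simple_zero hV h1 hz h0)
  have hroot : ∀ z : Ob K, ∃ w : Pt u.I F, ‖(z : K)‖ < 1 → w.val ^ Q = z := fun z => by
    by_cases hz : ‖(z : K)‖ < 1
    · obtain ⟨w, hw⟩ := IsAlgClosed.exists_pow_nat_eq (z : K) (Nat.pos_of_ne_zero hQ)
      have hw1 : ‖w‖ < 1 := by
        rw [← hw, norm_pow] at hz
        exact (pow_lt_one_iff_of_nonneg (norm_nonneg _) hQ).1 hz
      exact ⟨⟨⟨w, hw1.le⟩, u.mem_radical.2 hw1⟩, fun _ => Subtype.ext hw⟩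
    · exact ⟨0, fun h => absurd h hz⟩
  choose g hg using hroot
  refine ⟨s.image g, ?_, fun w hw => ?_⟩
  · rw [Finset.card_image_of_injOn, hs]
    intro z hz z' hz' hzz
    rw [← hg z (hsz z hz).1, ← hg z' (hsz z' hz').1, hzz]
  · obtain ⟨z, hz, rfl⟩ := Finset.mem_image.1 hw
    refine Pt.ext ?_
    rw [Pt.val_nsmul, hmul, ev1_expand _ _ (g z).mem, hg z (hsz z hz).1, (hsz z hz).2]
    rfl

theorem exists_lattice_mul {A B O : Type*} [CommRing A] [CommRing B] [CommRing O]
    (H : FormalGroup A) {τ : A →+* B} {κ : B →+* O} {x : A →+* O} (hx : κ.comp τ = x) {m Q : ℕ}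
    (hQ : Q ≠ 0) {VA : PowerSeries B}
    (h : mulSeries (H.map τ) m = PowerSeries.expand Q hQ VA) :
    mulSeries (H.map x) m = PowerSeries.expand Q hQ (PowerSeries.map κ VA) ∧
      PowerSeries.coeff 1 (PowerSeries.map κ VA) = x (PowerSeries.coeff Q (mulSeries H m)) := by
  have e : mulSeries (H.map x) m = PowerSeries.expand Q hQ (PowerSeries.map κ VA) := by
    rw [← hx, ← fg_map_map, ← map_mulSeries, h, PowerSeries.map_expand]
  refine ⟨e, ?_⟩
  rw [← PowerSeries.coeff_expand_mul Q hQ, ← e, mul_one, ← map_mulSeries, PowerSeries.coeff_map]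

/-- `V` has Weierstrass degree `p^{n-h}` (`point_mulSeries_mem`), `V₁ = x(v_h) ≠ 0`; its `p^{n-h}`
simple roots are the `Q`-th powers of `p`-torsion points of `H_x`; `exists_indep`,
`PiP_surjective`. -/
theorem exists_lattice (hN : IsNorm p n F0 H) (hx : IsPointH u x H h) :
    ∃ s : Fin (n - h) → Pt u.I (F0.map (iota x)),
      (∀ i, p • PiP hN hx.pt (near_x hN hx.pt) (s i) = 0) ∧
      ∀ c : Fin (n - h) → ℤ, ∑ i, c i • PiP hN hx.pt (near_x hN hx.pt) (s i) = 0 →
        ∀ i, (p : ℤ) ∣ c i := by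
  obtain ⟨VA, hVA, hhom⟩ := exists_VA hN hx
  obtain ⟨e1, e2⟩ := exists_lattice_mul H (tau_const (e := eh n h) hx.pt) _ hVA
  have e3 : p ^ n = p ^ h * p ^ (n - h) := by
    rw [← pow_add, Nat.add_sub_cancel' hx.lt.le]
  obtain ⟨s, hs, hsz⟩ := exists_lattice_aux (p := p) u (d := p ^ (n - h)) _ hhom e1
    (by rw [e2]; exact hx.ne) (fun k => by rw [← e3]; exact point_mulSeries_mem hN hx.pt k)
  obtain ⟨z, hz, hind⟩ := exists_indep p (n - h) s hs.ge hsz
  choose y hy using fun i => PiP_surjective hN hx.pt (z i)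
  refine ⟨y, fun i => ?_, fun c hc => hind c ?_⟩
  · rw [hy]
    exact hz i
  · simpa only [hy] using hc

theorem jacobian_cc {O σ : Type*} [CommRing O] (t : σ) (f : MvPowerSeries σ O) :
    constantCoeff (pderiv O t f) = coeff (Finsupp.single t 1) f := by
  rw [← coeff_zero_eq_constantCoeff_apply, coeff_pderiv]
  simp

theorem jacobian_beta {O σ : Type*} [CommRing O] [Fintype σ] (I : Ideal O) [IsAdicComplete I O]
    (ξ : σ → O) : ∃ β : MvPowerSeries σ O →+* DualNumber O, ∀ f, β f =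
      TrivSqZeroExt.inl (constantCoeff f) +
        TrivSqZeroExt.inr (∑ t, ξ t * coeff (Finsupp.single t 1) f) := by
  refine ⟨ev (dualI I) ((algebraMap O (DualNumber O)).comp (RingHom.id O))
    (fun s => TrivSqZeroExt.inl ((fun _ : σ => (0 : O)) s) + TrivSqZeroExt.inr (ξ s)), fun f => ?_⟩
  rw [ev_dual I (RingHom.id O) (fun _ => Ideal.zero_mem _) ξ f, ev_zero]
  simp only [ev_zero, RingHom.id_apply, jacobian_cc]

theorem jacobian_dual {O : Type*} [CommRing O] (I : Ideal O) [IsAdicComplete I O] {a : O}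
    (ha : a ∈ I.radical) (V : PowerSeries (DualNumber O)) :
    (ev1 (dualI I) (RingHom.id _) (TrivSqZeroExt.inl a) V).snd =
      ev1 I (RingHom.id O) a (PowerSeries.mk fun k => (PowerSeries.coeff k V).snd) := by
  have ha' : (TrivSqZeroExt.inl a : DualNumber O) ∈ (dualI I).radical :=
    (mem_dualI_radical I).2 (by simpa using ha)
  have hV : V = PowerSeries.map (algebraMap O (DualNumber O))
        (PowerSeries.mk fun k => (PowerSeries.coeff k V).fst) +
      PowerSeries.C (DualNumber.eps : DualNumber O) *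
        PowerSeries.map (algebraMap O (DualNumber O))
          (PowerSeries.mk fun k => (PowerSeries.coeff k V).snd) := by
    refine PowerSeries.ext fun k => ?_
    rw [map_add, PowerSeries.coeff_C_mul, PowerSeries.coeff_map, PowerSeries.coeff_map,
      PowerSeries.coeff_mk, PowerSeries.coeff_mk]
    ext <;> simp [TrivSqZeroExt.algebraMap_eq_inl]
  have key : ∀ f : PowerSeries O, ev1 (dualI I) (RingHom.id _) (TrivSqZeroExt.inl a)
      (PowerSeries.map (algebraMap O (DualNumber O)) f) =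
      TrivSqZeroExt.inl (ev1 I (RingHom.id O) a f) := fun f => by
    have h1 := ev1_dual I (RingHom.id O) ha 0 f
    rw [TrivSqZeroExt.inr_zero, add_zero, zero_mul, TrivSqZeroExt.inr_zero, add_zero] at h1
    rw [ev1_map _ _ ha', ← h1]
    rfl
  conv_lhs => rw [hV]
  rw [map_add, map_mul, ev1_C, key, key]
  simp

theorem jacobian_root {O σ : Type*} [CommRing O] [Fintype σ] (p : ℕ) [CharP O p] (ϖ : O)
    [IsAdicComplete (Ideal.span {ϖ}) O] (FA : FormalGroup (MvPowerSeries σ O)) [FA.IsComm]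
    {Q : ℕ} (hQ : Q ≠ 0) (hpQ : p ∣ Q) {VA : PowerSeries (MvPowerSeries σ O)}
    (hVA : mulSeries FA p = PowerSeries.expand Q hQ VA) (ξ : σ → O) {ι : Type*} [Fintype ι]
    (z : ι → Pt (cI σ ϖ) FA) (h0 : ∀ i, constantCoeff (p • z i).val = 0)
    (h1 : ∀ i, ∑ t, ξ t * coeff (Finsupp.single t 1) (p • z i).val = 0) (c : ι → ℤ) :
    ev1 (Ideal.span {ϖ}) (RingHom.id O) (constantCoeff (∑ i, c i • z i).val ^ Q)
      (PowerSeries.mk fun k =>
        ∑ t, ξ t * coeff (Finsupp.single t 1) (PowerSeries.coeff k VA)) = 0 := by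
  obtain ⟨β, hβ⟩ := jacobian_beta (Ideal.span {ϖ}) ξ
  have hle : cI σ ϖ ≤ (dualI (Ideal.span {ϖ})).radical.comap β := by
    rw [cI, Ideal.span_le, Set.singleton_subset_iff, SetLike.mem_coe, Ideal.mem_comap,
      mem_dualI_radical, hβ]
    simpa using Ideal.le_radical (Ideal.mem_span_singleton_self ϖ)
  obtain ⟨φ, hφ⟩ : ∃ φ : Pt (cI σ ϖ) FA →+ Pt (dualI (Ideal.span {ϖ})) (FA.map β),
      ∀ a, (φ a).val = β a.val :=
    ⟨Pt.map (cI σ ϖ) (dualI (Ideal.span {ϖ})) FA (FA.map β) β hle rfl, fun _ => rfl⟩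
  have hz : ∀ i, p • φ (z i) = 0 := fun i => by
    rw [← map_nsmul]
    refine Pt.ext ?_
    rw [hφ, hβ, h0, h1]
    simp
  have hy : p • φ (∑ i, c i • z i) = 0 := by
    rw [map_sum, Finset.smul_sum]
    refine Finset.sum_eq_zero fun i _ => ?_
    rw [map_zsmul, smul_comm, hz, smul_zero]
  have h2 := congrArg Pt.val hy
  have hm := (φ (∑ i, c i • z i)).mem
  rw [Pt.val_nsmul, Pt.val_zero, ← map_mulSeries, hVA, PowerSeries.map_expand,
    ev1_expand _ _ hm, hφ] at h2
  rw [hφ, mem_dualI_radical] at hm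
  have hf : (β (∑ i, c i • z i).val).fst = constantCoeff (∑ i, c i • z i).val := by
    rw [hβ]
    simp
  have hpow : β (∑ i, c i • z i).val ^ Q =
      TrivSqZeroExt.inl (constantCoeff (∑ i, c i • z i).val ^ Q) := by
    ext
    · rw [TrivSqZeroExt.fst_pow, hf, TrivSqZeroExt.fst_inl]
    · rw [TrivSqZeroExt.snd_pow, TrivSqZeroExt.snd_inl, nsmul_eq_mul,
        (CharP.cast_eq_zero_iff O p Q).2 hpQ, zero_mul]
  rw [hf] at hm
  have h3 := jacobian_dual (Ideal.span {ϖ})
    (Ideal.pow_mem_of_mem _ hm Q (Nat.pos_of_ne_zero hQ)) (PowerSeries.map β VA)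
  rw [← hpow, h2, TrivSqZeroExt.snd_zero] at h3
  rw [h3]
  congr 2
  funext k
  rw [PowerSeries.coeff_map, hβ]
  simp

omit [IsAlgClosed K] in
theorem jacobian_count {F : FormalGroup (Ob K)} [F.IsComm] {r : ℕ} (z : Fin r → Pt u.I F)
    (hind : ∀ c : Fin r → ℤ, ∑ i, c i • z i = 0 → ∀ i, (p : ℤ) ∣ c i) (m : ℕ)
    (W : PowerSeries (Ob K))
    (hW : ∀ c : Fin r → ℤ, ev1 u.I (RingHom.id _) ((∑ i, c i • z i).val ^ p ^ m) W = 0) {k : ℕ}
    (hk : k < p ^ r) : ‖((PowerSeries.coeff k W : Ob K) : K)‖ ≠ 1 := by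
  classical
  intro h1
  have hex : ∃ k, ‖((PowerSeries.coeff k W : Ob K) : K)‖ = 1 := ⟨k, h1⟩
  have hp : p ^ m ≠ 0 := pow_ne_zero m (Fact.out : p.Prime).ne_zero
  let g : (Fin r → Fin p) → Ob K := fun c => (∑ i, ((c i : ℕ) : ℤ) • z i).val ^ p ^ m
  have hg : Function.Injective g := by
    intro c c' hcc
    have h2 : (∑ i, ((c i : ℕ) : ℤ) • z i).val = (∑ i, ((c' i : ℕ) : ℤ) • z i).val := by
      rw [← sub_eq_zero, ← pow_eq_zero_iff hp, sub_pow_char_pow, sub_eq_zero]
      exact hcc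
    have h3 := hind (fun i => ((c i : ℕ) : ℤ) - ((c' i : ℕ) : ℤ)) (by
      simp only [sub_smul, Finset.sum_sub_distrib]
      rw [Pt.ext h2, sub_self])
    funext i
    have h4 : (c' i : ℕ) ≡ (c i : ℕ) [MOD p] := (Nat.modEq_iff_dvd).2 (h3 i)
    exact Fin.ext (Nat.ModEq.eq_of_lt_of_lt h4 (c' i).2 (c i).2).symm
  have h5 := card_roots_le u (d := Nat.find hex)
    (fun i hi => lt_of_le_of_ne (Ob.norm_le _) (Nat.find_min hex hi)) (Nat.find_spec hex)
    (Finset.univ.image g) (fun w hw => by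
      obtain ⟨c, -, rfl⟩ := Finset.mem_image.1 hw
      exact ⟨u.mem_radical.1 (Ideal.pow_mem_of_mem _ (Pt.mem _) _ (Nat.pos_of_ne_zero hp)), hW _⟩)
  rw [Finset.card_image_of_injective _ hg, Finset.card_univ, Fintype.card_fun, Fintype.card_fin,
    Fintype.card_fin] at h5
  have := Nat.find_min' hex h1
  omega

theorem jacobian_scale {K : Type*} [NormedField K] [IsUltrametricDist K] {σ : Type*} [Fintype σ]
    {ξ : σ → K} (hξ : ξ ≠ 0) : ∃ (ξ' : σ → Ob K) (t0 : σ) (a : K), ξ' t0 = 1 ∧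
      ∀ t, (ξ' t : K) = a * ξ t := by
  obtain ⟨t1, ht1⟩ := Function.ne_iff.1 hξ
  obtain ⟨t0, -, ht0⟩ := Finset.exists_max_image Finset.univ (fun t => ‖ξ t‖)
    ⟨t1, Finset.mem_univ _⟩
  have h0 : 0 < ‖ξ t0‖ := (norm_pos_iff.2 ht1).trans_le (ht0 t1 (Finset.mem_univ _))
  refine ⟨fun t => ⟨(ξ t0)⁻¹ * ξ t, ?_⟩, t0, (ξ t0)⁻¹, Subtype.ext ?_, fun _ => rfl⟩
  · rw [Ob.mem_iff, norm_mul, norm_inv, inv_mul_le_iff₀ h0, mul_one]
    exact ht0 t (Finset.mem_univ _)
  · exact inv_mul_cancel₀ (norm_pos_iff.1 h0)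

theorem jacobian_const (hN : IsNorm p n F0 H) (hx : IsPoint u x) {σ : Type} [Fintype σ]
    (e : σ ↪ Fin (n - 1)) (y : Pt u.I (F0.map (iota x))) :
    constantCoeff (PiP hN hx (near_tau hN hx e) y).val = (PiP hN hx (near_x hN hx) y).val := by
  have hle : cI σ u.ϖ ≤ u.I.comap (constantCoeff : MvPowerSeries σ (Ob K) →+* Ob K) := by
    rw [cI, Ideal.span_le, Set.singleton_subset_iff, SetLike.mem_coe, Ideal.mem_comap,
      constantCoeff_C]
    exact Ideal.mem_span_singleton_self _
  have h1 := (near_tau hN hx e).pi_map (near_x hN hx) hx.p_mem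
    (constantCoeff : MvPowerSeries σ (Ob K) →+* Ob K) hle
    (hle.trans (Ideal.comap_mono Ideal.le_radical)) (RingHom.ext fun a => by
      rw [RingHom.comp_apply, constantCoeff_C, RingHom.id_apply])
    (by rw [fg_map_map, tau_const hx]) (sq_isSeq hN y)
  rw [PiP_apply, PiP_apply, ← h1, Pt.map_val]

theorem jacobian (hN : IsNorm p n F0 H) (hx : IsPointH u x H h)
    {s : Fin (n - h) → Pt u.I (F0.map (iota x))}
    (hs : ∀ i, p • PiP hN hx.pt (near_x hN hx.pt) (s i) = 0)
    (hind : ∀ c : Fin (n - h) → ℤ, ∑ i, c i • PiP hN hx.pt (near_x hN hx.pt) (s i) = 0 →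
      ∀ i, (p : ℤ) ∣ c i) :
    (∀ i, constantCoeff (PiP hN hx.pt (near_tau hN hx.pt (eh n h)) (p • s i)).val = 0) ∧
    ∀ ξ : Fin (n - h) → K, (∀ i, ∑ t, ξ t * ((coeff (Finsupp.single t 1)
      (PiP hN hx.pt (near_tau hN hx.pt (eh n h)) (p • s i)).val : Ob K) : K) = 0) → ξ = 0 := by
  classical
  have h0 : ∀ i, constantCoeff (PiP hN hx.pt (near_tau hN hx.pt (eh n h)) (p • s i)).val = 0 :=
    fun i => by rw [jacobian_const, map_nsmul, hs, Pt.val_zero]
  refine ⟨h0, fun ξ hξ => ?_⟩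
  by_contra hne
  obtain ⟨ξ', t0, a, ht0, ha⟩ := jacobian_scale hne
  obtain ⟨VA, hVA, -⟩ := exists_VA hN hx
  have hp1 := (Fact.out : p.Prime).one_lt
  have hϖ : u.ϖ ≠ 0 := fun h => by
    have := u.pos
    rw [h] at this
    simp at this
  obtain ⟨W, hW⟩ : ∃ W : PowerSeries (Ob K), ∀ k, PowerSeries.coeff k W =
      ∑ t, ξ' t * x (pderiv (WW p n) (eh n h t)
        (PowerSeries.coeff (p ^ h * k) (mulSeries H p))) :=
    ⟨PowerSeries.mk _, fun k => PowerSeries.coeff_mk _ _⟩
  have hV1 : (PowerSeries.mk fun k =>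
      ∑ t, ξ' t * coeff (Finsupp.single t 1) (PowerSeries.coeff k VA)) =
      PowerSeries.C u.ϖ * W := by
    refine PowerSeries.ext fun k => ?_
    rw [PowerSeries.coeff_mk, PowerSeries.coeff_C_mul, hW, Finset.mul_sum]
    refine Finset.sum_congr rfl fun t _ => ?_
    rw [← PowerSeries.coeff_expand_mul (p ^ h) (pow_ne_zero h (Fact.out : p.Prime).ne_zero) VA k,
      ← hVA, ← map_mulSeries, PowerSeries.coeff_map, ← jacobian_cc, tau_pderiv hx.pt, map_mul,
      constantCoeff_C, ← RingHom.comp_apply (constantCoeff : _ →+* Ob K), tau_const hx.pt]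
    ring
  refine jacobian_count (u := u) (fun i => PiP hN hx.pt (near_x hN hx.pt) (s i)) hind h W
    (fun c => ?_) (k := p ^ (t0 : ℕ)) (Nat.pow_lt_pow_right hp1 t0.2) ?_
  · have h2 := jacobian_root p u.ϖ (H.map (tau u x (eh n h))) _ (dvd_pow_self p (NeZero.ne h)) hVA
      ξ' (fun i => PiP hN hx.pt (near_tau hN hx.pt (eh n h)) (s i))
      (fun i => by rw [← map_nsmul]; exact h0 i)
      (fun i => by
        rw [← map_nsmul]
        refine Subtype.ext ?_
        have h3 := congrArg (a * ·) (hξ i)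
        simp only [Finset.mul_sum, mul_zero, ← mul_assoc, ← ha] at h3
        rw [AddSubmonoidClass.coe_finsetSum]
        exact h3) c
    simp only [← map_zsmul] at h2 ⊢
    rw [← map_sum] at h2 ⊢
    rw [hV1, map_mul, ev1_C, jacobian_const, RingHom.id_apply] at h2
    exact (mul_eq_zero.1 h2).resolve_left hϖ
  · have h4 : PowerSeries.coeff (p ^ h * p ^ (t0 : ℕ)) (mulSeries H p) = X (eh n h t0) := by
      rw [← hN.coord, vv, ← pow_add]
      congr 3
      change h + t0 = h - 1 + t0 + 1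
      have := NeZero.ne h
      omega
    rw [hW, h4, Finset.sum_eq_single t0, pderiv_X_self, map_one, ht0, mul_one, Subring.coe_one,
      norm_one]
    · intro t _ ht
      rw [pderiv_X_of_ne (fun h' => ht ((eh n h).injective h').symm), map_zero, mul_zero]
    · intro h
      exact absurd (Finset.mem_univ _) h

end Crest.R227
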