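import Crest.Prelude.Def_LubinTate

/-! Row 227. Moving `p`-adic coefficients from endomorphisms to points (pure group theory).
Iterate `hdec`: `d_j^{(N)} = ∑ n^{(N)}_{j,i} D_i + p d_j^{(N+1)}`; let `y_i = w_{i,0}` for
`c_k = ∑_j n^{(k)}_{j,i} s_j`. `R_N = ∑_i D_i λ a w_{i,N} - ∑_j d_j^{(N)} λ a s_j` satisfies
`R_N = p R_{N+1}`, so `R_0 = 0`. If all `n^{(0)}_{j0,i}` were divisible by `p`, `id = p e` with `e`
preserving `Mh1`, so `Mh1 = ⊥`. `Pi y_i = ∑ n^{(0)}_{j,i} Pi s_j` since `p Pi w_1 = p^N Pi w_N`. -/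

set_option autoImplicit false

namespace Crest.R227

theorem lim_lemma_iter (p : ℕ) {A : Type*} [AddCommGroup A] (R : ℕ → A)
    (h : ∀ N, R N = p • R (N + 1)) (N : ℕ) : R 0 = p ^ N • R N := by
  induction N with
  | zero => rw [pow_zero, one_smul]
  | succ N ih => rw [ih, h N, smul_smul, pow_succ]

theorem lim_lemma (p : ℕ) {M Mh Mx : Type*} [AddCommGroup M] [AddCommGroup Mh] [AddCommGroup Mx]
    {X σ ι : Type*} [Fintype σ] [Fintype ι] (M1 : AddSubgroup M) (Mh1 : AddSubgroup Mh)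
    (Mx1 : AddSubgroup Mx) (a : X → M →+ M) (ha : ∀ ξ, ∀ y ∈ M1, a ξ y ∈ M1) (lam : M →+ Mh)
    (hlam : ∀ y ∈ M1, lam y ∈ Mh1) (Pi : M →+ Mx) (hPi : ∀ y ∈ M1, Pi y ∈ Mx1)
    (E : Set (Mh →+ Mh)) (hE : ∀ d ∈ E, ∀ z ∈ Mh1, d z ∈ Mh1) (D : ι → Mh →+ Mh)
    (hD : ∀ i, D i ∈ E)
    (hdec : ∀ d ∈ E, ∃ c : ι → ℤ, ∃ d2 ∈ E, d = ∑ i, c i • D i + p • d2)
    (sepH : ∀ z : Mh, (∀ N : ℕ, ∃ w ∈ Mh1, z = p ^ N • w) → z = 0)
    (sepX : ∀ z : Mx, (∀ N : ℕ, ∃ w ∈ Mx1, z = p ^ N • w) → z = 0)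
    (cpl : ∀ c : ℕ → M, (∀ k, c k ∈ M1) →
      ∃ w : ℕ → M, (∀ N, w N ∈ M1) ∧ ∀ N, w N = c N + p • w (N + 1))
    (hne : Mh1 ≠ ⊥) (s : σ → M) (hs : ∀ j, s j ∈ M1) (hps : ∀ j, p • Pi (s j) = 0)
    (hind : ∀ c : σ → ℤ, ∑ j, c j • Pi (s j) = 0 → ∀ j, (p : ℤ) ∣ c j)
    (d : σ → Mh →+ Mh) (hd : ∀ j, d j ∈ E) (j0 : σ) (hj0 : d j0 = AddMonoidHom.id Mh)
    (hrel : ∀ ξ, ∑ j, d j (lam (a ξ (s j))) = 0) :
    ∃ y : ι → M, y ≠ 0 ∧ ∀ ξ, ∑ i, D i (lam (a ξ (y i))) = 0 := by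
  choose n nx hnx hn using hdec
  let nxt : E → E := fun e => ⟨nx e.1 e.2, hnx e.1 e.2⟩
  let dN : σ → ℕ → E := fun j N => nxt^[N] ⟨d j, hd j⟩
  let nN : σ → ℕ → ι → ℤ := fun j N => n (dN j N).1 (dN j N).2
  have hdN : ∀ j N, (dN j N).1 = ∑ i, nN j N i • D i + p • (dN j (N + 1)).1 := by
    intro j N
    have : dN j (N + 1) = nxt (dN j N) := Function.iterate_succ_apply' _ _ _
    rw [this]
    exact hn _ _
  have hdN' : ∀ j N z, (dN j N).1 z = ∑ i, nN j N i • D i z + p • (dN j (N + 1)).1 z := by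
    intro j N z
    rw [hdN j N]
    simp only [AddMonoidHom.add_apply, AddMonoidHom.finsetSum_apply, AddMonoidHom.zsmul_apply,
      AddMonoidHom.nsmul_apply]
  choose w hw1 hw using fun i : ι => cpl (fun k => ∑ j, nN j k i • s j)
    fun k => M1.sum_mem fun j _ => M1.zsmul_mem (hs j) _
  refine ⟨fun i => w i 0, fun hy => hne ?_, fun ξ => ?_⟩
  · have hdiv : ∀ i, (p : ℤ) ∣ nN j0 0 i := by
      intro i
      have h1 : ∀ N, Pi (w i N) = ∑ j, nN j N i • Pi (s j) + p • Pi (w i (N + 1)) := by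
        intro N
        rw [hw i N, map_add, map_sum, map_nsmul]
        simp only [map_zsmul]
      have h2 : ∀ N, p • Pi (w i (N + 1)) = p • p • Pi (w i (N + 1 + 1)) := by
        intro N
        rw [h1 (N + 1), smul_add, Finset.smul_sum, Finset.sum_eq_zero, zero_add]
        intro j _
        rw [smul_comm, hps, smul_zero]
      have h3 : p • Pi (w i (0 + 1)) = 0 := sepX _ fun N =>
        ⟨p • Pi (w i (N + 1)), Mx1.nsmul_mem (hPi _ (hw1 i _)) _,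
          lim_lemma_iter p (fun N => p • Pi (w i (N + 1))) h2 N⟩
      have h4 := h1 0
      have h5 : w i 0 = 0 := congrFun hy i
      rw [h3, add_zero, h5, map_zero] at h4
      exact hind (fun j => nN j 0 i) h4.symm j0
    choose m hm using hdiv
    have key : ∀ z ∈ Mh1, ∃ z' ∈ Mh1, z = p • z' := by
      intro z hz
      refine ⟨∑ i, m i • D i z + (dN j0 1).1 z, Mh1.add_mem (Mh1.sum_mem fun i _ =>
        Mh1.zsmul_mem (hE _ (hD i) _ hz) _) (hE _ (dN j0 1).2 _ hz), ?_⟩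
      have h1 := hdN' j0 0 z
      have h2 : (dN j0 0).1 z = z := by
        change d j0 z = z
        rw [hj0, AddMonoidHom.id_apply]
      rw [h2] at h1
      rw [smul_add, Finset.smul_sum]
      refine h1.trans ?_
      congr 1
      refine Finset.sum_congr rfl fun i _ => ?_
      rw [hm i, mul_smul, natCast_zsmul]
    rw [eq_bot_iff]
    intro z hz
    refine sepH z fun N => ?_
    induction N with
    | zero => exact ⟨z, hz, by rw [pow_zero, one_smul]⟩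
    | succ N ih =>
      obtain ⟨z1, hz1, e1⟩ := ih
      obtain ⟨z2, hz2, e2⟩ := key z1 hz1
      exact ⟨z2, hz2, by rw [e1, e2, smul_smul, pow_succ]⟩
  · let R : ℕ → Mh := fun N =>
      ∑ i, D i (lam (a ξ (w i N))) - ∑ j, (dN j N).1 (lam (a ξ (s j)))
    have hR : ∀ N, R N = p • R (N + 1) := by
      intro N
      have h1 : ∀ i, D i (lam (a ξ (w i N))) = ∑ j, nN j N i • D i (lam (a ξ (s j))) +
          p • D i (lam (a ξ (w i (N + 1)))) := by
        intro i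
        rw [hw i N]
        simp only [map_add, map_sum, map_nsmul, map_zsmul]
      simp only [R]
      rw [Finset.sum_congr rfl fun i _ => h1 i, Finset.sum_congr rfl fun j _ => hdN' j N _,
        Finset.sum_add_distrib, Finset.sum_add_distrib, Finset.sum_comm, smul_sub,
        Finset.smul_sum, Finset.smul_sum]
      abel
    have hR1 : ∀ N, R N ∈ Mh1 := fun N => Mh1.sub_mem
      (Mh1.sum_mem fun i _ => hE _ (hD i) _ (hlam _ (ha _ _ (hw1 i N))))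
      (Mh1.sum_mem fun j _ => hE _ (dN j N).2 _ (hlam _ (ha _ _ (hs j))))
    have h0 : R 0 = 0 := sepH _ fun N => ⟨R N, hR1 N, lim_lemma_iter p R hR N⟩
    have h1 : ∑ j, (dN j 0).1 (lam (a ξ (s j))) = 0 := hrel ξ
    simp only [R] at h0
    rwa [h1, sub_zero] at h0

end Crest.R227
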