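import Crest.Agent.R227.CharP
import Crest.Agent.R227.AR

/-! Row 227. Auxiliary lemmas for `step_data`. -/

set_option autoImplicit false

namespace Crest.R227

open Crest.LubinTate MvPowerSeries

section generic

variable {A W B : Type*} [CommRing A] [CommRing W] [CommRing B]

theorem step_data_dvd {f g : PowerSeries B} {a b : ℕ} (hf : PowerSeries.X ^ a ∣ f)
    (hg : PowerSeries.X ^ b ∣ g) (hg0 : PowerSeries.constantCoeff g = 0) :
    PowerSeries.X ^ (b * a) ∣ cmp f g := by
  have hs := PowerSeries.HasSubst.of_constantCoeff_zero' hg0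
  obtain ⟨f', rfl⟩ := hf
  rw [cmp, PowerSeries.subst_mul hs, PowerSeries.subst_pow hs, PowerSeries.subst_X hs, pow_mul]
  exact Dvd.dvd.mul_right (pow_dvd_pow_of_dvd hg a) _

theorem step_data_mulSeries (F : FormalGroup B) [F.IsComm] {p Q : ℕ}
    (h : PowerSeries.X ^ Q ∣ mulSeries F p) (m : ℕ) :
    PowerSeries.X ^ Q ^ m ∣ mulSeries F (p ^ m) := by
  induction m with
  | zero =>
    rw [pow_zero, pow_zero, pow_one, PowerSeries.X_dvd_iff]
    exact mulSeries_constantCoeff F 1
  | succ m ih =>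
    rw [pow_succ p, mulSeries_mul, pow_succ' Q]
    exact step_data_dvd ih h (mulSeries_constantCoeff F p)

theorem step_data_cc (ρ : A →+* B) {f : PowerSeries A} (hf : PowerSeries.constantCoeff f = 0) :
    PowerSeries.constantCoeff (PowerSeries.map ρ f) = 0 := by
  rw [← PowerSeries.coeff_zero_eq_constantCoeff_apply, PowerSeries.coeff_map,
    PowerSeries.coeff_zero_eq_constantCoeff_apply, hf, map_zero]

theorem step_data_coeff (H : FormalGroup A) [H.IsComm] (j : W →+* A) (x : A →+* B) (I : Ideal B)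
    {p Q m : ℕ} (h : PowerSeries.X ^ Q ∣ mulSeries (H.map x) p) {a : PowerSeries W}
    (ha : PowerSeries.constantCoeff a = 0) {θ : PowerSeries A}
    (hθ0 : PowerSeries.constantCoeff θ = 0)
    (hθ : ∀ k, x (PowerSeries.coeff k θ - PowerSeries.coeff k
      (fadd H PowerSeries.X (cmp (mulSeries H (p ^ m)) (PowerSeries.map j a)))) ∈ I)
    (ψ : PowerSeries B) {k : ℕ} (hk : k < Q ^ m) :
    PowerSeries.coeff k (cmp ψ (PowerSeries.map x θ)) - PowerSeries.coeff k ψ ∈ I := by
  have ha' := step_data_cc j ha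
  have ha'' := step_data_cc x ha'
  have hg0 := constantCoeff_cmp (mulSeries_constantCoeff (H.map x) (p ^ m)) ha''
  have hg : PowerSeries.X ^ Q ^ m ∣
      cmp (mulSeries (H.map x) (p ^ m)) (PowerSeries.map x (PowerSeries.map j a)) := by
    have := step_data_dvd (b := 1) (step_data_mulSeries (H.map x) h m)
      (by rw [pow_one, PowerSeries.X_dvd_iff]; exact ha'') ha''
    rwa [one_mul] at this
  have hv : PowerSeries.X ^ Q ^ m ∣ PowerSeries.map x
      (fadd H PowerSeries.X (cmp (mulSeries H (p ^ m)) (PowerSeries.map j a))) -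
        PowerSeries.X := by
    rw [map_fadd H x (by simp) (constantCoeff_cmp (mulSeries_constantCoeff H _) ha'),
      map_cmp x ha', map_mulSeries, PowerSeries.map_X]
    obtain ⟨w, hw⟩ := fadd_shape (H.map x) (f := PowerSeries.X) (by simp) hg0
    rw [hw, add_assoc, add_sub_cancel_left]
    exact dvd_add hg (Dvd.dvd.mul_right (Dvd.dvd.mul_left hg _) _)
  have h1 : ∀ i < Q ^ m, PowerSeries.coeff i (PowerSeries.map x θ - PowerSeries.X) ∈ I := by
    intro i hi
    have h2 := PowerSeries.X_pow_dvd_iff.1 hv i hi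
    have h3 := hθ i
    rw [map_sub, ← PowerSeries.coeff_map, ← PowerSeries.coeff_map] at h3
    rw [map_sub, sub_eq_zero] at h2
    rwa [map_sub, ← h2]
  obtain ⟨w, hw⟩ := cmp_sub_cmp_dvd ψ (step_data_cc x hθ0) (g' := PowerSeries.X) (by simp)
  rw [cmp_X] at hw
  rw [← map_sub, hw, PowerSeries.coeff_mul]
  refine Ideal.sum_mem _ fun c hc => Ideal.mul_mem_right _ _ (h1 _ ?_)
  have : c.1 + c.2 = k := by simpa using hc
  omega

theorem step_data_as {C : Type*} [CommRing C] (p : ℕ) [Fact p.Prime] [CharP B p] (h : ℕ)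
    (H : FormalGroup A) (T : A →+* C) (β β' : C →+* B) {VA : PowerSeries C}
    (hVA : mulSeries (H.map T) p =
      PowerSeries.expand (p ^ h) (pow_ne_zero h (Fact.out : p.Prime).ne_zero) VA)
    {x x' : A →+* B} (hx : β.comp T = x) (hx' : β'.comp T = x') {ψ θ : PowerSeries B}
    (hψ : AS (p ^ h) (PowerSeries.map β VA) ψ) (hθ : IsFGHom (H.map x') (H.map x) θ) :
    AS (p ^ h) (PowerSeries.map β' VA) (cmp ψ θ) := by
  have h0 : PowerSeries.constantCoeff VA = 0 := by
    rw [← PowerSeries.constantCoeff_expand (p ^ h) (pow_ne_zero h (Fact.out : p.Prime).ne_zero),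
      ← hVA]
    exact mulSeries_constantCoeff _ _
  refine as_cmp p h (step_data_cc β h0) (step_data_cc β' h0) hθ.1 hψ ?_
  rw [← PowerSeries.map_expand, ← PowerSeries.map_expand, ← hVA, map_mulSeries, map_mulSeries,
    fg_map_map, fg_map_map, hx, hx']
  exact isFGHom_cmp_mulSeries hθ p

end generic

variable {p : ℕ} [Fact p.Prime] {n : ℕ}
variable {K : Type*} [NormedField K] [IsUltrametricDist K]
variable {u : Unif K} {x : EE p n →+* Ob K} {F0 : FormalGroup (WW p n)}
  {H : FormalGroup (EE p n)} {h : ℕ}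

theorem step_data_Jh_le (hN : IsNorm p n F0 H) (hh : h < n) (m : ℕ) : Jh p n H h m ≤ mE p n :=
  sup_le (heightIdeal_le_mE p n H (by rw [hN.res, hN.model.mul]) hh.le)
    (Ideal.pow_le_self (pow_ne_zero _ (pow_ne_zero _ (Fact.out : p.Prime).ne_zero)))

theorem step_data_Jh (hx : IsPoint u x) (hk : ∀ f ∈ heightIdeal p n H h, x f = 0) (m : ℕ)
    {f : EE p n} (hf : f ∈ Jh p n H h m) : x f ∈ u.I ^ ((p ^ h) ^ m + 1) := by
  have hN : 1 ≤ (p ^ h) ^ m :=
    Nat.one_le_iff_ne_zero.2 (pow_ne_zero _ (pow_ne_zero _ (Fact.out : p.Prime).ne_zero))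
  refine (show Jh p n H h m ≤ (u.I ^ ((p ^ h) ^ m + 1)).comap x from sup_le ?_ ?_) hf
  · intro g hg
    rw [Ideal.mem_comap, hk g hg]
    exact Ideal.zero_mem _
  · have h1 : mE p n ≤ (u.I ^ 2).comap x := fun g hg => hx g hg
    refine (Ideal.pow_right_mono h1 _).trans ((Ideal.le_comap_pow x _).trans (Ideal.comap_mono ?_))
    rw [← pow_mul]
    exact Ideal.pow_le_pow_right (by omega)

theorem step_data_bad [NeZero h] (hN : IsNorm p n F0 H) {i : Fin (n - 1)}
    (hi : i ∉ Set.range (eh n h)) : (X i : EE p n) ∈ heightIdeal p n H h := by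
  rw [← hN.coord i]
  refine vv_mem p n H ?_
  by_contra hlt
  have := i.2
  have := NeZero.ne h
  exact hi ⟨⟨i + 1 - h, by omega⟩, Fin.ext (by change h - 1 + (i + 1 - h) = i; omega)⟩

theorem step_data_iota (x : EE p n →+* Ob K) (φ : EE p n →ₐ[WW p n] EE p n) :
    (x.comp φ.toRingHom).comp (algebraMap (WW p n) (EE p n)) = iota x := by
  refine RingHom.ext fun w => ?_
  rw [RingHom.comp_apply, RingHom.comp_apply, AlgHom.toRingHom_eq_coe, RingHom.coe_coe,
    AlgHom.commutes, iota, RingHom.comp_apply]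

end Crest.R227
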