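import Crest.Agent.R227.Trop3

/-! Row 227. The leading-term argument. -/

set_option autoImplicit false

namespace Crest.R227

open MvPowerSeries Crest.LubinTate

section aux

variable {K : Type*} [NormedField K] [IsUltrametricDist K]

/-- Norm-bounded ideals of the unit ball. -/
def trop_nI (t b : ℝ) (ht : 0 ≤ t) (hb : 0 < b) : Ideal (Ob K) where
  carrier := {a | ‖(a : K)‖ * t ≤ b}
  zero_mem' := by simp [hb.le]
  add_mem' := by
    intro a c ha hc
    simp only [Set.mem_setOf_eq] at *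
    have h := IsUltrametricDist.norm_add_le_max (a : K) (c : K)
    rcases le_total ‖(a : K)‖ ‖(c : K)‖ with h1 | h1
    · rw [max_eq_right h1] at h
      exact (mul_le_mul_of_nonneg_right (by simpa using h) ht).trans hc
    · rw [max_eq_left h1] at h
      exact (mul_le_mul_of_nonneg_right (by simpa using h) ht).trans ha
  smul_mem' := by
    intro c a ha
    simp only [Set.mem_setOf_eq, smul_eq_mul, Subring.coe_mul, norm_mul] at *
    have : ‖(c : K)‖ * ‖(a : K)‖ ≤ ‖(a : K)‖ := mul_le_of_le_one_left (norm_nonneg _) c.2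
    exact (mul_le_mul_of_nonneg_right this ht).trans ha

def trop_nJ (t b : ℝ) (ht : 0 ≤ t) (hb : 0 < b) : Ideal (Ob K) where
  carrier := {a | ‖(a : K)‖ * t < b}
  zero_mem' := by simp [hb]
  add_mem' := by
    intro a c ha hc
    simp only [Set.mem_setOf_eq] at *
    have h := IsUltrametricDist.norm_add_le_max (a : K) (c : K)
    rcases le_total ‖(a : K)‖ ‖(c : K)‖ with h1 | h1
    · rw [max_eq_right h1] at h
      exact (mul_le_mul_of_nonneg_right (by simpa using h) ht).trans_lt hc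
    · rw [max_eq_left h1] at h
      exact (mul_le_mul_of_nonneg_right (by simpa using h) ht).trans_lt ha
  smul_mem' := by
    intro c a ha
    simp only [Set.mem_setOf_eq, smul_eq_mul, Subring.coe_mul, norm_mul] at *
    have : ‖(c : K)‖ * ‖(a : K)‖ ≤ ‖(a : K)‖ := mul_le_of_le_one_left (norm_nonneg _) c.2
    exact (mul_le_mul_of_nonneg_right this ht).trans_lt ha

theorem trop_mem_nI {t b : ℝ} {ht : 0 ≤ t} {hb : 0 < b} {a : Ob K} :
    a ∈ trop_nI t b ht hb ↔ ‖(a : K)‖ * t ≤ b := Iff.rfl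

theorem trop_mem_nJ {t b : ℝ} {ht : 0 ≤ t} {hb : 0 < b} {a : Ob K} :
    a ∈ trop_nJ t b ht hb ↔ ‖(a : K)‖ * t < b := Iff.rfl

/-- The graded families of ideals attached to `R`, `β`, `t`. -/
theorem trop_ideals (q : ℕ) (R : ℕ → ℕ) (hR1 : ∀ k, 2 ≤ R k ∧ R k ≤ q)
    (hR3 : ∀ k k', R (k + k') ≤ R k + R k') (β : ℝ) (hβ0 : 0 < β) (hβ1 : β < 1) (t : ℝ)
    (ht : 0 ≤ t) :
    ∃ N Np : ℕ → Ideal (Ob K), N 0 = ⊥ ∧ (∀ k, Np k ≤ N k) ∧ (∀ i j, N i * N j ≤ Np (i + j)) ∧
      (∀ k, k ≠ 0 → ∀ a : Ob K, ‖(a : K)‖ * t ^ k ≤ β ^ R k →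
        (R k < q → ‖(a : K)‖ * t ^ k < β ^ R k) → a ∈ N k) ∧
      ∀ k, ∀ a ∈ Np k, ‖(a : K)‖ * t ^ k < β ^ R k := by
  classical
  let A : ℕ → Ideal (Ob K) := fun k => trop_nI (t ^ k) (β ^ R k) (pow_nonneg ht _) (pow_pos hβ0 _)
  let B : ℕ → Ideal (Ob K) := fun k => trop_nJ (t ^ k) (β ^ R k) (pow_nonneg ht _) (pow_pos hβ0 _)
  have hBA : ∀ k, B k ≤ A k := fun k a ha => le_of_lt (trop_mem_nJ.1 ha)
  refine ⟨fun k => if k = 0 then ⊥ else if R k < q then B k else A k,
    fun k => if k = 0 then ⊥ else B k, by simp, ?_, ?_, ?_, ?_⟩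
  · intro k
    by_cases hk : k = 0
    · simp [hk]
    · simp only [hk, if_false]
      split_ifs
      · exact le_rfl
      · exact hBA k
  · intro i j
    by_cases hi : i = 0
    · simp [hi]
    by_cases hj : j = 0
    · simp [hj]
    have hij : i + j ≠ 0 := by omega
    simp only [hi, hj, hij, if_false]
    rw [Ideal.mul_le]
    intro a ha c hc
    have ha1 : a ∈ A i := by
      split_ifs at ha
      · exact hBA i ha
      · exact ha
    have hc1 : c ∈ A j := by
      split_ifs at hc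
      · exact hBA j hc
      · exact hc
    rw [trop_mem_nI] at ha1 hc1
    rw [trop_mem_nJ]
    have e1 : ‖((a * c : Ob K) : K)‖ * t ^ (i + j) =
        (‖(a : K)‖ * t ^ i) * (‖(c : K)‖ * t ^ j) := by
      simp only [Subring.coe_mul, norm_mul, pow_add]; ring
    rw [e1]
    have hna : 0 ≤ ‖(a : K)‖ * t ^ i := by positivity
    have hnc : 0 ≤ ‖(c : K)‖ * t ^ j := by positivity
    rcases (hR3 i j).eq_or_lt with he | hlt
    · have h1 : R i < q := by have := hR1 (i + j); have := hR1 j; omega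
      rw [if_pos h1, trop_mem_nJ] at ha
      rw [he, pow_add]
      exact mul_lt_mul_of_lt_of_le_of_nonneg_of_pos ha hc1 hna (pow_pos hβ0 _)
    · calc _ ≤ β ^ R i * β ^ R j := mul_le_mul ha1 hc1 hnc (pow_pos hβ0 _).le
        _ = β ^ (R i + R j) := (pow_add _ _ _).symm
        _ < β ^ R (i + j) := pow_lt_pow_right_of_lt_one₀ hβ0 hβ1 hlt
  · intro k hk a h1 h2
    simp only [hk, if_false]
    split_ifs with h3
    · exact h2 h3
    · exact h1
  · intro k a ha
    by_cases hk : k = 0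
    · simp only [hk, if_true, Ideal.mem_bot] at ha
      simp [ha, pow_pos hβ0]
    · simp only [hk, if_false] at ha
      exact ha

variable (p : ℕ) [Fact p.Prime] [CharP K p] [IsAlgClosed K]

/-- Integer powers of Frobenius. -/
noncomputable def trop_fz (l : ℤ) (a : Ob K) : Ob K :=
  ((frobeniusEquiv (Ob K) p : RingAut (Ob K)) ^ l) a

theorem trop_fz_add (l l' : ℤ) (a : Ob K) :
    trop_fz p (l + l') a = trop_fz p l (trop_fz p l' a) := by
  unfold trop_fz
  rw [zpow_add]
  rfl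

theorem trop_fz_nat (k : ℕ) (a : Ob K) : trop_fz p k a = a ^ p ^ k := by
  induction k with
  | zero => simp [trop_fz]
  | succ k ih =>
    have : ((k + 1 : ℕ) : ℤ) = 1 + k := by push_cast; ring
    rw [this, trop_fz_add, ih, pow_succ, pow_mul]
    simp [trop_fz, frobenius_def]

theorem trop_fz_pow (l : ℤ) (k : ℕ) (a : Ob K) : trop_fz p l a ^ p ^ k = trop_fz p (l + k) a := by
  rw [add_comm, trop_fz_add, trop_fz_nat]

theorem trop_fz_norm (l : ℤ) (a : Ob K) :
    ‖((trop_fz p l a : Ob K) : K)‖ = ‖(a : K)‖ ^ ((p : ℝ) ^ l) := by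
  have hp : (0 : ℝ) < p := by exact_mod_cast (Fact.out : p.Prime).pos
  obtain ⟨k, rfl | rfl⟩ := l.eq_nat_or_neg
  · rw [trop_fz_nat, zpow_natCast]
    have : ((p : ℝ) ^ k) = ((p ^ k : ℕ) : ℝ) := by push_cast; ring
    rw [this, Real.rpow_natCast]
    simp
  · have h1 : trop_fz p (-(k : ℤ)) a ^ p ^ k = a := by
      rw [trop_fz_pow, neg_add_cancel]
      simpa using trop_fz_nat p 0 a
    have h2 : ‖(a : K)‖ = ‖((trop_fz p (-(k : ℤ)) a : Ob K) : K)‖ ^ (p ^ k) := by
      conv_lhs => rw [← h1]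
      simp
    rw [h2, ← Real.rpow_natCast, ← Real.rpow_mul (norm_nonneg _)]
    have : ((p ^ k : ℕ) : ℝ) * (p : ℝ) ^ (-(k : ℤ)) = 1 := by
      push_cast
      rw [zpow_neg, zpow_natCast, mul_inv_cancel₀ (pow_pos hp k).ne']
    rw [this, Real.rpow_one]

omit [IsAlgClosed K] in
theorem trop_coeff_pow (g : PowerSeries (Ob K)) (j k : ℕ) :
    PowerSeries.coeff k (g ^ p ^ j) =
      if p ^ j ∣ k then PowerSeries.coeff (k / p ^ j) g ^ p ^ j else 0 := by
  have h := MvPowerSeries.map_iterateFrobenius_expand p (Fact.out : p.Prime).ne_zero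
    (g : MvPowerSeries Unit (Ob K)) j
  have h' : g ^ p ^ j = PowerSeries.map (iterateFrobenius (Ob K) p j)
      (PowerSeries.expand (p ^ j) (pow_ne_zero j (Fact.out : p.Prime).ne_zero) g) := h.symm
  rw [h', PowerSeries.coeff_map, PowerSeries.coeff_expand]
  split_ifs
  · rw [iterateFrobenius_def]
  · simp

end aux

theorem trop_nsmul_val {B : Type*} [CommRing B] {I : Ideal B} [IsAdicComplete I B]
    {F : FormalGroup B} [F.IsComm] {p Q : ℕ} (hF : mulSeries F p = PowerSeries.X ^ Q) (m : ℕ)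
    (z : Pt I F) : (p ^ m • z).val = z.val ^ Q ^ m := by
  induction m with
  | zero => simp
  | succ m ih =>
    rw [pow_succ', mul_smul, Pt.val_nsmul, hF, map_pow, ev1_X _ _ (p ^ m • z).mem, ih,
      ← pow_mul, pow_succ]

theorem trop_ev1_rescale {B : Type*} [CommRing B] (I : Ideal B) [IsAdicComplete I B] {z : B}
    (hz : z ∈ I.radical) (w : B) (f : PowerSeries B) :
    ev1 I (RingHom.id B) z (PowerSeries.rescale w f) = ev1 I (RingHom.id B) (w * z) f := by
  have h : (ev1 I (RingHom.id B) z).comp (PowerSeries.rescale w) =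
      ev I (RingHom.id B) (fun _ : Unit => w * z) := by
    apply eq_ev I _ (fun _ => I.radical.mul_mem_left w hz)
    · intro r
      have : PowerSeries.rescale w (PowerSeries.C r) = PowerSeries.C r := by
        ext k
        simp only [PowerSeries.coeff_rescale, PowerSeries.coeff_C]
        split_ifs with hk
        · simp [hk]
        · simp
      change ev1 I (RingHom.id B) z (PowerSeries.rescale w (PowerSeries.C r)) = _
      rw [this, ev1_C]
    · intro s
      change ev1 I (RingHom.id B) z (PowerSeries.rescale w PowerSeries.X) = _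
      rw [PowerSeries.rescale_X, map_mul, ev1_C, ev1_X _ _ hz]
      rfl
  exact congrArg (fun φ : PowerSeries B →+* B => φ f) h

variable {K : Type*} [NormedField K] [IsUltrametricDist K] [CompleteSpace K] [IsAlgClosed K]
  {p : ℕ} [Fact p.Prime] [CharP K p] {h r : ℕ} {u : Unif K} {G0 G1 : FormalGroup (Ob K)}
  [G0.IsComm] [G1.IsComm] {ψ : PowerSeries (Ob K)}

/-- The relation extends to integer twists. -/
theorem trop_rel_int (D : TropData p h r u G0 G1 ψ) (lam : Pt u.I G0 →+ Pt u.I G1)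
    {ι : Type} [Fintype ι] (Dm : ι → Pt u.I G1 →+ Pt u.I G1)
    (a : Ob K → ℕ → Pt u.I G0 → Pt u.I G0)
    (ha : ∀ c l y, c ^ p ^ (h + r) = c → (a c l y).val = c * y.val ^ p ^ l)
    (y : ι → Pt u.I G0)
    (hrel : ∀ c l, c ^ p ^ (h + r) = c → ∑ i, Dm i (lam (a c l (y i))) = 0)
    (c : Ob K) (hc : c ^ p ^ (h + r) = c) (l : ℤ) (P : ι → Pt u.I G0)
    (hP : ∀ i, (P i).val = c * trop_fz p l (y i).val) : ∑ i, Dm i (lam (P i)) = 0 := by
  obtain ⟨T, hT⟩ : ∃ T : ℕ, 0 ≤ l + ((h + r) * T : ℕ) := by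
    refine ⟨l.natAbs, ?_⟩
    have h1 := D.hh
    have : (l.natAbs : ℤ) ≤ ((h + r) * l.natAbs : ℕ) := by
      exact_mod_cast Nat.le_mul_of_pos_left _ (by omega)
    omega
  obtain ⟨l', hl'⟩ := Int.eq_ofNat_of_zero_le hT
  have hcT : c ^ (p ^ (h + r)) ^ T = c := by
    induction T with
    | zero => simp
    | succ T _ =>
      clear * - hc
      induction T with
      | zero => simpa using hc
      | succ T ih => rw [pow_succ, pow_mul, ih, hc]
  have h1 : ∀ i, p ^ T • P i = a c l' (y i) := by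
    intro i
    ext1
    rw [trop_nsmul_val D.mul0, ha _ _ _ hc, hP, mul_pow, hcT, ← pow_mul, trop_fz_pow, hl',
      trop_fz_nat]
  have h2 : p ^ T • ∑ i, Dm i (lam (P i)) = 0 := by
    rw [← hrel c l' hc, Finset.smul_sum]
    refine Finset.sum_congr rfl fun i _ => ?_
    rw [← h1, map_nsmul, map_nsmul]
  have h3 := congrArg Pt.val h2
  rw [trop_nsmul_val D.mul1, Pt.val_zero] at h3
  ext1
  exact pow_eq_zero_iff (pow_pos (pow_pos (Fact.out : p.Prime).pos _) _).ne' |>.1 h3

theorem trop (D : TropData p h r u G0 G1 ψ) (lam : Pt u.I G0 →+ Pt u.I G1)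
    (hlam : ∀ y, (lam y).val - ev1 u.I (RingHom.id _) y.val ψ ∈ u.I)
    {ι : Type} [Fintype ι] (j : ι → ℕ) (hj : ∀ i, j i < h) (d : ι → PowerSeries (Ob K))
    (hd : ∀ i, PowerSeries.constantCoeff (d i) = 0)
    (hγ : ∀ i, PowerSeries.coeff 1 (d i) ^ p ^ h = PowerSeries.coeff 1 (d i))
    (hind : ∀ (j0 : ℕ) (c : {i // j i = j0} → ℤ),
      ∑ i, (c i : Ob K) * PowerSeries.coeff 1 (d i.1) = 0 → ∀ i, (p : ℤ) ∣ c i)
    (Dm : ι → Pt u.I G1 →+ Pt u.I G1)
    (hD : ∀ i z, (Dm i z).val = ev1 u.I (RingHom.id _) (z.val ^ p ^ j i) (d i))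
    (a : Ob K → ℕ → Pt u.I G0 → Pt u.I G0)
    (ha : ∀ c l y, c ^ p ^ (h + r) = c → (a c l y).val = c * y.val ^ p ^ l)
    (y : ι → Pt u.I G0)
    (hrel : ∀ c l, c ^ p ^ (h + r) = c → ∑ i, Dm i (lam (a c l (y i))) = 0) : y = 0 := by
  classical
  by_contra hy
  have hp2 : 2 ≤ p := (Fact.out : p.Prime).two_le
  have hpR : (0 : ℝ) < p := by exact_mod_cast (Fact.out : p.Prime).pos
  have hh := D.hh
  have hr := D.hr
  have hQ : 2 ≤ p ^ h := (Nat.one_lt_pow (by omega) (by omega))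
  -- the function `α`
  obtain ⟨a1, a2, a3⟩ := D.alpha_hyp
  obtain ⟨α, hα, hper, hα0, hαN⟩ := alpha_lemma
    (fun e => ((PowerSeries.coeff (p ^ e) ψ : Ob K) : K)) r (p ^ h) hr hQ _ u.pos u.lt
    (fun e => Ob.norm_le _) a1 a2 a3
  -- the function `ω`
  have hyn : ∀ i, ‖((y i).val : K)‖ < 1 := fun i => u.mem_radical.1 (y i).mem
  let ω : ℕ → ℝ := fun j0 =>
    (((Finset.univ.filter fun i => j i = j0).sup fun i => ‖((y i).val : K)‖₊ : NNReal) : ℝ)
  have hωle : ∀ i, ‖((y i).val : K)‖ ≤ ω (j i) := by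
    intro i
    have : ‖((y i).val : K)‖₊ ≤
        (Finset.univ.filter fun i' => j i' = j i).sup fun i => ‖((y i).val : K)‖₊ :=
      Finset.le_sup (f := fun i => ‖((y i).val : K)‖₊) (by simp)
    exact_mod_cast this
  have hω : ∀ j0, 0 ≤ ω j0 ∧ ω j0 < 1 := by
    intro j0
    refine ⟨NNReal.coe_nonneg _, ?_⟩
    have : ((Finset.univ.filter fun i => j i = j0).sup fun i => ‖((y i).val : K)‖₊) < 1 := by
      rw [Finset.sup_lt_iff (by simp)]
      intro i _
      exact_mod_cast hyn i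
    exact_mod_cast this
  have hωat : ∀ j0, 0 < ω j0 → ∃ i, j i = j0 ∧ ‖((y i).val : K)‖ = ω j0 := by
    intro j0 h0
    have hne : (Finset.univ.filter fun i => j i = j0).Nonempty := by
      rw [Finset.nonempty_iff_ne_empty]
      intro he
      simp only [ω, he] at h0
      simp at h0
    obtain ⟨i, hi, he⟩ := Finset.exists_mem_eq_sup _ hne fun i => ‖((y i).val : K)‖₊
    refine ⟨i, by simpa using hi, ?_⟩
    simp only [ω, he]
    simp
  have hω0 : ∃ j0 < h, 0 < ω j0 := by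
    obtain ⟨i, hi⟩ := Function.ne_iff.1 hy
    refine ⟨j i, hj i, lt_of_lt_of_le ?_ (hωle i)⟩
    rw [norm_pos_iff]
    intro h0
    apply hi
    ext1
    exact Subtype.ext h0
  obtain ⟨js, hjs, U0, hsel⟩ := select_lemma p h r hp2 hh hr α hα hper hα0 ω hω hω0
  have hωjs : 0 < ω js := by
    obtain ⟨es, l, β, hβ0, -, -, hcrit, -⟩ := hsel 0
    rcases (hω js).1.eq_or_lt with h0 | h0
    · exfalso
      rw [tterm, ← h0, Real.zero_rpow (zpow_pos hpR _).ne', mul_zero] at hcrit
      exact (pow_pos hβ0 _).ne hcrit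
    · exact h0
  -- Moore
  obtain ⟨uu, huu, hmoore⟩ := moore_lemma p h hh (ι := {i // j i = js})
    (fun i => ((PowerSeries.coeff 1 (d i.1) : Ob K) : K))
    (fun i => by exact_mod_cast congrArg (fun z : Ob K => (z : K)) (hγ i.1))
    (fun c hc => hind js c (by apply Subtype.ext; simpa using hc))
    (fun i => ((trop_fz p U0 (y i.1).val : Ob K) : K)) (ω js ^ ((p : ℝ) ^ U0))
    (Real.rpow_pos_of_pos hωjs _)
    (fun i => by
      rw [trop_fz_norm]
      refine Real.rpow_le_rpow (norm_nonneg _) ?_ (zpow_pos hpR _).le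
      exact (hωle i.1).trans_eq (congrArg ω i.2))
    (by
      obtain ⟨i, hi, he⟩ := hωat js hωjs
      exact ⟨⟨i, hi⟩, by rw [trop_fz_norm, he]⟩)
  obtain ⟨es, l, β, hβ0, hβ1, hl, hcrit, hsame, hother⟩ := hsel uu
  -- the level
  obtain ⟨N, hN1, hN2⟩ : ∃ N : ℕ, 0 ≤ es + r * N ∧
      ‖(u.ϖ : K)‖ ^ (p ^ h) ^ N < β ^ p ^ (h + r) := by
    obtain ⟨N0, hN0⟩ := exists_pow_lt_of_lt_one (pow_pos hβ0 (p ^ (h + r))) u.lt
    refine ⟨N0 + es.natAbs, ?_, ?_⟩
    · have : ((N0 + es.natAbs : ℕ) : ℤ) ≤ r * (N0 + es.natAbs : ℕ) := by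
        exact_mod_cast Nat.le_mul_of_pos_left _ (by omega)
      omega
    · refine lt_of_le_of_lt ?_ hN0
      apply pow_le_pow_of_le_one u.pos.le u.lt.le
      exact (Nat.le_add_right _ _).trans (Nat.lt_pow_self (by omega)).le
  obtain ⟨E1, hE1⟩ := Int.eq_ofNat_of_zero_le hN1
  obtain ⟨R, hR1, hR2, hR3, hR4, hR5⟩ := rep_lemma p (h + r) hp2 (by omega) (E1 + js)
  set Ψ := PowerSeries.map (iterateFrobenius (Ob K) p (h * N)) ψ with hΨ
  have hΨc : ∀ k, PowerSeries.coeff k Ψ = PowerSeries.coeff k ψ ^ (p ^ h) ^ N := by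
    intro k
    rw [hΨ, PowerSeries.coeff_map, iterateFrobenius_def, pow_mul]
  have hΨ0 : PowerSeries.constantCoeff Ψ = 0 := by
    rw [← PowerSeries.coeff_zero_eq_constantCoeff_apply, hΨc,
      PowerSeries.coeff_zero_eq_constantCoeff_apply, D.const, zero_pow (by positivity)]
  let w : ι → Ob K := fun i => trop_fz p (l - r * N) (y i).val
  have hwn : ∀ i, ‖(w i : K)‖ < 1 := by
    intro i
    rw [trop_fz_norm]
    exact Real.rpow_lt_one (norm_nonneg _) (hyn i) (zpow_pos hpR _)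
  have hβq : ∀ k, β ^ p ^ (h + r) ≤ β ^ R k := fun k =>
    pow_le_pow_of_le_one hβ0.le hβ1.le (hR1 k).2
  -- size of the `p`-power terms
  have hwpow : ∀ i (e' : ℕ), ‖(w i : K)‖ ^ (p ^ e' * p ^ j i) =
      ‖((y i).val : K)‖ ^ ((p : ℝ) ^ (l + ((e' : ℤ) - r * N) + j i)) := by
    intro i e'
    rw [← trop_fz_norm, ← pow_add]
    have : l + ((e' : ℤ) - r * N) + j i = (l - r * N) + ((e' + j i : ℕ) : ℤ) := by
      push_cast; ring
    rw [this, ← trop_fz_pow]
    simp [w]
  have key : ∀ i (e' : ℕ),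
      ‖((PowerSeries.coeff (p ^ e') Ψ : Ob K) : K)‖ ^ p ^ j i * ‖(w i : K)‖ ^ (p ^ e' * p ^ j i) ≤
        tterm p α ω l ((e' : ℤ) - r * N) (j i) ∨
      ‖((PowerSeries.coeff (p ^ e') Ψ : Ob K) : K)‖ ^ p ^ j i * ‖(w i : K)‖ ^ (p ^ e' * p ^ j i) <
        β ^ p ^ (h + r) := by
    intro i e'
    have hn : ‖((PowerSeries.coeff (p ^ e') Ψ : Ob K) : K)‖ =
        ‖((PowerSeries.coeff (p ^ e') ψ : Ob K) : K)‖ ^ (p ^ h) ^ N := by
      rw [hΨc]; simp
    rcases lt_or_ge ‖(u.ϖ : K)‖ ‖((PowerSeries.coeff (p ^ e') ψ : Ob K) : K)‖ with h1 | h1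
    · left
      rw [tterm, (hαN N e').1 h1, hn, hwpow]
      refine mul_le_mul_of_nonneg_left ?_ (by positivity)
      exact Real.rpow_le_rpow (norm_nonneg _) (hωle i) (zpow_pos hpR _).le
    · right
      refine lt_of_le_of_lt ?_ hN2
      have h2 : ‖((PowerSeries.coeff (p ^ e') Ψ : Ob K) : K)‖ ≤ ‖(u.ϖ : K)‖ ^ (p ^ h) ^ N := by
        rw [hn]; exact pow_le_pow_left₀ (norm_nonneg _) h1 _
      calc _ ≤ ‖((PowerSeries.coeff (p ^ e') Ψ : Ob K) : K)‖ ^ p ^ j i :=
            mul_le_of_le_one_right (by positivity) (pow_le_one₀ (norm_nonneg _) (hwn i).le)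
        _ ≤ ‖((PowerSeries.coeff (p ^ e') Ψ : Ob K) : K)‖ :=
            pow_le_of_le_one (norm_nonneg _) (Ob.norm_le _) (by positivity)
        _ ≤ _ := h2
  have key2 : ∀ i (e' : ℕ), ¬ (e' = E1 ∧ j i = js) →
      ‖((PowerSeries.coeff (p ^ e') Ψ : Ob K) : K)‖ ^ p ^ j i * ‖(w i : K)‖ ^ (p ^ e' * p ^ j i) <
        β ^ R (p ^ e' * p ^ j i) := by
    intro i e' hne
    rcases key i e' with h1 | h1
    · refine h1.trans_lt ?_
      obtain ⟨i', hi1, hi2, hi3, hi4⟩ := hR5 (e' + j i)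
      rw [← pow_add, hi3]
      rcases hi2.eq_or_lt with hi | hi
      · subst hi
        refine hsame _ _ (hj i) ?_ ?_
        · have : ((e' : ℤ) - r * N) + j i - (es + js) =
              ((e' + j i : ℕ) : ℤ) - ((E1 + js : ℕ) + (h + r : ℕ)) + (h + r : ℕ) := by
            push_cast; omega
          rw [this]
          exact dvd_add hi4 dvd_rfl
        · intro he
          simp only [Prod.mk.injEq] at he
          exact hne ⟨by omega, he.2⟩
      · refine hother _ _ _ (hj i) hi1 hi ?_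
        have : ((e' : ℤ) - r * N) + j i - (es + js + i') =
            ((e' + j i : ℕ) : ℤ) - ((E1 + js : ℕ) + i') := by
          push_cast; omega
        rw [this]
        exact hi4
    · exact h1.trans_le (hβq _)
  have hpow : ∀ i (e' : ℕ),
      ‖((PowerSeries.coeff (p ^ e') Ψ : Ob K) : K)‖ ^ p ^ j i * ‖(w i : K)‖ ^ (p ^ e' * p ^ j i) ≤
          β ^ R (p ^ e' * p ^ j i) ∧
        (R (p ^ e' * p ^ j i) < p ^ (h + r) →
          ‖((PowerSeries.coeff (p ^ e') Ψ : Ob K) : K)‖ ^ p ^ j i *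
            ‖(w i : K)‖ ^ (p ^ e' * p ^ j i) < β ^ R (p ^ e' * p ^ j i)) := by
    intro i e'
    by_cases hc : e' = E1 ∧ j i = js
    · have hR : R (p ^ e' * p ^ j i) = p ^ (h + r) := by rw [hc.1, hc.2, ← pow_add, hR4]
      refine ⟨?_, fun h1 => absurd hR h1.ne⟩
      rw [hR]
      rcases key i e' with h1 | h1
      · refine h1.trans (le_of_eq ?_)
        have : (e' : ℤ) - r * N = es := by rw [hc.1]; omega
        rw [this, hc.2, hcrit]
      · exact h1.le
    · exact ⟨(key2 i e' hc).le, fun _ => key2 i e' hc⟩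
  have he : ∀ z ∈ u.I ^ (p ^ h) ^ N, ‖(z : K)‖ < β ^ p ^ (h + r) := fun z hz =>
    (u.mem_pow.1 hz).trans_lt hN2
  have hbound := fun i => coeff_bound p (p ^ (h + r)) R hR1 hR2 hR3 β hβ0 hβ1 G0 G1 D.hom0 Ψ hΨ0
    _ (D.hom_level N) he _ (norm_nonneg _) (hwn i) (j i) (hpow i)
  -- the scaling element
  obtain ⟨η, hη0, hη1, hηw⟩ : ∃ η : Ob K, η ≠ 0 ∧ ‖(η : K)‖ < 1 ∧ ∀ i, ‖(w i : K)‖ ≤ ‖(η : K)‖ := by
    obtain ⟨z, hz, hmax⟩ := Finset.exists_max_image (insert u.ϖ (Finset.univ.image w))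
      (fun z : Ob K => ‖(z : K)‖) (Finset.insert_nonempty _ _)
    refine ⟨z, ?_, ?_, fun i => hmax _ (by simp)⟩
    · intro h0
      have := hmax u.ϖ (by simp)
      rw [h0] at this
      simp only [ZeroMemClass.coe_zero, norm_zero] at this
      exact absurd u.pos (not_lt.2 this)
    · rcases Finset.mem_insert.1 hz with rfl | hz
      · exact u.lt
      · obtain ⟨i, -, rfl⟩ := Finset.mem_image.1 hz
        exact hwn i
  choose w' hw' using fun i => Ideal.mem_span_singleton'.1 (Ob.mem_span_iff.2 (hηw i))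
  let f : ι → PowerSeries (Ob K) := fun i => PowerSeries.rescale (w' i) Ψ ^ p ^ j i
  have hfc : ∀ i k, PowerSeries.coeff (k * p ^ j i) (f i) * η ^ (k * p ^ j i) =
      (PowerSeries.coeff k Ψ * w i ^ k) ^ p ^ j i := by
    intro i k
    simp only [f]
    rw [trop_coeff_pow, if_pos (dvd_mul_left _ _), Nat.mul_div_cancel _ (by positivity),
      PowerSeries.coeff_rescale, ← hw' i, pow_mul η, ← mul_pow]
    congr 1
    ring
  have hfn : ∀ i k, ‖((PowerSeries.coeff (k * p ^ j i) (f i) : Ob K) : K)‖ *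
      ‖(η : K)‖ ^ (k * p ^ j i) =
      ‖((PowerSeries.coeff k Ψ : Ob K) : K)‖ ^ p ^ j i * ‖(w i : K)‖ ^ (k * p ^ j i) := by
    intro i k
    have := congrArg (fun z : Ob K => ‖(z : K)‖) (hfc i k)
    simpa [mul_pow, pow_mul] using this
  have hf0 : ∀ i k, ¬ p ^ j i ∣ k → PowerSeries.coeff k (f i) = 0 := by
    intro i k hk
    simp only [f]
    rw [trop_coeff_pow, if_neg hk]
  obtain ⟨NN, Np, n0, nle, nmul, nmem, npmem⟩ :=
    trop_ideals (K := K) (p ^ (h + r)) R hR1 hR3 β hβ0 hβ1 ‖(η : K)‖ (norm_nonneg _)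
  have hfN : ∀ i k, PowerSeries.coeff k (f i) ∈ NN k := by
    intro i k
    by_cases hk : p ^ j i ∣ k
    · obtain ⟨k', rfl⟩ := hk
      rw [mul_comm]
      by_cases hk0 : k' = 0
      · subst hk0
        have := hfc i 0
        simp only [zero_mul, pow_zero, mul_one] at this
        rw [zero_mul, this, PowerSeries.coeff_zero_eq_constantCoeff_apply, hΨ0,
          zero_pow (by positivity)]
        exact Ideal.zero_mem _
      · refine nmem _ (by positivity) _ ?_ ?_
        · rw [hfn]; exact (hbound i k').1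
        · intro h1; rw [hfn]; exact (hbound i k').2 (Or.inl h1)
    · rw [hf0 i k hk]; exact Ideal.zero_mem _
  -- strict bound away from the critical term
  have hfs : ∀ i k, ¬ (k = p ^ (E1 + js) ∧ j i = js) →
      ‖((PowerSeries.coeff k (f i) : Ob K) : K)‖ * ‖(η : K)‖ ^ k < β ^ R k := by
    intro i k hne
    by_cases hk : p ^ j i ∣ k
    · obtain ⟨k', rfl⟩ := hk
      rw [mul_comm (p ^ j i), hfn]
      by_cases hk' : ∃ e', k' = p ^ e'
      · obtain ⟨e', rfl⟩ := hk'
        refine key2 i e' fun hc => hne ⟨?_, hc.2⟩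
        rw [hc.1, hc.2, ← pow_add, add_comm]
      · exact (hbound i k').2 (Or.inr hk')
    · rw [hf0 i k hk]; simp [pow_pos hβ0]
  obtain ⟨S, -, hS1, hS2⟩ := sum_lemma u.I G1 NN Np n0 nle nmul Finset.univ f d hfN hd
  have hJ : ∀ k (A : Finset ι), (∀ i ∈ A, ¬ (k = p ^ (E1 + js) ∧ j i = js)) →
      (∑ i ∈ A, PowerSeries.coeff 1 (d i) * PowerSeries.coeff k (f i)) ∈
        trop_nJ (‖(η : K)‖ ^ k) (β ^ R k) (by positivity) (pow_pos hβ0 _) := by
    intro k A hA
    exact Ideal.sum_mem _ fun i hi => Ideal.mul_mem_left _ _ (hfs i k (hA i hi))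
  have hnorm : ∀ (z : Ob K) (k : ℕ), ‖((z * η ^ k : Ob K) : K)‖ = ‖(z : K)‖ * ‖(η : K)‖ ^ k := by
    intro z k; simp
  obtain ⟨c, hc, -, hcb⟩ := fourier_lemma p (h + r) (by omega) u S η hη1 (p ^ (E1 + js))
    (β ^ p ^ (h + r)) (pow_pos hβ0 _)
    (by
      set k := p ^ (E1 + js) with hk
      set main : Ob K := ∑ i ∈ Finset.univ.filter (fun i => j i = js),
        PowerSeries.coeff 1 (d i) * PowerSeries.coeff k (f i) with hmain
      have h1 : PowerSeries.coeff k S - main ∈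
          trop_nJ (‖(η : K)‖ ^ k) (β ^ R k) (by positivity) (pow_pos hβ0 _) := by
        have e1 : PowerSeries.coeff k S - main = (PowerSeries.coeff k S -
            ∑ i, PowerSeries.coeff 1 (d i) * PowerSeries.coeff k (f i)) +
            ∑ i ∈ Finset.univ.filter (fun i => ¬ j i = js),
              PowerSeries.coeff 1 (d i) * PowerSeries.coeff k (f i) := by
          rw [hmain, ← Finset.sum_filter_add_sum_filter_not Finset.univ (fun i => j i = js)]
          ring
        rw [e1]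
        refine Ideal.add_mem _ (npmem k _ (hS1 k)) (hJ k _ fun i hi hc => ?_)
        exact (Finset.mem_filter.1 hi).2 hc.2
      rw [trop_mem_nJ, hR4, ← hnorm] at h1
      have h2 : main * η ^ k = PowerSeries.coeff (p ^ E1) Ψ ^ p ^ js *
          ∑ i : {i // j i = js}, PowerSeries.coeff 1 (d i.1) * trop_fz p U0 (y i.1).val ^ p ^ uu := by
        rw [hmain, Finset.sum_mul, Finset.mul_sum,
          Finset.sum_subtype (Finset.univ.filter fun i => j i = js) (p := fun i => j i = js)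
            (by simp)]
        refine Finset.sum_congr rfl fun i _ => ?_
        have hk' : k = p ^ E1 * p ^ j i.1 := by rw [hk, i.2, pow_add]
        rw [mul_assoc, hk', hfc, i.2, mul_pow, ← pow_mul, ← pow_add, trop_fz_pow, trop_fz_pow]
        have : l - r * N + ((E1 + js : ℕ) : ℤ) = U0 + uu := by push_cast; omega
        rw [this]
        ring
      have h3 : ‖((main * η ^ k : Ob K) : K)‖ = β ^ p ^ (h + r) := by
        have hm : ‖((∑ i : {i // j i = js}, PowerSeries.coeff 1 (d i.1) *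
            trop_fz p U0 (y i.1).val ^ p ^ uu : Ob K) : K)‖ =
            ω js ^ ((p : ℝ) ^ (l + es + js)) := by
          rw [hl, zpow_add₀ hpR.ne', Real.rpow_mul hωjs.le, zpow_natCast]
          have : ((p : ℝ) ^ uu) = ((p ^ uu : ℕ) : ℝ) := by push_cast; ring
          rw [this, Real.rpow_natCast, ← hmoore]
          simp
        have hαes : α es = ‖((PowerSeries.coeff (p ^ E1) Ψ : Ob K) : K)‖ := by
          have hes : es = (E1 : ℤ) - r * N := by omega
          rcases lt_or_ge ‖(u.ϖ : K)‖ ‖((PowerSeries.coeff (p ^ E1) ψ : Ob K) : K)‖ with h4 | h4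
          · rw [hes, (hαN N E1).1 h4, hΨc]; simp
          · exfalso
            have h5 := (hαN N E1).2 h4
            rw [← hes] at h5
            have h6 : tterm p α ω l es js ≤ α es := by
              rw [tterm]
              calc _ ≤ α es ^ p ^ js := mul_le_of_le_one_right (pow_nonneg (hα es).1 _)
                    (Real.rpow_le_one (hω js).1 (hω js).2.le (zpow_pos hpR _).le)
                _ ≤ α es := pow_le_of_le_one (hα es).1 (hα es).2.le (by positivity)
            rw [hcrit] at h6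
            exact absurd (h6.trans h5) (not_le.2 hN2)
        rw [h2, Subring.coe_mul, norm_mul, hm, ← hcrit, tterm, hαes]
        simp
      have e2 : ((PowerSeries.coeff k S * η ^ k : Ob K) : K) =
          (((PowerSeries.coeff k S - main) * η ^ k : Ob K) : K) + ((main * η ^ k : Ob K) : K) := by
        push_cast; ring
      rw [e2, IsUltrametricDist.norm_add_eq_max_of_norm_ne_norm (by rw [h3]; exact h1.ne), h3,
        max_eq_right h1.le])
    (by
      intro k hk hkk
      have h1 : PowerSeries.coeff k S ∈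
          trop_nJ (‖(η : K)‖ ^ k) (β ^ R k) (by positivity) (pow_pos hβ0 _) := by
        have e1 : PowerSeries.coeff k S = (PowerSeries.coeff k S -
            ∑ i, PowerSeries.coeff 1 (d i) * PowerSeries.coeff k (f i)) +
            ∑ i, PowerSeries.coeff 1 (d i) * PowerSeries.coeff k (f i) := by ring
        rw [e1]
        exact Ideal.add_mem _ (npmem k _ (hS1 k)) (hJ k _ fun i _ hc => hk hc.1)
      rwa [trop_mem_nJ, hR2 _ _ hkk, hR4, ← hnorm] at h1)
  -- compare with the relation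
  have hcη : c * η ∈ u.I.radical := Ideal.mul_mem_left _ _ (u.mem_radical.2 hη1)
  have hcw : ∀ i, c * w i ∈ u.I.radical := fun i =>
    Ideal.mul_mem_left _ _ (u.mem_radical.2 (hwn i))
  have hpow_mem : ∀ {z : Ob K} (k : ℕ), z ∈ u.I.radical → z ^ p ^ k ∈ u.I.radical :=
    fun k hz => Ideal.pow_mem_of_mem _ hz _ (by positivity)
  let P : ι → Pt u.I G0 := fun i => ⟨(c * w i) ^ p ^ (r * N), hpow_mem _ (hcw i)⟩
  have hevf : ∀ i, ev1 u.I (RingHom.id _) (c * η) (f i) =
      ev1 u.I (RingHom.id _) (c * w i) Ψ ^ p ^ j i := by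
    intro i
    simp only [f]
    rw [map_pow, trop_ev1_rescale _ hcη, ← hw' i]
    congr 3
    ring
  have hevm : ∀ i, ev1 u.I (RingHom.id _) (c * η) (f i) ∈ u.I.radical := by
    intro i
    rw [hevf]
    exact hpow_mem _ (ev1_mem_radical _ _ (hcw i) (by simp [hΨ0]))
  let P' : ι → Pt u.I G1 := fun i =>
    ⟨ev1 u.I (RingHom.id _) (ev1 u.I (RingHom.id _) (c * η) (f i)) (d i),
      ev1_mem_radical _ _ (hevm i) (by simp [hd i])⟩
  have hsum := hS2 _ hcη P' fun i => rfl
  have hrel' : ∑ i, Dm i (lam (P i)) = 0 := by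
    refine trop_rel_int D lam Dm a ha y hrel (c ^ p ^ (r * N)) ?_ l P fun i => ?_
    · rw [← pow_mul, mul_comm, pow_mul, hc]
    · change (c * w i) ^ p ^ (r * N) = _
      rw [mul_pow, trop_fz_pow]
      congr 2
      push_cast; ring
  have hdiff : ∀ i, P' i - Dm i (lam (P i)) ∈ Pt.fil u.I G1 (u.I ^ (p ^ h) ^ N) := by
    intro i
    rw [Pt.mem_fil, Pt.sub_val_mem_iff, hD]
    refine (Ideal.span_singleton_le_iff_mem _).2 ?_
      (ev1_sub_ev1_mem u.I (RingHom.id _) (hevm i) (hpow_mem _ (lam (P i)).mem) (d i))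
    rw [hevf, ← sub_pow_char_pow]
    refine Ideal.pow_mem_of_mem _ ?_ _ (by positivity)
    rw [← neg_sub]
    exact neg_mem (D.lam_level lam hlam N (P i) (c * w i) rfl)
  have hfin : ∑ i, P' i ∈ Pt.fil u.I G1 (u.I ^ (p ^ h) ^ N) := by
    have := AddSubgroup.sum_mem _ (t := Finset.univ) fun i _ => hdiff i
    rwa [Finset.sum_sub_distrib, hrel', sub_zero] at this
  rw [Pt.mem_fil, hsum] at hfin
  exact absurd (he _ hfin) (not_lt.2 hcb)

end Crest.R227
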