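import Crest.Agent.R227.CharP
import Crest.Agent.R227.AR
import Crest.Agent.R227.BL
import Crest.Agent.R227.Trop4
import Crest.Agent.R227.LIM
import Crest.Agent.R227.Ball
import Crest.Agent.R227.Point
import Crest.Agent.R227.Step

/-! Row 227. The case `h ≥ 1`: conclusion. -/

set_option autoImplicit false

namespace Crest.R227

open Crest.LubinTate MvPowerSeries

variable {p : ℕ} [Fact p.Prime] {n : ℕ}
variable {K : Type} [NormedField K] [IsUltrametricDist K] [CompleteSpace K] [IsAlgClosed K]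
  [CharP K p]
variable {u : Unif K} {x : EE p n →+* Ob K} {F0 : FormalGroup (WW p n)} [F0.IsComm]
  {H : FormalGroup (EE p n)} [H.IsComm] {h : ℕ} [NeZero h]

/-- The action on `M` of a lift of an endomorphism. -/
noncomputable def actM (u : Unif K) (x : EE p n →+* Ob K) (F0 : FormalGroup (WW p n)) [F0.IsComm]
    (a : PowerSeries (WW p n)) : Pt u.I (F0.map (iota x)) →+ Pt u.I (F0.map (iota x)) :=
  Pt.act u.I _ _ (PowerSeries.map (iota x) a)

/-- `λ = ψ ∘ Π_x`. -/
noncomputable def lamP (hN : IsNorm p n F0 H) (hx : IsPoint u x) (G1 : FormalGroup (Ffix K p h))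
    [G1.IsComm] (ψ : PowerSeries (Ob K)) : Pt u.I (F0.map (iota x)) →+ Mh u G1 :=
  (Pt.act u.I (H.map x) (G1.map (iF K p h)) ψ).comp (PiP hN hx (near_x hN hx))

/-- The monoid `Θ = {(λ(a t_i))_i}`. -/
def Theta (hN : IsNorm p n F0 H) (hx : IsPoint u x) (G1 : FormalGroup (Ffix K p h)) [G1.IsComm]
    (ψ : PowerSeries (Ob K)) {σ : Type} (t : σ → Pt u.I (F0.map (iota x))) :
    AddSubmonoid (σ → Mh u G1) where
  carrier := {θ | ∃ a, IsLift p n F0 a ∧ θ = fun i => lamP hN hx G1 ψ (actM u x F0 a (t i))}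
  zero_mem' := ⟨0, isLift_zero p n F0, funext fun i => by
    rw [actM, map_zero, Pt.act_zero, AddMonoidHom.zero_apply, map_zero, Pi.zero_apply]⟩
  add_mem' := by
    rintro _ _ ⟨a, ha, rfl⟩ ⟨b, hb, rfl⟩
    refine ⟨fadd F0 a b, ha.fadd p n hb, funext fun i => ?_⟩
    rw [Pi.add_apply, ← map_add, actM, actM, actM, map_fadd F0 _ ha.1 hb.1,
      Pt.act_fadd (ha.isFGHom x) (hb.isFGHom x), AddMonoidHom.add_apply]

/-- The data fed into `bl_lemma` at one `m ≥ M`. `x' = x ∘ φ`, `ϖ δ_s = x'(u_{e s}) - x(u_{e s})`,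
`x' = ev δ ∘ τ` (`tau_eval`; for a bad variable `u_i ∈ I_h ≤ J` so `x'(u_i) = 0 = x(u_i)`),
`ψm = ψ ∘ x(θ)` (`as_cmp`, `isFGHom_cmp_mulSeries`). `x(θ) ≡ x(vartheta) ≡ X` modulo
`(ϖ^{Q^m}, X^{Q^m})` because `[p^m]_x` is a series in `X^{Q^m}` (`mulSeries_mul`, `fadd_shape`,
`cmp_sub_cmp_dvd`). Last claim: `Near.pi_map` along `ev δ`, `eqv` with `ya = sq (a t)`
(`sq_map`), `Π_x t = 0`, `Mh_nsmul_val`. -/
theorem step_data (hN : IsNorm p n F0 H) (hx : IsPointH u x H h) {J : Ideal (EE p n)}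
    (hJ : heightIdeal p n H h ≤ J) (hxJ : ∀ f ∈ J, x f = 0) {M : ℕ}
    (hF : Fam p n F0 H J M (Jh p n H h)) {VA : PowerSeries (MvPowerSeries (Fin (n - h)) (Ob K))}
    (hVA : mulSeries (H.map (tau u x (eh n h))) p =
      PowerSeries.expand (p ^ h) (pow_ne_zero h (Fact.out : p.Prime).ne_zero) VA)
    {ψ : PowerSeries (Ob K)}
    (hψ : AS (p ^ h) (PowerSeries.map
      (constantCoeff : MvPowerSeries (Fin (n - h)) (Ob K) →+* Ob K) VA) ψ)
    (G1 : FormalGroup (Ffix K p h)) [G1.IsComm] (hG : mulSeries G1 p = PowerSeries.X ^ p ^ h)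
    (hψG : IsFGHom (H.map x) (G1.map (iF K p h)) ψ) {a : PowerSeries (WW p n)}
    (ha : IsLift p n F0 a) {m : ℕ} (hm : M ≤ m) :
    ∃ (δ : Fin (n - h) → Ob K) (ψm : PowerSeries (Ob K)), (∀ s, δ s ∈ u.I ^ (p ^ h) ^ m) ∧
      AS (p ^ h) (PowerSeries.map (ev u.I (RingHom.id _) δ) VA) ψm ∧
      (∀ k < (p ^ h) ^ m, PowerSeries.coeff k ψm - PowerSeries.coeff k ψ ∈ u.I ^ (p ^ h) ^ m) ∧
      (∀ f ∈ J, ev u.I (RingHom.id _) δ (tau u x (eh n h) f) = 0) ∧
      ∀ t, PiP hN hx.pt (near_x hN hx.pt) t = 0 →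
        ev1 u.I (RingHom.id _) (ev u.I (RingHom.id _) δ
          (PiP hN hx.pt (near_tau hN hx.pt (eh n h)) t).val) ψm =
          (lamP hN hx.pt G1 ψ (actM u x F0 a t)).val ^ (p ^ h) ^ m := by
  obtain ⟨φ, θ, hθ, hφJ, hφ, hθc⟩ := hF a ha m hm
  have hN0 : (p ^ h) ^ m ≠ 0 := pow_ne_zero _ (pow_ne_zero _ (Fact.out : p.Prime).ne_zero)
  have hx'a : ∀ f, (x.comp φ.toRingHom) f = x (φ f) := fun f => rfl
  have hδ : ∀ s : Fin (n - h), ∃ δ ∈ u.I ^ (p ^ h) ^ m,
      (x.comp φ.toRingHom) (X (eh n h s)) = x (X (eh n h s)) + u.ϖ * δ := fun s => by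
    have h1 := step_data_Jh hx.pt hx.ker m (hφ (X (eh n h s)))
    rw [Ideal.span_singleton_pow, Ideal.mem_span_singleton] at h1
    obtain ⟨c, hc⟩ := h1
    refine ⟨u.ϖ ^ (p ^ h) ^ m * c, ?_, ?_⟩
    · rw [Ideal.span_singleton_pow, Ideal.mem_span_singleton]
      exact dvd_mul_right _ _
    · rw [hx'a, ← mul_assoc, ← pow_succ', ← hc, map_sub, add_sub_cancel]
  choose δ hδ hδx using hδ
  have hδr : ∀ s, δ s ∈ u.I.radical := fun s => Ideal.le_radical (Ideal.pow_le_self hN0 (hδ s))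
  have hx' : (ev u.I (RingHom.id _) δ).comp (tau u x (eh n h)) = x.comp φ.toRingHom :=
    tau_eval hx.pt _ (step_data_iota x φ) δ hδr hδx fun i hi => by
      have h1 := hJ (step_data_bad hN hi)
      rw [hx'a, hxJ _ (hφJ _ h1), hxJ _ h1]
  have hθx : IsFGHom (H.map (x.comp φ.toRingHom)) (H.map x) (PowerSeries.map x θ) := by
    rw [← fg_map_map]
    exact isFGHom_map hθ x
  have hdvd : PowerSeries.X ^ p ^ h ∣ mulSeries (H.map x) p :=
    heightIdeal_iso_dvd p (H.map x) h fun j hj => by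
      rw [← map_mulSeries, PowerSeries.coeff_map]
      exact hx.ker _ (vv_mem p n H hj)
  refine ⟨δ, cmp ψ (PowerSeries.map x θ), hδ,
    step_data_as p h H _ _ _ hVA (tau_const hx.pt) hx' hψ hθx, fun k hk => ?_, fun f hf => ?_,
    fun t ht => ?_⟩
  · exact step_data_coeff H (algebraMap (WW p n) (EE p n)) x _ hdvd ha.1 hθ.1
      (fun i => Ideal.pow_le_pow_right (Nat.le_succ _) (step_data_Jh hx.pt hx.ker m (hθc i))) ψ hk
  · rw [← RingHom.comp_apply, hx', hx'a]
    exact hxJ _ (hφJ f hf)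
  · have h' : Near u (F0.map (iota x)) u.I (RingHom.id _) (H.map (x.comp φ.toRingHom)) :=
      near_of (x := x) hN.res (Ideal.mem_span_singleton_self u.ϖ) _
        ((step_data_iota x φ).trans (RingHom.id_comp (iota x)).symm) fun f hf => by
          rw [hx'a]
          refine hx.pt.mem ?_
          have := Ideal.add_mem _ (step_data_Jh_le hN hx.lt m (hφ f)) hf
          rwa [sub_add_cancel] at this
    have hβ : cI (Fin (n - h)) u.ϖ ≤ u.I.comap (ev u.I (RingHom.id _) δ) := by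
      rw [cI, Ideal.span_le]
      rintro _ rfl
      change ev u.I (RingHom.id _) δ (C u.ϖ) ∈ u.I
      rw [ev_C]
      exact Ideal.mem_span_singleton_self u.ϖ
    have h1 := congrArg Pt.val ((near_tau hN hx.pt (eh n h)).pi_map h' hx.pt.p_mem
      (ev u.I (RingHom.id _) δ) hβ (hβ.trans (Ideal.comap_mono Ideal.le_radical))
      (RingHom.ext fun r => ev_C _ _ _ r) (by rw [fg_map_map, hx']) (sq_isSeq hN t))
    rw [Pt.map_val] at h1
    have h2 := eqv hN hx.pt ha.1 φ hθ (fun k => step_data_Jh_le hN hx.lt m (hθc k)) h'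
      (sq_isSeq hN t) (sq_isSeq hN (actM u x F0 a t)) fun N => by
        rw [sq_map, actM, Pt.act_val (ha.isFGHom x), ev1_map _ _ (sq hN x u t N).mem,
          RingHom.id_comp, sub_self]
        exact Ideal.zero_mem _
    rw [← PiP_apply hN hx.pt (near_x hN hx.pt), ← PiP_apply hN hx.pt (near_x hN hx.pt), ht,
      zero_add] at h2
    rw [PiP_apply, h1, ev1_subst _ _ (h'.pi p (sq hN x u t)).mem hθx.1, ← Pt.act_val hθx, h2,
      ← Pt.act_val hψG, map_nsmul, Mh_nsmul_val u G1 hG]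
    rfl

theorem van_ne_bot_mem {R σ : Type*} [CommRing R] [Finite σ] {f : MvPowerSeries σ R} :
    f ∈ Ideal.span (Set.range (X : σ → MvPowerSeries σ R)) ↔ constantCoeff f = 0 := by
  constructor
  · intro hf
    exact coeff_eq_zero_of_mem_span_X_pow (d := 1) (by rwa [pow_one]) 0 (by simp)
  · intro hf
    have h := mem_span_X_pow (d := 1) (f := f) fun γ hγ => by
      have : γ = 0 := (Finsupp.degree_eq_zero_iff γ).1 (by omega)
      subst this
      simpa using hf
    rwa [pow_one] at h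

theorem van_ne_bot_coeff {R σ : Type*} [CommRing R] (t : σ) {a : MvPowerSeries σ R}
    (ha : constantCoeff a = 0) (b : MvPowerSeries σ R) :
    coeff (Finsupp.single t 1) (a * b) = coeff (Finsupp.single t 1) a * constantCoeff b := by
  have h : ∀ f : MvPowerSeries σ R,
      coeff (Finsupp.single t 1) f = constantCoeff (pderiv R t f) := fun f => by
    rw [← coeff_zero_eq_constantCoeff_apply, coeff_pderiv]
    simp
  rw [h, h, Derivation.leibniz]
  simp [ha, mul_comm]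

theorem van_ne_bot_lin {R σ : Type*} [CommRing R] [Finite σ] {a : MvPowerSeries σ R}
    (ha : constantCoeff a = 0) {ψ : PowerSeries (MvPowerSeries σ R)}
    (hψ : PowerSeries.constantCoeff ψ = 0) :
    constantCoeff (ev1 (Ideal.span (Set.range X)) (RingHom.id _) a ψ) = 0 ∧
    ∀ t, coeff (Finsupp.single t 1) (ev1 (Ideal.span (Set.range X)) (RingHom.id _) a ψ) =
      coeff (Finsupp.single t 1) a * constantCoeff (PowerSeries.coeff 1 ψ) := by
  obtain ⟨c, hc⟩ := Ideal.mem_span_singleton'.1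
    (Pt.ev1_sub_mem_span (I := Ideal.span (Set.range X))
      (Ideal.le_radical (van_ne_bot_mem.2 ha)) hψ)
  have e : ev1 (Ideal.span (Set.range X)) (RingHom.id _) a ψ =
      a * (PowerSeries.coeff 1 ψ + c * a) := by linear_combination -hc
  rw [e]
  exact ⟨by simp [ha], fun t => by simp [van_ne_bot_coeff t ha, ha]⟩

omit [IsAlgClosed K] in
theorem van_ne_bot_aux {σ : Type} [Fintype σ] {VA : PowerSeries (MvPowerSeries σ (Ob K))}
    (hV0 : PowerSeries.constantCoeff VA = 0) {ψ : PowerSeries (Ob K)}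
    (hψ : AS (p ^ h) (PowerSeries.map
      (constantCoeff : MvPowerSeries σ (Ob K) →+* Ob K) VA) ψ)
    (hψ1 : PowerSeries.coeff 1 ψ ≠ 0) (G1 : FormalGroup (Ffix K p h)) [G1.IsComm]
    (y : σ → MvPowerSeries σ (Ob K)) (hy : ∀ i, constantCoeff (y i) = 0)
    (hjac : ∀ ξ : σ → K,
      (∀ i, ∑ t, ξ t * ((coeff (Finsupp.single t 1) (y i) : Ob K) : K) = 0) → ξ = 0)
    {F : MvPowerSeries σ (Ob K)} (hF0 : F ≠ 0) (Θ : AddSubmonoid (σ → Mh u G1)) (M : ℕ)
    (hΘ : ∀ θ ∈ Θ, ∀ m, M ≤ m → ∃ (δ : σ → Ob K) (ψm : PowerSeries (Ob K)),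
      (∀ s, δ s ∈ u.I ^ (p ^ h) ^ m) ∧
      AS (p ^ h) (PowerSeries.map (ev u.I (RingHom.id _) δ) VA) ψm ∧
      (∀ k < (p ^ h) ^ m, PowerSeries.coeff k ψm - PowerSeries.coeff k ψ ∈ u.I ^ (p ^ h) ^ m) ∧
      ev u.I (RingHom.id _) δ F = 0 ∧
      ∀ i, ev1 u.I (RingHom.id _) (ev u.I (RingHom.id _) δ (y i)) ψm =
        (θ i).val ^ (p ^ h) ^ m) :
    van u G1 Θ ≠ ⊥ := by
  have hh : 1 ≤ h := Nat.one_le_iff_ne_zero.2 (NeZero.ne h)
  have hc0 : ∀ {A B : Type} [CommRing A] [CommRing B] (ρ : A →+* B) {g : PowerSeries A},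
      PowerSeries.constantCoeff g = 0 → PowerSeries.constantCoeff (PowerSeries.map ρ g) = 0 :=
    fun ρ g hg => by
      rw [← PowerSeries.coeff_zero_eq_constantCoeff_apply, PowerSeries.coeff_map,
        PowerSeries.coeff_zero_eq_constantCoeff_apply, hg, map_zero]
  have hV1 : constantCoeff (PowerSeries.coeff 1 VA) ≠ 0 := by
    intro h0
    have h1 := hψ.2 1
    rw [coeff_one_cmp _ (hc0 _ hV0), PowerSeries.coeff_map, h0, mul_zero] at h1
    exact pow_ne_zero _ hψ1 h1.symm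
  obtain ⟨ψA, hψA, hψA'⟩ := as_lift p (B := MvPowerSeries σ K)
    (by rw [← map_natCast (C : K →+* MvPowerSeries σ K), CharP.cast_eq_zero, map_zero]) hh
    (Ideal.span (Set.range X)) (V := PowerSeries.map (map (Ob K).subtype) VA)
    (ψ0 := PowerSeries.map ((C : K →+* MvPowerSeries σ K).comp (Ob K).subtype) ψ) (hc0 _ hV0)
    (by
      rw [isUnit_iff_constantCoeff, PowerSeries.coeff_map, constantCoeff_map, isUnit_iff_ne_zero]
      exact fun h0 => hV1 (Subtype.ext h0))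
    (hc0 _ hψ.1) (fun k => by
      have h1 := (hψ.map (hc0 _ hV0) (Ob K).subtype).2 k
      have e1 : PowerSeries.map (constantCoeff : MvPowerSeries σ K →+* K)
          (PowerSeries.map ((C : K →+* MvPowerSeries σ K).comp (Ob K).subtype) ψ) =
          PowerSeries.map (Ob K).subtype ψ := by
        ext k
        simp
      have e2 : PowerSeries.map (constantCoeff : MvPowerSeries σ K →+* K)
          (PowerSeries.map (map (Ob K).subtype) VA) = PowerSeries.map (Ob K).subtype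
            (PowerSeries.map (constantCoeff : MvPowerSeries σ (Ob K) →+* Ob K) VA) := by
        ext k
        simp
      rw [van_ne_bot_mem, map_sub, map_pow, ← PowerSeries.coeff_map, ← PowerSeries.coeff_map,
        map_cmp _ (hc0 _ hV0), e1, e2, h1, sub_self])
  have hψc : ∀ k, constantCoeff (PowerSeries.coeff k ψA) = (PowerSeries.coeff k ψ : Ob K) := by
    intro k
    have h1 := van_ne_bot_mem.1 (hψA' k)
    rw [map_sub, sub_eq_zero] at h1
    simpa using h1
  have hz := fun i => van_ne_bot_lin (a := map (Ob K).subtype (y i))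
    (by rw [constantCoeff_map, hy, map_zero]) hψA.1
  obtain ⟨Φ, hΦ⟩ := subst_surjective (fun i => (hz i).1) (fun ξ hξ => hjac ξ fun i => by
    have h1 := hξ i
    simp only [(hz i).2, hψc, ← mul_assoc, ← Finset.sum_mul, coeff_map] at h1
    exact (mul_eq_zero.1 h1).resolve_right fun h0 => hψ1 (Subtype.ext h0))
    (map (Ob K).subtype F)
  obtain ⟨γ, χ, hχ⟩ : ∃ (γ : σ →₀ ℕ) (χ : K →ₗ[Ffix K p h] Ffix K p h), χ (coeff γ Φ) ≠ 0 := by
    by_contra hc
    push Not at hc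
    have h0 : Φ = 0 := by
      ext γ
      exact eq_zero_of_forall_chi p h (hc γ)
    rw [h0, ← substAlgHom_apply (hasSubst_of_constantCoeff_zero fun i => (hz i).1),
      map_zero] at hΦ
    refine hF0 (MvPowerSeries.ext fun γ => Subtype.ext ?_)
    simpa using (congrArg (coeff γ) hΦ).symm
  have hmem : chi p h χ Φ ∈ van u G1 Θ := by
    rw [mem_van]
    intro θ hθ
    have h1 : ∀ m, ∃ (δ : σ → Ob K) (ψm : PowerSeries (Ob K)),
        (∀ s, δ s ∈ u.I ^ (p ^ h) ^ m) ∧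
        AS (p ^ h) (PowerSeries.map (ev u.I (RingHom.id _) δ) VA) ψm ∧
        (∀ k < (p ^ h) ^ m, PowerSeries.coeff k ψm - PowerSeries.coeff k ψ ∈ u.I ^ (p ^ h) ^ m) ∧
        (M ≤ m → ev u.I (RingHom.id _) δ F = 0 ∧
        ∀ i, ev1 u.I (RingHom.id _) (ev u.I (RingHom.id _) δ (y i)) ψm =
          (θ i).val ^ (p ^ h) ^ m) := fun m => by
      by_cases hm : M ≤ m
      · obtain ⟨δ, ψm, h1, h2, h3, h4⟩ := hΘ θ hθ m hm
        exact ⟨δ, ψm, h1, h2, h3, fun _ => h4⟩
      · refine ⟨fun _ => 0, ψ, fun _ => Ideal.zero_mem _, ?_, fun k _ => by simp,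
          fun h => absurd h hm⟩
        have e : ev u.I (RingHom.id (Ob K)) (fun _ : σ => (0 : Ob K)) = constantCoeff :=
          RingHom.ext fun f => ev_zero _ _ f
        rwa [e]
    choose δ ψm h1 h2 h3 h4 using h1
    refine dl_series p h u Φ _ (fun s => (θ s).mem) u.pos.le u.lt (fun L => ?_) χ
    obtain ⟨C', M', hC⟩ := bl_lemma p hh u VA hV0 hV1 ψ ψA hψA hψc y hy Φ F hΦ M δ ψm h1 h2 h3
      (fun m hm => (h4 m hm).1) L
    refine ⟨C', max M M', fun m hm => ?_⟩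
    have h5 := hC m (le_of_max_le_right hm)
    simp only [(h4 m (le_of_max_le_left hm)).2, SubmonoidClass.coe_pow] at h5
    exact h5
  intro hbot
  rw [hbot, Ideal.mem_bot] at hmem
  exact hχ (by rw [← coeff_chi, hmem, map_zero])

/-- `ψA` from `as_lift` over `K⟦δ⟧`; `z i = ev1 (y i) ψA` has linear part `ψ₁ *` that of `y i`
(`ev_eq_subst`, `ev1_sub_trunc_mem`), so `jacobian` and `subst_surjective` give `Φ` with
`subst z Φ = map (τ f)`, `Φ ≠ 0`. For `θ ∈ Θ`: `step_data` (for `m < M` take `δ = 0`, `ψm = ψ`,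
`ev_zero`), `bl_lemma`, `dl_series` give `chi χ Φ ∈ van`; some `chi χ Φ ≠ 0`
(`eq_zero_of_forall_chi`). -/
theorem van_ne_bot (hN : IsNorm p n F0 H) (hx : IsPointH u x H h) {J : Ideal (EE p n)}
    (hJ : heightIdeal p n H h ≤ J) (hxJ : ∀ f ∈ J, x f = 0) {M : ℕ}
    (hF : Fam p n F0 H J M (Jh p n H h)) {VA : PowerSeries (MvPowerSeries (Fin (n - h)) (Ob K))}
    (hVA : mulSeries (H.map (tau u x (eh n h))) p =
      PowerSeries.expand (p ^ h) (pow_ne_zero h (Fact.out : p.Prime).ne_zero) VA)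
    {ψ : PowerSeries (Ob K)}
    (hψ : AS (p ^ h) (PowerSeries.map
      (constantCoeff : MvPowerSeries (Fin (n - h)) (Ob K) →+* Ob K) VA) ψ)
    (hψ1 : PowerSeries.coeff 1 ψ ≠ 0)
    (G1 : FormalGroup (Ffix K p h)) [G1.IsComm] (hG : mulSeries G1 p = PowerSeries.X ^ p ^ h)
    (hψG : IsFGHom (H.map x) (G1.map (iF K p h)) ψ)
    {s : Fin (n - h) → Pt u.I (F0.map (iota x))}
    (hs : ∀ i, p • PiP hN hx.pt (near_x hN hx.pt) (s i) = 0)
    (hind : ∀ c : Fin (n - h) → ℤ, ∑ i, c i • PiP hN hx.pt (near_x hN hx.pt) (s i) = 0 →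
      ∀ i, (p : ℤ) ∣ c i)
    {f : EE p n} (hf : f ∈ J) (hf0 : tau u x (eh n h) f ≠ 0) :
    van u G1 (Theta hN hx.pt G1 ψ fun i => p • s i) ≠ ⊥ := by
  obtain ⟨hy, hjac⟩ := jacobian hN hx hs hind
  have hV0 : PowerSeries.constantCoeff VA = 0 := by
    rw [← PowerSeries.constantCoeff_expand (p ^ h) (pow_ne_zero h (Fact.out : p.Prime).ne_zero),
      ← hVA, mulSeries_constantCoeff]
  refine van_ne_bot_aux hV0 hψ hψ1 G1 _ hy hjac hf0 _ M ?_
  rintro θ ⟨a, ha, rfl⟩ m hm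
  obtain ⟨δ, ψm, h1, h2, h3, h4, h5⟩ := step_data hN hx hJ hxJ hF hVA hψ G1 hG hψG ha hm
  exact ⟨δ, ψm, h1, h2, h3, h4 f hf, fun i => h5 (p • s i) (by rw [map_nsmul, hs])⟩

theorem tropData_mk {B : Type*} [CommRing B] (I : Ideal B) {F G : FormalGroup B}
    (hFG : ∀ γ, coeff γ F.toPowerSeries - (RingHom.id B) (coeff γ G.toPowerSeries) ∈ I) :
    F.map (Ideal.Quotient.mk I) = G.map (Ideal.Quotient.mk I) := by
  ext1
  ext1 γ
  simp only [FormalGroup.map_toPowerSeries, coeff_map]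
  exact Ideal.Quotient.eq.2 (hFG γ)

theorem tropData_cmp {A B : Type*} [CommRing A] [CommRing B] {F : FormalGroup B}
    {G : FormalGroup A} {j : A →+* B} {m Q : ℕ} (hG : mulSeries G m = PowerSeries.X ^ Q)
    {ψ : PowerSeries B} (hψ : IsFGHom F (G.map j) ψ) : cmp ψ (mulSeries F m) = ψ ^ Q := by
  have hs : PowerSeries.HasSubst ψ := PowerSeries.HasSubst.of_constantCoeff_zero' hψ.1
  rw [isFGHom_cmp_mulSeries hψ, ← map_mulSeries, hG, map_pow, PowerSeries.map_X, cmp,
    PowerSeries.subst_pow hs, PowerSeries.subst_X hs]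

/-- `H_x ≡ F0` modulo `ϖ` (`near_x`), `map_mk_ne_zero`, `isFGHom_X_pow`/`IsFGHom` of `[p] = X^Q`
for `frob1` (coefficients come from `Ffix`). -/
theorem tropData (hN : IsNorm p n F0 H) (hx : IsPointH u x H h) {ψ : PowerSeries (Ob K)}
    (hψ1 : PowerSeries.coeff 1 ψ ≠ 0) (G1 : FormalGroup (Ffix K p h)) [G1.IsComm]
    (hG : mulSeries G1 p = PowerSeries.X ^ p ^ h)
    (hψG : IsFGHom (H.map x) (G1.map (iF K p h)) ψ) :
    TropData p h (n - h) u (F0.map (iota x)) (G1.map (iF K p h)) ψ ∧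
      ∀ y, (lamP hN hx.pt G1 ψ y).val - ev1 u.I (RingHom.id _) y.val ψ ∈ u.I := by
  have hlt := hx.lt
  have hn : h + (n - h) = n := by omega
  have hp1 : 1 < p := (Fact.out : p.Prime).one_lt
  refine ⟨⟨NeZero.one_le, by omega, ?_, ?_, model_frob hN.model x, fun γ => ?_, fun γ hγ => ?_,
    hψG.1, ?_, ?_⟩, fun y => ?_⟩
  · rw [hn]
    exact model_mulSeries hN.model x
  · rw [← map_mulSeries, hG, map_pow, PowerSeries.map_X]
  · rw [FormalGroup.map_toPowerSeries, coeff_map, ← map_pow]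
    congr 1
    exact Subtype.ext (mem_Ffix.1 (coeff γ G1.toPowerSeries).2)
  · rw [hn]
    refine hN.model.hom γ fun h0 => hγ ?_
    rw [FormalGroup.map_toPowerSeries, coeff_map, h0, map_zero]
  · rw [← tropData_mk u.I (near_x hN hx.pt).near]
    exact isFGHom_map hψG _
  · refine map_mk_ne_zero u (Q := p ^ h) (q := p ^ n) (Nat.one_lt_pow (NeZero.ne h) hp1)
      (Nat.one_le_pow _ _ (by omega)) (mulSeries_constantCoeff _ _) (point_mulSeries_mem hN hx.pt)
      (tropData_cmp hG hψG) fun h0 => hψ1 ?_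
    rw [h0, map_zero]
  · rw [lamP, AddMonoidHom.comp_apply, Pt.act_val hψG]
    refine (Ideal.span_singleton_le_iff_mem _).2 ?_
      (ev1_sub_ev1_mem u.I (RingHom.id _) (PiP hN hx.pt (near_x hN hx.pt) y).mem y.mem ψ)
    rw [PiP_apply]
    exact (near_x hN hx.pt).pi_val_sub hx.pt.p_mem (sq_isSeq hN y)

theorem no_relation_root (hn : 1 ≤ n) (x : EE p n →+* Ob K) {c : Ob K} (hc : c ^ p ^ n = c) :
    ∃ c0 : kk p n, iota x (WittVector.teichmuller p c0) = c := by
  classical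
  obtain ⟨ιk, hι⟩ := exists_iotak x
  let _ : Fintype (kk p n) := Fintype.ofFinite _
  have hcard : Fintype.card (kk p n) = p ^ n := by
    rw [← Nat.card_eq_fintype_card, GaloisField.card p n (by omega)]
  have hQ : 1 < p ^ n := Nat.one_lt_pow (by omega) (Fact.out : p.Prime).one_lt
  have hdeg : (Polynomial.X ^ p ^ n - Polynomial.X : Polynomial (Ob K)).natDegree = p ^ n := by
    rw [Polynomial.natDegree_sub_eq_left_of_natDegree_lt] <;> simp [hQ]
  have hne : (Polynomial.X ^ p ^ n - Polynomial.X : Polynomial (Ob K)) ≠ 0 := fun h => by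
    rw [h, Polynomial.natDegree_zero] at hdeg
    omega
  have hmem : ∀ b : Ob K, b ∈ (Polynomial.X ^ p ^ n - Polynomial.X :
      Polynomial (Ob K)).roots.toFinset ↔ b ^ p ^ n = b := fun b => by
    rw [Multiset.mem_toFinset, Polynomial.mem_roots hne, Polynomial.IsRoot.def,
      Polynomial.eval_sub, Polynomial.eval_pow, Polynomial.eval_X, sub_eq_zero]
  have h1 : Finset.univ.image ιk =
      (Polynomial.X ^ p ^ n - Polynomial.X : Polynomial (Ob K)).roots.toFinset := by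
    refine Finset.eq_of_subset_of_card_le (fun b hb => ?_) ?_
    · obtain ⟨c0, -, rfl⟩ := Finset.mem_image.1 hb
      rw [hmem, ← map_pow, kk_pow p n hn]
    · rw [Finset.card_image_of_injective _ ιk.injective, Finset.card_univ, hcard]
      exact (Multiset.toFinset_card_le _).trans ((Polynomial.card_roots' _).trans hdeg.le)
  have h2 := (hmem c).2 hc
  rw [← h1] at h2
  obtain ⟨c0, -, h3⟩ := Finset.mem_image.1 h2
  refine ⟨c0, ?_⟩
  rw [← hι, RingHom.comp_apply, ← h3]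
  congr 1

omit [CompleteSpace K] [IsAlgClosed K] [CharP K p] in
theorem no_relation_eta {σ : Type} [Fintype σ] (u : Unif K) (f : σ → Ob K)
    (hf : ∀ j, ‖(f j : K)‖ < 1) :
    ∃ η : Ob K, ‖(η : K)‖ < 1 ∧ u.ϖ ∈ Ideal.span {η} ∧ ∀ j, f j ∈ Ideal.span {η} := by
  obtain ⟨o, -, ho⟩ := Finset.exists_max_image (Finset.univ : Finset (Option σ))
    (fun o => ‖((o.elim u.ϖ f : Ob K) : K)‖) Finset.univ_nonempty
  refine ⟨o.elim u.ϖ f, ?_, Ob.mem_span_iff.2 (ho none (Finset.mem_univ _)),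
    fun j => Ob.mem_span_iff.2 (ho (some j) (Finset.mem_univ _))⟩
  cases o with
  | none => exact u.lt
  | some j => exact hf j

theorem no_relation_act {B : Type*} [CommRing B] {I : Ideal B} [IsAdicComplete I B]
    {F G : FormalGroup B} [F.IsComm] [G.IsComm] (θ : PowerSeries B) {J : Ideal B} {a : Pt I F}
    (ha : a ∈ Pt.fil I F J) : Pt.act I F G θ a ∈ Pt.fil I G J :=
  (Ideal.span_singleton_le_iff_mem J).2 ha (Pt.act_val_mem θ a)

omit [IsAlgClosed K] in
theorem no_relation_cancel (G1 : FormalGroup (Ffix K p h)) [G1.IsComm]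
    (hG : mulSeries G1 p = PowerSeries.X ^ p ^ h) {z : Mh u G1} (hz : p • z = 0) : z = 0 := by
  have h1 := Mh_nsmul_val u G1 hG z 1
  rw [pow_one, pow_one, hz, Pt.val_zero] at h1
  exact Pt.ext (pow_eq_zero_iff (pow_ne_zero h (Fact.out : p.Prime).ne_zero) |>.1 h1.symm)

theorem no_relation_lim (hN : IsNorm p n F0 H) (hx : IsPoint u x) {ψ : PowerSeries (Ob K)}
    (G1 : FormalGroup (Ffix K p h)) [G1.IsComm] (hG : mulSeries G1 p = PowerSeries.X ^ p ^ h)
    {σ : Type} [Fintype σ] [DecidableEq σ] {s : σ → Pt u.I (F0.map (iota x))}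
    (hs : ∀ i, p • PiP hN hx (near_x hN hx) (s i) = 0)
    (hind : ∀ c : σ → ℤ, ∑ i, c i • PiP hN hx (near_x hN hx) (s i) = 0 → ∀ i, (p : ℤ) ∣ c i)
    (s0 : σ) (d : σ → PowerSeries (Ffix K p h)) (hd : ∀ i, IsFGHom G1 G1 (d i))
    (hrel : ∀ θ ∈ Theta hN hx G1 ψ (fun i => p • s i),
      θ s0 = ∑ i ∈ Finset.univ.erase s0, actE u G1 (d i) (θ i))
    {ι : Type} [Fintype ι] (e : ι → PowerSeries (Ffix K p h)) (he : ∀ i, IsFGHom G1 G1 (e i))
    (hdec : ∀ d, IsFGHom G1 G1 d → ∃ (c : ι → ℤ) (d2 : PowerSeries (Ffix K p h)),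
      IsFGHom G1 G1 d2 ∧ actE u G1 d = ∑ i, c i • actE u G1 (e i) + p • actE u G1 d2) :
    ∃ y : ι → Pt u.I (F0.map (iota x)), y ≠ 0 ∧ ∀ a, IsLift p n F0 a →
      ∑ i, actE u G1 (e i) (lamP hN hx G1 ψ (actM u x F0 a (y i))) = 0 := by
  obtain ⟨η, hη, hϖ, hsη⟩ := no_relation_eta u (fun j => (s j).val)
    fun j => u.mem_radical.1 (s j).mem
  have hp : ‖(p : K)‖ < 1 := by
    rw [CharP.cast_eq_zero, norm_zero]
    exact one_pos
  have hI : u.I ≤ Ideal.span {η} := (Ideal.span_singleton_le_iff_mem _).2 hϖ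
  have hPi : ∀ y ∈ Pt.fil u.I (F0.map (iota x)) (Ideal.span {η}),
      PiP hN hx (near_x hN hx) y ∈ Pt.fil u.I (H.map x) (Ideal.span {η}) := fun y hy => by
    have h1 := hI ((near_x hN hx).pi_val_sub hx.p_mem (sq_isSeq hN y))
    have h2 := Ideal.add_mem _ h1 (show (RingHom.id _) (sq hN x u y 0).val ∈ _ from hy)
    rw [sub_add_cancel] at h2
    exact h2
  obtain ⟨y, hy0, hy⟩ := lim_lemma p (X := {a // IsLift p n F0 a})
    (Pt.fil u.I (F0.map (iota x)) (Ideal.span {η}))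
    (Pt.fil u.I (G1.map (iF K p h)) (Ideal.span {η})) (Pt.fil u.I (H.map x) (Ideal.span {η}))
    (fun a => actM u x F0 a.1) (fun a y hy => no_relation_act _ hy) (lamP hN hx G1 ψ)
    (fun y hy => no_relation_act ψ (hPi y hy)) (PiP hN hx (near_x hN hx)) hPi
    {D | ∃ d, IsFGHom G1 G1 d ∧ D = actE u G1 d}
    (by rintro _ ⟨d, -, rfl⟩ z hz; exact no_relation_act _ hz)
    (fun i => actE u G1 (e i)) (fun i => ⟨e i, he i, rfl⟩)
    (by
      rintro _ ⟨d, hd, rfl⟩
      obtain ⟨c, d2, hd2, h1⟩ := hdec d hd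
      exact ⟨c, _, ⟨d2, hd2, rfl⟩, h1⟩)
    (ball_sep u _ hp hη) (ball_sep u _ hp hη) (ball_cpl u _ hp hη)
    (fun h0 => by
      have h1 : (⟨u.ϖ, Ideal.le_radical (Ideal.mem_span_singleton_self _)⟩ : Mh u G1) ∈
          Pt.fil u.I (G1.map (iF K p h)) (Ideal.span {η}) := hϖ
      rw [h0, AddSubgroup.mem_bot] at h1
      have h2 : u.ϖ = 0 := congrArg Pt.val h1
      have h3 := u.pos
      rw [h2] at h3
      simp at h3)
    (fun j => if j = s0 then s j else -s j)
    (fun j => by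
      split_ifs
      · exact hsη j
      · exact (Pt.fil u.I (F0.map (iota x)) (Ideal.span {η})).neg_mem (hsη j))
    (fun j => by
      split_ifs
      · exact hs j
      · rw [map_neg, smul_neg, hs j, neg_zero])
    (fun c hc j => by
      have h1 := hind (fun j => if j = s0 then c j else -c j) (by
        rw [← hc]
        refine Finset.sum_congr rfl fun j _ => ?_
        split_ifs
        · rfl
        · rw [map_neg, smul_neg, neg_smul]) j
      split_ifs at h1
      · exact h1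
      · exact (dvd_neg).1 h1)
    (fun j => if j = s0 then AddMonoidHom.id _ else actE u G1 (d j))
    (fun j => by
      split_ifs
      · refine ⟨PowerSeries.X, isFGHom_X G1, ?_⟩
        rw [actE, PowerSeries.map_X, Pt.act_X]
      · exact ⟨d j, hd j, rfl⟩)
    s0 (if_pos rfl)
    (fun a => by
      have h1 := hrel _ ⟨a.1, a.2, rfl⟩
      simp only [map_nsmul] at h1
      rw [← Finset.smul_sum, ← sub_eq_zero, ← smul_sub] at h1
      rw [← Finset.add_sum_erase _ _ (Finset.mem_univ s0), if_pos rfl, if_pos rfl,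
        AddMonoidHom.id_apply, ← no_relation_cancel G1 hG h1, sub_eq_add_neg,
        ← Finset.sum_neg_distrib]
      congr 1
      refine Finset.sum_congr rfl fun j hj => ?_
      rw [if_neg (Finset.ne_of_mem_erase hj), if_neg (Finset.ne_of_mem_erase hj), map_neg, map_neg,
        map_neg])
  exact ⟨y, hy0, fun a ha => hy ⟨a, ha⟩⟩

theorem no_relation_actM (hN : IsNorm p n F0 H) (c : kk p n) (l : ℕ)
    (y : Pt u.I (F0.map (iota x))) :
    (actM u x F0 (PowerSeries.C (WittVector.teichmuller p c) * PowerSeries.X ^ p ^ l) y).val =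
      iota x (WittVector.teichmuller p c) * y.val ^ p ^ l := by
  rw [actM, Pt.act_val ((isLift_monomial p n hN.hn hN.model c l).isFGHom x), ev1_map _ _ y.mem,
    map_mul, map_pow, ev1_C, ev1_X _ _ y.mem, RingHom.id_comp]

omit [IsAlgClosed K] in
theorem no_relation_actE (G1 : FormalGroup (Ffix K p h)) [G1.IsComm] {m : ℕ} (hm : m ≠ 0)
    {d : PowerSeries (Ffix K p h)} (hd : IsFGHom G1 G1 (PowerSeries.expand m hm d))
    (z : Mh u G1) : (actE u G1 (PowerSeries.expand m hm d) z).val =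
      ev1 u.I (RingHom.id _) (z.val ^ m) (PowerSeries.map (iF K p h) d) := by
  rw [actE, Pt.act_val (isFGHom_map hd _), ev1_map _ _ z.mem, ev1_expand _ _ z.mem,
    ev1_map _ _ (Ideal.pow_mem_of_mem _ z.mem _ (Nat.pos_of_ne_zero hm))]

theorem no_relation_g (hn : 1 ≤ n) (x : EE p n →+* Ob K) {m : ℕ} (hm : m = n) :
    ∃ g : Ob K → kk p n, ∀ c, c ^ p ^ m = c → iota x (WittVector.teichmuller p (g c)) = c := by
  subst hm
  have hg : ∀ c : Ob K, ∃ c0 : kk p m, c ^ p ^ m = c →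
      iota x (WittVector.teichmuller p c0) = c := fun c => by
    by_cases hc : c ^ p ^ m = c
    · obtain ⟨c0, h0⟩ := no_relation_root hn x hc
      exact ⟨c0, fun _ => h0⟩
    · exact ⟨0, fun h0 => absurd h0 hc⟩
  choose g hg using hg
  exact ⟨g, hg⟩

/-- Cancel `p` (`Mh` has no `p`-torsion: `Mh_nsmul_val`), replace `s j` by `- s j` for `j ≠ s0`,
and apply `lim_lemma` with `X = kk p n × ℕ`, `a (c,l) = actM ([c] X^{p^l})` (`isLift_monomial`),
`E = {actE d | d endomorphism}` (`end_basis`, `Pt.act_X`), balls `Pt.fil (span {η})` for `η` of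
largest norm among `ϖ` and the `(s j).val` (`ball_sep`, `ball_cpl`, `pi_val_sub`). Then `trop`:
every `c ∈ O` with `c^q = c` is `ιk c₀ = iota x [c₀]` (count roots of `X^q - X`). -/
theorem no_relation (hN : IsNorm p n F0 H) (hx : IsPointH u x H h) {ψ : PowerSeries (Ob K)}
    (hψ1 : PowerSeries.coeff 1 ψ ≠ 0) (G1 : FormalGroup (Ffix K p h)) [G1.IsComm]
    (hG : mulSeries G1 p = PowerSeries.X ^ p ^ h)
    (hψG : IsFGHom (H.map x) (G1.map (iF K p h)) ψ)
    {s : Fin (n - h) → Pt u.I (F0.map (iota x))}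
    (hs : ∀ i, p • PiP hN hx.pt (near_x hN hx.pt) (s i) = 0)
    (hind : ∀ c : Fin (n - h) → ℤ, ∑ i, c i • PiP hN hx.pt (near_x hN hx.pt) (s i) = 0 →
      ∀ i, (p : ℤ) ∣ c i)
    (s0 : Fin (n - h)) (d : Fin (n - h) → PowerSeries (Ffix K p h))
    (hd : ∀ i, IsFGHom G1 G1 (d i))
    (hrel : ∀ θ ∈ Theta hN hx.pt G1 ψ (fun i => p • s i),
      θ s0 = ∑ i ∈ Finset.univ.erase s0, actE u G1 (d i) (θ i)) : False := by
  obtain ⟨N, j, d', h1, h2, h3⟩ := end_basis u G1 hG
  obtain ⟨y, hy0, hy⟩ := no_relation_lim hN hx.pt G1 hG hs hind s0 d hd hrel _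
    (fun i => (h1 i).2.2) h3
  obtain ⟨hT, hlam⟩ := tropData hN hx hψ1 G1 hG hψG
  obtain ⟨g, hg⟩ := no_relation_g hN.hn x (m := h + (n - h)) (by have := hx.lt; omega)
  have hinj : Function.Injective (iF K p h) := (iF K p h).injective
  refine hy0 (trop hT (lamP hN hx.pt G1 ψ) hlam j (fun i => (h1 i).1)
    (fun i => PowerSeries.map (iF K p h) (d' i)) (fun i => ?_) (fun i => ?_) (fun j0 c hc => ?_)
    (fun i => actE u G1
      (PowerSeries.expand (p ^ j i) (pow_ne_zero _ (Fact.out : p.Prime).ne_zero) (d' i)))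
    (fun i z => no_relation_actE G1 _ (h1 i).2.2 z)
    (fun c l y => actM u x F0
      (PowerSeries.C (WittVector.teichmuller p (g c)) * PowerSeries.X ^ p ^ l) y)
    (fun c l y hc => ?_) y fun c l _ => ?_)
  · change iF K p h (PowerSeries.constantCoeff (d' i)) = 0
    rw [(h1 i).2.1, map_zero]
  · rw [PowerSeries.coeff_map, ← map_pow]
    exact congrArg (iF K p h) (Subtype.ext (PowerSeries.coeff 1 (d' i)).2)
  · refine h2 j0 c (hinj ?_)
    rw [map_zero, ← hc, map_sum]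
    refine Finset.sum_congr rfl fun i _ => ?_
    rw [map_mul, map_intCast, PowerSeries.coeff_map]
  · rw [no_relation_actM hN, hg c hc]
  · have h4 := hy _ (isLift_monomial p n hN.hn hN.model (g c) l)
    exact h4

theorem tau_eq_zero_aux {A B C : Type*} [CommRing A] [CommRing B] [CommRing C] {F : FormalGroup A}
    {τ : A →+* B} {c : B →+* C} {x : A →+* C} (hc : c.comp τ = x) {m Q : ℕ} (hQ : Q ≠ 0)
    {V : PowerSeries B} (hV : mulSeries (F.map τ) m = PowerSeries.expand Q hQ V) :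
    PowerSeries.expand Q hQ (PowerSeries.map c V) = mulSeries (F.map x) m ∧
      PowerSeries.coeff 1 (PowerSeries.map c V) = x (PowerSeries.coeff Q (mulSeries F m)) := by
  have h1 : PowerSeries.expand Q hQ (PowerSeries.map c V) = mulSeries (F.map x) m := by
    rw [← PowerSeries.map_expand, ← hV, map_mulSeries, fg_map_map, hc]
  refine ⟨h1, ?_⟩
  rw [← PowerSeries.coeff_map, map_mulSeries, ← h1]
  simpa using (PowerSeries.coeff_expand_mul Q hQ (PowerSeries.map c V) 1).symm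

/-- At a point, `τ` kills `J`: `exists_VA`, `as_exists` (`V₁ = x(v_h)`), `as_iff`, `exists_G1`,
`exists_lattice`, `van_ne_bot`, `artin`, `no_relation`. -/
theorem tau_eq_zero (hN : IsNorm p n F0 H) (hx : IsPointH u x H h) {J : Ideal (EE p n)}
    (hJ : heightIdeal p n H h ≤ J) (hxJ : ∀ f ∈ J, x f = 0) {M : ℕ}
    (hF : Fam p n F0 H J M (Jh p n H h)) {f : EE p n} (hf : f ∈ J) :
    tau u x (eh n h) f = 0 := by
  classical
  by_contra hf0
  have hp1 : 1 < p := (Fact.out : p.Prime).one_lt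
  obtain ⟨VA, hVA, hV⟩ := exists_VA hN hx
  obtain ⟨e1, e2⟩ := tau_eq_zero_aux (tau_const (e := eh n h) hx.pt) _ hVA
  obtain ⟨ψ, hψ, hψ1⟩ := as_exists (Q := p ^ h) (Nat.one_lt_pow (NeZero.ne h) hp1) hV.1
    (by rw [e2]; exact hx.ne)
  have e3 := (as_iff p h hV.1 hψ.1).1 hψ
  rw [e1] at e3
  obtain ⟨G1, hc, hG, hψG⟩ := exists_G1 p h (H.map x) hψ.1 hψ1 e3
  obtain ⟨s, hs, hind⟩ := exists_lattice hN hx
  obtain ⟨s0, d, hd, hrel⟩ := artin u G1 hG
    (van_ne_bot hN hx hJ hxJ hF hVA hψ hψ1 G1 hG hψG hs hind hf hf0)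
  exact no_relation hN hx hψ1 G1 hG hψG hs hind s0 d hd hrel

omit [NormedField K] [IsUltrametricDist K] [CompleteSpace K] [IsAlgClosed K] [CharP K p] in
/-- `exists_point` for `s = v_h`; `K` has characteristic `p` as `p ∈ I_h ≤ J`; `tau_eq_zero`,
`tau_inj` (kernel of `iota x` is `(p)`: `exists_iotak`), `heightIdeal_eq_ker`. -/
theorem mainP (hN : IsNorm p n F0 H) (hh : h < n) {J : Ideal (EE p n)} (hrad : J.IsRadical)
    (hJ : heightIdeal p n H h ≤ J) (hv : vv p n H h ∉ J) {M : ℕ}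
    (hF : Fam p n F0 H J M (Jh p n H h)) : J ≤ heightIdeal p n H h := by
  have hm : vv p n H h ∈ IsLocalRing.maximalIdeal (EE p n) := by
    rw [← mE_eq_maximalIdeal]
    exact heightIdeal_le_mE p n H (by rw [hN.res, hN.model.mul]) le_rfl (vv_mem p n H hh)
  obtain ⟨K, i1, i2, i3, i4, u, x, h1, h2, h3⟩ := exists_point J hm fun h0 => hv (hrad h0)
  have hx : IsPoint u x := fun f hf => h1 f (by rwa [← mE_eq_maximalIdeal])
  have hp0 : (p : Ob K) = 0 := by
    have := h2 _ (hJ (vv_mem p n H (Nat.pos_of_ne_zero (NeZero.ne h))))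
    rwa [vv_zero, map_natCast] at this
  have : CharP K p := (CharP.charP_iff_prime_eq_zero (Fact.out : p.Prime)).2
    (by simpa using congrArg Subtype.val hp0)
  have hxH : IsPointH u x H h := ⟨hx, hh, fun f hf => h2 f (hJ hf), h3⟩
  obtain ⟨ιk, hιk⟩ := exists_iotak x
  intro f hf
  rw [heightIdeal_eq_ker p n H hN.coord h hh.le, RingHom.mem_ker]
  ext1 γ
  have h4 := tau_inj (e := eh n h) hx (fun i hi => h2 _ (hJ (by
    rw [← hN.coord]
    refine vv_mem p n H ?_
    by_contra hlt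
    refine hi ⟨⟨i - (h - 1), by have := i.2; have := NeZero.ne h; omega⟩, Fin.ext ?_⟩
    change h - 1 + (i - (h - 1)) = i
    omega))) (tau_eq_zero hN hxH hJ h2 hF hf) γ
  rw [← hιk, RingHom.comp_apply, map_eq_zero_iff ιk ιk.injective] at h4
  rw [map_zero, RingHom.comp_apply]
  exact (coeff_killCompl _ _).trans ((coeff_map _ _ _).trans h4)

end Crest.R227
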