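import Crest.Agent.R227.Ob

/-! Row 227. Descent of relations along `Q`-th powers to the finite field `F_Q`. -/

set_option autoImplicit false

namespace Crest.R227

open MvPowerSeries

variable {K : Type*} [NormedField K] [IsUltrametricDist K] (p : ℕ) [Fact p.Prime] [CharP K p]
  (h : ℕ) [NeZero h]

omit [IsUltrametricDist K] [CharP K p] in
theorem dl_core_root {a ρ C : ℝ} (hρ : 0 ≤ ρ) {M : ℕ}
    (hs : ∀ m, M ≤ m → a ^ (p ^ h) ^ m ≤ C * ρ ^ (p ^ h) ^ m) : a ≤ ρ := by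
  have hQ : 1 < p ^ h := Nat.one_lt_pow (NeZero.ne h) (Fact.out : p.Prime).one_lt
  by_contra hlt
  rw [not_le] at hlt
  rcases hρ.eq_or_lt with rfl | hρ
  · have h1 := hs M le_rfl
    rw [zero_pow (pow_ne_zero _ (by omega)), mul_zero] at h1
    exact absurd (pow_pos hlt _) (not_lt.2 h1)
  · have h1 : 1 < a / ρ := (one_lt_div hρ).2 hlt
    have h2 := (tendsto_pow_atTop_atTop_of_one_lt h1).comp (tendsto_pow_atTop_atTop_of_one_lt hQ)
    obtain ⟨m, hm1, hm2⟩ := ((h2.eventually_gt_atTop C).and (Filter.eventually_ge_atTop M)).exists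
    have h3 := hs m hm2
    rw [← div_le_iff₀ (pow_pos hρ _), ← div_pow] at h3
    exact absurd hm1 (not_lt.2 h3)

omit [IsUltrametricDist K] [NeZero h] in
theorem dl_core_pow_sum {T : Type*} (A : Finset T) (f : T → K) (m : ℕ) :
    (∑ i ∈ A, f i) ^ (p ^ h) ^ m = ∑ i ∈ A, f i ^ (p ^ h) ^ m := by
  rw [← pow_mul, sum_pow_char_pow]

omit [IsUltrametricDist K] [NeZero h] in
theorem dl_core_fix (c : Ffix K p h) (m : ℕ) : (c : K) ^ (p ^ h) ^ m = c := by
  induction m with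
  | zero => simp
  | succ m ih => rw [pow_succ, pow_mul, ih]; exact c.2

omit [IsUltrametricDist K] [NeZero h] in
theorem dl_core_indep {k : ℕ} (ω : Fin (k + 1) → K) (hω : LinearIndependent (Ffix K p h) ω) :
    LinearIndependent (Ffix K p h)
      fun j : Fin k => (ω j.succ / ω 0) ^ p ^ h - ω j.succ / ω 0 := by
  have h0 : ω 0 ≠ 0 := hω.ne_zero 0
  rw [Fintype.linearIndependent_iff] at hω ⊢
  intro c hc j
  have h1 : (∑ j, (c j : K) * (ω j.succ / ω 0)) ∈ Ffix K p h := by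
    rw [mem_Ffix, sum_pow_char_pow, ← sub_eq_zero, ← Finset.sum_sub_distrib, ← hc]
    refine Finset.sum_congr rfl fun j _ => ?_
    rw [mul_pow, mem_Ffix.1 (c j).2, ← mul_sub]
    rfl
  refine hω (Fin.cons (-⟨_, h1⟩) c) ?_ j.succ
  rw [Fin.sum_univ_succ]
  simp only [Fin.cons_zero, Fin.cons_succ]
  change -(∑ j, (c j : K) * (ω j.succ / ω 0)) * ω 0 + ∑ j, (c j : K) * ω j.succ = 0
  rw [neg_mul, Finset.sum_mul, neg_add_eq_zero]
  refine Finset.sum_congr rfl fun j _ => ?_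
  rw [mul_assoc, div_mul_cancel₀ _ h0]

/-- Induction on the number of terms. Divide by `ω_last`; with `ε_m` the sum,
`ε_m^Q - ε_{m+1} = ∑_{j ≠ last} (ω_j^Q - ω_j) s_j^{Q^{m+1}}` and the `ω_j^Q - ω_j` are again
independent. Finally `‖s‖^{Q^m} ≤ C' ρ^{Q^m}` for all large `m` gives `‖s‖ ≤ ρ`. -/
theorem dl_core {k : ℕ} (ω : Fin k → K) (hω : LinearIndependent (Ffix K p h) ω) (s : Fin k → K)
    {ρ : ℝ} (hρ : 0 ≤ ρ) {C : ℝ} {M : ℕ}
    (hs : ∀ m, M ≤ m → ‖∑ j, ω j * s j ^ (p ^ h) ^ m‖ ≤ C * ρ ^ (p ^ h) ^ m) (j : Fin k) :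
    ‖s j‖ ≤ ρ := by
  induction k generalizing C M with
  | zero => exact j.elim0
  | succ k ih =>
    have h0 : ω 0 ≠ 0 := hω.ne_zero 0
    obtain ⟨ε, hε⟩ : ∃ ε : ℕ → K, ∀ m, ε m = s 0 ^ (p ^ h) ^ m +
        ∑ j : Fin k, ω j.succ / ω 0 * s j.succ ^ (p ^ h) ^ m := ⟨_, fun _ => rfl⟩
    have hε1 : ∀ m, M ≤ m → ‖ε m‖ ≤ C / ‖ω 0‖ * ρ ^ (p ^ h) ^ m := fun m hm => by
      have e : ε m = (∑ j, ω j * s j ^ (p ^ h) ^ m) / ω 0 := by
        rw [hε, Fin.sum_univ_succ, add_div, Finset.sum_div, mul_div_cancel_left₀ _ h0]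
        congr 1
        exact Finset.sum_congr rfl fun j _ => by ring
      rw [e, norm_div, div_mul_eq_mul_div]
      exact div_le_div_of_nonneg_right (hs m hm) (norm_nonneg _)
    have h1 : ∀ j : Fin k, ‖s j.succ‖ ≤ ρ := fun j => by
      refine ih _ (dl_core_indep p h ω hω) (fun j => s j.succ)
        (C := (C / ‖ω 0‖) ^ p ^ h + C / ‖ω 0‖) (M := M + 1) (fun m hm => ?_) j
      obtain ⟨m, rfl⟩ : ∃ m', m = m' + 1 := ⟨m - 1, by omega⟩
      have e : ∑ j : Fin k, ((ω j.succ / ω 0) ^ p ^ h - ω j.succ / ω 0) *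
          s j.succ ^ (p ^ h) ^ (m + 1) = ε m ^ p ^ h - ε (m + 1) := by
        have e0 : ∀ x : K, (x ^ (p ^ h) ^ m) ^ p ^ h = x ^ (p ^ h) ^ (m + 1) := fun x => by
          rw [pow_succ, pow_mul]
        rw [hε, hε, add_pow_char_pow, sum_pow_char_pow, e0,
          add_sub_add_left_eq_sub, ← Finset.sum_sub_distrib]
        refine Finset.sum_congr rfl fun j _ => ?_
        rw [mul_pow, e0, sub_mul]
      rw [e, add_mul]
      refine (norm_sub_le _ _).trans (add_le_add ?_ (hε1 _ (by omega)))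
      rw [norm_pow, pow_succ, pow_mul, ← mul_pow]
      exact pow_le_pow_left₀ (norm_nonneg _) (hε1 m (by omega)) _
    refine Fin.cases ?_ h1 j
    refine dl_core_root p h hρ (C := C / ‖ω 0‖ + ∑ j : Fin k, ‖ω j.succ / ω 0‖) (M := M)
      fun m hm => ?_
    have e : s 0 ^ (p ^ h) ^ m =
        ε m - ∑ j : Fin k, ω j.succ / ω 0 * s j.succ ^ (p ^ h) ^ m := by
      rw [hε, add_sub_cancel_right]
    rw [← norm_pow, e, add_mul, Finset.sum_mul]
    refine (norm_sub_le _ _).trans (add_le_add (hε1 m hm) ((norm_sum_le _ _).trans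
      (Finset.sum_le_sum fun j _ => ?_)))
    rw [norm_mul, norm_pow]
    exact mul_le_mul_of_nonneg_left (pow_le_pow_left₀ (norm_nonneg _) (h1 j) _) (norm_nonneg _)

omit [IsUltrametricDist K] [NeZero h] in
theorem dl_sum_basis {T : Type*} (A : Finset T) (c : T → K) :
    ∃ (k : ℕ) (ω : Fin k → K) (r : T → Fin k → Ffix K p h),
      LinearIndependent (Ffix K p h) ω ∧ ∀ i ∈ A, c i = ∑ j, r i j • ω j := by
  classical
  let V := Submodule.span (Ffix K p h) (c '' (A : Set T))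
  have : Module.Finite (Ffix K p h) V :=
    Module.Finite.span_of_finite _ (A.finite_toSet.image c)
  let b := Module.finBasis (Ffix K p h) V
  refine ⟨_, fun j => (b j : K), fun i j => if hi : i ∈ A then
    b.repr ⟨c i, Submodule.subset_span ⟨i, hi, rfl⟩⟩ j else 0,
    b.linearIndependent.map' V.subtype (Submodule.ker_subtype V), fun i hi => ?_⟩
  have := congrArg V.subtype (b.sum_repr ⟨c i, Submodule.subset_span ⟨i, hi, rfl⟩⟩)
  simp only [dif_pos hi]
  rw [map_sum] at this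
  exact this.symm

/-- Expand the `c i` in a basis `ω` of their span: `c i = ∑ r_{ij} ω_j`, `s_j = ∑_i r_{ij} t_i`. -/
theorem dl_sum {T : Type*} (A : Finset T) (c t : T → K) {ρ : ℝ} (hρ : 0 ≤ ρ) {C : ℝ} {M : ℕ}
    (hs : ∀ m, M ≤ m → ‖∑ i ∈ A, c i * t i ^ (p ^ h) ^ m‖ ≤ C * ρ ^ (p ^ h) ^ m)
    (χ : K →ₗ[Ffix K p h] Ffix K p h) : ‖∑ i ∈ A, (χ (c i) : K) * t i‖ ≤ ρ := by
  obtain ⟨k, ω, r, hω, hr⟩ := dl_sum_basis p h A c
  have h1 := dl_core p h ω hω (fun j => ∑ i ∈ A, (r i j : K) * t i) hρ (C := C) (M := M)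
    fun m hm => by
      refine le_of_eq_of_le (congrArg norm ?_) (hs m hm)
      simp only [dl_core_pow_sum, mul_pow, dl_core_fix, Finset.mul_sum]
      rw [Finset.sum_comm]
      refine Finset.sum_congr rfl fun i hi => ?_
      rw [hr i hi, Finset.sum_mul]
      refine Finset.sum_congr rfl fun j _ => ?_
      change _ = (r i j : K) * ω j * _
      ring
  have e : ∑ i ∈ A, (χ (c i) : K) * t i =
      ∑ j, (χ (ω j) : K) * ∑ i ∈ A, (r i j : K) * t i := by
    simp only [Finset.mul_sum]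
    rw [Finset.sum_comm]
    refine Finset.sum_congr rfl fun i hi => ?_
    rw [hr i hi, map_sum]
    simp only [map_smul, smul_eq_mul]
    push_cast
    rw [Finset.sum_mul]
    exact Finset.sum_congr rfl fun j _ => by ring
  rw [e]
  refine IsUltrametricDist.norm_sum_le_of_forall_le_of_nonneg hρ fun j _ => ?_
  rw [norm_mul]
  exact (mul_le_of_le_one_left (norm_nonneg _) (Ob.norm_le (iF K p h (χ (ω j))))).trans (h1 j)

/-- Apply an `F_Q`-linear form to the coefficients. -/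
noncomputable def chi {σ : Type*} (χ : K →ₗ[Ffix K p h] Ffix K p h) (Φ : MvPowerSeries σ K) :
    MvPowerSeries σ (Ffix K p h) := fun γ => χ (coeff γ Φ)

omit [IsUltrametricDist K] [NeZero h] in
theorem coeff_chi {σ : Type*} (χ : K →ₗ[Ffix K p h] Ffix K p h) (Φ : MvPowerSeries σ K)
    (γ : σ →₀ ℕ) : coeff γ (chi p h χ Φ) = χ (coeff γ Φ) := rfl

theorem eq_zero_of_forall_chi {c : K} (hc : ∀ χ : K →ₗ[Ffix K p h] Ffix K p h, χ c = 0) :
    c = 0 := by
  exact (Module.forall_dual_apply_eq_zero_iff (Ffix K p h) c).1 hc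

variable [CompleteSpace K] (u : Unif K) {σ : Type*} [Fintype σ]

omit [CompleteSpace K] in
theorem dl_series_bound (θ : σ → Ob K) (hθ : ∀ s, θ s ∈ u.I.radical) :
    ∃ r : ℝ, 0 ≤ r ∧ r < 1 ∧ ∀ s, ‖(θ s : K)‖ ≤ r := by
  rcases isEmpty_or_nonempty σ with hσ | hσ
  · exact ⟨0, le_rfl, one_pos, fun s => isEmptyElim s⟩
  · obtain ⟨s, hs⟩ := Finite.exists_max fun s => ‖(θ s : K)‖
    exact ⟨_, norm_nonneg _, u.mem_radical.1 (hθ s), hs⟩

/-- `dl_sum` for each truncation, and `ev_sub_trunc_mem`. -/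
theorem dl_series (Φ : MvPowerSeries σ K) (θ : σ → Ob K) (hθ : ∀ s, θ s ∈ u.I.radical) {ρ : ℝ}
    (hρ : 0 ≤ ρ) (hρ1 : ρ < 1)
    (hΦ : ∀ L : ℕ, ∃ (C : ℝ) (M : ℕ), ∀ m, M ≤ m →
      ‖MvPolynomial.eval (fun s => (θ s : K) ^ (p ^ h) ^ m) (truncTotal L Φ)‖ ≤
        C * (ρ ^ L) ^ (p ^ h) ^ m)
    (χ : K →ₗ[Ffix K p h] Ffix K p h) : ev u.I (iF K p h) θ (chi p h χ Φ) = 0 := by
  classical
  obtain ⟨r, hr0, hr1, hr⟩ := dl_series_bound u θ hθ
  have key : ∀ L : ℕ, ‖((ev u.I (iF K p h) θ (chi p h χ Φ) : Ob K) : K)‖ ≤ r ^ L + ρ ^ L := by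
    intro L
    obtain ⟨C, M, hC⟩ := hΦ L
    have h1 := Ob.norm_le_of_mem_span_pow hr0 hr
      (ev_sub_trunc_mem u.I (iF K p h) hθ L (chi p h χ Φ))
    have h2 := dl_sum p h (truncTotal L Φ).support (fun γ => (truncTotal L Φ).coeff γ)
      (fun γ => ∏ s, (θ s : K) ^ γ s) (pow_nonneg hρ L) (C := C) (M := M) (fun m hm => by
        refine le_of_eq_of_le (congrArg norm ?_) (hC m hm)
        rw [MvPolynomial.eval_eq']
        refine Finset.sum_congr rfl fun γ _ => ?_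
        rw [← Finset.prod_pow]
        congr 1
        exact Finset.prod_congr rfl fun s _ => pow_right_comm _ _ _) χ
    have hco : ∀ γ, (truncTotal L (chi p h χ Φ)).coeff γ = χ ((truncTotal L Φ).coeff γ) := by
      intro γ
      rw [coeff_truncTotal_eq_ite, coeff_truncTotal_eq_ite, coeff_chi]
      split_ifs
      · rfl
      · rw [map_zero]
    have e : ((MvPolynomial.eval₂ (iF K p h) θ (truncTotal L (chi p h χ Φ)) : Ob K) : K) =
        ∑ γ ∈ (truncTotal L Φ).support,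
          (χ ((truncTotal L Φ).coeff γ) : K) * ∏ s, (θ s : K) ^ γ s := by
      rw [MvPolynomial.eval₂_eq']
      push_cast
      simp only [hco, iF_coe]
      refine Finset.sum_subset (fun γ hγ => ?_) fun γ _ hγ => ?_
      · rw [MvPolynomial.mem_support_iff] at hγ ⊢
        intro h0
        rw [hco, h0, map_zero] at hγ
        exact hγ rfl
      · rw [MvPolynomial.notMem_support_iff, hco] at hγ
        rw [hγ]
        simp
    rw [← e] at h2
    rw [AddSubgroupClass.coe_sub] at h1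
    rw [← sub_add_cancel ((ev u.I (iF K p h) θ (chi p h χ Φ) : Ob K) : K)
      ((MvPolynomial.eval₂ (iF K p h) θ (truncTotal L (chi p h χ Φ)) : Ob K) : K)]
    exact (norm_add_le _ _).trans (add_le_add h1 h2)
  have ht : Filter.Tendsto (fun L : ℕ => r ^ L + ρ ^ L) Filter.atTop (nhds 0) := by
    simpa using (tendsto_pow_atTop_nhds_zero_of_lt_one hr0 hr1).add
      (tendsto_pow_atTop_nhds_zero_of_lt_one hρ hρ1)
  exact Subtype.ext (norm_le_zero_iff.1 (ge_of_tendsto' ht key))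

theorem dl_exact (Ψ : MvPowerSeries σ (Ob K)) (θ : σ → Ob K) (hθ : ∀ s, θ s ∈ u.I.radical)
    (hΨ : ∀ m, ev u.I (RingHom.id _) (fun s => θ s ^ (p ^ h) ^ m) Ψ = 0)
    (χ : K →ₗ[Ffix K p h] Ffix K p h) :
    ev u.I (iF K p h) θ (chi p h χ (map (Ob K).subtype Ψ)) = 0 := by
  classical
  obtain ⟨r, hr0, hr1, hr⟩ := dl_series_bound u θ hθ
  refine dl_series p h u _ θ hθ hr0 hr1 (fun L => ⟨1, 0, fun m _ => ?_⟩) χ
  have hQ : (p ^ h) ^ m ≠ 0 := pow_ne_zero _ (pow_ne_zero _ (Fact.out : p.Prime).ne_zero)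
  have h1 := Ob.norm_le_of_mem_span_pow (pow_nonneg hr0 ((p ^ h) ^ m))
    (f := fun s => θ s ^ (p ^ h) ^ m) (fun s => by
      rw [Subring.coe_pow, norm_pow]
      exact pow_le_pow_left₀ (norm_nonneg _) (hr s) _)
    (ev_sub_trunc_mem u.I (RingHom.id _)
      (fun s => Ideal.pow_mem_of_mem _ (hθ s) _ (Nat.pos_of_ne_zero hQ)) L Ψ)
  rw [hΨ, zero_sub, NegMemClass.coe_neg, norm_neg] at h1
  have e : truncTotal L (map (Ob K).subtype Ψ) =
      MvPolynomial.map (Ob K).subtype (truncTotal L Ψ) := by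
    ext γ
    rw [MvPolynomial.coeff_map, coeff_truncTotal_eq_ite, coeff_truncTotal_eq_ite, coeff_map]
    split_ifs
    · rfl
    · rw [map_zero]
  have e2 : MvPolynomial.eval (fun s => (θ s : K) ^ (p ^ h) ^ m)
      (MvPolynomial.map (Ob K).subtype (truncTotal L Ψ)) =
      ((MvPolynomial.eval₂ (RingHom.id _) (fun s => θ s ^ (p ^ h) ^ m) (truncTotal L Ψ) : Ob K) :
        K) := by
    rw [MvPolynomial.eval_map]
    exact (MvPolynomial.eval₂_comp_left (Ob K).subtype (RingHom.id _)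
      (fun s => θ s ^ (p ^ h) ^ m) (truncTotal L Ψ)).symm
  rw [e, e2, one_mul, pow_right_comm r]
  exact h1

end Crest.R227
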