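import Crest.Prelude.Def_LubinTate

/-! Row 227. Evaluation of power series at elements that are nilpotent modulo `I` in an
`I`-adically complete ring.  Everything follows from `ev_exists` and `hom_ext`. -/

set_option autoImplicit false

namespace Crest.R227

open MvPowerSeries

variable {R R' B B' : Type*} [CommRing R] [CommRing R'] [CommRing B] [CommRing B']
variable {σ τ : Type*} [Finite σ] [Finite τ]

omit [Finite σ] in
theorem mem_span_X_pow_map (φ : MvPowerSeries σ R →+* B) {d : ℕ} {f : MvPowerSeries σ R}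
    (hf : f ∈ (Ideal.span (Set.range (X : σ → MvPowerSeries σ R))) ^ d) :
    φ f ∈ (Ideal.span (Set.range fun s => φ (X s))) ^ d := by
  have := Ideal.mem_map_of_mem φ hf
  rwa [Ideal.map_pow, Ideal.map_span, ← Set.range_comp] at this

omit [Finite σ] in
theorem mem_span_X_pow_poly (φ : MvPolynomial σ R →+* B) {d : ℕ} {f : MvPolynomial σ R}
    (hf : f ∈ MvPolynomial.idealOfVars σ R ^ d) :
    φ f ∈ (Ideal.span (Set.range fun s => φ (MvPolynomial.X s))) ^ d := by
  have := Ideal.mem_map_of_mem φ hf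
  rwa [Ideal.map_pow, Ideal.map_span, ← Set.range_comp] at this

omit [Finite σ] in
theorem mem_span_X_pow_monomial {d : ℕ} {μ : σ →₀ ℕ} (hμ : μ.degree = d) :
    (monomial μ (1 : R) : MvPowerSeries σ R) ∈
      (Ideal.span (Set.range (X : σ → MvPowerSeries σ R))) ^ d := by
  classical
  have h1 : (MvPolynomial.monomial μ (1 : R)) ∈ MvPolynomial.idealOfVars σ R ^ d :=
    (MvPolynomial.mem_pow_idealOfVars_iff' ..).2 fun x hx => by
      rw [MvPolynomial.coeff_monomial, if_neg]
      rintro rfl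
      omega
  have h2 := mem_span_X_pow_poly MvPolynomial.coeToMvPowerSeries.ringHom h1
  simpa using h2

/-- A series without terms of total degree `< d` lies in the `d`-th power of the ideal of
variables. -/
theorem mem_span_X_pow {d : ℕ} {f : MvPowerSeries σ R}
    (hf : ∀ γ : σ →₀ ℕ, γ.degree < d → coeff γ f = 0) :
    f ∈ (Ideal.span (Set.range (X : σ → MvPowerSeries σ R))) ^ d := by
  classical
  have hch : ∀ γ : σ →₀ ℕ, d ≤ γ.degree → ∃ μ ≤ γ, μ.degree = d := fun γ hγ =>
    Finsupp.exists_le_degree_eq γ d hγ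
  choose! c hc hcd using hch
  obtain ⟨g, hg⟩ : ∃ g : (σ →₀ ℕ) → MvPowerSeries σ R,
      ∀ μ δ, coeff δ (g μ) = if c (μ + δ) = μ then coeff (μ + δ) f else 0 :=
    ⟨fun μ δ => if c (μ + δ) = μ then coeff (μ + δ) f else 0, fun _ _ => rfl⟩
  obtain ⟨T, hT⟩ : ∃ T : Finset (σ →₀ ℕ), ∀ μ, μ ∈ T ↔ μ.degree = d :=
    ⟨(Finsupp.finite_of_degree_eq (σ := σ) d).toFinset, fun μ => by simp⟩
  have e : f = ∑ μ ∈ T, monomial μ (1 : R) * g μ := by
    ext γ
    rw [map_sum]
    have e1 : ∀ μ : σ →₀ ℕ, coeff γ (monomial μ (1 : R) * g μ) =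
        if μ ≤ γ ∧ c γ = μ then coeff γ f else 0 := fun μ => by
      rw [coeff_monomial_mul]
      by_cases h : μ ≤ γ
      · rw [if_pos h, one_mul, hg, add_tsub_cancel_of_le h]
        simp [h]
      · simp [h]
    simp only [e1]
    by_cases hγ : γ.degree < d
    · simp [hf γ hγ]
    · rw [Finset.sum_eq_single (c γ)]
      · simp [hc γ (not_lt.1 hγ)]
      · intro μ _ hμ
        exact if_neg fun h => hμ h.2.symm
      · intro h
        exact absurd ((hT _).2 (hcd γ (not_lt.1 hγ))) h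
  rw [e]
  exact Ideal.sum_mem _ fun μ hμ => Ideal.mul_mem_right _ _
    (mem_span_X_pow_monomial ((hT μ).1 hμ))

theorem coeff_eq_zero_of_mem_span_X_pow_coe (d : ℕ) (p : MvPolynomial σ R) :
    truncTotalAlgHom σ R d (p : MvPowerSeries σ R) = Ideal.Quotient.mk _ p :=
  (truncTotalAlgHom σ R d).commutes p

theorem coeff_eq_zero_of_mem_span_X_pow {d : ℕ} {f : MvPowerSeries σ R}
    (hf : f ∈ (Ideal.span (Set.range (X : σ → MvPowerSeries σ R))) ^ d)
    (γ : σ →₀ ℕ) (hγ : γ.degree < d) : coeff γ f = 0 := by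
  have h1 := mem_span_X_pow_map (truncTotalAlgHom σ R d).toRingHom hf
  have h2 : (Ideal.span (Set.range fun s => (truncTotalAlgHom σ R d).toRingHom (X s))) ^ d = ⊥ := by
    have : (fun s => (truncTotalAlgHom σ R d).toRingHom (X s)) =
        Ideal.Quotient.mk (MvPolynomial.idealOfVars σ R ^ d) ∘ MvPolynomial.X := by
      funext s
      rw [← MvPolynomial.coe_X]
      exact coeff_eq_zero_of_mem_span_X_pow_coe d _
    rw [this, Set.range_comp, ← Ideal.map_span, ← Ideal.map_pow, Ideal.map_quotient_self]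
  rw [h2, Ideal.mem_bot] at h1
  have h3 : truncTotal d f ∈ MvPolynomial.idealOfVars σ R ^ d :=
    Ideal.Quotient.eq_zero_iff_mem.1 h1
  rw [← coeff_truncTotal f hγ]
  exact (MvPolynomial.mem_pow_idealOfVars_iff' ..).1 h3 γ hγ

theorem sub_truncTotal_mem (d : ℕ) (f : MvPowerSeries σ R) :
    f - (truncTotal d f : MvPolynomial σ R) ∈
      (Ideal.span (Set.range (X : σ → MvPowerSeries σ R))) ^ d := by
  refine mem_span_X_pow fun γ hγ => ?_
  rw [map_sub, MvPolynomial.coeff_coe, coeff_truncTotal f hγ, sub_self]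

theorem ev_exists_pow (I : Ideal B) {a : σ → B} (ha : ∀ s, a s ∈ I.radical) (k : ℕ) :
    ∃ N, (Ideal.span (Set.range a)) ^ N ≤ I ^ k := by
  obtain ⟨n, hn⟩ := Ideal.exists_pow_le_of_le_radical_of_fg (I := Ideal.span (Set.range a)) (J := I)
    (Ideal.span_le.2 (Set.range_subset_iff.2 ha)) (Submodule.fg_span (Set.finite_range _))
  exact ⟨n * k, by rw [pow_mul]; exact Ideal.pow_right_mono hn k⟩

theorem ev_exists_ext (I : Ideal B) [IsHausdorff I B] {φ ψ : MvPowerSeries σ R →+* B}
    (hX : ∀ s, φ (X s) ∈ I.radical) (hC : ∀ r, φ (C r) = ψ (C r))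
    (h : ∀ s, φ (X s) = ψ (X s)) : φ = ψ := by
  have hp : ∀ p : MvPolynomial σ R, φ p = ψ p := fun p => by
    have : φ.comp MvPolynomial.coeToMvPowerSeries.ringHom =
        ψ.comp MvPolynomial.coeToMvPowerSeries.ringHom :=
      MvPolynomial.ringHom_ext (fun r => by simpa using hC r) (fun s => by simpa using h s)
    exact DFunLike.congr_fun this p
  apply DFunLike.coe_injective
  apply IsHausdorff.funext' I
  intro k f
  obtain ⟨N, hN⟩ := ev_exists_pow I hX k
  have h1 := hN (mem_span_X_pow_map φ (sub_truncTotal_mem N f))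
  have h2 := mem_span_X_pow_map ψ (sub_truncTotal_mem N f)
  simp only [← h] at h2
  have h3 := sub_mem h1 (hN h2)
  rw [map_sub, map_sub, hp, sub_sub_sub_cancel_right] at h3
  exact Ideal.Quotient.eq.2 h3

theorem ev_exists_nil (ι : R →+* B) (a : σ → B) (ha : ∀ s, a s ∈ (⊥ : Ideal B).radical) :
    ∃ φ : MvPowerSeries σ R →+* B, (∀ r, φ (C r) = ι r) ∧ ∀ s, φ (X s) = a s := by
  obtain ⟨N, hN⟩ := ev_exists_pow ⊥ ha 1
  have hk : ∀ p ∈ MvPolynomial.idealOfVars σ R ^ N, MvPolynomial.eval₂Hom ι a p = 0 := fun p hp => by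
    have h1 := mem_span_X_pow_poly (MvPolynomial.eval₂Hom ι a) hp
    simp only [MvPolynomial.eval₂Hom_X'] at h1
    simpa using hN h1
  have hφ : ∀ p : MvPolynomial σ R, ((Ideal.Quotient.lift _ _ hk).comp
      (truncTotalAlgHom σ R N).toRingHom) (p : MvPowerSeries σ R) =
      MvPolynomial.eval₂Hom ι a p := fun p => by
    change Ideal.Quotient.lift _ _ hk (truncTotalAlgHom σ R N (p : MvPowerSeries σ R)) = _
    rw [coeff_eq_zero_of_mem_span_X_pow_coe, Ideal.Quotient.lift_mk]
  refine ⟨(Ideal.Quotient.lift _ _ hk).comp (truncTotalAlgHom σ R N).toRingHom, fun r => ?_,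
    fun s => ?_⟩
  · rw [← MvPolynomial.coe_C, hφ, MvPolynomial.eval₂Hom_C]
  · rw [← MvPolynomial.coe_X, hφ, MvPolynomial.eval₂Hom_X']

theorem ev_exists (I : Ideal B) [IsAdicComplete I B] (ι : R →+* B) (a : σ → B)
    (ha : ∀ s, a s ∈ I.radical) :
    ∃ φ : MvPowerSeries σ R →+* B, (∀ r, φ (C r) = ι r) ∧ ∀ s, φ (X s) = a s := by
  have hnil : ∀ (k : ℕ) s, Ideal.Quotient.mk (I ^ k) (a s) ∈ (⊥ : Ideal (B ⧸ I ^ k)).radical := by
    intro k s
    obtain ⟨n, hn⟩ := ha s
    refine ⟨n * k, ?_⟩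
    rw [Ideal.mem_bot, ← map_pow, Ideal.Quotient.eq_zero_iff_mem, pow_mul]
    exact Ideal.pow_mem_pow hn k
  choose f hfC hfX using fun k : ℕ => ev_exists_nil ((Ideal.Quotient.mk (I ^ k)).comp ι)
    (fun s => Ideal.Quotient.mk (I ^ k) (a s)) (hnil k)
  have hf : ∀ {m n : ℕ} (hle : m ≤ n), (Ideal.Quotient.factorPow I hle).comp (f n) = f m := by
    intro m n hle
    symm
    refine ev_exists_ext ⊥ (fun s => by rw [hfX]; exact hnil m s) (fun r => ?_) fun s => ?_
    · simp [hfC]
    · simp [hfX]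
  have hext : ∀ x y : B, (∀ k, Ideal.Quotient.mk (I ^ k) x = Ideal.Quotient.mk (I ^ k) y) →
      x = y := fun x y hxy =>
    congrFun (IsHausdorff.funext' I (f := fun _ : Unit => x) (g := fun _ : Unit => y)
      fun k _ => hxy k) ()
  refine ⟨IsAdicComplete.liftRingHom I f hf, fun r => hext _ _ fun k => ?_,
    fun s => hext _ _ fun k => ?_⟩
  · rw [IsAdicComplete.mk_liftRingHom, hfC, RingHom.comp_apply]
  · rw [IsAdicComplete.mk_liftRingHom, hfX]

/-- Two ring maps out of a power series ring that agree on constants and variables, and send the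
variables to topologically nilpotent elements of a separated ring, are equal. -/
theorem hom_ext (I : Ideal B) [IsHausdorff I B] {φ ψ : MvPowerSeries σ R →+* B}
    (hX : ∀ s, φ (X s) ∈ I.radical) (hC : ∀ r, φ (C r) = ψ (C r))
    (h : ∀ s, φ (X s) = ψ (X s)) : φ = ψ := by
  exact ev_exists_ext I hX hC h

open Classical in
/-- Evaluation of a power series over `R` at `a : σ → B` along `ι : R →+* B`. -/
noncomputable def ev (I : Ideal B) [IsAdicComplete I B] (ι : R →+* B) (a : σ → B) :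
    MvPowerSeries σ R →+* B :=
  if ha : ∀ s, a s ∈ I.radical then (ev_exists I ι a ha).choose else ι.comp constantCoeff

/-- One-variable evaluation. -/
noncomputable def ev1 (I : Ideal B) [IsAdicComplete I B] (ι : R →+* B) (a : B) :
    PowerSeries R →+* B :=
  ev I ι (fun _ : Unit => a)

section
variable (I : Ideal B) [IsAdicComplete I B] (ι : R →+* B)

theorem ev_C (a : σ → B) (r : R) : ev I ι a (C r) = ι r := by
  unfold ev
  split_ifs with ha
  · exact (ev_exists I ι a ha).choose_spec.1 r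
  · simp

theorem ev_X {a : σ → B} (ha : ∀ s, a s ∈ I.radical) (s : σ) : ev I ι a (X s) = a s := by
  unfold ev
  rw [dif_pos ha]
  exact (ev_exists I ι a ha).choose_spec.2 s

theorem eq_ev {a : σ → B} (ha : ∀ s, a s ∈ I.radical) {φ : MvPowerSeries σ R →+* B}
    (hC : ∀ r, φ (C r) = ι r) (hX : ∀ s, φ (X s) = a s) : φ = ev I ι a :=
  hom_ext I (fun s => by rw [hX]; exact ha s) (fun r => by rw [hC, ev_C])
    (fun s => by rw [hX, ev_X I ι ha])

theorem ev_coe {a : σ → B} (ha : ∀ s, a s ∈ I.radical) (f : MvPolynomial σ R) :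
    ev I ι a (f : MvPowerSeries σ R) = MvPolynomial.eval₂ ι a f := by
  have : (ev I ι a).comp MvPolynomial.coeToMvPowerSeries.ringHom = MvPolynomial.eval₂Hom ι a := by
    apply MvPolynomial.ringHom_ext
    · intro r
      simp [ev_C]
    · intro s
      simp [ev_X I ι ha]
  exact DFunLike.congr_fun this f

theorem ev_mem_span_pow_aux {a : σ → B} (ha : ∀ s, a s ∈ I.radical) {d : ℕ}
    {f : MvPowerSeries σ R}
    (hf : f ∈ (Ideal.span (Set.range (X : σ → MvPowerSeries σ R))) ^ d) :
    ev I ι a f ∈ (Ideal.span (Set.range a)) ^ d := by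
  have h := Ideal.mem_map_of_mem (ev I ι a) hf
  rw [Ideal.map_pow, Ideal.map_span, ← Set.range_comp] at h
  have e : (ev I ι a) ∘ (X : σ → MvPowerSeries σ R) = a := funext fun s => ev_X I ι ha s
  rwa [e] at h

theorem ev_mem_span_pow {a : σ → B} (ha : ∀ s, a s ∈ I.radical) {d : ℕ} {f : MvPowerSeries σ R}
    (hf : ∀ γ : σ →₀ ℕ, γ.degree < d → coeff γ f = 0) :
    ev I ι a f ∈ (Ideal.span (Set.range a)) ^ d := by
  exact ev_mem_span_pow_aux I ι ha (mem_span_X_pow hf)

theorem ev_sub_trunc_mem {a : σ → B} (ha : ∀ s, a s ∈ I.radical) (d : ℕ)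
    (f : MvPowerSeries σ R) :
    ev I ι a f - MvPolynomial.eval₂ ι a (truncTotal d f) ∈ (Ideal.span (Set.range a)) ^ d := by
  have h := ev_mem_span_pow_aux I ι ha (sub_truncTotal_mem d f)
  rwa [map_sub, ev_coe I ι ha] at h

theorem ev_sub_const_mem {a : σ → B} (ha : ∀ s, a s ∈ I.radical) (f : MvPowerSeries σ R) :
    ev I ι a f - ι (constantCoeff f) ∈ Ideal.span (Set.range a) := by
  classical
  have h := ev_mem_span_pow I ι ha (d := 1) (f := f - C (constantCoeff f)) fun γ hγ => by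
    have : γ = 0 := (Finsupp.degree_eq_zero_iff γ).1 (by omega)
    subst this
    simp
  rwa [map_sub, ev_C, pow_one] at h

/-- First-order expansion. -/
theorem ev_sub_linear_mem [Fintype σ] {a : σ → B} (ha : ∀ s, a s ∈ I.radical)
    (f : MvPowerSeries σ R) :
    ev I ι a f - ι (constantCoeff f) - ∑ s, ι (coeff (Finsupp.single s 1) f) * a s ∈
      (Ideal.span (Set.range a)) ^ 2 := by
  classical
  have h := ev_mem_span_pow I ι ha (d := 2)
    (f := f - C (constantCoeff f) - ∑ s, C (coeff (Finsupp.single s 1) f) * X s) fun γ hγ => by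
    by_cases h0 : γ.degree = 0
    · have : γ = 0 := (Finsupp.degree_eq_zero_iff γ).1 h0
      subst this
      simp
    · have h1 : γ ∈ Set.range fun s : σ => Finsupp.single s 1 := by
        rw [Finsupp.range_single_one]
        change γ.degree = 1
        omega
      obtain ⟨t, rfl⟩ := h1
      have h2 : (Finsupp.single t 1 : σ →₀ ℕ) ≠ 0 := by simp
      simp only [map_sub, map_sum, coeff_C_mul, coeff_X, coeff_C, if_neg h2,
        Finsupp.single_left_inj one_ne_zero]
      simp
  simpa only [map_sub, map_sum, map_mul, ev_C, ev_X I ι ha] using h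

theorem ev_mem_radical {a : σ → B} (ha : ∀ s, a s ∈ I.radical) {f : MvPowerSeries σ R}
    (hf : ι (constantCoeff f) ∈ I.radical) : ev I ι a f ∈ I.radical := by
  have h1 : Ideal.span (Set.range a) ≤ I.radical := Ideal.span_le.2 (Set.range_subset_iff.2 ha)
  have h := I.radical.add_mem (h1 (ev_sub_const_mem I ι ha f)) hf
  rwa [sub_add_cancel] at h

theorem ev_zero (f : MvPowerSeries σ R) : ev I ι (fun _ : σ => (0 : B)) f = ι (constantCoeff f) := by
  have h := ev_sub_const_mem I ι (a := fun _ : σ => (0 : B)) (fun _ => Ideal.zero_mem _) f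
  have h1 : Ideal.span (Set.range fun _ : σ => (0 : B)) ≤ ⊥ :=
    Ideal.span_le.2 (Set.range_subset_iff.2 fun _ => Ideal.zero_mem _)
  exact sub_eq_zero.1 (h1 h)

theorem comp_ev (I' : Ideal B') [IsAdicComplete I' B'] (ρ : B →+* B') {a : σ → B}
    (ha : ∀ s, a s ∈ I.radical) (ha' : ∀ s, ρ (a s) ∈ I'.radical) (f : MvPowerSeries σ R) :
    ρ (ev I ι a f) = ev I' (ρ.comp ι) (fun s => ρ (a s)) f := by
  exact DFunLike.congr_fun (eq_ev I' (ρ.comp ι) ha' (φ := ρ.comp (ev I ι a))
    (fun r => by simp [ev_C]) (fun s => by simp [ev_X I ι ha])) f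

theorem ev_map {a : σ → B} (ha : ∀ s, a s ∈ I.radical) (κ : R' →+* R) (f : MvPowerSeries σ R') :
    ev I ι a (map κ f) = ev I (ι.comp κ) a f := by
  exact DFunLike.congr_fun (eq_ev I (ι.comp κ) ha (φ := (ev I ι a).comp (map κ))
    (fun r => by simp [ev_C]) (fun s => by simp [ev_X I ι ha])) f

theorem ev_subst {a : τ → B} (ha : ∀ t, a t ∈ I.radical) {b : σ → MvPowerSeries τ R}
    (hb : ∀ s, constantCoeff (b s) = 0) (f : MvPowerSeries σ R) :
    ev I ι a (subst b f) = ev I ι (fun s => ev I ι a (b s)) f := by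
  have hs : HasSubst b := hasSubst_of_constantCoeff_zero hb
  have h := eq_ev I ι (a := fun s => ev I ι a (b s))
    (fun s => ev_mem_radical I ι ha (by rw [hb, map_zero]; exact Ideal.zero_mem _))
    (φ := (ev I ι a).comp (substAlgHom (R := R) hs : MvPowerSeries σ R →+* MvPowerSeries τ R))
    (fun r => by simp [ev_C]) (fun s => by simp [subst_X hs])
  rw [← h, ← substAlgHom_apply hs]
  rfl

/-- The evaluation does not depend on the ideal of definition. -/
theorem ev_indep (I' : Ideal B) [IsAdicComplete I' B] {a : σ → B} (ha : ∀ s, a s ∈ I.radical)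
    (ha' : ∀ s, a s ∈ I'.radical) : ev I ι a = ev I' ι a := by
  exact eq_ev I' ι ha' (ev_C I ι a) (ev_X I ι ha)

/-- Congruence in the coefficients, modulo an open ideal. -/
theorem ev_mem_of_coeff_mem {a : σ → B} (ha : ∀ s, a s ∈ I.radical) (J : Ideal B) {k : ℕ}
    (hJ : I ^ k ≤ J) {f : MvPowerSeries σ R} (hf : ∀ γ, ι (coeff γ f) ∈ J) : ev I ι a f ∈ J := by
  have h1 : Ideal.span (Set.range a) ≤ I.radical := Ideal.span_le.2 (Set.range_subset_iff.2 ha)
  obtain ⟨n, hn⟩ := Ideal.exists_pow_le_of_le_radical_of_fg h1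
    (Submodule.fg_span (Set.finite_range a))
  have h2 : Ideal.span (Set.range a) ^ (n * k) ≤ J := by
    rw [pow_mul]
    exact (Ideal.pow_right_mono hn k).trans hJ
  have h3 : MvPolynomial.eval₂ ι a (truncTotal (n * k) f) ∈ J := by
    rw [MvPolynomial.eval₂_eq]
    refine Ideal.sum_mem _ fun γ _ => Ideal.mul_mem_right _ _ ?_
    rw [coeff_truncTotal_eq_ite]
    split_ifs
    · exact hf γ
    · rw [map_zero]; exact J.zero_mem
  have h := J.add_mem (h2 (ev_sub_trunc_mem I ι ha (n * k) f)) h3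
  rwa [sub_add_cancel] at h

theorem ev1_C (a : B) (r : R) : ev1 I ι a (PowerSeries.C r) = ι r := ev_C I ι _ r

theorem ev1_X {a : B} (ha : a ∈ I.radical) : ev1 I ι a PowerSeries.X = a :=
  ev_X I ι (fun _ => ha) ()

theorem ev1_mem_radical {a : B} (ha : a ∈ I.radical) {f : PowerSeries R}
    (hf : ι (PowerSeries.constantCoeff f) ∈ I.radical) : ev1 I ι a f ∈ I.radical :=
  ev_mem_radical I ι (fun _ => ha) hf

theorem comp_ev1 (I' : Ideal B') [IsAdicComplete I' B'] (ρ : B →+* B') {a : B}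
    (ha : a ∈ I.radical) (ha' : ρ a ∈ I'.radical) (f : PowerSeries R) :
    ρ (ev1 I ι a f) = ev1 I' (ρ.comp ι) (ρ a) f :=
  comp_ev I ι I' ρ (fun _ => ha) (fun _ => ha') f

theorem ev1_map {a : B} (ha : a ∈ I.radical) (κ : R' →+* R) (f : PowerSeries R') :
    ev1 I ι a (PowerSeries.map κ f) = ev1 I (ι.comp κ) a f :=
  ev_map I ι (fun _ => ha) κ f

/-- Evaluating a one-variable series substituted with a multivariate series. -/
theorem ev_subst1 {a : τ → B} (ha : ∀ t, a t ∈ I.radical) {b : MvPowerSeries τ R}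
    (hb : constantCoeff b = 0) (f : PowerSeries R) :
    ev I ι a (PowerSeries.subst b f) = ev1 I ι (ev I ι a b) f :=
  ev_subst I ι ha (fun _ => hb) f

theorem ev1_subst {a : B} (ha : a ∈ I.radical) {b : PowerSeries R}
    (hb : PowerSeries.constantCoeff b = 0) (f : PowerSeries R) :
    ev1 I ι a (PowerSeries.subst b f) = ev1 I ι (ev1 I ι a b) f :=
  ev_subst1 I ι (fun _ => ha) hb f

theorem ev1_expand {a : B} (ha : a ∈ I.radical) {m : ℕ} (hm : m ≠ 0) (f : PowerSeries R) :
    ev1 I ι a (PowerSeries.expand m hm f) = ev1 I ι (a ^ m) f := by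
  rw [PowerSeries.expand_apply, ev1_subst I ι ha (by simp [hm]), map_pow, ev1_X I ι ha]

theorem ev1_sub_trunc_mem {a : B} (ha : a ∈ I.radical) (d : ℕ) (f : PowerSeries R) :
    ev1 I ι a f - ∑ k ∈ Finset.range d, ι (PowerSeries.coeff k f) * a ^ k ∈
      Ideal.span {a ^ d} := by
  have h : (PowerSeries.X : PowerSeries R) ^ d ∣
      f - ∑ k ∈ Finset.range d, PowerSeries.C (PowerSeries.coeff k f) * PowerSeries.X ^ k := by
    rw [PowerSeries.X_pow_dvd_iff]
    intro m hm
    simp only [map_sub, map_sum, PowerSeries.coeff_C_mul, PowerSeries.coeff_X_pow]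
    simp [hm]
  have h2 := map_dvd (ev1 I ι a) h
  simp only [map_sub, map_sum, map_mul, map_pow, ev1_C, ev1_X I ι ha] at h2
  exact Ideal.mem_span_singleton.2 h2

end

theorem ev_eq_subst_rad (J : Ideal (MvPowerSeries τ R))
    (hJ : ∀ t, (X t : MvPowerSeries τ R) ∈ J.radical) {b : MvPowerSeries τ R}
    (hb : constantCoeff b = 0) : b ∈ J.radical := by
  have h := mem_span_X_pow (d := 1) (f := b) fun γ hγ => by
    have : γ = 0 := (Finsupp.degree_eq_zero_iff γ).1 (by omega)
    subst this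
    simpa using hb
  rw [pow_one] at h
  exact Ideal.span_le.2 (Set.range_subset_iff.2 hJ) h

/-- In a power series ring, evaluation at series without constant term is substitution. -/
theorem ev_eq_subst (J : Ideal (MvPowerSeries τ R)) [IsAdicComplete J (MvPowerSeries τ R)]
    (hJ : ∀ t, (X t : MvPowerSeries τ R) ∈ J.radical) {b : σ → MvPowerSeries τ R}
    (hb : ∀ s, constantCoeff (b s) = 0) (f : MvPowerSeries σ R) :
    ev J (C : R →+* MvPowerSeries τ R) b f = subst b f := by
  have hs : HasSubst b := hasSubst_of_constantCoeff_zero hb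
  have h := eq_ev J (C : R →+* MvPowerSeries τ R) (a := b)
    (fun s => ev_eq_subst_rad J hJ (hb s))
    (φ := (substAlgHom (R := R) hs : MvPowerSeries σ R →+* MvPowerSeries τ R))
    (fun r => by simp) (fun s => by simp [subst_X hs])
  rw [← h, ← substAlgHom_apply hs]
  rfl

theorem mem_radical_of_constantCoeff (J : Ideal (MvPowerSeries τ R))
    (hJ : ∀ t, (X t : MvPowerSeries τ R) ∈ J.radical) {b : MvPowerSeries τ R}
    (hb : constantCoeff b = 0) : b ∈ J.radical := by
  exact ev_eq_subst_rad J hJ hb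

end Crest.R227
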