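import Crest.Agent.R227.Ev2

/-! Row 227. Formal calculus of homomorphisms of formal group laws. -/

set_option autoImplicit false

namespace Crest.R227

open Crest.LubinTate

variable {R S T : Type*} [CommRing R] [CommRing S] [CommRing T]

/-- Composition `f ∘ g` of one-variable series. -/
noncomputable abbrev cmp (f g : PowerSeries R) : PowerSeries R := PowerSeries.subst g f

/-- The formal sum `f +_F g` of two one-variable series. -/
noncomputable def fadd (F : FormalGroup R) (f g : PowerSeries R) : PowerSeries R :=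
  F.toPowerSeries.subst ![f, g]

theorem fg_map_map (F : FormalGroup R) (ρ : R →+* S) (ρ' : S →+* T) :
    (F.map ρ).map ρ' = F.map (ρ'.comp ρ) := by
  ext1
  simp [MvPowerSeries.map_map]

theorem fg_map_id (F : FormalGroup R) : F.map (RingHom.id R) = F := by
  ext1
  simp

theorem FG_hasSubst2 {τ : Type*} {g₀ g₁ : MvPowerSeries τ R}
    (h0 : MvPowerSeries.constantCoeff g₀ = 0) (h1 : MvPowerSeries.constantCoeff g₁ = 0) :
    MvPowerSeries.HasSubst ![g₀, g₁] :=
  MvPowerSeries.hasSubst_of_constantCoeff_zero fun s => by fin_cases s <;> simpa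

theorem FG_cc2 {τ : Type*} {g₀ g₁ : MvPowerSeries τ R}
    (h0 : MvPowerSeries.constantCoeff g₀ = 0) (h1 : MvPowerSeries.constantCoeff g₁ = 0)
    {f : MvPowerSeries (Fin 2) R} (hf : MvPowerSeries.constantCoeff f = 0) :
    MvPowerSeries.constantCoeff (f.subst ![g₀, g₁]) = 0 :=
  MvPowerSeries.constantCoeff_subst_eq_zero (FG_hasSubst2 h0 h1)
    (fun s => by fin_cases s <;> simpa) hf

theorem FG_map_subst2 {τ : Type*} (ρ : R →+* S) (f : MvPowerSeries (Fin 2) R)
    {g₀ g₁ : MvPowerSeries τ R} (h0 : MvPowerSeries.constantCoeff g₀ = 0)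
    (h1 : MvPowerSeries.constantCoeff g₁ = 0) :
    MvPowerSeries.map ρ (f.subst ![g₀, g₁]) =
      (MvPowerSeries.map ρ f).subst ![MvPowerSeries.map ρ g₀, MvPowerSeries.map ρ g₁] := by
  rw [MvPowerSeries.map_subst (FG_hasSubst2 h0 h1)]
  congr 1
  funext i
  fin_cases i <;> rfl

theorem FG_map_inj {τ : Type*} {ρ : R →+* S} (hρ : Function.Injective ρ) :
    Function.Injective (MvPowerSeries.map ρ : MvPowerSeries τ R → MvPowerSeries τ S) := by
  intro f g h
  ext γ
  apply hρ
  rw [← MvPowerSeries.coeff_map, ← MvPowerSeries.coeff_map, h]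

theorem FG_subst_sub_mem {σ τ : Type*} [Finite σ] [Finite τ] {a b : σ → MvPowerSeries τ R}
    (ha : ∀ s, MvPowerSeries.constantCoeff (a s) = 0)
    (hb : ∀ s, MvPowerSeries.constantCoeff (b s) = 0) (f : MvPowerSeries σ R) :
    f.subst a - f.subst b ∈ Ideal.span (Set.range fun s => a s - b s) := by
  have hJ : ∀ t, (MvPowerSeries.X t : MvPowerSeries τ R) ∈
      (Ideal.span (Set.range (MvPowerSeries.X : τ → MvPowerSeries τ R))).radical := fun t =>
    Ideal.le_radical (Ideal.subset_span ⟨t, rfl⟩)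
  rw [← ev_eq_subst _ hJ ha, ← ev_eq_subst _ hJ hb]
  exact ev_sub_ev_mem _ _ (fun s => mem_radical_of_constantCoeff _ hJ (ha s))
    (fun s => mem_radical_of_constantCoeff _ hJ (hb s)) f

theorem FG_dvd_right {τ : Type*} [Finite τ] {g g₁ g₂ : MvPowerSeries τ R}
    (h : MvPowerSeries.constantCoeff g = 0) (h1 : MvPowerSeries.constantCoeff g₁ = 0)
    (h2 : MvPowerSeries.constantCoeff g₂ = 0) (f : MvPowerSeries (Fin 2) R) :
    g₁ - g₂ ∣ f.subst ![g, g₁] - f.subst ![g, g₂] := by
  rw [← Ideal.mem_span_singleton]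
  refine Ideal.span_le.2 ?_ (FG_subst_sub_mem (a := ![g, g₁]) (b := ![g, g₂])
    (fun s => by fin_cases s <;> simpa) (fun s => by fin_cases s <;> simpa) f)
  rintro _ ⟨s, rfl⟩
  fin_cases s <;> simp

theorem FG_dvd_left {τ : Type*} [Finite τ] {g g₁ g₂ : MvPowerSeries τ R}
    (h : MvPowerSeries.constantCoeff g = 0) (h1 : MvPowerSeries.constantCoeff g₁ = 0)
    (h2 : MvPowerSeries.constantCoeff g₂ = 0) (f : MvPowerSeries (Fin 2) R) :
    g₁ - g₂ ∣ f.subst ![g₁, g] - f.subst ![g₂, g] := by
  rw [← Ideal.mem_span_singleton]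
  refine Ideal.span_le.2 ?_ (FG_subst_sub_mem (a := ![g₁, g]) (b := ![g₂, g])
    (fun s => by fin_cases s <;> simpa) (fun s => by fin_cases s <;> simpa) f)
  rintro _ ⟨s, rfl⟩
  fin_cases s <;> simp

instance fg_map_isComm (F : FormalGroup R) [F.IsComm] (ρ : R →+* S) : (F.map ρ).IsComm := by
  refine ⟨?_⟩
  have h := congrArg (MvPowerSeries.map ρ) (FormalGroup.IsComm.comm (F := F))
  rw [FG_map_subst2 ρ _ (by simp) (by simp), MvPowerSeries.map_X, MvPowerSeries.map_X] at h
  exact h

theorem isComm_of_map_injective (F : FormalGroup R) {ρ : R →+* S} (hρ : Function.Injective ρ)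
    (h : (F.map ρ).IsComm) : F.IsComm := by
  refine ⟨FG_map_inj hρ ?_⟩
  rw [FG_map_subst2 ρ _ (by simp) (by simp), MvPowerSeries.map_X, MvPowerSeries.map_X]
  exact h.comm

/-- Descent of a law whose coefficients lie in the image of an injective ring map. -/
theorem exists_descend (G : FormalGroup S) {ρ : R →+* S} (hρ : Function.Injective ρ)
    (h : ∀ γ, MvPowerSeries.coeff γ G.toPowerSeries ∈ ρ.range) :
    ∃ F : FormalGroup R, F.map ρ = G := by
  choose c hc using h
  obtain ⟨f, hf⟩ : ∃ f : MvPowerSeries (Fin 2) R, MvPowerSeries.map ρ f = G.toPowerSeries :=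
    ⟨c, by ext γ; exact hc γ⟩
  have hco : ∀ γ, ρ (MvPowerSeries.coeff γ f) = MvPowerSeries.coeff γ G.toPowerSeries := fun γ => by
    rw [← hf, MvPowerSeries.coeff_map]
  have h0 : MvPowerSeries.constantCoeff f = 0 := by
    apply hρ
    rw [← MvPowerSeries.coeff_zero_eq_constantCoeff_apply, hco,
      MvPowerSeries.coeff_zero_eq_constantCoeff_apply, G.zero_constantCoeff, map_zero]
  refine ⟨⟨f, h0, hρ ?_, hρ ?_, FG_map_inj hρ ?_⟩, FormalGroup.ext hf⟩
  · rw [hco, G.lin_coeff_X, map_one]
  · rw [hco, G.lin_coeff_Y, map_one]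
  · rw [FG_map_subst2 ρ _ (FG_cc2 (by simp) (by simp) h0) (by simp),
      FG_map_subst2 ρ _ (by simp) (FG_cc2 (by simp) (by simp) h0),
      FG_map_subst2 ρ _ (by simp) (by simp), FG_map_subst2 ρ _ (by simp) (by simp), hf]
    simp only [MvPowerSeries.map_X]
    exact G.assoc

theorem fg_shape (F : FormalGroup R) : ∃ G : MvPowerSeries (Fin 2) R,
    F.toPowerSeries = MvPowerSeries.X 0 + MvPowerSeries.X 1 +
      MvPowerSeries.X 0 * MvPowerSeries.X 1 * G := by
  have hid : F.toPowerSeries.subst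
      ![(MvPowerSeries.X 0 : MvPowerSeries (Fin 2) R), MvPowerSeries.X 1] = F.toPowerSeries := by
    have : ![(MvPowerSeries.X 0 : MvPowerSeries (Fin 2) R), MvPowerSeries.X 1] =
        MvPowerSeries.X := by
      funext i
      fin_cases i <;> rfl
    rw [this, MvPowerSeries.subst_self, id]
  have h1 := FG_dvd_right (R := R) (τ := Fin 2) (g := MvPowerSeries.X 0) (g₁ := MvPowerSeries.X 1)
    (g₂ := 0) (by simp) (by simp) (by simp) F.toPowerSeries
  have h2 := FG_dvd_left (R := R) (τ := Fin 2) (g := MvPowerSeries.X 1) (g₁ := MvPowerSeries.X 0)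
    (g₂ := 0) (by simp) (by simp) (by simp) F.toPowerSeries
  rw [hid, F.add_zero (PowerSeries.HasSubst.X _), sub_zero] at h1
  rw [hid, F.zero_add (PowerSeries.HasSubst.X _), sub_zero] at h2
  obtain ⟨E, hE⟩ := dvd_sub h2 (dvd_refl _)
  have h3 : (MvPowerSeries.X 1 : MvPowerSeries (Fin 2) R) ∣ MvPowerSeries.X 0 * E := by
    rw [← hE, sub_right_comm]
    exact dvd_sub h1 (dvd_refl _)
  have h4 : (MvPowerSeries.X 1 : MvPowerSeries (Fin 2) R) ∣ E := by
    rw [MvPowerSeries.X_dvd_iff] at h3 ⊢
    intro m hm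
    have := h3 (Finsupp.single 0 1 + m) (by simp [hm])
    rwa [MvPowerSeries.X_def, MvPowerSeries.coeff_add_monomial_mul, one_mul] at this
  obtain ⟨G, rfl⟩ := h4
  exact ⟨G, by linear_combination hE⟩

theorem fadd_constantCoeff (F : FormalGroup R) {f g : PowerSeries R}
    (hf : PowerSeries.constantCoeff f = 0) (hg : PowerSeries.constantCoeff g = 0) :
    PowerSeries.constantCoeff (fadd F f g) = 0 := by
  exact FG_cc2 hf hg F.zero_constantCoeff

theorem fadd_shape (F : FormalGroup R) {f g : PowerSeries R}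
    (hf : PowerSeries.constantCoeff f = 0) (hg : PowerSeries.constantCoeff g = 0) :
    ∃ w : PowerSeries R, fadd F f g = f + g + f * g * w := by
  obtain ⟨G, hG⟩ := fg_shape F
  have hs := FG_hasSubst2 (τ := Unit) hf hg
  refine ⟨G.subst ![f, g], ?_⟩
  rw [fadd, hG, MvPowerSeries.subst_add hs, MvPowerSeries.subst_add hs, MvPowerSeries.subst_mul hs,
    MvPowerSeries.subst_mul hs, MvPowerSeries.subst_X hs, MvPowerSeries.subst_X hs]
  rfl

theorem map_fadd (F : FormalGroup R) (ρ : R →+* S) {f g : PowerSeries R}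
    (hf : PowerSeries.constantCoeff f = 0) (hg : PowerSeries.constantCoeff g = 0) :
    PowerSeries.map ρ (fadd F f g) =
      fadd (F.map ρ) (PowerSeries.map ρ f) (PowerSeries.map ρ g) := by
  exact FG_map_subst2 ρ F.toPowerSeries hf hg

theorem map_cmp (ρ : R →+* S) {g : PowerSeries R} (hg : PowerSeries.constantCoeff g = 0)
    (f : PowerSeries R) :
    PowerSeries.map ρ (cmp f g) = cmp (PowerSeries.map ρ f) (PowerSeries.map ρ g) := by
  exact PowerSeries.map_subst (PowerSeries.HasSubst.of_constantCoeff_zero' hg) f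

theorem constantCoeff_cmp {f g : PowerSeries R} (hf : PowerSeries.constantCoeff f = 0)
    (hg : PowerSeries.constantCoeff g = 0) :
    PowerSeries.constantCoeff (cmp f g) = 0 := by
  exact PowerSeries.constantCoeff_subst_eq_zero hg f hf

theorem coeff_one_cmp_split (f : PowerSeries R) {g : PowerSeries R}
    (hg : PowerSeries.constantCoeff g = 0) :
    cmp f g = g * cmp (PowerSeries.mk fun p => PowerSeries.coeff (p + 1) f) g +
      PowerSeries.C (PowerSeries.constantCoeff f) := by
  have hs := PowerSeries.HasSubst.of_constantCoeff_zero' hg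
  conv_lhs => rw [PowerSeries.eq_X_mul_shift_add_const f]
  rw [cmp, PowerSeries.subst_add hs, PowerSeries.subst_mul hs, PowerSeries.subst_X hs,
    PowerSeries.subst_C]
  rfl

theorem coeff_one_cmp_cc (f : PowerSeries R) {g : PowerSeries R}
    (hg : PowerSeries.constantCoeff g = 0) :
    PowerSeries.constantCoeff (cmp f g) = PowerSeries.constantCoeff f := by
  rw [coeff_one_cmp_split f hg]
  simp [hg]

theorem coeff_one_cmp (f : PowerSeries R) {g : PowerSeries R}
    (hg : PowerSeries.constantCoeff g = 0) :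
    PowerSeries.coeff 1 (cmp f g) =
      PowerSeries.coeff 1 f * PowerSeries.coeff 1 g := by
  rw [coeff_one_cmp_split f hg, map_add, PowerSeries.coeff_one_mul, coeff_one_cmp_cc _ hg, hg]
  simp [PowerSeries.coeff_C, mul_comm]

theorem cmp_assoc (f : PowerSeries R) {g h : PowerSeries R}
    (hg : PowerSeries.constantCoeff g = 0) (hh : PowerSeries.constantCoeff h = 0) :
    cmp (cmp f g) h = cmp f (cmp g h) := by
  exact PowerSeries.subst_comp_subst_apply (PowerSeries.HasSubst.of_constantCoeff_zero' hg)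
    (PowerSeries.HasSubst.of_constantCoeff_zero' hh) f

theorem cmp_X (f : PowerSeries R) : cmp f PowerSeries.X = f := by
  exact PowerSeries.X_subst f

theorem X_cmp {g : PowerSeries R} (hg : PowerSeries.constantCoeff g = 0) :
    cmp PowerSeries.X g = g := by
  exact PowerSeries.subst_X (PowerSeries.HasSubst.of_constantCoeff_zero' hg)

/-- `f(g) - f(g') ∈ (g - g')`. -/
theorem cmp_sub_cmp_dvd (f : PowerSeries R) {g g' : PowerSeries R}
    (hg : PowerSeries.constantCoeff g = 0) (hg' : PowerSeries.constantCoeff g' = 0) :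
    g - g' ∣ cmp f g - cmp f g' := by
  have := FG_subst_sub_mem (a := fun _ : Unit => g) (b := fun _ : Unit => g') (fun _ => hg)
    (fun _ => hg') f
  rw [Set.range_const, Ideal.mem_span_singleton] at this
  exact this

theorem exists_substInv {θ : PowerSeries R} (h0 : PowerSeries.constantCoeff θ = 0)
    (h1 : IsUnit (PowerSeries.coeff 1 θ)) :
    ∃ η : PowerSeries R, PowerSeries.constantCoeff η = 0 ∧ IsUnit (PowerSeries.coeff 1 η) ∧
      cmp η θ = PowerSeries.X ∧ cmp θ η = PowerSeries.X := by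
  exact ⟨θ.substInvOfIsUnit h1, θ.constantCoeff_substInvOfIsUnit h1,
    by rw [PowerSeries.coeff_one_substInvOfIsUnit]; exact Units.isUnit _,
    θ.subst_substInvOfIsUnit_left h0 h1, θ.subst_substInvOfIsUnit_right h0 h1⟩

theorem exists_negSeries_fix (T : PowerSeries R → PowerSeries R)
    (h0 : ∀ ν, PowerSeries.constantCoeff ν = 0 → PowerSeries.constantCoeff (T ν) = 0)
    (h : ∀ ν ν', PowerSeries.constantCoeff ν = 0 → PowerSeries.constantCoeff ν' = 0 →
      PowerSeries.X * (ν - ν') ∣ T ν - T ν') :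
    ∃ ν, PowerSeries.constantCoeff ν = 0 ∧ T ν = ν := by
  obtain ⟨s, hs0, hs⟩ : ∃ s : ℕ → PowerSeries R, s 0 = 0 ∧ ∀ k, s (k + 1) = T (s k) :=
    ⟨fun k => T^[k] 0, rfl, fun k => Function.iterate_succ_apply' T k 0⟩
  have hc : ∀ k, PowerSeries.constantCoeff (s k) = 0 := fun k => by
    induction k with
    | zero => rw [hs0, map_zero]
    | succ k ih => rw [hs]; exact h0 _ ih
  have h1 : ∀ k, PowerSeries.X ^ k ∣ s (k + 1) - s k := fun k => by
    induction k with
    | zero => rw [pow_zero]; exact one_dvd _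
    | succ k ih =>
      have := h _ _ (hc (k + 1)) (hc k)
      rw [← hs, ← hs] at this
      rw [pow_succ']
      exact (mul_dvd_mul_left _ ih).trans this
  have h2 : ∀ k m, k ≤ m → PowerSeries.X ^ k ∣ s m - s k := fun k m hkm => by
    induction m, hkm using Nat.le_induction with
    | base => rw [sub_self]; exact dvd_zero _
    | succ m hkm ih =>
      have := dvd_add ((pow_dvd_pow _ hkm).trans (h1 m)) ih
      rwa [sub_add_sub_cancel] at this
  obtain ⟨ν, hν⟩ : ∃ ν : PowerSeries R, ∀ k, PowerSeries.X ^ k ∣ ν - s k := by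
    refine ⟨PowerSeries.mk fun n => PowerSeries.coeff n (s (n + 1)), fun k => ?_⟩
    rw [PowerSeries.X_pow_dvd_iff]
    intro n hn
    have := PowerSeries.X_pow_dvd_iff.1 (h2 (n + 1) k hn) n (Nat.lt_succ_self n)
    rw [map_sub, sub_eq_zero] at this
    rw [map_sub, PowerSeries.coeff_mk, this, sub_self]
  have hν0 : PowerSeries.constantCoeff ν = 0 := by
    have := hν 1
    rw [pow_one, PowerSeries.X_dvd_iff, map_sub, hc, sub_zero] at this
    exact this
  refine ⟨ν, hν0, sub_eq_zero.1 ?_⟩
  ext n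
  have h3 : PowerSeries.X ^ (n + 1) ∣ T ν - s (n + 1) := by
    rw [hs, pow_succ']
    exact (mul_dvd_mul_left _ (hν n)).trans (h _ _ hν0 (hc n))
  have h4 := dvd_sub h3 (hν (n + 1))
  rw [sub_sub_sub_cancel_right] at h4
  exact PowerSeries.X_pow_dvd_iff.1 h4 n (Nat.lt_succ_self n)

theorem exists_negSeries (F : FormalGroup R) : ∃ ν : PowerSeries R,
    PowerSeries.constantCoeff ν = 0 ∧ fadd F PowerSeries.X ν = 0 := by
  obtain ⟨G, hG⟩ := fg_shape F
  have hX : PowerSeries.constantCoeff (PowerSeries.X : PowerSeries R) = 0 := by simp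
  have e : ∀ ν : PowerSeries R, PowerSeries.constantCoeff ν = 0 → fadd F PowerSeries.X ν =
      PowerSeries.X + ν + PowerSeries.X *
        (MvPowerSeries.subst ![PowerSeries.X, ν] (MvPowerSeries.X 1 * G) : PowerSeries R) := by
    intro ν hν
    have hs := FG_hasSubst2 (τ := Unit) hX hν
    rw [fadd, hG, mul_assoc, MvPowerSeries.subst_add hs, MvPowerSeries.subst_add hs,
      MvPowerSeries.subst_mul hs, MvPowerSeries.subst_X hs, MvPowerSeries.subst_X hs]
    rfl
  obtain ⟨ν, h0, h1⟩ := exists_negSeries_fix (fun ν => ν - fadd F PowerSeries.X ν)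
    (fun ν hν => by rw [map_sub, hν, fadd_constantCoeff F hX hν, sub_zero])
    (fun ν ν' hν hν' => by
      obtain ⟨w, hw⟩ := FG_dvd_right (τ := Unit) hX hν hν' (MvPowerSeries.X 1 * G)
      refine ⟨-w, ?_⟩
      rw [e ν hν, e ν' hν']
      have hw' : (MvPowerSeries.subst ![PowerSeries.X, ν] (MvPowerSeries.X 1 * G) : PowerSeries R) -
        (MvPowerSeries.subst ![PowerSeries.X, ν'] (MvPowerSeries.X 1 * G) : PowerSeries R) =
        (ν - ν') * w := hw
      linear_combination (-PowerSeries.X) * hw')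
  exact ⟨ν, h0, sub_eq_self.1 h1⟩

theorem mulSeries_constantCoeff (F : FormalGroup R) (m : ℕ) :
    PowerSeries.constantCoeff (mulSeries F m) = 0 := by
  induction m with
  | zero => simp [mulSeries]
  | succ m ih => exact fadd_constantCoeff F ih (by simp)

theorem mulSeries_coeff_one (F : FormalGroup R) (m : ℕ) :
    PowerSeries.coeff 1 (mulSeries F m) = (m : R) := by
  induction m with
  | zero => simp [mulSeries]
  | succ m ih =>
    obtain ⟨w, hw⟩ := fadd_shape F (mulSeries_constantCoeff F m)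
      (g := PowerSeries.X) (by simp)
    have e : mulSeries F (m + 1) = fadd F (mulSeries F m) PowerSeries.X := rfl
    rw [e, hw, map_add, map_add, ih, mul_assoc, PowerSeries.coeff_one_mul, mulSeries_constantCoeff]
    simp

theorem mulSeries_shape (F : FormalGroup R) (m : ℕ) : ∃ g : PowerSeries R,
    mulSeries F m = PowerSeries.C (m : R) * PowerSeries.X + PowerSeries.X ^ 2 * g := by
  have : PowerSeries.X ^ 2 ∣ mulSeries F m - PowerSeries.C (m : R) * PowerSeries.X := by
    rw [PowerSeries.X_pow_dvd_iff]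
    intro n hn
    interval_cases n
    · simp [mulSeries_constantCoeff]
    · rw [map_sub, mulSeries_coeff_one, PowerSeries.coeff_C_mul, PowerSeries.coeff_one_X, mul_one,
        sub_self]
  obtain ⟨g, hg⟩ := this
  exact ⟨g, by linear_combination hg⟩

theorem map_mulSeries (F : FormalGroup R) (ρ : R →+* S) (m : ℕ) :
    PowerSeries.map ρ (mulSeries F m) = mulSeries (F.map ρ) m := by
  induction m with
  | zero => simp [mulSeries]
  | succ m ih =>
    have e : mulSeries F (m + 1) = fadd F (mulSeries F m) PowerSeries.X := rfl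
    rw [e, map_fadd F ρ (mulSeries_constantCoeff F m) (by simp), ih, PowerSeries.map_X]
    rfl

end Crest.R227
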