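import Crest.Agent.R227.FG

/-! Row 227. Homomorphisms of formal group laws: composition, sums, inverses, transport. -/

set_option autoImplicit false

namespace Crest.R227

open Crest.LubinTate

variable {R S : Type*} [CommRing R] [CommRing S]

theorem isFGHom_X_pair {τ : Type*} {f g : MvPowerSeries τ R}
    (hf : MvPowerSeries.constantCoeff f = 0) (hg : MvPowerSeries.constantCoeff g = 0) :
    MvPowerSeries.HasSubst ![f, g] :=
  MvPowerSeries.hasSubst_of_constantCoeff_zero fun s => by fin_cases s <;> simpa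

theorem isFGHom_X_substA {τ υ : Type*} {b : τ → MvPowerSeries υ R}
    (hb : MvPowerSeries.HasSubst b) (P : MvPowerSeries (Fin 2) R) {f g : MvPowerSeries τ R}
    (hf : MvPowerSeries.constantCoeff f = 0) (hg : MvPowerSeries.constantCoeff g = 0) :
    MvPowerSeries.subst b (P.subst ![f, g]) =
      P.subst ![MvPowerSeries.subst b f, MvPowerSeries.subst b g] := by
  rw [MvPowerSeries.subst_comp_subst_apply (isFGHom_X_pair hf hg) hb]
  congr 1
  funext s
  fin_cases s <;> rfl

theorem isFGHom_X_substB {τ υ : Type*} {b : τ → MvPowerSeries υ R}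
    (hb : MvPowerSeries.HasSubst b) {a : MvPowerSeries τ R}
    (ha : MvPowerSeries.constantCoeff a = 0) (θ : PowerSeries R) :
    MvPowerSeries.subst b (PowerSeries.subst a θ) =
      PowerSeries.subst (MvPowerSeries.subst b a) θ :=
  MvPowerSeries.subst_comp_subst_apply
    (PowerSeries.HasSubst.of_constantCoeff_zero ha).const hb θ

theorem isFGHom_X_substD {τ : Type*} {a : MvPowerSeries τ R}
    (ha : MvPowerSeries.constantCoeff a = 0) (G : FormalGroup R) {θ η : PowerSeries R}
    (hθ : PowerSeries.constantCoeff θ = 0) (hη : PowerSeries.constantCoeff η = 0) :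
    PowerSeries.subst a (fadd G θ η) =
      G.toPowerSeries.subst ![PowerSeries.subst a θ, PowerSeries.subst a η] :=
  isFGHom_X_substA (PowerSeries.HasSubst.of_constantCoeff_zero ha).const _ hθ hη

theorem isFGHom_X_apply {τ : Type*} {F G : FormalGroup R} {θ : PowerSeries R}
    (hθ : IsFGHom F G θ) {f g : MvPowerSeries τ R}
    (hf : MvPowerSeries.constantCoeff f = 0) (hg : MvPowerSeries.constantCoeff g = 0) :
    PowerSeries.subst (F.toPowerSeries.subst ![f, g]) θ =
      G.toPowerSeries.subst ![PowerSeries.subst f θ, PowerSeries.subst g θ] := by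
  have hb := isFGHom_X_pair hf hg
  have hX : ∀ i : Fin 2,
      MvPowerSeries.constantCoeff (MvPowerSeries.X i : MvPowerSeries (Fin 2) R) = 0 := fun i =>
    MvPowerSeries.constantCoeff_X i
  have h := congrArg (MvPowerSeries.subst ![f, g]) hθ.2
  rw [isFGHom_X_substB hb F.zero_constantCoeff,
    isFGHom_X_substA hb _ (PowerSeries.constantCoeff_subst_eq_zero (hX 0) θ hθ.1)
      (PowerSeries.constantCoeff_subst_eq_zero (hX 1) θ hθ.1),
    isFGHom_X_substB hb (hX 0), isFGHom_X_substB hb (hX 1), MvPowerSeries.subst_X hb,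
    MvPowerSeries.subst_X hb] at h
  exact h

theorem isFGHom_X (F : FormalGroup R) : IsFGHom F F PowerSeries.X := by
  refine ⟨PowerSeries.constantCoeff_X, ?_⟩
  rw [PowerSeries.subst_X (PowerSeries.HasSubst.of_constantCoeff_zero F.zero_constantCoeff),
    PowerSeries.subst_X (PowerSeries.HasSubst.X _), PowerSeries.subst_X (PowerSeries.HasSubst.X _)]
  have : (![MvPowerSeries.X 0, MvPowerSeries.X 1] : Fin 2 → MvPowerSeries (Fin 2) R) =
      MvPowerSeries.X := by
    funext s
    fin_cases s <;> rfl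
  rw [this, MvPowerSeries.subst_self, id]

theorem isFGHom_zero_subst {τ : Type*} {a : MvPowerSeries τ R}
    (ha : MvPowerSeries.constantCoeff a = 0) : PowerSeries.subst a (0 : PowerSeries R) = 0 := by
  rw [← PowerSeries.coe_substAlgHom (PowerSeries.HasSubst.of_constantCoeff_zero ha), map_zero]

theorem isFGHom_zero (F G : FormalGroup R) : IsFGHom F G 0 := by
  refine ⟨map_zero _, ?_⟩
  rw [isFGHom_zero_subst F.zero_constantCoeff, isFGHom_zero_subst (MvPowerSeries.constantCoeff_X _),
    isFGHom_zero_subst (MvPowerSeries.constantCoeff_X _),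
    G.add_zero PowerSeries.HasSubst.zero]

theorem isFGHom_comp {F G H : FormalGroup R} {θ η : PowerSeries R} (hθ : IsFGHom F G θ)
    (hη : IsFGHom G H η) : IsFGHom F H (cmp η θ) := by
  refine ⟨constantCoeff_cmp hη.1 hθ.1, ?_⟩
  have h0 := PowerSeries.HasSubst.of_constantCoeff_zero' hθ.1
  rw [PowerSeries.subst_comp_subst_apply h0
      (PowerSeries.HasSubst.of_constantCoeff_zero F.zero_constantCoeff),
    PowerSeries.subst_comp_subst_apply h0 (PowerSeries.HasSubst.X _),
    PowerSeries.subst_comp_subst_apply h0 (PowerSeries.HasSubst.X _), hθ.2]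
  exact isFGHom_X_apply hη
    (PowerSeries.constantCoeff_subst_eq_zero (MvPowerSeries.constantCoeff_X _) θ hθ.1)
    (PowerSeries.constantCoeff_subst_eq_zero (MvPowerSeries.constantCoeff_X _) θ hθ.1)

theorem isFGHom_map_lhs (F : FormalGroup R) (θ : PowerSeries R) (ρ : R →+* S) :
    MvPowerSeries.map ρ (PowerSeries.subst F.toPowerSeries θ) =
      PowerSeries.subst (F.map ρ).toPowerSeries (PowerSeries.map ρ θ) :=
  PowerSeries.map_subst (PowerSeries.HasSubst.of_constantCoeff_zero F.zero_constantCoeff) θ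

theorem isFGHom_map_rhs (G : FormalGroup R) {θ : PowerSeries R}
    (h0 : PowerSeries.constantCoeff θ = 0) (ρ : R →+* S) :
    MvPowerSeries.map ρ (G.toPowerSeries.subst
      ![PowerSeries.subst (MvPowerSeries.X 0 : MvPowerSeries (Fin 2) R) θ,
        PowerSeries.subst (MvPowerSeries.X 1 : MvPowerSeries (Fin 2) R) θ]) =
      (G.map ρ).toPowerSeries.subst
        ![PowerSeries.subst (MvPowerSeries.X 0 : MvPowerSeries (Fin 2) S) (PowerSeries.map ρ θ),
          PowerSeries.subst (MvPowerSeries.X 1 : MvPowerSeries (Fin 2) S)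
            (PowerSeries.map ρ θ)] := by
  rw [MvPowerSeries.map_subst (isFGHom_X_pair
    (PowerSeries.constantCoeff_subst_eq_zero (MvPowerSeries.constantCoeff_X _) θ h0)
    (PowerSeries.constantCoeff_subst_eq_zero (MvPowerSeries.constantCoeff_X _) θ h0))]
  have hi : ∀ i : Fin 2, MvPowerSeries.map ρ
      (PowerSeries.subst (MvPowerSeries.X i : MvPowerSeries (Fin 2) R) θ) =
      PowerSeries.subst (MvPowerSeries.X i : MvPowerSeries (Fin 2) S) (PowerSeries.map ρ θ) := by
    intro i
    rw [PowerSeries.map_subst (PowerSeries.HasSubst.X _), MvPowerSeries.map_X]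
  congr 1
  funext s
  fin_cases s
  · exact hi 0
  · exact hi 1

theorem isFGHom_map {F G : FormalGroup R} {θ : PowerSeries R} (hθ : IsFGHom F G θ)
    (ρ : R →+* S) : IsFGHom (F.map ρ) (G.map ρ) (PowerSeries.map ρ θ) := by
  refine ⟨?_, ?_⟩
  · change ρ (PowerSeries.constantCoeff θ) = 0
    rw [hθ.1, map_zero]
  rw [← isFGHom_map_lhs, ← isFGHom_map_rhs G hθ.1, hθ.2]

theorem isFGHom_of_map_injective {F G : FormalGroup R} {θ : PowerSeries R} {ρ : R →+* S}
    (hρ : Function.Injective ρ)
    (h : IsFGHom (F.map ρ) (G.map ρ) (PowerSeries.map ρ θ)) : IsFGHom F G θ := by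
  have h0 : PowerSeries.constantCoeff θ = 0 := by
    apply hρ
    rw [map_zero]
    exact h.1
  refine ⟨h0, ?_⟩
  have h2 := h.2
  rw [← isFGHom_map_lhs, ← isFGHom_map_rhs G h0] at h2
  ext γ
  apply hρ
  have := congrArg (MvPowerSeries.coeff γ) h2
  rwa [MvPowerSeries.coeff_map, MvPowerSeries.coeff_map] at this

/-- Use Mathlib's `FormalGroup.Point` (an `AddCommMonoid`), or `assoc'`/`comm'`. -/
theorem isFGHom_fadd {F G : FormalGroup R} [G.IsComm] {θ η : PowerSeries R} (hθ : IsFGHom F G θ)
    (hη : IsFGHom F G η) : IsFGHom F G (fadd G θ η) := by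
  refine ⟨fadd_constantCoeff G hθ.1 hη.1, ?_⟩
  rw [isFGHom_X_substD F.zero_constantCoeff G hθ.1 hη.1,
    isFGHom_X_substD (MvPowerSeries.constantCoeff_X _) G hθ.1 hη.1,
    isFGHom_X_substD (MvPowerSeries.constantCoeff_X _) G hθ.1 hη.1, hθ.2, hη.2]
  have hp : ∀ (i : Fin 2) {φ : PowerSeries R}, PowerSeries.constantCoeff φ = 0 →
      PowerSeries.HasSubst (PowerSeries.subst (MvPowerSeries.X i : MvPowerSeries (Fin 2) R) φ) :=
    fun i φ h => PowerSeries.HasSubst.of_constantCoeff_zero
      (PowerSeries.constantCoeff_subst_eq_zero (MvPowerSeries.constantCoeff_X _) φ h)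
  exact congrArg Subtype.val (add_add_add_comm (G := G.Point (Fin 2)) ⟨_, hp 0 hθ.1⟩ ⟨_, hp 1 hθ.1⟩
    ⟨_, hp 0 hη.1⟩ ⟨_, hp 1 hη.1⟩)

theorem isFGHom_mulSeries (F : FormalGroup R) [F.IsComm] (m : ℕ) :
    IsFGHom F F (mulSeries F m) := by
  induction m with
  | zero => exact isFGHom_zero F F
  | succ m ih => exact isFGHom_fadd ih (isFGHom_X F)

theorem isFGHom_cmp_fadd {F G : FormalGroup R} {θ : PowerSeries R} (hθ : IsFGHom F G θ)
    {f g : PowerSeries R} (hf : PowerSeries.constantCoeff f = 0)
    (hg : PowerSeries.constantCoeff g = 0) :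
    cmp θ (fadd F f g) = fadd G (cmp θ f) (cmp θ g) := by
  exact isFGHom_X_apply hθ hf hg

theorem isFGHom_cmp_mulSeries {F G : FormalGroup R} {θ : PowerSeries R} (hθ : IsFGHom F G θ)
    (m : ℕ) :
    cmp θ (mulSeries F m) = cmp (mulSeries G m) θ := by
  induction m with
  | zero =>
    change PowerSeries.subst (0 : PowerSeries R) θ = PowerSeries.subst θ (0 : PowerSeries R)
    rw [isFGHom_zero_subst hθ.1]
    exact PowerSeries.subst_zero_of_constantCoeff_zero hθ.1
  | succ m ih =>
    change cmp θ (fadd F (mulSeries F m) PowerSeries.X) =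
      cmp (fadd G (mulSeries G m) PowerSeries.X) θ
    rw [isFGHom_cmp_fadd hθ (mulSeries_constantCoeff F m) PowerSeries.constantCoeff_X, ih, cmp_X]
    have := isFGHom_X_substD hθ.1 G (mulSeries_constantCoeff G m) PowerSeries.constantCoeff_X
    rw [PowerSeries.subst_X (PowerSeries.HasSubst.of_constantCoeff_zero' hθ.1)] at this
    exact this.symm

theorem mulSeries_mul_add (F : FormalGroup R) (a b : ℕ) :
    mulSeries F (a + b) = fadd F (mulSeries F a) (mulSeries F b) := by
  have hs : ∀ m, PowerSeries.HasSubst (mulSeries F m) := fun m =>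
    PowerSeries.HasSubst.of_constantCoeff_zero' (mulSeries_constantCoeff F m)
  induction b with
  | zero => exact (F.add_zero (hs a)).symm
  | succ b ih =>
    change fadd F (mulSeries F (a + b)) PowerSeries.X =
      fadd F (mulSeries F a) (fadd F (mulSeries F b) PowerSeries.X)
    rw [ih]
    exact F.assoc' (hs a) (hs b) PowerSeries.HasSubst.X'

theorem mulSeries_mul (F : FormalGroup R) [F.IsComm] (m m' : ℕ) :
    mulSeries F (m * m') = cmp (mulSeries F m) (mulSeries F m') := by
  have h0 := mulSeries_constantCoeff F m'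
  induction m with
  | zero =>
    rw [Nat.zero_mul]
    exact (isFGHom_zero_subst h0).symm
  | succ m ih =>
    rw [Nat.succ_mul, mulSeries_mul_add, ih]
    have := isFGHom_X_substD h0 F (mulSeries_constantCoeff F m) PowerSeries.constantCoeff_X
    rw [PowerSeries.subst_X (PowerSeries.HasSubst.of_constantCoeff_zero' h0)] at this
    exact this.symm

section transport
open MvPowerSeries
variable {σ : Type*}

theorem transport_hs {a b : MvPowerSeries σ R} (ha : constantCoeff a = 0)
    (hb : constantCoeff b = 0) : HasSubst ![a, b] :=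
  hasSubst_of_constantCoeff_zero fun s => by fin_cases s <;> simpa

theorem transport_c1 {a : MvPowerSeries σ R} (ha : constantCoeff a = 0) {f : PowerSeries R}
    (hf : PowerSeries.constantCoeff f = 0) : constantCoeff (PowerSeries.subst a f) = 0 :=
  PowerSeries.constantCoeff_subst_eq_zero ha f hf

theorem transport_c2 {a b : MvPowerSeries σ R} (ha : constantCoeff a = 0)
    (hb : constantCoeff b = 0) {Φ : MvPowerSeries (Fin 2) R} (hΦ : constantCoeff Φ = 0) :
    constantCoeff (subst ![a, b] Φ) = 0 :=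
  constantCoeff_subst_eq_zero (transport_hs ha hb) (fun s => by fin_cases s <;> simpa) hΦ

theorem transport_s21 {a b : MvPowerSeries σ R} (ha : constantCoeff a = 0)
    (hb : constantCoeff b = 0) {c : MvPowerSeries (Fin 2) R} (hc : constantCoeff c = 0)
    (f : PowerSeries R) :
    subst ![a, b] (PowerSeries.subst c f) = PowerSeries.subst (subst ![a, b] c) f := by
  rw [PowerSeries.subst, subst_comp_subst_apply
    (PowerSeries.HasSubst.of_constantCoeff_zero hc).const (transport_hs ha hb)]
  rfl

theorem transport_s22 {a b : MvPowerSeries σ R} (ha : constantCoeff a = 0)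
    (hb : constantCoeff b = 0) {c d : MvPowerSeries (Fin 2) R} (hc : constantCoeff c = 0)
    (hd : constantCoeff d = 0) (Φ : MvPowerSeries (Fin 2) R) :
    subst ![a, b] (subst ![c, d] Φ) = subst ![subst ![a, b] c, subst ![a, b] d] Φ := by
  rw [subst_comp_subst_apply (transport_hs hc hd) (transport_hs ha hb)]
  congr! 2 with s
  fin_cases s <;> rfl

theorem transport_self (Φ : MvPowerSeries (Fin 2) R) :
    subst ![(X 0 : MvPowerSeries (Fin 2) R), X 1] Φ = Φ := by
  have : ![(X 0 : MvPowerSeries (Fin 2) R), X 1] = X := by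
    ext1 s
    fin_cases s <;> rfl
  rw [this, subst_self]
  rfl

theorem transport_cancel {θ η : PowerSeries R} (h0 : PowerSeries.constantCoeff η = 0)
    (h : cmp θ η = PowerSeries.X) {a : MvPowerSeries σ R} (ha : constantCoeff a = 0) :
    PowerSeries.subst (PowerSeries.subst a η) θ = a := by
  have ha' := PowerSeries.HasSubst.of_constantCoeff_zero ha
  rw [← PowerSeries.subst_comp_subst_apply (PowerSeries.HasSubst.of_constantCoeff_zero' h0) ha']
  change PowerSeries.subst a (cmp θ η) = a
  rw [h, PowerSeries.subst_X ha']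

theorem transport_eval {Φ : MvPowerSeries (Fin 2) R} {η : PowerSeries R}
    (h0 : PowerSeries.constantCoeff η = 0) {a b : MvPowerSeries σ R} (ha : constantCoeff a = 0)
    (hb : constantCoeff b = 0) :
    subst ![a, b] (subst ![PowerSeries.subst (X 0 : MvPowerSeries (Fin 2) R) η,
      PowerSeries.subst (X 1 : MvPowerSeries (Fin 2) R) η] Φ) =
      subst ![PowerSeries.subst a η, PowerSeries.subst b η] Φ := by
  have x0 : constantCoeff (X 0 : MvPowerSeries (Fin 2) R) = 0 := by simp
  have x1 : constantCoeff (X 1 : MvPowerSeries (Fin 2) R) = 0 := by simp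
  rw [transport_s22 ha hb (transport_c1 x0 h0) (transport_c1 x1 h0), transport_s21 ha hb x0,
    transport_s21 ha hb x1, subst_X (transport_hs ha hb), subst_X (transport_hs ha hb)]
  rfl

theorem transport_hom {F G : FormalGroup R} {θ : PowerSeries R} (hθ : IsFGHom F G θ)
    {a b : MvPowerSeries σ R} (ha : constantCoeff a = 0) (hb : constantCoeff b = 0) :
    PowerSeries.subst (subst ![a, b] F.toPowerSeries) θ =
      subst ![PowerSeries.subst a θ, PowerSeries.subst b θ] G.toPowerSeries := by
  rw [← transport_s21 ha hb F.zero_constantCoeff, hθ.2, transport_eval hθ.1 ha hb]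

theorem transport_coeff_left (Φ : MvPowerSeries (Fin 2) R) :
    PowerSeries.coeff 1 (subst ![PowerSeries.X (R := R), 0] Φ) = coeff (Finsupp.single 0 1) Φ := by
  rw [PowerSeries.coeff, coeff_subst, finsum_eq_single _ (Finsupp.single 0 1)]
  · simp
  · intro d hd
    by_cases hd₁ : d 1 = 0
    · by_cases hd₀ : d 0 = 0
      · simp [hd₀, hd₁]
      simp [hd₁, PowerSeries.coeff_X_pow]
      grind
    simp [hd₁]
  · exact HasSubst.X_zero

theorem transport_coeff_right (Φ : MvPowerSeries (Fin 2) R) :
    PowerSeries.coeff 1 (subst ![0, PowerSeries.X (R := R)] Φ) = coeff (Finsupp.single 1 1) Φ := by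
  rw [PowerSeries.coeff, coeff_subst, finsum_eq_single _ (Finsupp.single 1 1)]
  · simp
  · intro d hd
    by_cases hd₁ : d 0 = 0
    · by_cases hd₀ : d 1 = 0
      · simp [hd₀, hd₁]
      simp [hd₁, PowerSeries.coeff_X_pow]
      grind
    simp [hd₁]
  · exact HasSubst.zero_X

end transport

theorem isFGHom_symm {F G : FormalGroup R} {θ η : PowerSeries R} (hθ : IsFGHom F G θ)
    (h0 : PowerSeries.constantCoeff η = 0) (h1 : cmp η θ = PowerSeries.X)
    (h2 : cmp θ η = PowerSeries.X) : IsFGHom G F η := by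
  have x0 : MvPowerSeries.constantCoeff (MvPowerSeries.X 0 : MvPowerSeries (Fin 2) R) = 0 := by simp
  have x1 : MvPowerSeries.constantCoeff (MvPowerSeries.X 1 : MvPowerSeries (Fin 2) R) = 0 := by simp
  refine ⟨h0, ?_⟩
  have h := transport_hom hθ (transport_c1 x0 h0) (transport_c1 x1 h0)
  rw [transport_cancel h0 h2 x0, transport_cancel h0 h2 x1, transport_self] at h
  rw [← h, transport_cancel hθ.1 h1
    (transport_c2 (transport_c1 x0 h0) (transport_c1 x1 h0) F.zero_constantCoeff)]

/-- Transport of a law along an invertible series: `G(X,Y) = θ(F(θ⁻¹X, θ⁻¹Y))`. -/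
theorem exists_transport (F : FormalGroup R) {θ : PowerSeries R}
    (h0 : PowerSeries.constantCoeff θ = 0) (h1 : IsUnit (PowerSeries.coeff 1 θ)) :
    ∃ G : FormalGroup R, IsFGHom F G θ ∧ (F.IsComm → G.IsComm) := by
  obtain ⟨η, e0, -, e1, e2⟩ := exists_substInv h0 h1
  have hx : ∀ {σ : Type} (s : σ),
      MvPowerSeries.constantCoeff (MvPowerSeries.X s : MvPowerSeries σ R) = 0 := fun s => by simp
  have hs : ∀ {σ : Type} {a : MvPowerSeries σ R}, MvPowerSeries.constantCoeff a = 0 →
      PowerSeries.HasSubst (PowerSeries.subst a η) := fun ha =>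
    PowerSeries.HasSubst.of_constantCoeff_zero (transport_c1 ha e0)
  have hc : ∀ {σ : Type} {a b : MvPowerSeries σ R}, MvPowerSeries.constantCoeff a = 0 →
      MvPowerSeries.constantCoeff b = 0 → MvPowerSeries.constantCoeff (F.toPowerSeries.subst
        ![PowerSeries.subst a η, PowerSeries.subst b η]) = 0 := fun ha hb =>
    transport_c2 (transport_c1 ha e0) (transport_c1 hb e0) F.zero_constantCoeff
  let Φ : MvPowerSeries (Fin 2) R := PowerSeries.subst (F.toPowerSeries.subst
    ![PowerSeries.subst (MvPowerSeries.X 0 : MvPowerSeries (Fin 2) R) η,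
      PowerSeries.subst (MvPowerSeries.X 1 : MvPowerSeries (Fin 2) R) η]) θ
  have hΦ : ∀ {σ : Type} {a b : MvPowerSeries σ R}, MvPowerSeries.constantCoeff a = 0 →
      MvPowerSeries.constantCoeff b = 0 → Φ.subst ![a, b] = PowerSeries.subst
        (F.toPowerSeries.subst ![PowerSeries.subst a η, PowerSeries.subst b η]) θ := fun ha hb => by
    rw [transport_s21 ha hb (hc (hx 0) (hx 1)), transport_eval e0 ha hb]
  have hz : PowerSeries.subst (0 : MvPowerSeries Unit R) η = 0 :=
    PowerSeries.subst_zero_of_constantCoeff_zero e0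
  have hX : MvPowerSeries.constantCoeff (PowerSeries.X : PowerSeries R) = 0 := hx ()
  refine ⟨⟨Φ, transport_c1 (hc (hx 0) (hx 1)) h0, ?_, ?_, ?_⟩, ⟨h0, ?_⟩, fun _ => ⟨?_⟩⟩
  · rw [← transport_coeff_left, hΦ hX (map_zero _), hz, F.add_zero (hs hX),
      transport_cancel e0 e2 hX, PowerSeries.coeff_one_X]
  · rw [← transport_coeff_right, hΦ (map_zero _) hX, hz, F.zero_add (hs hX),
      transport_cancel e0 e2 hX, PowerSeries.coeff_one_X]
  · rw [hΦ (hx 0) (hx 1), hΦ (hx 1) (hx 2), hΦ (transport_c1 (hc (hx 0) (hx 1)) h0) (hx 2),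
      hΦ (hx 0) (transport_c1 (hc (hx 1) (hx 2)) h0), transport_cancel h0 e1 (hc (hx 0) (hx 1)),
      transport_cancel h0 e1 (hc (hx 1) (hx 2)), F.assoc' (hs (hx 0)) (hs (hx 1)) (hs (hx 2))]
  · change _ = Φ.subst _
    rw [hΦ (transport_c1 (hx 0) h0) (transport_c1 (hx 1) h0), transport_cancel h0 e1 (hx 0),
      transport_cancel h0 e1 (hx 1), transport_self]
  · change Φ = Φ.subst _
    rw [hΦ (hx 1) (hx 0), F.comm' (hs (hx 1)) (hs (hx 0))]

theorem transport_unique {F G G' : FormalGroup R} {θ : PowerSeries R} (h : IsFGHom F G θ)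
    (h' : IsFGHom F G' θ) (h1 : IsUnit (PowerSeries.coeff 1 θ)) : G = G' := by
  obtain ⟨η, e0, -, e1, e2⟩ := exists_substInv h.1 h1
  have x0 : MvPowerSeries.constantCoeff (MvPowerSeries.X 0 : MvPowerSeries (Fin 2) R) = 0 := by simp
  have x1 : MvPowerSeries.constantCoeff (MvPowerSeries.X 1 : MvPowerSeries (Fin 2) R) = 0 := by simp
  have a := transport_hom h (transport_c1 x0 e0) (transport_c1 x1 e0)
  have a' := transport_hom h' (transport_c1 x0 e0) (transport_c1 x1 e0)
  rw [transport_cancel e0 e2 x0, transport_cancel e0 e2 x1, transport_self] at a a'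
  exact FormalGroup.ext (a.symm.trans a')

theorem transport_unique' {F F' G : FormalGroup R} {θ : PowerSeries R} (h : IsFGHom F G θ)
    (h' : IsFGHom F' G θ) (h1 : IsUnit (PowerSeries.coeff 1 θ)) : F = F' := by
  obtain ⟨η, e0, -, e1, e2⟩ := exists_substInv h.1 h1
  refine FormalGroup.ext ?_
  rw [← transport_cancel h.1 e1 F.zero_constantCoeff, h.2, ← h'.2,
    transport_cancel h.1 e1 F'.zero_constantCoeff]

end Crest.R227
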