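import Crest.Agent.R227.Base

/-! Row 227. The Lubin–Tate lemma and the homogeneous model. -/

set_option autoImplicit false

namespace Crest.R227

open Crest.LubinTate MvPowerSeries

variable (p : ℕ) [Fact p.Prime] (n : ℕ)

theorem lt_exists_shape {R : Type*} [CommRing R] {f : PowerSeries R} {c : R}
    (hf0 : PowerSeries.constantCoeff f = 0) (hf1 : PowerSeries.coeff 1 f = c) :
    ∃ f₂ : PowerSeries R, f = PowerSeries.C c * PowerSeries.X + PowerSeries.X ^ 2 * f₂ := by
  have : PowerSeries.X ^ 2 ∣ f - PowerSeries.C c * PowerSeries.X := by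
    rw [PowerSeries.X_pow_dvd_iff]
    intro m hm
    interval_cases m
    · simp [hf0]
    · simp [hf1]
  obtain ⟨f₂, h⟩ := this
  exact ⟨f₂, by rw [← h]; ring⟩

theorem lt_exists_mem {R σ : Type*} [CommRing R] [Finite σ] {Φ : MvPowerSeries σ R}
    (h : constantCoeff Φ = 0) : Φ ∈ Ideal.span (Set.range (X : σ → MvPowerSeries σ R)) := by
  have := mem_span_X_pow (d := 1) (f := Φ) fun γ hγ => by
    have : γ = 0 := (Finsupp.degree_eq_zero_iff γ).1 (by omega)
    rw [this, coeff_zero_eq_constantCoeff_apply, h]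
  rwa [pow_one] at this

theorem lt_exists_subst {R σ : Type*} [CommRing R] {f f₂ : PowerSeries R} {c : R}
    (hf : f = PowerSeries.C c * PowerSeries.X + PowerSeries.X ^ 2 * f₂) {Φ : MvPowerSeries σ R}
    (h : constantCoeff Φ = 0) :
    PowerSeries.subst Φ f = C c * Φ + Φ ^ 2 * PowerSeries.subst Φ f₂ := by
  have hs := PowerSeries.HasSubst.of_constantCoeff_zero h
  rw [hf, PowerSeries.subst_add hs, PowerSeries.subst_mul hs, PowerSeries.subst_mul hs,
    PowerSeries.subst_pow hs, PowerSeries.subst_X hs, PowerSeries.subst_C]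

theorem lt_exists_A {R σ : Type*} [CommRing R] [Finite σ] {f : PowerSeries R} {c : R}
    (hf0 : PowerSeries.constantCoeff f = 0) (hf1 : PowerSeries.coeff 1 f = c)
    {Φ Φ' : MvPowerSeries σ R} (h0 : constantCoeff Φ = 0) (h0' : constantCoeff Φ' = 0) {d : ℕ}
    (hd : Φ - Φ' ∈ Ideal.span (Set.range (X : σ → MvPowerSeries σ R)) ^ d) :
    PowerSeries.subst Φ f - PowerSeries.subst Φ' f - C c * (Φ - Φ') ∈
      Ideal.span (Set.range (X : σ → MvPowerSeries σ R)) ^ (d + 1) := by
  obtain ⟨f₂, hf⟩ := lt_exists_shape hf0 hf1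
  have h1 := FG_subst_sub_mem (a := fun _ : Unit => Φ) (b := fun _ : Unit => Φ') (fun _ => h0)
    (fun _ => h0') f₂
  have h2 : PowerSeries.subst Φ f₂ - PowerSeries.subst Φ' f₂ ∈
      Ideal.span (Set.range (X : σ → MvPowerSeries σ R)) ^ d :=
    Ideal.span_le.2 (Set.range_subset_iff.2 fun _ => hd) h1
  have e : PowerSeries.subst Φ f - PowerSeries.subst Φ' f - C c * (Φ - Φ') =
      (Φ - Φ') * ((Φ + Φ') * PowerSeries.subst Φ f₂) +
        (PowerSeries.subst Φ f₂ - PowerSeries.subst Φ' f₂) * (Φ' * Φ') := by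
    rw [lt_exists_subst hf h0, lt_exists_subst hf h0']
    ring
  rw [e, pow_succ]
  exact Ideal.add_mem _ (Ideal.mul_mem_mul hd (Ideal.mul_mem_right _ _
    (Ideal.add_mem _ (lt_exists_mem h0) (lt_exists_mem h0'))))
    (Ideal.mul_mem_mul h2 (Ideal.mul_mem_left _ _ (lt_exists_mem h0')))

theorem lt_exists_B {R σ : Type*} [CommRing R] [Finite σ] {g : PowerSeries R} {c : R}
    (hg0 : PowerSeries.constantCoeff g = 0) (hg1 : PowerSeries.coeff 1 g = c) (d : ℕ)
    {D : MvPowerSeries σ R} (hD : D ∈ Ideal.span (Set.range (X : σ → MvPowerSeries σ R)) ^ d) :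
    subst (fun s => PowerSeries.subst (X s : MvPowerSeries σ R) g) D - C c ^ d * D ∈
      Ideal.span (Set.range (X : σ → MvPowerSeries σ R)) ^ (d + 1) := by
  obtain ⟨g₂, hg⟩ := lt_exists_shape hg0 hg1
  set M := Ideal.span (Set.range (X : σ → MvPowerSeries σ R)) with hM
  set a := fun s => PowerSeries.subst (X s : MvPowerSeries σ R) g with ha
  have ha0 : ∀ s, constantCoeff (a s) = 0 := fun s =>
    PowerSeries.constantCoeff_subst_eq_zero (constantCoeff_X s) g hg0
  have hs : HasSubst a := hasSubst_of_constantCoeff_zero ha0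
  have hX : ∀ s, (X s : MvPowerSeries σ R) ∈ M := fun s => Ideal.subset_span ⟨s, rfl⟩
  have hz : ∀ r, subst a r - r ∈ M := fun r => by
    have h1 := FG_subst_sub_mem ha0 (fun s => constantCoeff_X s) r
    rw [subst_self] at h1
    exact Ideal.span_le.2 (Set.range_subset_iff.2 fun s =>
      M.sub_mem (lt_exists_mem (ha0 s)) (hX s)) h1
  have hm : ∀ y ∈ M, subst a y ∈ M := fun y hy => by
    have := M.add_mem (hz y) hy
    rwa [sub_add_cancel] at this
  have ho : ∀ y ∈ M, subst a y - C c * y ∈ M * M := fun y hy => by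
    induction hy using Submodule.span_induction with
    | mem x hx =>
      obtain ⟨s, rfl⟩ := hx
      rw [subst_X hs, ha]
      beta_reduce
      rw [lt_exists_subst hg (constantCoeff_X s), add_sub_cancel_left, sq]
      exact Ideal.mul_mem_right _ _ (Ideal.mul_mem_mul (hX s) (hX s))
    | zero => rw [← coe_substAlgHom hs, map_zero, mul_zero, sub_zero]; exact zero_mem _
    | add x y _ _ hx hy =>
      rw [subst_add hs, show subst a x + subst a y - C c * (x + y) =
        (subst a x - C c * x) + (subst a y - C c * y) by ring]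
      exact Ideal.add_mem _ hx hy
    | smul r y hy h =>
      rw [smul_eq_mul, subst_mul hs, show subst a r * subst a y - C c * (r * y) =
        (subst a r - r) * subst a y + r * (subst a y - C c * y) by ring]
      exact Ideal.add_mem _ (Ideal.mul_mem_mul (hz r) (hm y hy)) (Ideal.mul_mem_left _ _ h)
  induction d generalizing D with
  | zero => simpa using hz D
  | succ d ih =>
    rw [pow_succ] at hD
    refine Submodule.mul_induction_on hD (fun x hx y hy => ?_) fun x y hx hy => ?_
    · rw [subst_mul hs, show subst a x * subst a y - C c ^ (d + 1) * (x * y) =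
        (subst a x - C c ^ d * x) * subst a y + C c ^ d * (x * (subst a y - C c * y)) by ring]
      refine Ideal.add_mem _ ?_ (Ideal.mul_mem_left _ _ ?_)
      · rw [pow_succ]
        exact Ideal.mul_mem_mul (ih hx) (hm y hy)
      · rw [pow_succ, pow_succ, mul_assoc]
        exact Ideal.mul_mem_mul hx (ho y hy)
    · rw [subst_add hs, show subst a x + subst a y - C c ^ (d + 1) * (x + y) =
        (subst a x - C c ^ (d + 1) * x) + (subst a y - C c ^ (d + 1) * y) by ring]
      exact Ideal.add_mem _ hx hy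

theorem lt_exists_diff {R : Type*} [CommRing R] {f g : PowerSeries R} {c : R}
    (hf0 : PowerSeries.constantCoeff f = 0) (hf1 : PowerSeries.coeff 1 f = c)
    (hg0 : PowerSeries.constantCoeff g = 0) (hg1 : PowerSeries.coeff 1 g = c)
    {κ κ' : PowerSeries R} (h0 : PowerSeries.constantCoeff κ = 0)
    (h0' : PowerSeries.constantCoeff κ' = 0) {d : ℕ} (hd : PowerSeries.X ^ d ∣ κ - κ') :
    PowerSeries.X ^ (d + 1) ∣ (cmp f κ - cmp κ g) - (cmp f κ' - cmp κ' g) -
      (PowerSeries.C c - PowerSeries.C c ^ d) * (κ - κ') := by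
  have hM : ∀ (e : ℕ) (x : PowerSeries R),
      x ∈ Ideal.span (Set.range (X : Unit → MvPowerSeries Unit R)) ^ e ↔ PowerSeries.X ^ e ∣ x := by
    intro e x
    rw [Set.range_unique, Ideal.span_singleton_pow, Ideal.mem_span_singleton]
    rfl
  have hA := (hM _ _).1 (lt_exists_A hf0 hf1 h0 h0' ((hM _ _).2 hd))
  have hB := (hM _ _).1 (lt_exists_B hg0 hg1 d ((hM _ _).2 hd))
  have e : (fun s : Unit => PowerSeries.subst (X s : MvPowerSeries Unit R) g) = fun _ => g :=
    funext fun _ => PowerSeries.X_subst g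
  rw [e] at hB
  have hB' : PowerSeries.X ^ (d + 1) ∣ cmp κ g - cmp κ' g - PowerSeries.C c ^ d * (κ - κ') := by
    rw [cmp, cmp, ← PowerSeries.subst_sub (PowerSeries.HasSubst.of_constantCoeff_zero' hg0)]
    exact hB
  have hA' : PowerSeries.X ^ (d + 1) ∣ cmp f κ - cmp f κ' - PowerSeries.C c * (κ - κ') := hA
  convert dvd_sub hA' hB' using 1
  ring

/-- Successive approximation: `f(κ) - κ(g) ≡ κ^q - κ(X^q) ≡ 0 mod p`; if it vanishes below degree
`d+1`, add `c X^{d+1}` with `c (p^{d+1} - p) =` its coefficient (`p^d - 1` is a unit of `W`). -/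
theorem lt_exists (hn : 1 ≤ n) {f g : PowerSeries (WW p n)}
    (hf0 : PowerSeries.constantCoeff f = 0) (hf1 : PowerSeries.coeff 1 f = p)
    (hf : PowerSeries.map (resW p n) f = PowerSeries.X ^ p ^ n)
    (hg0 : PowerSeries.constantCoeff g = 0) (hg1 : PowerSeries.coeff 1 g = p)
    (hg : PowerSeries.map (resW p n) g = PowerSeries.X ^ p ^ n) :
    ∃ κ : PowerSeries (WW p n), PowerSeries.constantCoeff κ = 0 ∧ PowerSeries.coeff 1 κ = 1 ∧
      cmp f κ = cmp κ g := by
  have hp : p ≠ 0 := (Fact.out : p.Prime).ne_zero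
  have hres : ∀ κ : PowerSeries (WW p n), PowerSeries.constantCoeff κ = 0 → ∀ k,
      (p : WW p n) ∣ PowerSeries.coeff k (cmp f κ - cmp κ g) := by
    intro κ h0 k
    rw [← Ideal.mem_span_singleton, ← ker_resW, RingHom.mem_ker, ← PowerSeries.coeff_map, map_sub,
      map_cmp _ h0, map_cmp _ hg0, hf, hg]
    set η := PowerSeries.map (resW p n) κ with hη
    have hη0 : PowerSeries.constantCoeff η = 0 := by
      rw [hη, ← PowerSeries.coeff_zero_eq_constantCoeff_apply, PowerSeries.coeff_map,
        PowerSeries.coeff_zero_eq_constantCoeff_apply, h0, map_zero]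
    have hs := PowerSeries.HasSubst.of_constantCoeff_zero' hη0
    have h1 := MvPowerSeries.map_iterateFrobenius_expand p hp η n
    have h2 : iterateFrobenius (kk p n) p n = RingHom.id _ :=
      RingHom.ext fun c => kk_pow p n hn c
    rw [h2, MvPowerSeries.map_id] at h1
    rw [cmp, cmp, PowerSeries.subst_pow hs, PowerSeries.subst_X hs,
      ← PowerSeries.expand_apply _ (pow_ne_zero n hp)]
    have h3 : PowerSeries.expand (p ^ n) (pow_ne_zero n hp) η = η ^ p ^ n := h1
    rw [h3, sub_self, map_zero]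
  have step : ∀ (d : ℕ) (κ : PowerSeries (WW p n)), ∃ κ', PowerSeries.constantCoeff κ = 0 →
      PowerSeries.X ^ (d + 2) ∣ cmp f κ - cmp κ g → PowerSeries.constantCoeff κ' = 0 ∧
      PowerSeries.X ^ (d + 2) ∣ κ' - κ ∧ PowerSeries.X ^ (d + 1 + 2) ∣ cmp f κ' - cmp κ' g := by
    intro d κ
    by_cases h0 : PowerSeries.constantCoeff κ = 0
    swap
    · exact ⟨κ, fun h => absurd h h0⟩
    obtain ⟨e, he⟩ := hres κ h0 (d + 2)
    have hu : IsUnit ((p : WW p n) ^ (d + 1) - 1) := by
      refine WittVector.isUnit_of_coeff_zero_ne_zero _ ?_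
      change resW p n ((p : WW p n) ^ (d + 1) - 1) ≠ 0
      rw [map_sub, map_pow, map_natCast, map_one]
      simp
    obtain ⟨u, hu⟩ := hu.exists_right_inv
    refine ⟨κ + PowerSeries.X ^ (d + 2) * PowerSeries.C (e * u), fun _ hE => ?_⟩
    have h1 : PowerSeries.constantCoeff (κ + PowerSeries.X ^ (d + 2) * PowerSeries.C (e * u)) = 0 := by
      simp [h0]
    have h2 : PowerSeries.X ^ (d + 2) ∣ κ + PowerSeries.X ^ (d + 2) * PowerSeries.C (e * u) - κ := by
      rw [add_sub_cancel_left]
      exact dvd_mul_right _ _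
    refine ⟨h1, h2, ?_⟩
    have h3 := lt_exists_diff hf0 hf1 hg0 hg1 h1 h0 h2
    have h4 : PowerSeries.X ^ (d + 2 + 1) ∣ cmp f κ - cmp κ g -
        PowerSeries.X ^ (d + 2) * PowerSeries.C ((p : WW p n) * e) := by
      rw [PowerSeries.X_pow_dvd_iff] at hE ⊢
      intro m hm
      rw [map_sub _ _ (_ * _), PowerSeries.coeff_mul_C, PowerSeries.coeff_X_pow]
      split_ifs with h
      · rw [h, he, one_mul, sub_self]
      · rw [hE m (by omega), zero_mul, sub_zero]
    have h5 : (PowerSeries.C (p : WW p n) ^ (d + 1) - 1) * PowerSeries.C u = 1 := by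
      simpa using congrArg PowerSeries.C hu
    convert dvd_add h3 h4 using 1
    simp only [map_mul]
    linear_combination (-PowerSeries.C (p : WW p n) * PowerSeries.X ^ (d + 2) * PowerSeries.C e) * h5
  choose T hT using step
  let s : ℕ → PowerSeries (WW p n) := fun d => Nat.rec PowerSeries.X (fun d κ => T d κ) d
  have hs : ∀ d, PowerSeries.constantCoeff (s d) = 0 ∧
      PowerSeries.X ^ (d + 2) ∣ cmp f (s d) - cmp (s d) g := fun d => by
    induction d with
    | zero =>
      refine ⟨PowerSeries.constantCoeff_X, ?_⟩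
      change _ ∣ cmp f PowerSeries.X - cmp PowerSeries.X g
      rw [cmp_X, X_cmp hg0, PowerSeries.X_pow_dvd_iff]
      intro m hm
      interval_cases m
      · simp [hf0, hg0]
      · simp [hf1, hg1]
    | succ d ih => exact ⟨(hT d _ ih.1 ih.2).1, (hT d _ ih.1 ih.2).2.2⟩
  have hc : ∀ d k, PowerSeries.X ^ (d + 2) ∣ s (d + k) - s d := fun d k => by
    induction k with
    | zero => simp
    | succ k ih =>
      have h1 : PowerSeries.X ^ (d + k + 2) ∣ s (d + k + 1) - s (d + k) :=
        (hT (d + k) _ (hs _).1 (hs _).2).2.1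
      have := dvd_add ((pow_dvd_pow _ (by omega)).trans h1) ih
      rwa [sub_add_sub_cancel] at this
  have hl : ∀ d, PowerSeries.X ^ (d + 2) ∣
      (PowerSeries.mk fun k => PowerSeries.coeff k (s k)) - s d := fun d => by
    rw [PowerSeries.X_pow_dvd_iff]
    intro m hm
    have h1 := PowerSeries.X_pow_dvd_iff.1 (hc d m) m hm
    have h2 := PowerSeries.X_pow_dvd_iff.1 (hc m d) m (by omega)
    rw [map_sub, sub_eq_zero] at h1 h2
    rw [map_sub, PowerSeries.coeff_mk, ← h1, ← h2, add_comm, sub_self]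
  set κ : PowerSeries (WW p n) := PowerSeries.mk fun k => PowerSeries.coeff k (s k) with hκ
  have hX : ∀ m < 2, PowerSeries.coeff m κ = PowerSeries.coeff m PowerSeries.X := fun m hm => by
    have := PowerSeries.X_pow_dvd_iff.1 (hl 0) m hm
    rwa [map_sub, sub_eq_zero] at this
  have h0 : PowerSeries.constantCoeff κ = 0 := by
    rw [← PowerSeries.coeff_zero_eq_constantCoeff_apply, hX 0 (by norm_num)]
    simp
  refine ⟨κ, h0, by rw [hX 1 (by norm_num)]; simp, ?_⟩
  rw [← sub_eq_zero]
  refine PowerSeries.ext fun m => ?_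
  have h1 := (pow_dvd_pow _ (Nat.le_succ _)).trans
    (lt_exists_diff hf0 hf1 hg0 hg1 h0 (hs m).1 (hl m))
  have h2 := dvd_add (dvd_add h1 ((hl m).mul_left
    (PowerSeries.C (p : WW p n) - PowerSeries.C (p : WW p n) ^ (m + 2)))) (hs m).2
  rw [sub_add_cancel, sub_add_cancel] at h2
  rw [PowerSeries.X_pow_dvd_iff.1 h2 m (by omega), map_zero]

/-- If `Φ - Φ'` has order `d ≥ 2`, its degree-`d` part `D` satisfies `p D = p^d D`. -/
theorem lt_unique {R σ : Type*} [CommRing R] [IsDomain R] [CharZero R] [Finite σ]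
    {f g : PowerSeries R} (hf0 : PowerSeries.constantCoeff f = 0) (hf1 : PowerSeries.coeff 1 f = p)
    (hg0 : PowerSeries.constantCoeff g = 0) (hg1 : PowerSeries.coeff 1 g = p)
    {Φ Φ' : MvPowerSeries σ R} (h0 : constantCoeff Φ = 0) (h0' : constantCoeff Φ' = 0)
    (h1 : ∀ s, coeff (Finsupp.single s 1) Φ = coeff (Finsupp.single s 1) Φ')
    (hΦ : PowerSeries.subst Φ f =
      subst (fun s => PowerSeries.subst (X s : MvPowerSeries σ R) g) Φ)
    (hΦ' : PowerSeries.subst Φ' f =
      subst (fun s => PowerSeries.subst (X s : MvPowerSeries σ R) g) Φ') : Φ = Φ' := by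
  have hp := (Fact.out : p.Prime)
  have hs : HasSubst fun s => PowerSeries.subst (X s : MvPowerSeries σ R) g :=
    hasSubst_of_constantCoeff_zero fun s =>
      PowerSeries.constantCoeff_subst_eq_zero (constantCoeff_X s) g hg0
  have key : ∀ d, Φ - Φ' ∈ Ideal.span (Set.range (X : σ → MvPowerSeries σ R)) ^ (d + 2) := by
    intro d
    induction d with
    | zero =>
      refine mem_span_X_pow fun γ hγ => ?_
      rw [map_sub, sub_eq_zero]
      by_cases h : γ.degree = 0
      · rw [(Finsupp.degree_eq_zero_iff γ).1 h, coeff_zero_eq_constantCoeff_apply,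
          coeff_zero_eq_constantCoeff_apply, h0, h0']
      · obtain ⟨s, rfl⟩ := (Finsupp.sum_eq_one_iff γ).1 (show γ.degree = 1 by omega)
        exact h1 s
    | succ d ih =>
      have hA := lt_exists_A hf0 hf1 h0 h0' ih
      have hB := lt_exists_B hg0 hg1 _ ih
      rw [hΦ, hΦ', ← subst_sub hs] at hA
      have hC := Ideal.sub_mem _ hA hB
      rw [sub_sub_sub_cancel_left, ← sub_mul, ← map_pow, ← map_sub] at hC
      refine mem_span_X_pow fun γ hγ => ?_
      have h2 := coeff_eq_zero_of_mem_span_X_pow hC γ hγ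
      rw [coeff_C_mul, mul_eq_zero, sub_eq_zero] at h2
      refine h2.resolve_left fun h => ?_
      have h3 : p ^ (d + 2) = p ^ 1 := by rw [pow_one]; exact_mod_cast h
      have := Nat.pow_right_injective hp.two_le h3
      omega
  rw [← sub_eq_zero]
  ext γ
  rw [coeff_eq_zero_of_mem_span_X_pow (key γ.degree) γ (by omega), map_zero]

theorem exists_model_scal {R σ : Type*} [CommRing R] (c : R) (Φ : MvPowerSeries σ R)
    (γ : σ →₀ ℕ) : coeff γ (subst (fun s => (C c * X s : MvPowerSeries σ R)) Φ) =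
      c ^ γ.degree * coeff γ Φ := by
  have e : (fun s => (C c * X s : MvPowerSeries σ R)) = (fun _ : σ => c) • X := by
    funext s
    rw [Pi.smul_apply', smul_eq_C_mul]
  rw [e, ← rescale_eq_subst, coeff_rescale, Finsupp.prod, Finset.prod_pow_eq_pow_sum]
  rfl

theorem exists_model_charZero : CharZero (WW p n) := by
  obtain ⟨r, hr⟩ := CharP.exists (WW p n)
  rcases CharP.char_is_prime_or_zero (WW p n) r with h | h
  · exfalso
    have h1 : (r : WW p n) = 0 := CharP.cast_eq_zero _ r
    have h2 : (r : kk p n) = 0 := by rw [← map_natCast (resW p n), h1, map_zero]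
    have h3 := (CharP.cast_eq_zero_iff (kk p n) p r).1 h2
    have h4 : p = r := (Nat.prime_dvd_prime_iff_eq Fact.out h).1 h3
    subst h4
    exact WittVector.p_nonzero p _ h1
  · subst h
    exact CharP.charP_to_charZero _

theorem exists_model_g {R σ : Type*} [CommRing R] (a : R) (q : ℕ) {f : MvPowerSeries σ R}
    (hf : constantCoeff f = 0) :
    PowerSeries.subst f (PowerSeries.C a * PowerSeries.X + PowerSeries.X ^ q : PowerSeries R) =
      C a * f + f ^ q := by
  have hs := PowerSeries.HasSubst.of_constantCoeff_zero hf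
  rw [PowerSeries.subst_add hs, PowerSeries.subst_mul hs, PowerSeries.subst_pow hs,
    PowerSeries.subst_X hs, PowerSeries.subst_C]

theorem exists_model_gs {R σ : Type*} [CommRing R] (a : R) (q : ℕ) {τ : R} (hτ : τ ^ q = τ)
    {f : MvPowerSeries σ R} (hf : constantCoeff f = 0) :
    PowerSeries.subst (C τ * f)
        (PowerSeries.C a * PowerSeries.X + PowerSeries.X ^ q : PowerSeries R) =
      C τ * PowerSeries.subst f
        (PowerSeries.C a * PowerSeries.X + PowerSeries.X ^ q : PowerSeries R) := by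
  rw [exists_model_g a q hf, exists_model_g a q (by rw [map_mul, hf, mul_zero]), mul_pow,
    ← map_pow, hτ]
  ring

theorem exists_model_end {R : Type*} [CommRing R] {F : FormalGroup R} {g : PowerSeries R}
    (h : IsFGHom F F g) : PowerSeries.subst F.toPowerSeries g =
      subst (fun s => PowerSeries.subst (X s : MvPowerSeries (Fin 2) R) g) F.toPowerSeries := by
  rw [h.2]
  congr 1
  funext s
  fin_cases s <;> rfl

theorem exists_model_lin {R : Type*} [CommRing R] (F : FormalGroup R) (s : Fin 2) :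
    coeff (Finsupp.single s 1) F.toPowerSeries = 1 := by
  fin_cases s
  · exact F.lin_coeff_X
  · exact F.lin_coeff_Y

theorem exists_model_hom {R : Type*} [CommRing R] [IsDomain R] [CharZero R] {F : FormalGroup R}
    {q : ℕ} (hq : 2 ≤ q)
    (h : IsFGHom F F (PowerSeries.C (p : R) * PowerSeries.X + PowerSeries.X ^ q)) {τ : R}
    (hτ : τ ^ q = τ) (γ : Fin 2 →₀ ℕ) (hγ : coeff γ F.toPowerSeries ≠ 0) :
    τ ^ γ.degree = τ := by
  have hg1 : PowerSeries.coeff 1
      (PowerSeries.C (p : R) * PowerSeries.X + PowerSeries.X ^ q : PowerSeries R) = p := by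
    rw [map_add, PowerSeries.coeff_C_mul, PowerSeries.coeff_one_X, PowerSeries.coeff_X_pow,
      if_neg (by omega), mul_one, add_zero]
  have he := exists_model_end h
  have hX : ∀ s : Fin 2, constantCoeff (X s : MvPowerSeries (Fin 2) R) = 0 := fun s =>
    constantCoeff_X s
  have ha0 : ∀ s : Fin 2, constantCoeff (C τ * X s : MvPowerSeries (Fin 2) R) = 0 := fun s => by
    rw [map_mul, hX, mul_zero]
  have ha : HasSubst (fun s : Fin 2 => (C τ * X s : MvPowerSeries (Fin 2) R)) :=
    hasSubst_of_constantCoeff_zero ha0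
  have hb : HasSubst (fun s : Fin 2 => PowerSeries.subst (X s : MvPowerSeries (Fin 2) R)
      (PowerSeries.C (p : R) * PowerSeries.X + PowerSeries.X ^ q : PowerSeries R)) :=
    hasSubst_of_constantCoeff_zero fun s =>
      PowerSeries.constantCoeff_subst_eq_zero (hX s) _ h.1
  have key := lt_unique p h.1 hg1 h.1 hg1
    (Φ := subst (fun s : Fin 2 => (C τ * X s : MvPowerSeries (Fin 2) R)) F.toPowerSeries)
    (Φ' := C τ * F.toPowerSeries)
    (constantCoeff_subst_eq_zero ha ha0 F.zero_constantCoeff)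
    (by rw [map_mul, F.zero_constantCoeff, mul_zero])
    (fun s => by rw [exists_model_scal, coeff_C_mul, Finsupp.degree_single, pow_one])
    (by
      rw [← isFGHom_X_substB ha F.zero_constantCoeff, he, subst_comp_subst_apply hb ha,
        subst_comp_subst_apply ha hb]
      congr 1
      funext s
      rw [isFGHom_X_substB ha (hX s), subst_X ha, exists_model_gs _ q hτ (hX s), subst_mul hb,
        subst_X hb, subst_C])
    (by
      rw [exists_model_gs _ q hτ F.zero_constantCoeff, he, subst_mul hb, subst_C])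
  have h2 := congrArg (coeff γ) key
  rw [exists_model_scal, coeff_C_mul] at h2
  exact mul_right_cancel₀ hγ h2

theorem exists_model_fix {R : Type*} [CommRing R] [IsDomain R] [CharZero R] {F : FormalGroup R}
    {q : ℕ} (hq : 2 ≤ q)
    (h : IsFGHom F F (PowerSeries.C (p : R) * PowerSeries.X + PowerSeries.X ^ q)) (φ : R →+* R)
    (γ : Fin 2 →₀ ℕ) : φ (coeff γ F.toPowerSeries) = coeff γ F.toPowerSeries := by
  have hg1 : PowerSeries.coeff 1
      (PowerSeries.C (p : R) * PowerSeries.X + PowerSeries.X ^ q : PowerSeries R) = p := by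
    rw [map_add, PowerSeries.coeff_C_mul, PowerSeries.coeff_one_X, PowerSeries.coeff_X_pow,
      if_neg (by omega), mul_one, add_zero]
  have h' := isFGHom_map h φ
  rw [map_add, map_mul, map_pow, PowerSeries.map_C, PowerSeries.map_X, map_natCast] at h'
  have key := lt_unique p h.1 hg1 h.1 hg1 (F.map φ).zero_constantCoeff F.zero_constantCoeff
    (fun s => by rw [exists_model_lin, exists_model_lin]) (exists_model_end h')
    (exists_model_end h)
  exact congrArg (coeff γ) key

theorem exists_model (hn : 1 ≤ n) (H0 : FormalGroup (WW p n)) [H0.IsComm]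
    (hH0 : mulSeries (H0.map (resW p n)) p = PowerSeries.X ^ p ^ n) :
    ∃ (F0 : FormalGroup (WW p n)) (κ : PowerSeries (WW p n)), F0.IsComm ∧ IsModel p n F0 ∧
      IsFGHom F0 H0 κ ∧ PowerSeries.coeff 1 κ = 1 := by
  have := exists_model_charZero p n
  have hq : 2 ≤ p ^ n := Nat.one_lt_pow (by omega) (Fact.out : p.Prime).one_lt
  obtain ⟨g, hg⟩ : ∃ g : PowerSeries (WW p n),
      g = PowerSeries.C (p : WW p n) * PowerSeries.X + PowerSeries.X ^ p ^ n := ⟨_, rfl⟩
  have hg0 : PowerSeries.constantCoeff g = 0 := by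
    rw [hg, map_add, map_mul, map_pow, PowerSeries.constantCoeff_X, mul_zero, zero_pow (by omega),
      add_zero]
  have hg1 : PowerSeries.coeff 1 g = p := by
    rw [hg, map_add, PowerSeries.coeff_C_mul, PowerSeries.coeff_one_X, PowerSeries.coeff_X_pow,
      if_neg (by omega), mul_one, add_zero]
  have hgr : PowerSeries.map (resW p n) g = PowerSeries.X ^ p ^ n := by
    rw [hg, map_add, map_mul, map_pow, PowerSeries.map_C, PowerSeries.map_X, map_natCast,
      CharP.cast_eq_zero, map_zero, zero_mul, zero_add]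
  obtain ⟨κ, hκ0, hκ1, hκ⟩ := lt_exists p n hn (mulSeries_constantCoeff H0 p)
    (mulSeries_coeff_one H0 p) (by rw [map_mulSeries, hH0]) hg0 hg1 hgr
  obtain ⟨η, e0, eu, e1, e2⟩ := exists_substInv hκ0 (by rw [hκ1]; exact isUnit_one)
  obtain ⟨F0, hF0, hc⟩ := exists_transport H0 e0 eu
  have hcomm : F0.IsComm := hc inferInstance
  have hhom : IsFGHom F0 H0 κ := isFGHom_symm hF0 hκ0 e2 e1
  have hmul : mulSeries F0 p = g := by
    have h1 := isFGHom_cmp_mulSeries hhom p
    rw [hκ] at h1
    have h2 := congrArg (cmp η) h1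
    rwa [← cmp_assoc η hκ0 (mulSeries_constantCoeff F0 p), ← cmp_assoc η hκ0 hg0, e1,
      X_cmp (mulSeries_constantCoeff F0 p), X_cmp hg0] at h2
  have hend : IsFGHom F0 F0
      (PowerSeries.C (p : WW p n) * PowerSeries.X + PowerSeries.X ^ p ^ n) := by
    rw [← hg, ← hmul]
    exact isFGHom_mulSeries F0 p
  refine ⟨F0, κ, hcomm, ⟨?_, ?_, ?_⟩, hhom, hκ1⟩
  · rw [← map_mulSeries, hmul, hgr]
  · intro γ hγ
    obtain ⟨ζ, hζ⟩ := IsCyclic.exists_ofOrder_eq_natCard (α := (kk p n)ˣ)
    rw [Nat.card_units, GaloisField.card p n (by omega)] at hζ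
    have h1 := exists_model_hom p hq hend (τ := WittVector.teichmuller p (ζ : kk p n))
      (by rw [← map_pow, kk_pow p n hn]) γ hγ
    rw [← map_pow] at h1
    have h2 : (ζ : kk p n) ^ γ.degree = ζ := congrArg (fun x => WittVector.coeff x 0) h1
    have h3 : ζ ^ γ.degree = ζ ^ 1 := Units.ext (by rw [pow_one, Units.val_pow_eq_pow_val, h2])
    rwa [pow_eq_pow_iff_modEq, hζ] at h3
  · intro γ
    have h1 := exists_model_fix p hq hend WittVector.frobenius γ
    conv_rhs => rw [← h1]
    exact (WittVector.coeff_frobenius_charP p _ 0).symm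

theorem isFGHom_scalar_pow {R : Type*} [CommRing R] {d : ℕ} {c : R} (hc : c ^ (d + 1) = c)
    (t : ℕ) : c ^ (1 + d * t) = c := by
  induction t with
  | zero => simp
  | succ t ih => rw [Nat.mul_succ, ← add_assoc, pow_add, ih, ← pow_succ', hc]

theorem isFGHom_scalar {R : Type*} [CommRing R] {F : FormalGroup R} {d : ℕ}
    (hhom : ∀ γ : Fin 2 →₀ ℕ, coeff γ F.toPowerSeries ≠ 0 → γ.degree ≡ 1 [MOD d]) {c : R}
    (hc : c ^ (d + 1) = c) : IsFGHom F F (PowerSeries.C c * PowerSeries.X) := by
  refine ⟨by rw [map_mul, PowerSeries.constantCoeff_X, mul_zero], ?_⟩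
  have hs : ∀ {f : MvPowerSeries (Fin 2) R}, constantCoeff f = 0 →
      PowerSeries.subst f (PowerSeries.C c * PowerSeries.X : PowerSeries R) = C c * f := by
    intro f hf
    have hs := PowerSeries.HasSubst.of_constantCoeff_zero hf
    rw [PowerSeries.subst_mul hs, PowerSeries.subst_X hs, PowerSeries.subst_C]
  rw [hs F.zero_constantCoeff, hs (constantCoeff_X _), hs (constantCoeff_X _)]
  have e : (![C c * X 0, C c * X 1] : Fin 2 → MvPowerSeries (Fin 2) R) =
      fun s => C c * X s := by
    funext s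
    fin_cases s <;> rfl
  rw [e]
  ext γ
  rw [exists_model_scal, coeff_C_mul]
  by_cases hγ : coeff γ F.toPowerSeries = 0
  · rw [hγ, mul_zero, mul_zero]
  have h1 : 1 ≤ γ.degree := by
    rw [Nat.one_le_iff_ne_zero, Ne, Finsupp.degree_eq_zero_iff]
    rintro rfl
    exact hγ F.zero_constantCoeff
  obtain ⟨t, ht⟩ := (Nat.modEq_iff_exists_eq_add h1).1 (hhom γ hγ).symm
  rw [ht, isFGHom_scalar_pow hc]

theorem isFGHom_X_pow {R : Type*} [CommRing R] [CharP R p] {F : FormalGroup R} (l : ℕ)
    (hF : ∀ γ : Fin 2 →₀ ℕ, coeff γ F.toPowerSeries ^ p ^ l = coeff γ F.toPowerSeries) :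
    IsFGHom F F (PowerSeries.X ^ p ^ l) := by
  have hp : p ≠ 0 := (Fact.out : p.Prime).ne_zero
  refine ⟨by rw [map_pow, PowerSeries.constantCoeff_X, zero_pow (pow_ne_zero l hp)], ?_⟩
  have hs : ∀ {f : MvPowerSeries (Fin 2) R}, constantCoeff f = 0 →
      PowerSeries.subst f (PowerSeries.X ^ p ^ l : PowerSeries R) = f ^ p ^ l := by
    intro f hf
    have hs := PowerSeries.HasSubst.of_constantCoeff_zero hf
    rw [PowerSeries.subst_pow hs, PowerSeries.subst_X hs]
  rw [hs F.zero_constantCoeff, hs (constantCoeff_X _), hs (constantCoeff_X _),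
    ← map_iterateFrobenius_expand p hp, map_expand]
  have e1 : MvPowerSeries.map (iterateFrobenius R p l) F.toPowerSeries = F.toPowerSeries := by
    ext γ
    rw [coeff_map, iterateFrobenius_def, hF]
  rw [e1, expand, coe_substAlgHom]
  congr 1
  funext s
  fin_cases s <;> rfl

theorem isLift_monomial (hn : 1 ≤ n) {F0 : FormalGroup (WW p n)} (h : IsModel p n F0) (c : kk p n)
    (l : ℕ) : IsLift p n F0
      (PowerSeries.C (WittVector.teichmuller p c) * PowerSeries.X ^ p ^ l) := by
  have hp : p ≠ 0 := (Fact.out : p.Prime).ne_zero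
  refine ⟨by rw [map_mul, map_pow, PowerSeries.constantCoeff_X, zero_pow (pow_ne_zero l hp),
    mul_zero], ?_⟩
  have h1 : IsFGHom (F0.map (resW p n)) (F0.map (resW p n)) (PowerSeries.X ^ p ^ l) :=
    isFGHom_X_pow p l fun γ => by
      have hx : coeff γ (F0.map (resW p n)).toPowerSeries ^ p =
          coeff γ (F0.map (resW p n)).toPowerSeries := h.frob γ
      induction l with
      | zero => simp
      | succ l ih => rw [pow_succ, pow_mul, ih, hx]
  have h2 : IsFGHom (F0.map (resW p n)) (F0.map (resW p n)) (PowerSeries.C c * PowerSeries.X) :=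
    isFGHom_scalar (d := p ^ n - 1) (fun γ hγ => h.hom γ fun h0 => hγ (by
      change resW p n (coeff γ F0.toPowerSeries) = 0
      rw [h0, map_zero])) (by
      rw [Nat.sub_add_cancel (Nat.one_le_pow _ _ (Nat.pos_of_ne_zero hp)), kk_pow p n hn])
  have h3 := isFGHom_comp h1 h2
  have hs := PowerSeries.HasSubst.of_constantCoeff_zero' h1.1
  rw [cmp, PowerSeries.subst_mul hs, PowerSeries.subst_X hs, PowerSeries.subst_C] at h3
  rw [map_mul, map_pow, PowerSeries.map_C, PowerSeries.map_X]
  exact h3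

theorem IsLift.fadd {F0 : FormalGroup (WW p n)} [F0.IsComm] {a b : PowerSeries (WW p n)}
    (ha : IsLift p n F0 a) (hb : IsLift p n F0 b) : IsLift p n F0 (fadd F0 a b) := by
  refine ⟨fadd_constantCoeff F0 ha.1 hb.1, ?_⟩
  rw [map_fadd F0 _ ha.1 hb.1]
  exact isFGHom_fadd ha.2 hb.2

theorem isLift_zero (F0 : FormalGroup (WW p n)) : IsLift p n F0 0 := by
  refine ⟨map_zero _, ?_⟩
  rw [map_zero]
  exact isFGHom_zero _ _

end Crest.R227
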