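import Crest.Agent.R227.Pi

/-! Row 227. The logarithm `L(Y) = lim [p^M] Y / p^{M+2}` on points divisible by `p²`.
If `Y_M = p^{M+2} y_M` then `[p] Y_M = p Y_M + Y_M² g`, so `y_{M+1} = y_M (1 + p^{M+1} y_M g)`. -/

set_option autoImplicit false

namespace Crest.R227

open Crest.LubinTate

variable {B B' : Type*} [CommRing B] [CommRing B']
variable {I : Ideal B} [IsAdicComplete I B] {F G : FormalGroup B} [F.IsComm] [G.IsComm]
variable {I' : Ideal B'} [IsAdicComplete I' B'] {F' : FormalGroup B'} [F'.IsComm]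
variable {p : ℕ}

def IsLog (p : ℕ) (Y : Pt I F) (L : B) : Prop :=
  ∀ M : ℕ, ∃ y : B, (p ^ M • Y).val = (p : B) ^ (M + 2) * y ∧ L - y ∈ I ^ (M + 1)

theorem isLog_step {Y : Pt I F} {M : ℕ} {y : B} (h : (p ^ M • Y).val = (p : B) ^ (M + 2) * y) :
    ∃ g : B, (p ^ (M + 1) • Y).val =
      (p : B) ^ (M + 1 + 2) * (y * (1 + (p : B) ^ (M + 1) * y * g)) := by
  obtain ⟨g, hg⟩ := Ideal.mem_span_singleton'.1 (Pt.nsmul_val_sub_mem p (p ^ M • Y))
  refine ⟨g, ?_⟩
  have e : p ^ (M + 1) • Y = p • (p ^ M • Y) := by rw [pow_succ', mul_nsmul']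
  rw [e]
  have : (p • (p ^ M • Y)).val = g * (p ^ M • Y).val ^ 2 + p * (p ^ M • Y).val := by
    rw [hg]; ring
  rw [this, h]
  ring

theorem exists_isLog (hp : (p : B) ∈ I) {Y : Pt I F} (hY : Y.val ∈ Ideal.span {(p : B) ^ 2}) :
    ∃ L, IsLog p Y L := by
  obtain ⟨y0, hy0⟩ := Ideal.mem_span_singleton'.1 hY
  have key : ∀ (M : ℕ) (y : {y : B // (p ^ M • Y).val = (p : B) ^ (M + 2) * y}),
      ∃ y' : {y : B // (p ^ (M + 1) • Y).val = (p : B) ^ (M + 1 + 2) * y},
        y'.1 - y.1 ∈ I ^ (M + 1) := by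
    intro M y
    obtain ⟨g, hg⟩ := isLog_step y.2
    refine ⟨⟨_, hg⟩, ?_⟩
    have : y.1 * (1 + (p : B) ^ (M + 1) * y.1 * g) - y.1 = (p : B) ^ (M + 1) * (y.1 * y.1 * g) := by
      ring
    change y.1 * (1 + (p : B) ^ (M + 1) * y.1 * g) - y.1 ∈ _
    rw [this]
    exact Ideal.mul_mem_right _ _ (Ideal.pow_mem_pow hp _)
  choose f hf using key
  let s : ∀ M : ℕ, {y : B // (p ^ M • Y).val = (p : B) ^ (M + 2) * y} := fun M =>
    Nat.rec (motive := fun M => {y : B // (p ^ M • Y).val = (p : B) ^ (M + 2) * y})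
      ⟨y0, by simp [← hy0, mul_comm]⟩ (fun M y => f M y) M
  have hs : ∀ M, (s (M + 1)).1 - (s M).1 ∈ I ^ (M + 1) := fun M => hf M (s M)
  have hs2 : ∀ M k, (s (M + k)).1 - (s M).1 ∈ I ^ (M + 1) := by
    intro M k
    induction k with
    | zero => simp
    | succ k ih =>
      have h1 : (s (M + k + 1)).1 - (s (M + k)).1 ∈ I ^ (M + 1) :=
        Ideal.pow_le_pow_right (by omega) (hs (M + k))
      have := Ideal.add_mem _ h1 ih
      rw [sub_add_sub_cancel] at this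
      exact this
  obtain ⟨L, hL⟩ := IsPrecomplete.prec (I := I) (M := B) inferInstance (f := fun M => (s M).1) (by
    intro m n hmn
    obtain ⟨k, rfl⟩ := Nat.exists_eq_add_of_le hmn
    rw [SModEq.sub_mem, smul_eq_mul, Ideal.mul_top]
    have := (I ^ (m + 1)).neg_mem (hs2 m k)
    rw [neg_sub] at this
    exact Ideal.pow_le_pow_right (Nat.le_succ m) this)
  refine ⟨L, fun M => ⟨(s M).1, (s M).2, ?_⟩⟩
  have h1 := hL (M + 1)
  rw [SModEq.sub_mem, smul_eq_mul, Ideal.mul_top] at h1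
  have := Ideal.sub_mem _ (hs M) h1
  simpa using this

omit [IsAdicComplete I B] in
theorem isLog_eq_of_forall [IsHausdorff I B] {a b : B} (h : ∀ M, a - b ∈ I ^ (M + 1)) : a = b := by
  rw [← sub_eq_zero]
  refine IsHausdorff.haus (I := I) inferInstance _ fun n => ?_
  rw [SModEq.zero, smul_eq_mul, Ideal.mul_top]
  exact Ideal.pow_le_pow_right (by omega) (h n)

theorem IsLog.unique (hp0 : (p : B) ∈ nonZeroDivisors B) {Y : Pt I F} {L L' : B}
    (h : IsLog p Y L) (h' : IsLog p Y L') : L = L' := by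
  refine isLog_eq_of_forall (I := I) fun M => ?_
  obtain ⟨y, hy, hL⟩ := h M
  obtain ⟨y', hy', hL'⟩ := h' M
  have e : y = y' := by
    have := hy.symm.trans hy'
    exact (mul_cancel_left_mem_nonZeroDivisors (pow_mem hp0 _)).1 this
  subst e
  simpa using Ideal.sub_mem _ hL hL'

theorem IsLog.add (hp : (p : B) ∈ I) {Y Y' : Pt I F} {L L' : B} (h : IsLog p Y L)
    (h' : IsLog p Y' L') : IsLog p (Y + Y') (L + L') := by
  intro M
  obtain ⟨y, hy, hL⟩ := h M
  obtain ⟨y', hy', hL'⟩ := h' M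
  obtain ⟨g, hg⟩ := Ideal.mem_span_singleton'.1 (Pt.add_val_sub_mem (p ^ M • Y) (p ^ M • Y'))
  refine ⟨y + y' + (p : B) ^ (M + 1) * (p * y * y' * g), ?_, ?_⟩
  · rw [nsmul_add]
    have : (p ^ M • Y + p ^ M • Y').val =
        g * ((p ^ M • Y).val * (p ^ M • Y').val) + (p ^ M • Y).val + (p ^ M • Y').val := by
      rw [hg]; ring
    rw [this, hy, hy']
    ring
  · have : L + L' - (y + y' + (p : B) ^ (M + 1) * (p * y * y' * g)) =
        (L - y) + (L' - y') - (p : B) ^ (M + 1) * (p * y * y' * g) := by ring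
    rw [this]
    exact Ideal.sub_mem _ (Ideal.add_mem _ hL hL')
      (Ideal.mul_mem_right _ _ (Ideal.pow_mem_pow hp _))

theorem IsLog.nsmul_p (hp : (p : B) ∈ I) {Y : Pt I F} {L : B} (h : IsLog p Y L) :
    IsLog p (p • Y) (p * L) := by
  intro M
  obtain ⟨y, hy, hL⟩ := h (M + 1)
  refine ⟨p * y, ?_, ?_⟩
  · have e : p ^ M • p • Y = p ^ (M + 1) • Y := by rw [pow_succ, mul_nsmul']
    rw [e, hy]
    ring
  · rw [← mul_sub]
    exact Ideal.mul_mem_left _ _ (Ideal.pow_le_pow_right (by omega) hL)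

theorem IsLog.act (hp : (p : B) ∈ I) {θ : PowerSeries B} (hθ : IsFGHom F G θ) {Y : Pt I F}
    {L : B} (h : IsLog p Y L) : IsLog p (Pt.act I F G θ Y) (PowerSeries.coeff 1 θ * L) := by
  intro M
  obtain ⟨y, hy, hL⟩ := h M
  obtain ⟨g, hg⟩ := Ideal.mem_span_singleton'.1 (Pt.act_val_sub_mem hθ (p ^ M • Y))
  refine ⟨PowerSeries.coeff 1 θ * y + (p : B) ^ (M + 1) * (p * y * y * g), ?_, ?_⟩
  · rw [← map_nsmul]
    have : (Pt.act I F G θ (p ^ M • Y)).val =
        g * (p ^ M • Y).val ^ 2 + PowerSeries.coeff 1 θ * (p ^ M • Y).val := by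
      rw [hg]; ring
    rw [this, hy]
    ring
  · have : PowerSeries.coeff 1 θ * L -
        (PowerSeries.coeff 1 θ * y + (p : B) ^ (M + 1) * (p * y * y * g)) =
        PowerSeries.coeff 1 θ * (L - y) - (p : B) ^ (M + 1) * (p * y * y * g) := by ring
    rw [this]
    exact Ideal.sub_mem _ (Ideal.mul_mem_left _ _ hL)
      (Ideal.mul_mem_right _ _ (Ideal.pow_mem_pow hp _))

theorem IsLog.map (ρ : B →+* B') (hρ : I ≤ I'.comap ρ) (hρ' : I ≤ I'.radical.comap ρ)
    (hF : F.map ρ = F') {Y : Pt I F} {L : B} (h : IsLog p Y L) :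
    IsLog p (Pt.map I I' F F' ρ hρ' hF Y) (ρ L) := by
  intro M
  obtain ⟨y, hy, hL⟩ := h M
  refine ⟨ρ y, ?_, ?_⟩
  · rw [← map_nsmul, Pt.map_val, hy]
    simp
  · rw [← map_sub]
    have h1 : I ^ (M + 1) ≤ (I' ^ (M + 1)).comap ρ :=
      (Ideal.pow_right_mono hρ _).trans (Ideal.le_comap_pow ρ _)
    exact h1 hL

theorem isLog_witness (hp : (p : B) ∈ I) {Y : Pt I F} {y : B} (hy : Y.val = (p : B) ^ 2 * y)
    (M : ℕ) : ∃ u : B, u - 1 ∈ I ∧ (p ^ M • Y).val = (p : B) ^ (M + 2) * (y * u) := by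
  induction M with
  | zero => exact ⟨1, by simp, by simpa using hy⟩
  | succ M ih =>
    obtain ⟨u, hu, h⟩ := ih
    obtain ⟨g, hg⟩ := isLog_step h
    refine ⟨u * (1 + (p : B) ^ (M + 1) * (y * u) * g), ?_, by rw [hg]; ring⟩
    have : u * (1 + (p : B) ^ (M + 1) * (y * u) * g) - 1 =
        (u - 1) + p * (u * (p : B) ^ M * (y * u) * g) := by ring
    rw [this]
    exact I.add_mem hu (I.mul_mem_right _ hp)

/-- `L` is a multiple of `y₀` modulo every power of `I`, where `Y = p² y₀`. -/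
theorem IsLog.mem_sup (hp : (p : B) ∈ I) (hp0 : (p : B) ∈ nonZeroDivisors B) {Y : Pt I F} {L y : B}
    (h : IsLog p Y L) (hy : Y.val = (p : B) ^ 2 * y) (k : ℕ) :
    L ∈ Ideal.span {y} ⊔ I ^ k := by
  obtain ⟨z, hz, hL⟩ := h k
  obtain ⟨u, -, hu⟩ := isLog_witness hp hy k
  have e : z = y * u :=
    (mul_cancel_left_mem_nonZeroDivisors (pow_mem hp0 _)).1 (hz.symm.trans hu)
  have : L = y * u + (L - z) := by rw [e]; ring
  rw [this]
  exact Submodule.add_mem_sup (Ideal.mul_mem_right _ _ (Ideal.mem_span_singleton_self y))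
    (Ideal.pow_le_pow_right (by omega) hL)

theorem IsLog.eq_zero (hp : (p : B) ∈ I) (hp0 : (p : B) ∈ nonZeroDivisors B) {Y : Pt I F}
    (h : IsLog p Y 0) : Y = 0 := by
  obtain ⟨y, hy, -⟩ := h 0
  have hy' : Y.val = (p : B) ^ 2 * y := by simpa using hy
  have hy0 : y = 0 := by
    refine isLog_eq_of_forall (I := I) fun M => ?_
    obtain ⟨z, hz, hL⟩ := h M
    obtain ⟨u, hu1, hu⟩ := isLog_witness hp hy' M
    have e : z = y * u :=
      (mul_cancel_left_mem_nonZeroDivisors (pow_mem hp0 _)).1 (hz.symm.trans hu)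
    have hunit : IsUnit u := by
      have := Ideal.mem_jacobson_bot.1 (IsAdicComplete.le_jacobson_bot I hu1) 1
      simpa using this
    obtain ⟨v, hv⟩ := hunit.exists_right_inv
    have : y - 0 = (0 - z) * (-v) := by
      rw [e]; linear_combination (-y) * hv
    rw [this]
    exact Ideal.mul_mem_right _ _ hL
  ext
  simp [hy', hy0]

open Classical in
noncomputable def logF (p : ℕ) (Y : Pt I F) : B := if h : ∃ L, IsLog p Y L then h.choose else 0

theorem isLog_logF (hp : (p : B) ∈ I) {Y : Pt I F} (hY : Y.val ∈ Ideal.span {(p : B) ^ 2}) :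
    IsLog p Y (logF p Y) := by
  unfold logF
  rw [dif_pos (exists_isLog hp hY)]
  exact (exists_isLog hp hY).choose_spec

theorem IsLog.logF_eq (hp0 : (p : B) ∈ nonZeroDivisors B) {Y : Pt I F} {L : B}
    (h : IsLog p Y L) : logF p Y = L := by
  unfold logF
  rw [dif_pos ⟨L, h⟩]
  exact IsLog.unique hp0 (Exists.choose_spec (⟨L, h⟩ : ∃ L, IsLog p Y L)) h

end Crest.R227
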