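import Crest.Agent.R227.HI
import Crest.Agent.R227.LT

/-! Row 227. Transport of the hypotheses to normalised data. -/

set_option autoImplicit false

namespace Crest.R227

open Crest.LubinTate MvPowerSeries

variable (p : ℕ) [Fact p.Prime] (n : ℕ)

theorem universal_transport_cc {R S : Type*} [CommRing R] [CommRing S] (ρ : R →+* S)
    {f : PowerSeries R} (hf : PowerSeries.constantCoeff f = 0) :
    PowerSeries.constantCoeff (PowerSeries.map ρ f) = 0 := by
  change ρ (PowerSeries.constantCoeff f) = 0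
  rw [hf, map_zero]

theorem universal_transport_mm {R S T : Type*} [CommRing R] [CommRing S] [CommRing T]
    (ρ : R →+* S) (ρ' : S →+* T) {τ : R →+* T} (h : ρ'.comp ρ = τ) (f : PowerSeries R) :
    PowerSeries.map ρ' (PowerSeries.map ρ f) = PowerSeries.map τ f := by
  rw [← h, PowerSeries.map_comp]
  rfl

theorem universal_transport_star {B K : Type*} [CommRing B] [CommRing K] (r : B →+* K)
    {A A' G G' : FormalGroup B} {κ η : PowerSeries B} (hκ : IsFGHom A' A κ) (hη : IsFGHom G G' η)
    (e : cmp η κ = PowerSeries.X)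
    (h : ∃ θ, IsFGHom A G θ ∧ PowerSeries.map r θ = PowerSeries.X) :
    ∃ θ, IsFGHom A' G' θ ∧ PowerSeries.map r θ = PowerSeries.X := by
  obtain ⟨θ, hθ, hr⟩ := h
  refine ⟨_, isFGHom_comp (isFGHom_comp hκ hθ) hη, ?_⟩
  rw [map_cmp r (constantCoeff_cmp hθ.1 hκ.1), map_cmp r hκ.1, hr,
    X_cmp (universal_transport_cc r hκ.1), ← map_cmp r hκ.1, e, PowerSeries.map_X]

theorem universal_transport_inv {H H' : FormalGroup (EE p n)} {κ : PowerSeries (WW p n)}
    (h1 : PowerSeries.coeff 1 κ = 1)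
    (hκ : IsFGHom H' H (PowerSeries.map (algebraMap (WW p n) (EE p n)) κ)) :
    PowerSeries.constantCoeff κ = 0 ∧ ∃ η : PowerSeries (WW p n), PowerSeries.constantCoeff η = 0 ∧
      IsUnit (PowerSeries.coeff 1 η) ∧ ∀ {B : Type} [CommRing B] (a : WW p n →+* B),
      cmp (PowerSeries.map a η) (PowerSeries.map a κ) = PowerSeries.X ∧
      cmp (PowerSeries.map a κ) (PowerSeries.map a η) = PowerSeries.X := by
  have h0 : PowerSeries.constantCoeff κ = 0 := by
    have h : algebraMap (WW p n) (EE p n) (PowerSeries.constantCoeff κ) = 0 := hκ.1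
    simpa [MvPowerSeries.algebraMap_apply] using congrArg MvPowerSeries.constantCoeff h
  obtain ⟨η, e0, eu, e1, e2⟩ := exists_substInv h0 (h1 ▸ isUnit_one)
  refine ⟨h0, η, e0, eu, fun a => ⟨?_, ?_⟩⟩
  · rw [← map_cmp a h0, e1, PowerSeries.map_X]
  · rw [← map_cmp a e0, e2, PowerSeries.map_X]

theorem universal_transport_alg {H H' : FormalGroup (EE p n)} {κ : PowerSeries (WW p n)}
    (hκ : IsFGHom H' H (PowerSeries.map (algebraMap (WW p n) (EE p n)) κ))
    {B : Type} [CommRing B] [Algebra (WW p n) B] (φ : EE p n →ₐ[WW p n] B) :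
    IsFGHom (H'.map φ.toRingHom) (H.map φ.toRingHom)
      (PowerSeries.map (algebraMap (WW p n) B) κ) := by
  have := isFGHom_map hκ φ.toRingHom
  rwa [universal_transport_mm _ φ.toRingHom φ.comp_algebraMap] at this

/-- Given a test deformation `G'` of `Γ'` over `B`, transport it along the image of `κ` in `B`
(`exists_transport`, `transport_unique`) to a deformation of `Γ`; conjugate ⋆-isomorphisms by `κ`. -/
theorem universal_transport {Γ : FormalGroup (kk p n)} {H H' : FormalGroup (EE p n)}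
    (hH : IsUniversalDeformation p n Γ H) {κ : PowerSeries (WW p n)}
    (h1 : PowerSeries.coeff 1 κ = 1)
    (hκ : IsFGHom H' H (PowerSeries.map (algebraMap (WW p n) (EE p n)) κ)) :
    IsUniversalDeformation p n (H'.map (resE p n)) H' := by
  obtain ⟨h0, η, e0, -, e⟩ := universal_transport_inv p n h1 hκ
  refine ⟨rfl, fun B _ _ _ _ hc r hs hk hr G' hG' => ?_⟩
  obtain ⟨e1, e2⟩ := e (algebraMap (WW p n) B)
  have η0 := universal_transport_cc (algebraMap (WW p n) B) e0
  obtain ⟨G, hG, -⟩ := exists_transport G' (universal_transport_cc (algebraMap (WW p n) B) h0)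
    (by rw [PowerSeries.coeff_map, h1, map_one]; exact isUnit_one)
  have hGr : G.map r = Γ := by
    have a1 := isFGHom_map hG r
    have a2 := isFGHom_map hκ (resE p n)
    rw [universal_transport_mm _ _ hr, hG'] at a1
    rw [universal_transport_mm _ _ (resE_comp p n), hH.1] at a2
    exact transport_unique a1 a2 (by rw [PowerSeries.coeff_map, h1, map_one]; exact isUnit_one)
  obtain ⟨φ, ⟨hφ, hθ⟩, hu⟩ := hH.2 B hc r hs hk hr G hGr
  refine ⟨φ, ⟨hφ, universal_transport_star r (universal_transport_alg p n hκ φ)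
    (isFGHom_symm hG η0 e1 e2) e1 hθ⟩, fun ψ hψ => hu ψ ⟨hψ.1, ?_⟩⟩
  exact universal_transport_star r (isFGHom_symm (universal_transport_alg p n hκ ψ) η0 e1 e2)
    hG e2 hψ.2

/-- `g = κ g' κ⁻¹` is congruent to `X` modulo `X^M` when `g'` is (`cmp_sub_cmp_dvd`). -/
theorem stable_transport {H H' : FormalGroup (EE p n)} {κ : PowerSeries (WW p n)}
    (h1 : PowerSeries.coeff 1 κ = 1)
    (hκ : IsFGHom H' H (PowerSeries.map (algebraMap (WW p n) (EE p n)) κ)) {M : ℕ}
    {J : Ideal (EE p n)} (hJ : IsStableIdeal p n (H.map (resE p n)) H M J) :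
    IsStableIdeal p n (H'.map (resE p n)) H' M J := by
  obtain ⟨h0, η, e0, eu, e⟩ := universal_transport_inv p n h1 hκ
  rintro g φ hg hM ⟨hφ, θ, hθ, rfl⟩
  obtain ⟨e1, e2⟩ := e (algebraMap (WW p n) (EE p n))
  have η0 := universal_transport_cc (algebraMap (WW p n) (EE p n)) e0
  have hη := isFGHom_symm (universal_transport_alg p n hκ φ) η0 e1 e2
  have hΘ := isFGHom_comp (isFGHom_comp hη hθ) hκ
  have η1 := universal_transport_cc (resW p n) e0
  have θ1 := universal_transport_cc (resE p n) hθ.1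
  have hm : PowerSeries.map (resE p n) (cmp (PowerSeries.map (algebraMap (WW p n) (EE p n)) κ)
      (cmp θ (PowerSeries.map (algebraMap (WW p n) (EE p n)) η))) =
      cmp (PowerSeries.map (resW p n) κ)
        (cmp (PowerSeries.map (resE p n) θ) (PowerSeries.map (resW p n) η)) := by
    rw [map_cmp _ (constantCoeff_cmp hθ.1 η0), map_cmp _ η0,
      universal_transport_mm _ _ (resE_comp p n), universal_transport_mm _ _ (resE_comp p n)]
  refine hJ _ φ ⟨?_, ?_⟩ ?_ ⟨hφ, _, hΘ, rfl⟩
  · have := isFGHom_map hΘ (resE p n)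
    rwa [fg_map_map, hφ] at this
  · rw [hm, coeff_one_cmp _ (constantCoeff_cmp θ1 η1), coeff_one_cmp _ η1, PowerSeries.coeff_map,
      h1, map_one, one_mul]
    refine hg.2.mul ?_
    rw [PowerSeries.coeff_map]
    exact eu.map _
  · have d1 : (PowerSeries.X : PowerSeries (kk p n)) ^ M ∣
        PowerSeries.map (resE p n) θ - PowerSeries.X :=
      PowerSeries.X_pow_dvd_iff.2 fun i hi => by rw [map_sub, hM i hi, sub_self]
    have hs := PowerSeries.HasSubst.of_constantCoeff_zero' η1
    have d2 := map_dvd (PowerSeries.substAlgHom (R := kk p n) hs) d1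
    rw [map_pow, map_sub, PowerSeries.coe_substAlgHom, PowerSeries.subst_X hs] at d2
    have d3 := ((pow_dvd_pow_of_dvd (PowerSeries.X_dvd_iff.2 η1) M).trans d2).trans
      (cmp_sub_cmp_dvd (PowerSeries.map (resW p n) κ) (constantCoeff_cmp θ1 η1) η1)
    rw [(e (resW p n)).2, ← hm] at d3
    intro i hi
    have := PowerSeries.X_pow_dvd_iff.1 d3 i hi
    rwa [map_sub, sub_eq_zero] at this

theorem universal_coord {Γ : FormalGroup (kk p n)} {H : FormalGroup (EE p n)}
    (hH : IsUniversalDeformation p n Γ H) (β : EE p n ≃ₐ[WW p n] EE p n)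
    (hβ : ∀ f, resE p n (β f) = resE p n f) :
    IsUniversalDeformation p n Γ (H.map β.toRingEquiv.toRingHom) := by
  have hβ' : ∀ f, resE p n (β.symm f) = resE p n f := fun f => by
    rw [← hβ (β.symm f), β.apply_symm_apply]
  refine ⟨?_, fun B _ _ _ _ hB r hr hk hc G hG => ?_⟩
  · rw [fg_map_map, ← hH.1]
    congr 1
    exact RingHom.ext hβ
  · obtain ⟨φ, ⟨h1, θ, h2, h3⟩, hu⟩ := hH.2 B hB r hr hk hc G hG
    refine ⟨φ.comp (β.symm : EE p n →ₐ[WW p n] EE p n), ⟨RingHom.ext fun f => ?_, θ, ?_, h3⟩,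
      fun ψ ⟨k1, θ', k2, k3⟩ => ?_⟩
    · exact (RingHom.congr_fun h1 (β.symm f)).trans (hβ' f)
    · rw [fg_map_map]
      convert h2 using 2
      exact RingHom.ext fun f => congrArg φ (β.symm_apply_apply f)
    · rw [fg_map_map] at k2
      have := hu (ψ.comp (β : EE p n →ₐ[WW p n] EE p n))
        ⟨RingHom.ext fun f => (RingHom.congr_fun k1 (β f)).trans (hβ f), θ', k2, k3⟩
      rw [← this]
      exact AlgHom.ext fun f => congrArg ψ (β.apply_symm_apply f).symm

theorem stable_coord {Γ : FormalGroup (kk p n)} {H : FormalGroup (EE p n)}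
    (β : EE p n ≃ₐ[WW p n] EE p n) (hβ : ∀ f, resE p n (β f) = resE p n f) {M : ℕ}
    {J : Ideal (EE p n)} (hJ : IsStableIdeal p n Γ H M J) :
    IsStableIdeal p n Γ (H.map β.toRingEquiv.toRingHom) M (J.map β.toRingEquiv.toRingHom) := by
  have hβ' : ∀ f, resE p n (β.symm f) = resE p n f := fun f => by
    rw [← hβ (β.symm f), β.apply_symm_apply]
  rintro g φ hg hM ⟨h1, θ, h2, h3⟩
  have hmem : ∀ f, f ∈ J.map β.toRingEquiv.toRingHom ↔ β.symm f ∈ J := fun f => by
    rw [show J.map β.toRingEquiv.toRingHom = J.comap β.toRingEquiv.symm from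
      Ideal.map_comap_of_equiv β.toRingEquiv]
    rfl
  have h4 := isFGHom_map h2 β.symm.toRingEquiv.toRingHom
  rw [fg_map_map, fg_map_map, fg_map_map,
    show β.symm.toRingEquiv.toRingHom.comp β.toRingEquiv.toRingHom = RingHom.id _ from
      RingHom.ext β.symm_apply_apply, fg_map_id] at h4
  have h5 := hJ g ((β.symm : EE p n →ₐ[WW p n] EE p n).comp
    (φ.comp (β : EE p n →ₐ[WW p n] EE p n))) hg hM
    ⟨RingHom.ext fun f => (hβ' _).trans ((RingHom.congr_fun h1 (β f)).trans (hβ f)), _, h4, by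
      rw [← h3]
      ext k
      rw [PowerSeries.coeff_map, PowerSeries.coeff_map, PowerSeries.coeff_map]
      exact hβ' _⟩
  ext f
  have h6 : β.symm (φ (β (β.symm f))) ∈ J ↔ β.symm f ∈ J := SetLike.ext_iff.1 h5 (β.symm f)
  rw [β.apply_symm_apply] at h6
  rw [Ideal.mem_comap, hmem, hmem]
  exact h6

/-- Assembly: `exists_model` for `H|_{u=0}`, transport `H` along `κ⁻¹`, then `exists_alpha` and
`β = α⁻¹`. -/
theorem exists_normal (hn : 1 ≤ n) (Γ : FormalGroup (kk p n))
    (hΓ : mulSeries Γ p = PowerSeries.X ^ p ^ n) (H : FormalGroup (EE p n)) [H.IsComm]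
    (hH : IsUniversalDeformation p n Γ H) :
    ∃ (F0 : FormalGroup (WW p n)) (H' : FormalGroup (EE p n)) (β : EE p n ≃+* EE p n),
      F0.IsComm ∧ H'.IsComm ∧ IsNorm p n F0 H' ∧
      IsUniversalDeformation p n (F0.map (resW p n)) H' ∧
      (∀ h, heightIdeal p n H' h = (heightIdeal p n H h).map β.toRingHom) ∧
      ∀ M J, IsStableIdeal p n Γ H M J →
        IsStableIdeal p n (F0.map (resW p n)) H' M (J.map β.toRingHom) := by
  have hH0 : (H.map (constantCoeff : EE p n →+* WW p n)).map (resW p n) = Γ := by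
    rw [fg_map_map]
    exact hH.1
  obtain ⟨F0, κ, hc, hF0, hκ, h1⟩ := exists_model p n hn
    (H.map (constantCoeff : EE p n →+* WW p n)) (by rw [hH0]; exact hΓ)
  have k0 : PowerSeries.constantCoeff (PowerSeries.map (algebraMap (WW p n) (EE p n)) κ) = 0 := by
    change algebraMap (WW p n) (EE p n) (PowerSeries.constantCoeff κ) = 0
    rw [hκ.1, map_zero]
  have k1 : IsUnit (PowerSeries.coeff 1 (PowerSeries.map (algebraMap (WW p n) (EE p n)) κ)) := by
    rw [PowerSeries.coeff_map, h1, map_one]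
    exact isUnit_one
  obtain ⟨η, e0, e1, e2, e3⟩ := exists_substInv k0 k1
  obtain ⟨H1, hη, hc1⟩ := exists_transport H e0 e1
  have : H1.IsComm := hc1 inferInstance
  have hκ1 := isFGHom_symm hη k0 e3 e2
  have hres : H1.map (resE p n) = F0.map (resW p n) := by
    have a1 := isFGHom_map hκ1 (resE p n)
    have a2 := isFGHom_map hκ (resW p n)
    have a3 : PowerSeries.map (resE p n) (PowerSeries.map (algebraMap (WW p n) (EE p n)) κ) =
        PowerSeries.map (resW p n) κ := by
      ext k
      rw [PowerSeries.coeff_map, PowerSeries.coeff_map, PowerSeries.coeff_map]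
      exact RingHom.congr_fun (resE_comp p n) _
    rw [a3, hH.1] at a1
    rw [hH0] at a2
    refine transport_unique' a1 a2 ?_
    rw [PowerSeries.coeff_map, h1, map_one]
    exact isUnit_one
  have hU := universal_transport p n hH h1 hκ1
  have hI := heightIdeal_iso p n hκ1 k1
  obtain ⟨α, hα, hαr⟩ := exists_alpha p n hn H1
    ((hI n).trans (heightIdeal_top p n hn Γ hΓ H hH))
  have hβ : ∀ f, resE p n (α.symm f) = resE p n f := fun f => by
    rw [← hαr (α.symm f), α.apply_symm_apply]
  rw [hres] at hU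
  have hU' := universal_coord p n hU α.symm hβ
  refine ⟨F0, H1.map α.symm.toRingEquiv.toRingHom, α.symm.toRingEquiv, hc, inferInstance,
    ⟨hn, hF0, hU'.1, fun i => ?_⟩, hU', fun h => ?_, fun M J hJ => ?_⟩
  · unfold vv
    rw [← map_mulSeries, PowerSeries.coeff_map]
    exact (congrArg α.symm (hα i).symm).trans (α.symm_apply_apply _)
  · rw [heightIdeal_map, hI]
  · rw [← hH.1] at hJ
    have := stable_transport p n h1 hκ1 hJ
    rw [hres] at this
    exact stable_coord p n α.symm hβ this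

end Crest.R227
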