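import Crest.Agent.R227.Char0
import Crest.Agent.R227.CharP2
import Crest.Agent.R227.Trans

/-! Row 227. Classification of stable radical ideals. -/

set_option autoImplicit false

namespace Crest.R227

open Crest.LubinTate MvPowerSeries

variable {p : ℕ} [Fact p.Prime] {n : ℕ}

theorem radical_normal {F0 : FormalGroup (WW p n)} [F0.IsComm] {H : FormalGroup (EE p n)}
    [H.IsComm] (hN : IsNorm p n F0 H) (hH : IsUniversalDeformation p n (F0.map (resW p n)) H)
    {M : ℕ} (hM : 1 ≤ M) {J : Ideal (EE p n)} (hrad : J.IsRadical) (htop : J ≠ ⊤)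
    (hJ : IsStableIdeal p n (F0.map (resW p n)) H M J) : ∃ h ≤ n, J = heightIdeal p n H h := by
  classical
  have hres : mulSeries (H.map (resE p n)) p = PowerSeries.X ^ p ^ n := by
    rw [hN.res]; exact hN.model.mul
  have htopI : heightIdeal p n H n = mE p n :=
    heightIdeal_top p n hN.hn _ hN.model.mul H hH
  let h := Nat.findGreatest (fun h => heightIdeal p n H h ≤ J) n
  have hle : h ≤ n := Nat.findGreatest_le n
  have hJh : heightIdeal p n H h ≤ J :=
    Nat.findGreatest_spec (P := fun h => heightIdeal p n H h ≤ J) (Nat.zero_le n)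
      (by simp [heightIdeal])
  refine ⟨h, hle, le_antisymm ?_ hJh⟩
  rcases hle.eq_or_lt with hn | hn
  · rw [hn, htopI, mE_eq_maximalIdeal]
    exact IsLocalRing.le_maximalIdeal htop
  · have hv : vv p n H h ∉ J := by
      intro hv
      have h1 : heightIdeal p n H (h + 1) ≤ J := by
        rw [heightIdeal]
        exact sup_le hJh ((Ideal.span_singleton_le_iff_mem _).2 hv)
      exact Nat.findGreatest_is_greatest (P := fun h => heightIdeal p n H h ≤ J)
        (Nat.lt_succ_self h) hn h1
    rcases Nat.eq_zero_or_pos h with h0 | h0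
    · rw [h0] at hv ⊢
      rw [vv_zero] at hv
      have hF : Fam p n F0 H J M (Jz p n) :=
        fam_of_end p n hN hH hM hJ _ (Jz_le p n) (fun m => ⟨_, pow_le_Jz p n m⟩)
          fun a ha m => end_Jz p n hN.res ha m
      rw [main0 hN hrad hv hF]
      exact bot_le
    · haveI : NeZero h := ⟨h0.ne'⟩
      have hF : Fam p n F0 H J M (Jh p n H h) :=
        fam_of_end p n hN hH hM hJ _
          (fun m => sup_le (heightIdeal_le_mE p n H hres hle)
            (Ideal.pow_le_self (pow_pos (pow_pos (Fact.out : p.Prime).pos h) m).ne'))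
          (fun m => ⟨_, le_sup_right⟩) fun a ha m => end_Jh p n hN.res ha h0 m
      exact mainP hN hn hrad hJh hv hF

theorem classification (hn : 1 ≤ n) (Γ : FormalGroup (kk p n))
    (hΓ : mulSeries Γ p = PowerSeries.X ^ (p ^ n)) (H : FormalGroup (EE p n)) [H.IsComm]
    (hH : IsUniversalDeformation p n Γ H) (M : ℕ) (hM : 1 ≤ M) :
    (∀ h ≤ n, (heightIdeal p n H h).IsPrime ∧ IsStableIdeal p n Γ H M (heightIdeal p n H h)) ∧
    ∀ J : Ideal (EE p n), J.IsRadical → J ≠ ⊤ → IsStableIdeal p n Γ H M J →
      ∃ h ≤ n, J = heightIdeal p n H h := by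
  obtain ⟨F0, H', β, i1, i2, hN, hU, hI, hS⟩ := exists_normal p n hn Γ hΓ H hH
  have hcomap : ∀ J : Ideal (EE p n), (J.map β.toRingHom).comap β.toRingHom = J := fun J =>
    Ideal.comap_map_of_bijective _ β.bijective
  refine ⟨fun h hh => ⟨?_, heightIdeal_stable p n Γ H (heightIdeal_top p n hn Γ hΓ H hH) M h⟩,
    fun J hrad htop hJ => ?_⟩
  · rw [← hcomap (heightIdeal p n H h), ← hI]
    haveI := heightIdeal_isPrime p n H' hN.coord hh
    exact Ideal.comap_isPrime _ _
  · have hrad' : (J.map β.toRingHom).IsRadical := by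
      have : J.map β.toRingHom = J.comap β.symm.toRingHom := Ideal.map_comap_of_equiv β
      rw [this]
      exact hrad.comap _
    have htop' : J.map β.toRingHom ≠ ⊤ := by
      intro h
      apply htop
      rw [← hcomap J, h, Ideal.comap_top]
    obtain ⟨h, hh, hJh⟩ := radical_normal hN hU hM hrad' htop' (hS M J hJ)
    refine ⟨h, hh, ?_⟩
    rw [← hcomap J, hJh, hI, hcomap]

end Crest.R227
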