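import Crest.Agent.R227.Pt

/-! Row 227. The map `π(y) = lim [p^N] y_N` and the logarithm near the origin. -/

set_option autoImplicit false

namespace Crest.R227

open Crest.LubinTate

variable {B B' : Type*} [CommRing B] [CommRing B']
variable {I : Ideal B} [IsAdicComplete I B] {F G : FormalGroup B} [F.IsComm] [G.IsComm]
variable {I' : Ideal B'} [IsAdicComplete I' B'] {F' : FormalGroup B'} [F'.IsComm]
variable {p : ℕ}

/-- `[p] y_{N+1} ≡ y_N` modulo `I`. -/
def IsSeq (p : ℕ) (y : ℕ → Pt I F) : Prop := ∀ N, (p • y (N + 1)).val - (y N).val ∈ I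

/-- `z = lim [p^N] y_N`. -/
def IsPi (p : ℕ) (y : ℕ → Pt I F) (z : Pt I F) : Prop :=
  ∀ N, z.val - (p ^ N • y N).val ∈ I ^ (N + 1)

theorem nsmul_p_congr (hp : (p : B) ∈ I) {k : ℕ} (hk : 1 ≤ k) {a b : Pt I F}
    (h : a.val - b.val ∈ I ^ k) : (p • a).val - (p • b).val ∈ I ^ (k + 1) := by
  rw [← Pt.sub_val_mem_iff] at h ⊢
  rw [← nsmul_sub]
  obtain ⟨c, hc⟩ := Ideal.mem_span_singleton'.1 (Pt.nsmul_val_sub_mem p (a - b))
  rw [eq_add_of_sub_eq hc.symm]
  refine Ideal.add_mem _ (Ideal.mul_mem_left _ _ ?_) ?_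
  · rw [sq, pow_succ]
    exact Ideal.mul_mem_mul h (Ideal.pow_le_self (by omega) h)
  · rw [pow_succ']
    exact Ideal.mul_mem_mul hp h

theorem nsmul_pow_congr (hp : (p : B) ∈ I) {a b : Pt I F} (h : a.val - b.val ∈ I) (N : ℕ) :
    (p ^ N • a).val - (p ^ N • b).val ∈ I ^ (N + 1) := by
  induction N with
  | zero => simpa using h
  | succ N ih =>
    rw [pow_succ' p, mul_smul, mul_smul]
    exact nsmul_p_congr hp (by omega) ih

theorem IsSeq.exists_isPi (hp : (p : B) ∈ I) {y : ℕ → Pt I F} (hy : IsSeq p y) :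
    ∃ z, IsPi p y z := by
  have h1 : ∀ N, (p ^ (N + 1) • y (N + 1)).val - (p ^ N • y N).val ∈ I ^ (N + 1) := fun N => by
    rw [pow_succ p, mul_smul]
    exact nsmul_pow_congr hp (hy N) N
  have h2 : ∀ m n, m ≤ n → (p ^ n • y n).val - (p ^ m • y m).val ∈ I ^ (m + 1) := by
    intro m n hmn
    induction n, hmn using Nat.le_induction with
    | base => simp
    | succ n hmn ih =>
      have := Ideal.add_mem _ (Ideal.pow_le_pow_right (by omega : m + 1 ≤ n + 1) (h1 n)) ih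
      rwa [sub_add_sub_cancel] at this
  obtain ⟨L, hL⟩ := IsPrecomplete.prec (I := I) (M := B) inferInstance
    (f := fun N => (p ^ N • y N).val) (fun {m n} hmn => by
      rw [smul_eq_mul, Ideal.mul_top]
      exact (SModEq.sub_mem.2 (Ideal.pow_le_pow_right (Nat.le_succ m) (h2 m n hmn))).symm)
  have h3 : ∀ N, L - (p ^ N • y N).val ∈ I ^ (N + 1) := fun N => by
    have h4 := (hL (N + 1)).symm
    rw [smul_eq_mul, Ideal.mul_top, SModEq.sub_mem] at h4
    have := Ideal.add_mem _ h4 (h1 N)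
    rwa [sub_add_sub_cancel] at this
  refine ⟨⟨L, ?_⟩, h3⟩
  have := Ideal.add_mem _ (Ideal.le_radical (Ideal.pow_le_self (by omega) (h3 0)))
    (p ^ 0 • y 0).mem
  rwa [sub_add_cancel] at this

theorem IsPi.unique {y : ℕ → Pt I F} {z z' : Pt I F} (h : IsPi p y z) (h' : IsPi p y z') :
    z = z' := by
  refine Pt.ext (sub_eq_zero.1 (IsHausdorff.haus (I := I) (M := B) inferInstance _ fun n => ?_))
  rw [smul_eq_mul, Ideal.mul_top, SModEq.zero]
  have := Ideal.sub_mem _ (h n) (h' n)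
  rw [sub_sub_sub_cancel_right] at this
  exact Ideal.pow_le_pow_right (Nat.le_succ n) this

theorem IsSeq.add {y y' : ℕ → Pt I F} (h : IsSeq p y) (h' : IsSeq p y') : IsSeq p (y + y') := by
  intro N
  have := (Pt.fil I F I).add_mem ((Pt.sub_val_mem_iff _ _ _).2 (h N))
    ((Pt.sub_val_mem_iff _ _ _).2 (h' N))
  rw [← Pt.sub_val_mem_iff, Pi.add_apply, Pi.add_apply, nsmul_add, add_sub_add_comm]
  exact this

theorem IsSeq.neg {y : ℕ → Pt I F} (h : IsSeq p y) : IsSeq p (-y) := by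
  intro N
  have := (Pt.fil I F I).neg_mem ((Pt.sub_val_mem_iff _ _ _).2 (h N))
  rw [← Pt.sub_val_mem_iff, Pi.neg_apply, Pi.neg_apply, smul_neg, ← neg_sub']
  exact this

theorem IsSeq.congr (hp : (p : B) ∈ I) {y y' : ℕ → Pt I F} (h : IsSeq p y)
    (hy : ∀ N, (y N).val - (y' N).val ∈ I) : IsSeq p y' := by
  intro N
  have h1 : (p • y (N + 1)).val - (p • y' (N + 1)).val ∈ I :=
    Ideal.pow_le_self (by omega) (nsmul_p_congr hp le_rfl (by simpa using hy (N + 1)))
  have := Ideal.add_mem _ (Ideal.sub_mem _ (h N) h1) (hy N)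
  convert this using 1
  ring

theorem IsPi.add {y y' : ℕ → Pt I F} {z z' : Pt I F} (h : IsPi p y z) (h' : IsPi p y' z') :
    IsPi p (y + y') (z + z') := by
  intro N
  have := (Pt.fil I F (I ^ (N + 1))).add_mem ((Pt.sub_val_mem_iff _ _ _).2 (h N))
    ((Pt.sub_val_mem_iff _ _ _).2 (h' N))
  rw [← Pt.sub_val_mem_iff, Pi.add_apply, nsmul_add, add_sub_add_comm]
  exact this

theorem IsPi.congr (hp : (p : B) ∈ I) {y y' : ℕ → Pt I F} {z : Pt I F} (h : IsPi p y z)
    (hy : ∀ N, (y N).val - (y' N).val ∈ I) : IsPi p y' z := by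
  intro N
  have := Ideal.add_mem _ (h N) (nsmul_pow_congr hp (hy N) N)
  rwa [sub_add_sub_cancel] at this

/-- Any additive map of points that respects the filtrations commutes with `π`. -/
theorem IsPi.map {y : ℕ → Pt I F} {z : Pt I F} (h : IsPi p y z) (f : Pt I F →+ Pt I' F')
    (hf : ∀ k (a : Pt I F), a.val ∈ I ^ k → (f a).val ∈ I' ^ k) :
    IsPi p (fun N => f (y N)) (f z) := by
  intro N
  rw [← Pt.sub_val_mem_iff, ← map_nsmul, ← map_sub]
  exact hf _ _ ((Pt.sub_val_mem_iff _ _ _).2 (h N))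

theorem IsPi.shift (hp : (p : B) ∈ I) {y : ℕ → Pt I F} (hy : IsSeq p y) {z : Pt I F}
    (h : IsPi p (fun N => y (N + 1)) z) : IsPi p y (p • z) := by
  intro N
  have h1 := Ideal.pow_le_pow_right (Nat.le_succ (N + 1)) (nsmul_p_congr hp (by omega) (h N))
  have h2 := nsmul_pow_congr hp (hy N) N
  rw [smul_comm p (p ^ N)] at h1
  have := Ideal.add_mem _ h1 h2
  rwa [sub_add_sub_cancel] at this

theorem isPi_of_exact {y : ℕ → Pt I F} (hy : ∀ N, p • y (N + 1) = y N) : IsPi p y (y 0) := by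
  have h : ∀ N, p ^ N • y N = y 0 := by
    intro N
    induction N with
    | zero => simp
    | succ N ih => rw [pow_succ, mul_smul, hy, ih]
  intro N
  rw [h, sub_self]
  exact Ideal.zero_mem _

theorem IsPi.mem_pow (hp : (p : B) ∈ I) {y : ℕ → Pt I F} {z : Pt I F} (h : IsPi p y z) {N : ℕ}
    (hN : (y N).val ∈ I) : z.val ∈ I ^ (N + 1) := by
  have h1 := nsmul_pow_congr hp (a := y N) (b := 0) (by simpa using hN) N
  have := Ideal.add_mem _ (h N) h1
  simpa using this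

open Classical in
/-- The limit `π(y)`. -/
noncomputable def piF (p : ℕ) (y : ℕ → Pt I F) : Pt I F :=
  if h : ∃ z, IsPi p y z then h.choose else 0

theorem isPi_piF (hp : (p : B) ∈ I) {y : ℕ → Pt I F} (hy : IsSeq p y) : IsPi p y (piF p y) := by
  unfold piF
  rw [dif_pos (hy.exists_isPi hp)]
  exact (hy.exists_isPi hp).choose_spec

theorem IsPi.piF_eq {y : ℕ → Pt I F} {z : Pt I F} (h : IsPi p y z) : piF p y = z := by
  unfold piF
  rw [dif_pos ⟨z, h⟩]
  exact IsPi.unique (Exists.choose_spec (⟨z, h⟩ : ∃ z, IsPi p y z)) h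

end Crest.R227
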