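import Crest.Agent.R227.Log
import Crest.Agent.R227.Ob

/-! Row 227. The map `π` for a law `F` over an `O`-algebra congruent to a fixed law `F0` over `O`. -/

set_option autoImplicit false

namespace Crest.R227

open Crest.LubinTate MvPowerSeries

variable {K : Type*} [NormedField K] [IsUltrametricDist K] [CompleteSpace K]
variable {B B' : Type*} [CommRing B] [CommRing B']

/-- `F` is congruent modulo `I` to the image of `F0`. -/
structure Near (u : Unif K) (F0 : FormalGroup (Ob K)) (I : Ideal B) (ρ : Ob K →+* B)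
    (F : FormalGroup B) : Prop where
  hϖ : ρ u.ϖ ∈ I
  near : ∀ γ, coeff γ F.toPowerSeries - ρ (coeff γ F0.toPowerSeries) ∈ I

variable {u : Unif K} {F0 : FormalGroup (Ob K)} [F0.IsComm]
variable {I : Ideal B} [IsAdicComplete I B] {ρ : Ob K →+* B} {F G : FormalGroup B} [F.IsComm]
  [G.IsComm]
variable {I' : Ideal B'} [IsAdicComplete I' B'] {ρ' : Ob K →+* B'} {F' : FormalGroup B'}
  [F'.IsComm] {p : ℕ}

omit [CompleteSpace K] [F0.IsComm] [IsAdicComplete I B] [F.IsComm] in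
theorem Near.map_mem (h : Near u F0 I ρ F) {a : Ob K} (ha : a ∈ u.I) : ρ a ∈ I := by
  obtain ⟨c, rfl⟩ := Ideal.mem_span_singleton'.1 ha
  rw [map_mul]
  exact I.mul_mem_left _ h.hϖ

/-- A point of `F0` seen as a point of `F` (additive only modulo `I`). -/
def Near.cast (h : Near u F0 I ρ F) (a : Pt u.I F0) : Pt I F :=
  ⟨ρ a.val, by
    obtain ⟨k, hk⟩ := a.mem
    exact ⟨k, by rw [← map_pow]; exact h.map_mem hk⟩⟩

/-- `π_F(y) = lim [p^N]_F (ρ y_N)`. -/
noncomputable def Near.pi (h : Near u F0 I ρ F) (p : ℕ) (y : ℕ → Pt u.I F0) : Pt I F :=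
  piF p fun N => h.cast (y N)

theorem Near.cast_add (h : Near u F0 I ρ F) (a b : Pt u.I F0) :
    (h.cast (a + b)).val - (h.cast a + h.cast b).val ∈ I := by
  have hρ : u.I ≤ I.radical.comap ρ := fun a ha => Ideal.le_radical (h.map_mem ha)
  have e : (h.cast (a + b)).val = (Pt.map u.I I F0 (F0.map ρ) ρ hρ rfl a +
      Pt.map u.I I F0 (F0.map ρ) ρ hρ rfl b).val := by
    rw [← map_add]
    rfl
  rw [e]
  refine Pt.add_val_congr (k := 1) (by rw [pow_one]) (fun γ => ?_) ?_ ?_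
  · rw [FormalGroup.map_toPowerSeries, coeff_map, ← neg_sub]
    exact I.neg_mem (h.near γ)
  · exact (sub_self (ρ a.val)).symm ▸ I.zero_mem
  · exact (sub_self (ρ b.val)).symm ▸ I.zero_mem

theorem Near.cast_nsmul (h : Near u F0 I ρ F) (m : ℕ) (a : Pt u.I F0) :
    (h.cast (m • a)).val - (m • h.cast a).val ∈ I := by
  induction m with
  | zero =>
    rw [zero_nsmul, zero_nsmul]
    change ρ 0 - 0 ∈ I
    simp
  | succ m ih =>
    rw [succ_nsmul, succ_nsmul]
    have h1 := h.cast_add (m • a) a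
    have h2 : (h.cast (m • a) + h.cast a).val - (m • h.cast a + h.cast a).val ∈ I :=
      Pt.add_val_congr (k := 1) (by rw [pow_one]) (fun γ => by simp) ih (by simp)
    have := I.add_mem h1 h2
    rwa [sub_add_sub_cancel] at this

omit [CompleteSpace K] [F0.IsComm] [IsAdicComplete I B] [F.IsComm] in
theorem Near.isPi_p (h : Near u F0 I ρ F) (hp : (p : Ob K) ∈ u.I) : (p : B) ∈ I := by
  simpa using h.map_mem hp

omit [CompleteSpace K] [F0.IsComm] [IsAdicComplete I B] [F.IsComm] in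
theorem Near.isPi_cast_congr (h : Near u F0 I ρ F) {a b : Pt u.I F0} (hab : a.val - b.val ∈ u.I) :
    (h.cast a).val - (h.cast b).val ∈ I := by
  have := h.map_mem hab
  rwa [map_sub] at this

theorem Near.isPi_seq (h : Near u F0 I ρ F) {y : ℕ → Pt u.I F0} (hy : IsSeq p y) :
    IsSeq p fun N => h.cast (y N) := by
  intro N
  have := I.sub_mem (h.isPi_cast_congr (hy N)) (h.cast_nsmul p (y (N + 1)))
  convert this using 1
  ring

theorem Near.isPi (h : Near u F0 I ρ F) (hp : (p : Ob K) ∈ u.I) {y : ℕ → Pt u.I F0}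
    (hy : IsSeq p y) : IsPi p (fun N => h.cast (y N)) (h.pi p y) := by
  exact isPi_piF (h.isPi_p hp) (h.isPi_seq hy)

theorem Near.pi_add (h : Near u F0 I ρ F) (hp : (p : Ob K) ∈ u.I) {y y' : ℕ → Pt u.I F0}
    (hy : IsSeq p y) (hy' : IsSeq p y') : h.pi p (y + y') = h.pi p y + h.pi p y' := by
  refine (((h.isPi hp hy).add (h.isPi hp hy')).congr (h.isPi_p hp) fun N => ?_).piF_eq
  have := I.neg_mem (h.cast_add (y N) (y' N))
  rwa [neg_sub] at this

theorem Near.pi_congr (h : Near u F0 I ρ F) (hp : (p : Ob K) ∈ u.I) {y y' : ℕ → Pt u.I F0}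
    (hy : IsSeq p y) (hyy : ∀ N, (y N).val - (y' N).val ∈ u.I) : h.pi p y = h.pi p y' := by
  exact (((h.isPi hp hy).congr (h.isPi_p hp) fun N => h.isPi_cast_congr (hyy N)).piF_eq).symm

theorem Near.pi_nsmul (h : Near u F0 I ρ F) (hp : (p : Ob K) ∈ u.I) {y : ℕ → Pt u.I F0}
    (hy : IsSeq p y) (m : ℕ) : h.pi p (m • y) = m • h.pi p y := by
  have h1 : IsPi p (fun N => m • h.cast (y N)) (m • h.pi p y) :=
    (h.isPi hp hy).map (nsmulAddMonoidHom m) fun k a ha => (Pt.fil I F (I ^ k)).nsmul_mem ha m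
  refine (h1.congr (h.isPi_p hp) fun N => ?_).piF_eq
  have := I.neg_mem (h.cast_nsmul m (y N))
  rwa [neg_sub] at this

theorem Near.pi_val_sub (h : Near u F0 I ρ F) (hp : (p : Ob K) ∈ u.I) {y : ℕ → Pt u.I F0}
    (hy : IsSeq p y) : (h.pi p y).val - ρ (y 0).val ∈ I := by
  have := h.isPi hp hy 0
  rwa [pow_zero, one_nsmul, zero_add, pow_one] at this

theorem Near.pi_mem_pow (h : Near u F0 I ρ F) (hp : (p : Ob K) ∈ u.I) {y : ℕ → Pt u.I F0}
    (hy : IsSeq p y) {N : ℕ} (hN : (y N).val ∈ u.I) : (h.pi p y).val ∈ I ^ (N + 1) := by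
  exact (h.isPi hp hy).mem_pow (h.isPi_p hp) (h.map_mem hN)

/-- If `z_N` is an exact `[p]_F`-tower congruent to `y`, then `π(y) = z_0`. -/
theorem Near.pi_eq_of_exact (h : Near u F0 I ρ F) (hp : (p : Ob K) ∈ u.I) {y : ℕ → Pt u.I F0}
    {z : ℕ → Pt I F} (hz : ∀ N, p • z (N + 1) = z N) (hyz : ∀ N, ρ (y N).val - (z N).val ∈ I) :
    h.pi p y = z 0 := by
  refine ((isPi_of_exact hz).congr (h.isPi_p hp) fun N => ?_).piF_eq
  have := I.neg_mem (hyz N)
  rwa [neg_sub] at this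

theorem Near.pi_map (h : Near u F0 I ρ F) (h' : Near u F0 I' ρ' F') (hp : (p : Ob K) ∈ u.I)
    (β : B →+* B') (hβ : I ≤ I'.comap β) (hβ' : I ≤ I'.radical.comap β) (hρ : β.comp ρ = ρ')
    (hF : F.map β = F') {y : ℕ → Pt u.I F0} (hy : IsSeq p y) :
    Pt.map I I' F F' β hβ' hF (h.pi p y) = h'.pi p y := by
  have h1 := (h.isPi hp hy).map (Pt.map I I' F F' β hβ' hF) fun k a ha => by
    have h2 : I ^ k ≤ (I' ^ k).comap β :=
      (Ideal.pow_right_mono hβ k).trans (Ideal.le_comap_pow β k)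
    exact h2 ha
  refine ((h1.congr (h'.isPi_p hp) fun N => ?_).piF_eq).symm
  change β (ρ (y N).val) - ρ' (y N).val ∈ I'
  rw [← hρ, RingHom.comp_apply, sub_self]
  exact I'.zero_mem

theorem Near.pi_act (h : Near u F0 I ρ F) (h' : Near u F0 I ρ G) (hp : (p : Ob K) ∈ u.I)
    {θ : PowerSeries B} (hθ : IsFGHom F G θ) {y y' : ℕ → Pt u.I F0} (hy : IsSeq p y)
    (hyy : ∀ N, ρ (y' N).val - ev1 I (RingHom.id B) (ρ (y N).val) θ ∈ I) :
    Pt.act I F G θ (h.pi p y) = h'.pi p y' := by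
  have h1 := (h.isPi hp hy).map (Pt.act I F G θ) fun k a ha =>
    (Ideal.span_le.2 (Set.singleton_subset_iff.2 ha)) (Pt.act_val_mem θ a)
  refine ((h1.congr (h.isPi_p hp) fun N => ?_).piF_eq).symm
  rw [Pt.act_val hθ]
  have := I.neg_mem (hyy N)
  rwa [neg_sub] at this

end Crest.R227
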