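import Crest.Agent.R227.Cpl
import Crest.Agent.R227.Ev2

/-! Row 227. Generic facts on a ring map `T : W⟦u⟧ → O⟦δ⟧` with `u_{e s} ↦ c + ϖ δ_s`. -/

set_option autoImplicit false

namespace Crest.R227

open MvPowerSeries

variable {W O : Type*} [CommRing W] [CommRing O] {σ τ : Type*} [Finite σ] [Finite τ]

/-- The defining properties of `tau`. -/
structure IsTau (ϖ : O) (e : σ ↪ τ) (x : MvPowerSeries τ W →+* O)
    (T : MvPowerSeries τ W →+* MvPowerSeries σ O) : Prop where
  mem : ∀ i, x (X i) ∈ Ideal.span {ϖ} ^ 2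
  hC : ∀ w, T (C w) = C (x (C w))
  hX : ∀ s, T (X (e s)) = C (x (X (e s))) + C ϖ * X s
  hX' : ∀ i, i ∉ Set.range e → T (X i) = C (x (X i))

omit [Finite σ] in
theorem tauG_C_mem {ϖ a : O} (ha : a ∈ Ideal.span {ϖ}) : (C a : MvPowerSeries σ O) ∈ cI σ ϖ := by
  obtain ⟨b, rfl⟩ := Ideal.mem_span_singleton'.1 ha
  rw [map_mul]
  exact Ideal.mul_mem_left _ _ (Ideal.mem_span_singleton_self _)

omit [Finite σ] in
theorem tauG_mul_mem (ϖ : O) (g : MvPowerSeries σ O) : C ϖ * g ∈ cI σ ϖ :=
  Ideal.mul_mem_right _ _ (Ideal.mem_span_singleton_self _)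

omit [Finite σ] in
theorem tauG_rescale_C (a : σ → O) (r : O) : rescale a (C r : MvPowerSeries σ O) = C r := by
  classical
  ext γ
  rw [coeff_rescale, coeff_C]
  split_ifs with h
  · subst h; simp
  · simp

omit [Finite σ] in
theorem tauG_rescale_X (a : σ → O) (s : σ) :
    rescale a (X s : MvPowerSeries σ O) = C (a s) * X s := by
  classical
  ext γ
  rw [coeff_rescale, coeff_C_mul, coeff_X]
  split_ifs with h
  · subst h; simp
  · simp

/-- A ring map with a derivation along it gives a ring map to the dual numbers. -/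
def tauG_dual {A B : Type*} [CommRing A] [CommRing B] (T : A →+* B) (D : A → B)
    (h1 : D 1 = 0) (h0 : D 0 = 0) (ha : ∀ f g, D (f + g) = D f + D g)
    (hm : ∀ f g, D (f * g) = T f * D g + D f * T g) : A →+* DualNumber B where
  toFun f := TrivSqZeroExt.inl (T f) + TrivSqZeroExt.inr (D f)
  map_one' := by ext <;> simp [h1]
  map_mul' f g := by
    ext
    · simp
    · simp [hm, DualNumber.snd_mul]
  map_zero' := by ext <;> simp [h0]
  map_add' f g := by
    ext
    · simp
    · simp [ha]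

theorem tauG_dual_apply {A B : Type*} [CommRing A] [CommRing B] (T : A →+* B) (D : A → B)
    (h1 : D 1 = 0) (h0 : D 0 = 0) (ha : ∀ f g, D (f + g) = D f + D g)
    (hm : ∀ f g, D (f * g) = T f * D g + D f * T g) (f : A) :
    tauG_dual T D h1 h0 ha hm f = TrivSqZeroExt.inl (T f) + TrivSqZeroExt.inr (D f) := rfl

namespace IsTau

variable {ϖ : O} {e : σ ↪ τ} {x : MvPowerSeries τ W →+* O}
  {T : MvPowerSeries τ W →+* MvPowerSeries σ O}

omit [Finite σ] [Finite τ] in
theorem mem1 (h : IsTau ϖ e x T) (i : τ) : x (X i) ∈ Ideal.span {ϖ} :=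
  Ideal.pow_le_self two_ne_zero (h.mem i)

omit [Finite σ] [Finite τ] in
theorem X_mem (h : IsTau ϖ e x T) (i : τ) : T (X i) ∈ cI σ ϖ := by
  by_cases hi : i ∈ Set.range e
  · obtain ⟨s, rfl⟩ := hi
    rw [h.hX]
    exact Ideal.add_mem _ (tauG_C_mem (h.mem1 _)) (tauG_mul_mem _ _)
  · rw [h.hX' i hi]
    exact tauG_C_mem (h.mem1 _)

omit [Finite σ] in
theorem map_mem (h : IsTau ϖ e x T) {a : W} (ha : x (C a) ∈ Ideal.span {ϖ})
    {f : MvPowerSeries τ W} (hf : f ∈ xI τ a) : T f ∈ cI σ ϖ := by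
  refine (show xI τ a ≤ (cI σ ϖ).comap T from sup_le ?_ ?_) hf
  · rw [Ideal.span_le]
    rintro _ rfl
    change T (C a) ∈ cI σ ϖ
    rw [h.hC]
    exact tauG_C_mem ha
  · rw [Ideal.span_le]
    rintro _ ⟨i, rfl⟩
    exact h.X_mem i

variable [IsAdicComplete (Ideal.span {ϖ}) O]

omit [Finite σ] in
theorem const (h : IsTau ϖ e x T) :
    (constantCoeff : MvPowerSeries σ O →+* O).comp T = x := by
  have hX : ∀ i, (constantCoeff : MvPowerSeries σ O →+* O).comp T (X i) = x (X i) := fun i => by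
    by_cases hi : i ∈ Set.range e
    · obtain ⟨s, rfl⟩ := hi
      simp [h.hX]
    · simp [h.hX' i hi]
  refine hom_ext (Ideal.span {ϖ}) (fun i => ?_) (fun w => ?_) hX
  · rw [hX]
    exact Ideal.le_radical (h.mem1 i)
  · simp [h.hC]

theorem eval (h : IsTau ϖ e x T) (x' : MvPowerSeries τ W →+* O) (hι : ∀ w, x' (C w) = x (C w))
    (δ : σ → O) (hδ : ∀ s, δ s ∈ (Ideal.span {ϖ}).radical)
    (h1 : ∀ s, x' (X (e s)) = x (X (e s)) + ϖ * δ s)
    (h2 : ∀ i, i ∉ Set.range e → x' (X i) = x (X i)) :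
    (ev (Ideal.span {ϖ}) (RingHom.id _) δ).comp T = x' := by
  have hX : ∀ i, (ev (Ideal.span {ϖ}) (RingHom.id _) δ).comp T (X i) = x' (X i) := fun i => by
    by_cases hi : i ∈ Set.range e
    · obtain ⟨s, rfl⟩ := hi
      simp [h.hX, ev_C, ev_X _ _ hδ, h1]
    · simp [h.hX' i hi, ev_C, h2 i hi]
  refine hom_ext (Ideal.span {ϖ}) (fun i => ?_) (fun w => ?_) hX
  · rw [hX]
    refine Ideal.le_radical ?_
    by_cases hi : i ∈ Set.range e
    · obtain ⟨s, rfl⟩ := hi
      rw [h1]
      exact Ideal.add_mem _ (h.mem1 _)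
        (Ideal.mul_mem_right _ _ (Ideal.mem_span_singleton_self _))
    · rw [h2 i hi]
      exact h.mem1 i
  · simp [h.hC, ev_C, hι]

theorem inj [NoZeroDivisors O] (h : IsTau ϖ e x T) (hϖ : ϖ ≠ 0)
    (h0 : ∀ i, i ∉ Set.range e → x (X i) = 0) {f : MvPowerSeries τ W} (hf : T f = 0)
    (γ : σ →₀ ℕ) : x (C (coeff (γ.embDomain e) f)) = 0 := by
  have hc : ∀ s, ∃ c, x (X (e s)) = ϖ * (ϖ * c) := fun s => by
    have := h.mem (e s)
    rw [Ideal.span_singleton_pow, Ideal.mem_span_singleton] at this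
    obtain ⟨c, hc⟩ := this
    exact ⟨c, by rw [hc]; ring⟩
  choose c hc using hc
  have ha : ∀ s, (C ϖ * (X s - C (c s)) : MvPowerSeries σ O) ∈ (cI σ ϖ).radical := fun s =>
    Ideal.le_radical (tauG_mul_mem _ _)
  have key : (ev (cI σ ϖ) (C : O →+* MvPowerSeries σ O) fun s => C ϖ * (X s - C (c s))).comp T =
      (rescale fun _ : σ => ϖ * ϖ).comp ((map (x.comp (C : W →+* MvPowerSeries τ W))).comp
        (killCompl (R := W) e).toRingHom) := by
    symm
    refine hom_ext (cI σ ϖ) (fun i => ?_) (fun w => ?_) fun i => ?_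
    · refine Ideal.le_radical ?_
      by_cases hi : i ∈ Set.range e
      · obtain ⟨s, rfl⟩ := hi
        simp only [RingHom.comp_apply, AlgHom.toRingHom_eq_coe, RingHom.coe_coe, killCompl_X,
          map_X, tauG_rescale_X, map_mul, mul_assoc]
        exact tauG_mul_mem _ _
      · simp [killCompl_X_eq_zero hi]
    · simp [h.hC, ev_C, tauG_rescale_C]
    · by_cases hi : i ∈ Set.range e
      · obtain ⟨s, rfl⟩ := hi
        simp only [RingHom.comp_apply, AlgHom.toRingHom_eq_coe, RingHom.coe_coe, killCompl_X,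
          map_X, tauG_rescale_X, map_mul, h.hX, map_add, ev_C, ev_X _ _ ha, hc]
        ring
      · simp [killCompl_X_eq_zero hi, h.hX' i hi, h0 i hi]
  have h1 := congrArg (coeff γ) (DFunLike.congr_fun key f)
  simp only [RingHom.comp_apply, hf, map_zero, AlgHom.toRingHom_eq_coe, RingHom.coe_coe,
    coeff_rescale, coeff_map, coeff_killCompl] at h1
  rcases mul_eq_zero.1 h1.symm with h2 | h2
  · by_cases hO : Nontrivial O
    · exact absurd h2 (Finset.prod_ne_zero_iff.2 fun s _ => pow_ne_zero _ (mul_ne_zero hϖ hϖ))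
    · exact (not_nontrivial_iff_subsingleton.1 hO).elim _ _
  · exact h2

omit [Finite σ] in
theorem pderiv_eq (h : IsTau ϖ e x T) (s : σ) (f : MvPowerSeries τ W) :
    pderiv O s (T f) = C ϖ * T (pderiv W (e s) f) := by
  have key : tauG_dual T (fun f => pderiv O s (T f)) (by simp) (by simp) (by simp)
        (fun f g => by simp [Derivation.leibniz, mul_comm]) =
      tauG_dual T (fun f => C ϖ * T (pderiv W (e s) f)) (by simp) (by simp)
        (fun f g => by simp [mul_add])
        (fun f g => by simp only [Derivation.leibniz, smul_eq_mul, map_add, map_mul]; ring) := by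
    refine hom_ext (dualI (cI σ ϖ)) (fun i => ?_) (fun w => ?_) fun i => ?_
    · rw [mem_dualI_radical, tauG_dual_apply]
      simpa using Ideal.le_radical (h.X_mem i)
    · simp [tauG_dual_apply, h.hC]
    · rw [tauG_dual_apply, tauG_dual_apply]
      congr 2
      by_cases hi : i ∈ Set.range e
      · obtain ⟨t, rfl⟩ := hi
        by_cases hst : t = s
        · subst hst
          simp [h.hX, Derivation.leibniz, pderiv_X_self]
        · simp [h.hX, Derivation.leibniz, pderiv_X_of_ne hst,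
            pderiv_X_of_ne (e.injective.ne hst)]
      · have : i ≠ e s := fun h => hi ⟨s, h.symm⟩
        simp [h.hX' i hi, pderiv_X_of_ne this]
  have h1 := congrArg TrivSqZeroExt.snd (DFunLike.congr_fun key f)
  simpa [tauG_dual_apply] using h1

end IsTau

/-- The evaluation map defining `tau` has the defining properties. -/
theorem isTau_ev [Fintype σ] {ϖ : O} [IsAdicComplete (Ideal.span {ϖ}) O] (e : σ ↪ τ)
    [∀ s i, Decidable (e s = i)] {x : MvPowerSeries τ W →+* O} (ι : W →+* O)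
    (hι : ∀ w, ι w = x (C w)) (hx : ∀ i, x (X i) ∈ Ideal.span {ϖ} ^ 2) :
    IsTau ϖ e x (ev (cI σ ϖ) ((C : O →+* MvPowerSeries σ O).comp ι)
      fun i => C (x (X i)) + C ϖ * ∑ s, if e s = i then X s else 0) := by
  have ha : ∀ i, (C (x (X i)) + C ϖ * ∑ s, if e s = i then X s else 0 : MvPowerSeries σ O) ∈
      (cI σ ϖ).radical := fun i => Ideal.le_radical
    (Ideal.add_mem _ (tauG_C_mem (Ideal.pow_le_self two_ne_zero (hx i))) (tauG_mul_mem _ _))
  refine ⟨hx, fun w => ?_, fun s => ?_, fun i hi => ?_⟩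
  · rw [ev_C, RingHom.comp_apply, hι]
  · rw [ev_X _ _ ha, Finset.sum_eq_single s, if_pos rfl]
    · exact fun t _ ht => if_neg (e.injective.ne ht)
    · exact fun h => absurd (Finset.mem_univ s) h
  · rw [ev_X _ _ ha, Finset.sum_eq_zero, mul_zero, add_zero]
    exact fun t _ => if_neg fun h => hi ⟨t, h⟩

end Crest.R227
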