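import Crest.Agent.R227.Base
import Crest.Agent.R227.LT
import Crest.Agent.R227.PiAt
import Crest.Agent.R227.TauG

/-! Row 227. The neighbourhood `τ : E → O⟦δ⟧` of a point `x : E → O`, and equivariance of `π`. -/

set_option autoImplicit false

namespace Crest.R227

open Crest.LubinTate MvPowerSeries

variable {p : ℕ} [Fact p.Prime] {n : ℕ}
variable {K : Type*} [NormedField K] [IsUltrametricDist K] [CompleteSpace K]

/-- `x` sends the maximal ideal into `ϖ² O`. -/
def IsPoint (u : Unif K) (x : EE p n →+* Ob K) : Prop := ∀ f ∈ mE p n, x f ∈ u.I ^ 2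

/-- The structure map `W → O`. -/
noncomputable def iota (x : EE p n →+* Ob K) : WW p n →+* Ob K :=
  x.comp (algebraMap (WW p n) (EE p n))

open Classical in
/-- `u_{e s} ↦ x(u_{e s}) + ϖ δ_s`, the other variables go to their value at `x`. -/
noncomputable def tau (u : Unif K) (x : EE p n →+* Ob K) {σ : Type} [Fintype σ]
    (e : σ ↪ Fin (n - 1)) : EE p n →+* MvPowerSeries σ (Ob K) :=
  ev (cI σ u.ϖ) ((C : Ob K →+* MvPowerSeries σ (Ob K)).comp (iota x))
    fun i => C (x (X i)) + C u.ϖ * ∑ s, if e s = i then X s else 0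

variable {u : Unif K} {x : EE p n →+* Ob K} {σ : Type} [Fintype σ] {e : σ ↪ Fin (n - 1)}

omit [CompleteSpace K] in
theorem IsPoint.mem (hx : IsPoint u x) {f : EE p n} (hf : f ∈ mE p n) : x f ∈ u.I :=
  Ideal.pow_le_self two_ne_zero (hx f hf)

omit [CompleteSpace K] in
theorem IsPoint.p_mem (hx : IsPoint u x) : (p : Ob K) ∈ u.I := by
  simpa using hx.mem (p_mem_mE p n)

omit [CompleteSpace K] in
theorem tau_X_iota (x : EE p n →+* Ob K) (w : WW p n) : iota x w = x (C w) := by
  rw [iota, RingHom.comp_apply, MvPowerSeries.algebraMap_apply, Algebra.algebraMap_self,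
    RingHom.id_apply]

theorem tau_X_isTau (hx : IsPoint u x) (e : σ ↪ Fin (n - 1)) : IsTau u.ϖ e x (tau u x e) :=
  isTau_ev e (iota x) (tau_X_iota x) fun i => hx _ (X_mem_mE p n i)

theorem tau_X (hx : IsPoint u x) (s : σ) : tau u x e (X (e s)) = C (x (X (e s))) + C u.ϖ * X s := by
  exact (tau_X_isTau hx e).hX s

theorem tau_X' (hx : IsPoint u x) {i : Fin (n - 1)} (hi : i ∉ Set.range e) :
    tau u x e (X i) = C (x (X i)) := by
  exact (tau_X_isTau hx e).hX' i hi

theorem tau_comp : (tau u x e).comp (algebraMap (WW p n) (EE p n)) =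
    (C : Ob K →+* MvPowerSeries σ (Ob K)).comp (iota x) := by
  refine RingHom.ext fun w => ?_
  rw [RingHom.comp_apply, MvPowerSeries.algebraMap_apply, Algebra.algebraMap_self,
    RingHom.id_apply]
  exact ev_C _ _ _ w

theorem tau_mem (hx : IsPoint u x) {f : EE p n} (hf : f ∈ mE p n) : tau u x e f ∈ cI σ u.ϖ := by
  refine (tau_X_isTau hx e).map_mem (a := (p : WW p n)) ?_ hf
  rw [map_natCast, map_natCast]
  exact hx.p_mem

theorem tau_const (hx : IsPoint u x) :
    (constantCoeff : MvPowerSeries σ (Ob K) →+* Ob K).comp (tau u x e) = x := by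
  exact (tau_X_isTau hx e).const

/-- Nearby points factor through `τ`. -/
theorem tau_eval (hx : IsPoint u x) (x' : EE p n →+* Ob K) (hι : iota x' = iota x)
    (δ : σ → Ob K) (hδ : ∀ s, δ s ∈ u.I.radical)
    (h1 : ∀ s, x' (X (e s)) = x (X (e s)) + u.ϖ * δ s)
    (h2 : ∀ i, i ∉ Set.range e → x' (X i) = x (X i)) :
    (ev u.I (RingHom.id _) δ).comp (tau u x e) = x' := by
  refine (tau_X_isTau hx e).eval x' (fun w => ?_) δ hδ h1 h2
  rw [← tau_X_iota, ← tau_X_iota, hι]

/-- Compose `τ` with `δ_s ↦ ϖ δ_s - x(u_{e s})/ϖ`; the composite is `rescale ϖ² ∘ map ι ∘ killCompl e`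
by `hom_ext`. -/
theorem tau_inj (hx : IsPoint u x) (h0 : ∀ i, i ∉ Set.range e → x (X i) = 0) {f : EE p n}
    (hf : tau u x e f = 0) (γ : σ →₀ ℕ) : iota x (coeff (γ.embDomain e) f) = 0 := by
  rw [tau_X_iota]
  refine (tau_X_isTau hx e).inj (fun h => ?_) h0 hf γ
  have := u.pos
  rw [h] at this
  simp at this

/-- Chain rule (compare the two ring maps `E → DualNumber (O⟦δ⟧)` with `hom_ext`). -/
theorem tau_pderiv (hx : IsPoint u x) (s : σ) (f : EE p n) :
    pderiv (Ob K) s (tau u x e f) = C u.ϖ * tau u x e (pderiv (WW p n) (e s) f) := by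
  exact (tau_X_isTau hx e).pderiv_eq s f

theorem near_of_aux {A W k O B : Type*} [CommRing A] [CommRing W] [CommRing k] [CommRing O]
    [CommRing B] {F0 : FormalGroup W} {H : FormalGroup A} {r : A →+* k} {r0 : W →+* k}
    {j : W →+* A} (hj : r.comp j = r0) (hres : H.map r = F0.map r0) {I : Ideal B} {ι : W →+* O}
    {ρ : O →+* B} {β : A →+* B} (hβ : β.comp j = ρ.comp ι) (hm : ∀ f, r f = 0 → β f ∈ I)
    (γ : Fin 2 →₀ ℕ) :
    coeff γ (H.map β).toPowerSeries - ρ (coeff γ (F0.map ι).toPowerSeries) ∈ I := by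
  have h1 := congrArg (fun F : FormalGroup k => coeff γ F.toPowerSeries) hres
  simp only [FormalGroup.map_toPowerSeries, coeff_map] at h1 ⊢
  have h2 := DFunLike.congr_fun hβ (coeff γ F0.toPowerSeries)
  have h3 := DFunLike.congr_fun hj (coeff γ F0.toPowerSeries)
  rw [RingHom.comp_apply] at h2 h3
  rw [RingHom.comp_apply] at h2
  rw [← h2, ← map_sub]
  exact hm _ (by rw [map_sub, h1, h3, sub_self])

/-- Any `β : E → B` over `W → O → B` sending `𝔪` into `I` gives a law near the model. -/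
theorem near_of {F0 : FormalGroup (WW p n)} {H : FormalGroup (EE p n)}
    (hres : H.map (resE p n) = F0.map (resW p n)) {B : Type*} [CommRing B] {I : Ideal B}
    {ρ : Ob K →+* B} (hϖ : ρ u.ϖ ∈ I) (β : EE p n →+* B)
    (hβ : β.comp (algebraMap (WW p n) (EE p n)) = ρ.comp (iota x))
    (hm : ∀ f ∈ mE p n, β f ∈ I) : Near u (F0.map (iota x)) I ρ (H.map β) := by
  refine ⟨hϖ, near_of_aux (resE_comp p n) hres hβ fun f hf => hm f ?_⟩
  rw [← ker_resE]
  exact hf

theorem near_x {F0 : FormalGroup (WW p n)} {H : FormalGroup (EE p n)} (hN : IsNorm p n F0 H)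
    (hx : IsPoint u x) : Near u (F0.map (iota x)) u.I (RingHom.id _) (H.map x) :=
  near_of (x := x) hN.res (Ideal.mem_span_singleton_self u.ϖ) x
    (RingHom.id_comp (iota x)).symm fun _ hf => hx.mem hf

theorem near_tau {F0 : FormalGroup (WW p n)} {H : FormalGroup (EE p n)} (hN : IsNorm p n F0 H)
    (hx : IsPoint u x) (e : σ ↪ Fin (n - 1)) :
    Near u (F0.map (iota x)) (cI σ u.ϖ) (C : Ob K →+* MvPowerSeries σ (Ob K))
      (H.map (tau u x e)) :=
  near_of (x := x) hN.res (Ideal.mem_span_singleton_self (C u.ϖ)) (tau u x e) tau_comp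
    fun _ hf => tau_mem hx hf

theorem model_mulSeries_mem_aux {A k B : Type*} [CommRing A] [CommRing k] [CommRing B]
    {F : FormalGroup A} {r : A →+* k} {β : A →+* B} {I : Ideal B} {m q : ℕ}
    (hF : mulSeries (F.map r) m = PowerSeries.X ^ q) (hm : ∀ f, r f = 0 → β f ∈ I) (i : ℕ) :
    PowerSeries.coeff i (mulSeries (F.map β) m - PowerSeries.X ^ q) ∈ I := by
  have h1 : ∀ {C : Type _} [CommRing C] (g : A →+* C),
      PowerSeries.map g (mulSeries F m - PowerSeries.X ^ q) =
        mulSeries (F.map g) m - PowerSeries.X ^ q := fun g => by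
    rw [map_sub, map_mulSeries, map_pow, PowerSeries.map_X]
  have h2 : PowerSeries.map r (mulSeries F m - PowerSeries.X ^ q) = 0 := by
    rw [map_sub, map_mulSeries, map_pow, PowerSeries.map_X, hF, sub_self]
  rw [← h1, PowerSeries.coeff_map]
  exact hm _ (by rw [← PowerSeries.coeff_map, h2, map_zero])

/-- `[p]_{F} ≡ X^q` modulo `ϖ` for the model and for `H_x`. -/
theorem model_mulSeries_mem {F0 : FormalGroup (WW p n)} (hF : IsModel p n F0) (hx : IsPoint u x)
    (k : ℕ) : PowerSeries.coeff k (mulSeries (F0.map (iota x)) p - PowerSeries.X ^ p ^ n) ∈ u.I := by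
  refine model_mulSeries_mem_aux hF.mul (fun f hf => hx.mem (f := algebraMap _ _ f) ?_) k
  rw [← ker_resE, RingHom.mem_ker, ← RingHom.comp_apply, resE_comp]
  exact hf

theorem point_mulSeries_mem {F0 : FormalGroup (WW p n)} {H : FormalGroup (EE p n)}
    (hN : IsNorm p n F0 H) (hx : IsPoint u x) (k : ℕ) :
    PowerSeries.coeff k (mulSeries (H.map x) p - PowerSeries.X ^ p ^ n) ∈ u.I := by
  refine model_mulSeries_mem_aux (r := resE p n) (by rw [hN.res, hN.model.mul])
    (fun f hf => hx.mem ?_) k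
  rw [← ker_resE]
  exact hf

theorem eqv_seq {B : Type*} [CommRing B] {I : Ideal B} [IsAdicComplete I B] {F : FormalGroup B}
    [F.IsComm] {q : ℕ} {y : ℕ → Pt I F} (hy : IsSeq q y) (m : ℕ) : IsSeq q (m • y) := by
  induction m with
  | zero =>
    intro N
    simp
  | succ m ih =>
    rw [succ_nsmul]
    exact ih.add hy

theorem eqv_aux {A W B : Type*} [CommRing A] [CommRing W] [CommRing B] (I : Ideal B)
    [IsAdicComplete I B] (H : FormalGroup A) [H.IsComm] (F0 : FormalGroup B) [F0.IsComm]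
    (j : W →+* A) (x : A →+* B)
    (hnear : ∀ γ, coeff γ (H.map x).toPowerSeries - coeff γ F0.toPowerSeries ∈ I)
    {a : PowerSeries W} (ha : PowerSeries.constantCoeff a = 0) {M : ℕ} {θ : PowerSeries A}
    (hθm : ∀ k, x (PowerSeries.coeff k θ - PowerSeries.coeff k
      (fadd H PowerSeries.X (cmp (mulSeries H M) (PowerSeries.map j a)))) ∈ I)
    (y ya : Pt I F0) (hyy : ya.val - ev1 I (x.comp j) y.val a ∈ I) :
    (y + M • ya).val - ev1 I (RingHom.id B) y.val (PowerSeries.map x θ) ∈ I := by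
  have ha' : PowerSeries.constantCoeff (PowerSeries.map j a) = 0 := by
    rw [← PowerSeries.coeff_zero_eq_constantCoeff_apply, PowerSeries.coeff_map,
      PowerSeries.coeff_zero_eq_constantCoeff_apply, ha, map_zero]
  have ha'' : PowerSeries.constantCoeff (PowerSeries.map x (PowerSeries.map j a)) = 0 := by
    rw [← PowerSeries.coeff_zero_eq_constantCoeff_apply, PowerSeries.coeff_map,
      PowerSeries.coeff_zero_eq_constantCoeff_apply, ha', map_zero]
  have h1 : ev1 I (RingHom.id B) y.val (PowerSeries.map x θ) - ev1 I (RingHom.id B) y.val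
      (PowerSeries.map x (fadd H PowerSeries.X (cmp (mulSeries H M) (PowerSeries.map j a))))
      ∈ I := by
    rw [← map_sub, ← map_sub]
    refine ev_mem_of_coeff_mem I (RingHom.id B) (fun _ => y.mem) I (k := 1) (by simp) fun γ => ?_
    have := hθm (γ ())
    rw [← map_sub, ← PowerSeries.coeff_map, PowerSeries.coeff, Finsupp.unique_single γ] at *
    simpa using this
  let y' : Pt I (H.map x) := ⟨y.val, y.mem⟩
  let w : Pt I (H.map x) := ⟨ev1 I (x.comp j) y.val a, ev1_mem_radical I _ y.mem (by simp [ha])⟩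
  have h2 : ev1 I (RingHom.id B) y.val
      (PowerSeries.map x (fadd H PowerSeries.X (cmp (mulSeries H M) (PowerSeries.map j a)))) =
      (y' + M • w).val := by
    rw [map_fadd H x (by simp) (constantCoeff_cmp (mulSeries_constantCoeff H M) ha'),
      map_cmp x ha', map_mulSeries, PowerSeries.map_X,
      Pt.ev1_fadd y.mem (by simp) (constantCoeff_cmp (mulSeries_constantCoeff _ M) ha''),
      ev1_X I _ y.mem, ev1_subst I _ y.mem ha'', ev1_map I _ y.mem, ev1_map I _ y.mem,
      Pt.val_add, Pt.val_nsmul]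
    rfl
  have hFG : ∀ γ, coeff γ F0.toPowerSeries - coeff γ (H.map x).toPowerSeries ∈ I := fun γ => by
    rw [← neg_sub]
    exact I.neg_mem (hnear γ)
  have h3 : (y + M • ya).val - (y' + M • w).val ∈ I :=
    Pt.add_val_congr (k := 1) (by simp) hFG (by simp [y'])
      (Pt.nsmul_val_congr (k := 1) (by simp) hFG hyy M)
  rw [h2] at h1
  have := I.sub_mem h3 h1
  rwa [sub_sub_sub_cancel_right] at this

/-- Equivariance: if `θ : φ_* H → H` is congruent to `X +_H [p^m] a` modulo `𝔪`, then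
`θ(π_{x∘φ} y) = π_x y + p^m π_x(a y)`. Use `Near.pi_act` with `y' = y + p^m • ya`. -/
theorem eqv {F0 : FormalGroup (WW p n)} [F0.IsComm] {H : FormalGroup (EE p n)} [H.IsComm]
    (hN : IsNorm p n F0 H) (hx : IsPoint u x) {a : PowerSeries (WW p n)}
    (ha : PowerSeries.constantCoeff a = 0) {m : ℕ} (φ : EE p n →ₐ[WW p n] EE p n)
    {θ : PowerSeries (EE p n)} (hθ : IsFGHom (H.map φ.toRingHom) H θ)
    (hθm : ∀ k, PowerSeries.coeff k θ - PowerSeries.coeff k (vartheta p n H a m) ∈ mE p n)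
    (h' : Near u (F0.map (iota x)) u.I (RingHom.id _) (H.map (x.comp φ.toRingHom)))
    {y ya : ℕ → Pt u.I (F0.map (iota x))} (hy : IsSeq p y) (hya : IsSeq p ya)
    (hyy : ∀ N, (ya N).val - ev1 u.I (iota x) (y N).val a ∈ u.I) :
    Pt.act u.I (H.map (x.comp φ.toRingHom)) (H.map x) (PowerSeries.map x θ) (h'.pi p y) =
      (near_x hN hx).pi p y + p ^ m • (near_x hN hx).pi p ya := by
  have hθx : IsFGHom (H.map (x.comp φ.toRingHom)) (H.map x) (PowerSeries.map x θ) := by
    rw [← fg_map_map]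
    exact isFGHom_map hθ x
  rw [h'.pi_act (near_x hN hx) hx.p_mem hθx hy (y' := y + p ^ m • ya) fun N =>
      eqv_aux u.I H (F0.map (iota x)) (algebraMap (WW p n) (EE p n)) x (near_x hN hx).near ha
        (fun k => hx.mem (hθm k)) (y N) (ya N) (hyy N),
    (near_x hN hx).pi_add hx.p_mem hy (eqv_seq hya _), (near_x hN hx).pi_nsmul hx.p_mem hya]

end Crest.R227
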