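import Crest.Prelude.Def_LubinTate

/-! Row 227. Real-number lemmas for the leading-term argument. -/

set_option autoImplicit false

namespace Crest.R227

theorem alpha_lemma_real (a : ℕ → ℝ) (r Q : ℕ) (hr : 1 ≤ r) (hQ : 2 ≤ Q) (ε : ℝ) (hε0 : 0 < ε)
    (hε1 : ε < 1) (h0 : ∀ e, 0 ≤ a e) (h1 : ∀ e, a e ≤ 1)
    (hA : ∀ e, ε < a e → a (e + r) ^ Q = a e) (hB : ∀ e, a (e + r) ^ Q ≤ max (a e) ε)
    (hlt : ∀ e < r, a e < 1) (hne : ∃ e, ε < a e) :
    ∃ α : ℤ → ℝ, (∀ e, 0 ≤ α e ∧ α e < 1) ∧ (∀ e, α (e - r) = α e ^ Q) ∧ (∃ e, 0 < α e) ∧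
      ∀ N e : ℕ, (ε < a e → α ((e : ℤ) - r * N) = a e ^ Q ^ N) ∧
        (a e ≤ ε → α ((e : ℤ) - r * N) ≤ ε ^ Q ^ N) := by
  classical
  have hQ0 : Q ≠ 0 := by omega
  have hA1 : ∀ e, ε < a e → ε < a (e + r) := fun e he =>
    he.trans_le ((hA e he).symm.le.trans (pow_le_of_le_one (h0 _) (h1 _) hQ0))
  have hA2 : ∀ e, ε < a e → ∀ j, ε < a (e + r * j) ∧ a (e + r * j) ^ Q ^ j = a e := by
    intro e he j
    induction j with
    | zero => simpa using he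
    | succ j ih =>
      rw [mul_add, mul_one, ← add_assoc, pow_succ', pow_mul, hA _ ih.1]
      exact ⟨hA1 _ ih.1, ih.2⟩
  have hB2 : ∀ e, a e ≤ ε → ∀ j, a (e + r * j) ^ Q ^ j ≤ ε := by
    intro e he j
    induction j with
    | zero => simpa using he
    | succ j ih =>
      rw [mul_add, mul_one, ← add_assoc, pow_succ', pow_mul]
      refine (pow_le_pow_left₀ (pow_nonneg (h0 _) _) (hB _) _).trans ?_
      rcases le_total (a (e + r * j)) ε with h | h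
      · rw [max_eq_right h]
        exact pow_le_of_le_one hε0.le hε1.le (pow_ne_zero _ hQ0)
      · rwa [max_eq_left h]
  have hlt' : ∀ e, a e < 1 := by
    intro e
    induction e using Nat.strong_induction_on with
    | _ e ih =>
      by_cases he : e < r
      · exact hlt e he
      · obtain ⟨e', rfl⟩ : ∃ e', e = e' + r := ⟨e - r, by omega⟩
        have h2 := (hB e').trans_lt (max_lt (ih e' (by omega)) hε1)
        by_contra hcon
        rw [le_antisymm (h1 _) (not_lt.1 hcon), one_pow] at h2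
        exact lt_irrefl _ h2
  have hcmp : ∀ m N m' N' : ℕ, (m : ℤ) - r * N = m' - r * N' → N ≤ N' →
      ∃ j, N' = N + j ∧ m' = m + r * j := by
    intro m N m' N' h hN
    obtain ⟨j, rfl⟩ := Nat.exists_eq_add_of_le hN
    refine ⟨j, rfl, ?_⟩
    have : (m' : ℤ) = m + r * j := by push_cast at h; linarith
    exact_mod_cast this
  have huniq : ∀ m N m' N' : ℕ, (m : ℤ) - r * N = m' - r * N' → ε < a m → ε < a m' →
      a m ^ Q ^ N = a m' ^ Q ^ N' := by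
    intro m N m' N' h hm hm'
    rcases le_total N N' with hN | hN
    · obtain ⟨j, rfl, rfl⟩ := hcmp _ _ _ _ h hN
      rw [add_comm N j, pow_add, pow_mul, (hA2 m hm j).2]
    · obtain ⟨j, rfl, rfl⟩ := hcmp _ _ _ _ h.symm hN
      rw [add_comm N' j, pow_add, pow_mul, (hA2 m' hm' j).2]
  obtain ⟨α, hα1, hα2⟩ : ∃ α : ℤ → ℝ, (∀ m N : ℕ, ε < a m → α ((m : ℤ) - r * N) = a m ^ Q ^ N) ∧
      ∀ e, (¬ ∃ m N : ℕ, (m : ℤ) - r * N = e ∧ ε < a m) → α e = 0 := by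
    refine ⟨fun e => if h : ∃ z : ℕ × ℕ, (z.1 : ℤ) - r * z.2 = e ∧ ε < a z.1 then
      a h.choose.1 ^ Q ^ h.choose.2 else 0, fun m N hm => ?_, fun e he => ?_⟩
    · have h : ∃ z : ℕ × ℕ, (z.1 : ℤ) - r * z.2 = m - r * N ∧ ε < a z.1 := ⟨(m, N), rfl, hm⟩
      simp only [dif_pos h]
      exact huniq _ _ _ _ h.choose_spec.1 h.choose_spec.2 hm
    · exact dif_neg fun ⟨z, hz⟩ => he ⟨z.1, z.2, hz⟩
  refine ⟨α, fun e => ?_, fun e => ?_, ?_, fun N e => ⟨hα1 e N, fun he => ?_⟩⟩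
  · by_cases h : ∃ m N : ℕ, (m : ℤ) - r * N = e ∧ ε < a m
    · obtain ⟨m, N, rfl, hm⟩ := h
      rw [hα1 m N hm]
      exact ⟨pow_nonneg (h0 _) _, pow_lt_one₀ (h0 _) (hlt' _) (pow_ne_zero _ hQ0)⟩
    · rw [hα2 e h]
      exact ⟨le_rfl, one_pos⟩
  · by_cases h : ∃ m N : ℕ, (m : ℤ) - r * N = e ∧ ε < a m
    · obtain ⟨m, N, rfl, hm⟩ := h
      have e1 : (m : ℤ) - r * N - r = m - r * (N + 1 : ℕ) := by push_cast; ring
      rw [e1, hα1 m N hm, hα1 m (N + 1) hm, pow_succ, pow_mul]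
    · rw [hα2 e h, zero_pow hQ0]
      refine hα2 _ fun ⟨m, N, h1, h2⟩ => h ⟨m + r, N, ?_, hA1 m h2⟩
      push_cast
      linarith
  · obtain ⟨e, he⟩ := hne
    refine ⟨(e : ℤ) - r * (0 : ℕ), ?_⟩
    rw [hα1 e 0 he]
    exact pow_pos (hε0.trans he) _
  · by_cases h : ∃ m N' : ℕ, (m : ℤ) - r * N' = e - r * N ∧ ε < a m
    · obtain ⟨m, N', h1, hm⟩ := h
      rw [← h1, hα1 m N' hm]
      rcases le_total N N' with hN | hN
      · obtain ⟨j, rfl, rfl⟩ := hcmp _ _ _ _ h1.symm hN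
        rw [add_comm N j, pow_add, pow_mul]
        exact pow_le_pow_left₀ (pow_nonneg (h0 _) _) (hB2 e he j) _
      · obtain ⟨j, rfl, rfl⟩ := hcmp _ _ _ _ h1 hN
        exact absurd (hA2 m hm j).1 (not_lt.2 he)
    · rw [hα2 _ h]
      exact pow_nonneg hε0.le _

/-- Define `α e = ‖x (e + r N)‖ ^ (Q ^ N)` for any `N` with `e + r N ≥ 0` and `ε < ‖x (e + r N)‖`,
and `0` if there is none. If `ε < ‖x e'‖` then `‖x (e'+r)‖ ^ Q = ‖x e'‖` and `ε < ‖x (e'+r)‖`. -/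
theorem alpha_lemma {K : Type*} [NormedField K] [IsUltrametricDist K] (x : ℕ → K) (r Q : ℕ)
    (hr : 1 ≤ r) (hQ : 2 ≤ Q) (ε : ℝ) (hε0 : 0 < ε) (hε1 : ε < 1) (hx : ∀ e, ‖x e‖ ≤ 1)
    (hrec : ∀ e, ‖x e - x (e + r) ^ Q‖ ≤ ε) (hlt : ∀ e < r, ‖x e‖ < 1) (hne : ∃ e, ε < ‖x e‖) :
    ∃ α : ℤ → ℝ, (∀ e, 0 ≤ α e ∧ α e < 1) ∧ (∀ e, α (e - r) = α e ^ Q) ∧ (∃ e, 0 < α e) ∧
      ∀ N e : ℕ, (ε < ‖x e‖ → α ((e : ℤ) - r * N) = ‖x e‖ ^ Q ^ N) ∧
        (‖x e‖ ≤ ε → α ((e : ℤ) - r * N) ≤ ε ^ Q ^ N) := by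
  have hB : ∀ e, ‖x (e + r)‖ ^ Q ≤ max ‖x e‖ ε := by
    intro e
    have h := IsUltrametricDist.norm_add_le_max (x e) (-(x e - x (e + r) ^ Q))
    rw [norm_neg, show x e + -(x e - x (e + r) ^ Q) = x (e + r) ^ Q by ring, norm_pow] at h
    exact h.trans (max_le_max le_rfl (hrec e))
  refine alpha_lemma_real (fun e => ‖x e‖) r Q hr hQ ε hε0 hε1 (fun e => norm_nonneg _) hx
    (fun e he => ?_) hB hlt hne
  refine le_antisymm ((hB e).trans (max_le le_rfl he.le)) ?_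
  have h := IsUltrametricDist.norm_add_le_max (x e - x (e + r) ^ Q) (x (e + r) ^ Q)
  rw [sub_add_cancel, norm_pow] at h
  rcases le_max_iff.1 h with h' | h'
  · exact absurd (he.trans_le (h'.trans (hrec e))) (lt_irrefl _)
  · exact h'

/-- The size of the term with indices `(e, j)` at twist `l`. -/
noncomputable def tterm (p : ℕ) (α : ℤ → ℝ) (ω : ℕ → ℝ) (l e : ℤ) (j : ℕ) : ℝ :=
  α e ^ p ^ j * ω j ^ ((p : ℝ) ^ (l + e + j))

theorem select_lemma_bound {p : ℝ} (hp : 1 < p) (C : ℝ) :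
    ∃ M : ℕ, ∀ z : ℤ, p ^ z ≤ C → z ≤ M := by
  obtain ⟨M, hM⟩ := pow_unbounded_of_one_lt C hp
  refine ⟨M, fun z hz => ?_⟩
  have : p ^ z < p ^ (M : ℤ) := by rw [zpow_natCast]; exact hz.trans_lt hM
  exact ((zpow_lt_zpow_iff_right₀ hp).1 this).le

theorem select_lemma_lex {ι : Type*} (S : Set ι) (f : ι → ℝ) (g : ι → ℤ) {x0 : ι} (h0 : x0 ∈ S)
    (hfin : {x | x ∈ S ∧ f x ≤ f x0}.Finite) :
    ∃ y ∈ S, ∀ x ∈ S, f y ≤ f x ∧ (f x = f y → g y ≤ g x) := by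
  obtain ⟨y1, hy1, hmin1⟩ := Set.exists_min_image _ f hfin ⟨x0, h0, le_rfl⟩
  have hmin : ∀ x ∈ S, f y1 ≤ f x := fun x hx => by
    by_cases hx0 : f x ≤ f x0
    · exact hmin1 x ⟨hx, hx0⟩
    · exact hy1.2.trans (not_le.1 hx0).le
  have hfin2 : {x | x ∈ S ∧ f x = f y1}.Finite :=
    hfin.subset fun x hx => ⟨hx.1, hx.2.le.trans hy1.2⟩
  obtain ⟨y, hy, hmin2⟩ := Set.exists_min_image _ g hfin2 ⟨y1, hy1.1, rfl⟩
  exact ⟨y, hy.1, fun x hx => ⟨hy.2.le.trans (hmin x hx),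
    fun h => hmin2 x ⟨hx, h.trans hy.2⟩⟩⟩

theorem select_lemma_N {p : ℝ} (hp : 1 < p) (h n : ℕ) (hh : 1 ≤ h) (hn : 1 ≤ n) (W : Set ℕ)
    (w : ℕ → ℝ) (hw : ∀ j ∈ W, 0 < w j) (hW : ∃ j < h, j ∈ W) :
    ∃ (ks : ℤ) (js : ℕ), js < h ∧ js ∈ W ∧ ∀ (k : ℤ) (j : ℕ), j < h → j ∈ W →
      p ^ ((js : ℤ) - h * ks) + p ^ (n * ks) * w js ≤ p ^ ((j : ℤ) - h * k) + p ^ (n * k) * w j ∧
      (p ^ ((j : ℤ) - h * k) + p ^ (n * k) * w j =
          p ^ ((js : ℤ) - h * ks) + p ^ (n * ks) * w js →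
        (k, j) ≠ (ks, js) → h * ks - js < h * k - j) := by
  obtain ⟨j0, hj0, hj0W⟩ := hW
  have hp0 : 0 < p := by linarith
  set f : ℤ × ℕ → ℝ := fun x => p ^ ((x.2 : ℤ) - h * x.1) + p ^ (n * x.1) * w x.2 with hf
  obtain ⟨M, hM⟩ := select_lemma_bound hp (f (0, j0))
  choose B hB using fun j => select_lemma_bound hp (f (0, j0) / w j)
  obtain ⟨y, hy, hmin⟩ := select_lemma_lex {x : ℤ × ℕ | x.2 < h ∧ x.2 ∈ W} f
    (fun x => h * x.1 - x.2) (x0 := (0, j0)) ⟨hj0, hj0W⟩ (by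
      refine ((Set.finite_Iio h).biUnion fun j _ =>
        (Set.finite_Icc (-(M : ℤ)) (B j)).image fun k => (k, j)).subset ?_
      rintro ⟨k, j⟩ ⟨⟨hj, hjW⟩, hle⟩
      simp only [Set.mem_iUnion, Set.mem_image]
      have hwj := hw j hjW
      have h1 : 0 < p ^ ((j : ℤ) - h * k) := zpow_pos hp0 _
      have h2 : 0 < p ^ ((n : ℤ) * k) * w j := mul_pos (zpow_pos hp0 _) hwj
      have h3 : (j : ℤ) - h * k ≤ M := hM _ (by simp only [hf] at hle ⊢; linarith)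
      have h4 : (n : ℤ) * k ≤ B j := hB j _ (by
        rw [le_div_iff₀ hwj]; simp only [hf] at hle ⊢; linarith)
      have hh' : (1 : ℤ) ≤ h := by exact_mod_cast hh
      have hn' : (1 : ℤ) ≤ n := by exact_mod_cast hn
      have hj' : (0 : ℤ) ≤ j := Int.natCast_nonneg j
      have hM' : (0 : ℤ) ≤ M := Int.natCast_nonneg M
      have hB' : (0 : ℤ) ≤ B j := Int.natCast_nonneg _
      refine ⟨j, hj, k, ⟨?_, ?_⟩, rfl⟩
      · by_contra hc
        nlinarith [not_le.1 hc]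
      · by_contra hc
        nlinarith [not_le.1 hc])
  refine ⟨y.1, y.2, hy.1, hy.2, fun k j hj hjW => ⟨(hmin (k, j) ⟨hj, hjW⟩).1, fun he hne => ?_⟩⟩
  refine lt_of_le_of_ne ((hmin (k, j) ⟨hj, hjW⟩).2 he) fun hc => hne ?_
  have hy1 : (y.2 : ℤ) < h := by exact_mod_cast hy.1
  have hj1 : (j : ℤ) < h := by exact_mod_cast hj
  have hy2 : (0 : ℤ) ≤ y.2 := Int.natCast_nonneg _
  have hj2 : (0 : ℤ) ≤ j := Int.natCast_nonneg _
  have hk : k = y.1 := by
    by_contra hk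
    rcases lt_or_gt_of_ne hk with hk | hk
    · nlinarith [Int.add_one_le_iff.2 hk]
    · nlinarith [Int.add_one_le_iff.2 hk]
  rw [hk] at hc ⊢
  have : j = y.2 := by omega
  rw [this]

theorem select_lemma_e {p : ℝ} (hp : 1 < p) (h r : ℕ) (hh : 1 ≤ h) (hr : 1 ≤ r) (S : Set ℤ)
    (a : ℤ → ℝ) (hS : ∀ e k : ℤ, e + r * k ∈ S ↔ e ∈ S) (ha : ∀ e ∈ S, 0 < a e)
    (hper : ∀ e k : ℤ, a (e + r * k) = p ^ (-(h * k)) * a e) (hne : S.Nonempty) {m : ℝ}
    (hm : 0 < m) :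
    ∃ eo ∈ S, ∃ s : ℝ, a eo = m - s * p ^ eo ∧
      ∀ e ∈ S, m - s * p ^ e ≤ a e ∧ (eo < e → m - s * p ^ e < a e) := by
  have hp0 : 0 < p := by linarith
  have hh' : (1 : ℤ) ≤ h := by exact_mod_cast hh
  have hr' : (1 : ℤ) ≤ r := by exact_mod_cast hr
  obtain ⟨e0, he0, he0m⟩ : ∃ e ∈ S, a e < m := by
    obtain ⟨e, he⟩ := hne
    obtain ⟨M, hM⟩ := select_lemma_bound hp (a e / m)
    refine ⟨e + r * (M + 1 : ℤ), (hS _ _).2 he, ?_⟩
    rw [hper, zpow_neg, inv_mul_lt_iff₀ (zpow_pos hp0 _), ← div_lt_iff₀ hm]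
    by_contra hc
    have := hM _ (not_lt.1 hc)
    nlinarith [Int.natCast_nonneg M]
  set f : ℤ → ℝ := fun e => (a e - m) / p ^ e with hf
  have hf0 : f e0 < 0 := div_neg_of_neg_of_pos (by linarith) (zpow_pos hp0 _)
  obtain ⟨M, hM⟩ := select_lemma_bound hp (m / (-f e0))
  choose B hB using fun e => select_lemma_bound hp (m / a e)
  obtain ⟨y, hy, hmin⟩ := select_lemma_lex S f (fun e => -e) he0 (by
    refine (Set.finite_Icc (-(r * ∑ e ∈ Finset.Ico (0 : ℤ) r, (B e : ℤ))) M).subset ?_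
    rintro e ⟨he, hle⟩
    have hpe : 0 < p ^ e := zpow_pos hp0 _
    have h1 : a e - m ≤ f e0 * p ^ e := (div_le_iff₀ hpe).1 hle
    have hae := ha e he
    refine ⟨?_, hM _ ?_⟩
    · have hdiv : e = e % r + r * (e / r) := (Int.emod_add_mul_ediv e r).symm
      have hm0 : 0 ≤ e % r := Int.emod_nonneg _ (by omega)
      have hm1 : e % r < r := Int.emod_lt_of_pos _ (by omega)
      have hS' : e % r ∈ S := (hS _ (e / r)).1 (hdiv ▸ he)
      have h2 : a e = p ^ (-(h * (e / r))) * a (e % r) := by rw [← hper, ← hdiv]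
      have h3 : -(h * (e / r)) ≤ (B (e % r) : ℤ) := hB _ _ (by
        rw [le_div_iff₀ (ha _ hS'), ← h2]
        nlinarith)
      have h4 : (B (e % r) : ℤ) ≤ ∑ e ∈ Finset.Ico (0 : ℤ) r, (B e : ℤ) :=
        Finset.single_le_sum (f := fun e => (B e : ℤ)) (fun _ _ => Int.natCast_nonneg _)
          (Finset.mem_Ico.2 ⟨hm0, hm1⟩)
      have h5 : (0 : ℤ) ≤ B (e % r) := Int.natCast_nonneg _
      have h6 : -(∑ e ∈ Finset.Ico (0 : ℤ) r, (B e : ℤ)) ≤ e / r := by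
        by_contra hc
        nlinarith [not_le.1 hc]
      nlinarith
    · rw [le_div_iff₀ (by linarith)]
      linarith)
  have key : ∀ e : ℤ, a e = m + f e * p ^ e := fun e => by
    rw [hf]
    simp only
    rw [div_mul_cancel₀ _ (zpow_pos hp0 _).ne']
    ring
  refine ⟨y, hy, -f y, by rw [key y]; ring, fun e he => ?_⟩
  have hpe : 0 < p ^ e := zpow_pos hp0 _
  obtain ⟨h1, h2⟩ := hmin e he
  refine ⟨by rw [key e]; nlinarith, fun hlt => ?_⟩
  have h3 : f y < f e := lt_of_le_of_ne h1 fun hc => by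
    have := h2 hc.symm
    omega
  rw [key e]
  nlinarith

theorem select_lemma_core {p : ℝ} (hp : 1 < p) (h r : ℕ) (hh : 1 ≤ h) (hr : 1 ≤ r) (S : Set ℤ)
    (a : ℤ → ℝ) (hS : ∀ e k : ℤ, e + r * k ∈ S ↔ e ∈ S) (ha : ∀ e ∈ S, 0 < a e)
    (hper : ∀ e k : ℤ, a (e + r * k) = p ^ (-(h * k)) * a e) (hne : S.Nonempty) (W : Set ℕ)
    (w : ℕ → ℝ) (hw : ∀ j ∈ W, 0 < w j) (hW : ∃ j < h, j ∈ W) :
    ∃ js < h, js ∈ W ∧ ∃ U0 : ℤ, ∀ u : ℕ, ∃ es l : ℤ, es ∈ S ∧ l + es + js = U0 + u ∧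
      ∀ e ∈ S, ∀ j ∈ W, j < h → ∀ i : ℤ, i ≤ 0 → ((h + r : ℕ) : ℤ) ∣ e + j - (es + js + i) →
        (i < 0 ∨ (e, j) ≠ (es, js)) →
        p ^ i * (p ^ js * a es + p ^ (l + es + js) * w js) <
          p ^ j * a e + p ^ (l + e + j) * w j := by
  have hp0 : 0 < p := by linarith
  obtain ⟨ks, js, hjs, hjsW, hN⟩ := select_lemma_N hp h (h + r) hh (by omega) W w hw hW
  refine ⟨js, hjs, hjsW, (h + r : ℕ) * ks, fun u => ?_⟩
  have hm : 0 < p ^ (u : ℤ) := zpow_pos hp0 _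
  obtain ⟨eo, heo, s, hs, hE⟩ := select_lemma_e hp h r hh hr S a hS ha hper hne hm
  obtain ⟨E, hEdef⟩ : ∃ E : ℤ, E = eo - (h * ks - js) := ⟨_, rfl⟩
  have hT : ∀ (k i : ℤ) (j : ℕ),
      p ^ j * a ((E + i + h * k - j) + r * k) +
        p ^ ((u - E) + ((E + i + h * k - j) + r * k) + j) * w j =
      p ^ ((j : ℤ) - h * k) * a (E + i + h * k - j) +
        p ^ (u : ℤ) * p ^ i * (p ^ (((h + r : ℕ) : ℤ) * k) * w j) := fun k i j => by
    rw [hper, ← mul_assoc, ← zpow_natCast, ← zpow_add₀ hp0.ne', ← mul_assoc,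
      ← zpow_add₀ hp0.ne', ← zpow_add₀ hp0.ne']
    congr 3
    push_cast
    ring
  have hP : ∀ (k i : ℤ) (j : ℕ),
      p ^ ((j : ℤ) - h * k) * p ^ (E + i + h * k - j) = p ^ E * p ^ i := fun k i j => by
    rw [← zpow_add₀ hp0.ne', ← zpow_add₀ hp0.ne']
    congr 1
    ring
  have heo' : E + 0 + h * ks - js = eo := by rw [hEdef]; ring
  refine ⟨eo + r * ks, u - E, (hS _ _).2 heo, by rw [hEdef]; push_cast; ring, ?_⟩
  rintro e he j hjW hj i hi ⟨c, hc⟩ hor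
  obtain ⟨k, hk⟩ : ∃ k : ℤ, k = ks + c := ⟨_, rfl⟩
  have hek : e = (E + i + h * k - j) + r * k := by
    rw [hk, hEdef]
    push_cast at hc
    linarith
  have h1 := hT ks 0 js
  have h2 := hT k i j
  have h3 := hP ks 0 js
  have h4 := hP k i j
  rw [heo'] at h1 h3
  rw [← hek] at h2
  rw [h1, h2, hs]
  have he1 : E + i + h * k - j ∈ S := (hS _ k).1 (hek ▸ he)
  obtain ⟨h5, h6⟩ := hE _ he1
  obtain ⟨h7, h8⟩ := hN k j hj hjW
  have hA : 0 < p ^ ((j : ℤ) - h * k) := zpow_pos hp0 _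
  have ht : 0 < p ^ i := zpow_pos hp0 _
  rw [zpow_zero, mul_one] at h3 ⊢
  have hgoal : ∀ {t A As x Ps P1 PE m N Ns : ℝ}, As * Ps = PE → A * P1 = PE * t →
      0 < A * (x - (m - s * P1)) + m * (A * (1 - t) + t * ((A + N) - (As + Ns))) →
      t * (As * (m - s * Ps) + m * Ns) < A * x + m * t * N := by
    intro t A As x Ps P1 PE m N Ns e1 e2 e3
    have : A * x + m * t * N - t * (As * (m - s * Ps) + m * Ns) =
        A * (x - (m - s * P1)) + m * (A * (1 - t) + t * ((A + N) - (As + Ns))) := by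
      linear_combination (s * t) * e1 - s * e2
    linarith
  refine hgoal h3 h4 ?_
  have ht1 : p ^ i ≤ 1 := zpow_le_one_of_nonpos₀ hp.le hi
  have q1 := mul_nonneg hA.le (sub_nonneg.2 h5)
  have q2 := mul_nonneg hA.le (sub_nonneg.2 ht1)
  have q3 := mul_nonneg ht.le (sub_nonneg.2 h7)
  rcases hi.lt_or_eq with hi | rfl
  · have q4 := mul_pos hA (sub_pos.2 (zpow_lt_one_of_neg₀ hp hi))
    exact add_pos_of_nonneg_of_pos q1 (mul_pos hm (add_pos_of_pos_of_nonneg q4 q3))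
  rcases h7.lt_or_eq with h7 | h7
  · have q4 := mul_pos ht (sub_pos.2 h7)
    exact add_pos_of_nonneg_of_pos q1 (mul_pos hm (add_pos_of_nonneg_of_pos q2 q4))
  · have hne' : (k, j) ≠ (ks, js) := by
      intro hkj
      obtain ⟨rfl, rfl⟩ := Prod.mk.inj hkj
      rcases hor with hor | hor
      · exact lt_irrefl _ hor
      · exact hor (by rw [hek, heo'])
    have h9 := h8 h7.symm hne'
    have q4 := mul_pos hA (sub_pos.2 (h6 (by rw [hEdef]; linarith)))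
    exact add_pos_of_pos_of_nonneg q4 (mul_nonneg hm.le (add_nonneg q2 q3))

theorem select_lemma_tterm (p : ℕ) (α : ℤ → ℝ) (ω : ℕ → ℝ) (l e : ℤ) (j : ℕ) (h1 : 0 < α e)
    (h2 : 0 < ω j) :
    tterm p α ω l e j = Real.exp (-((p : ℝ) ^ j * (-Real.log (α e)) +
      (p : ℝ) ^ (l + e + j) * (-Real.log (ω j)))) := by
  rw [tterm, Real.rpow_def_of_pos h2, ← Real.exp_log (pow_pos h1 (p ^ j)), ← Real.exp_add,
    Real.log_pow]
  congr 1
  push_cast
  ring

theorem select_lemma_tterm_zero (p : ℕ) (hp : 2 ≤ p) (α : ℤ → ℝ) (ω : ℕ → ℝ) (l e : ℤ) (j : ℕ)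
    (h : α e = 0 ∨ ω j = 0) : tterm p α ω l e j = 0 := by
  have hp0 : (0 : ℝ) < p := by exact_mod_cast (by omega : 0 < p)
  rcases h with h | h
  · rw [tterm, h, zero_pow (pow_ne_zero _ (by omega)), zero_mul]
  · rw [tterm, h, Real.zero_rpow (zpow_pos hp0 _).ne', mul_zero]

/-- Additively, `a_e = -log α e`, `w_j = -log ω j` (only positive `α e`, `ω j` matter).
`N₀(k,j) = p^{j-hk} + p^{nk} w_j` has a minimum over `k ∈ ℤ`, `j < h`; among minimisers take the one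
with `J* = h k* - j*` smallest; `js = j*`, `U0 = n k*`. For `u` put `m = p^u`,
`s = max_e (m - a_e)/p^e > 0` and `e°` the largest maximiser; `E* = e° - J*`, `l = u - E*`,
`es = E* + n k* - j* = e° + r k*`; `φ* = p^u N₀(k*,j*) - s p^{E*}`, `β = exp(-φ*/p^n)`. For
`e + j = E* + i' + n k` with `-n < i' ≤ 0`, `J = h k - j`: `a_e = Q^{-k} a_{E*+i'+J}`, hence the
additive size is `≥ p^{i'} (p^{u-i'-J} + p^{u+nk} w_j - s p^{E*})`. -/
theorem select_lemma (p h r : ℕ) (hp : 2 ≤ p) (hh : 1 ≤ h) (hr : 1 ≤ r) (α : ℤ → ℝ)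
    (hα : ∀ e, 0 ≤ α e ∧ α e < 1) (hper : ∀ e, α (e - r) = α e ^ p ^ h) (hα0 : ∃ e, 0 < α e)
    (ω : ℕ → ℝ) (hω : ∀ j, 0 ≤ ω j ∧ ω j < 1) (hω0 : ∃ j < h, 0 < ω j) :
    ∃ js < h, ∃ U0 : ℤ, ∀ u : ℕ, ∃ (es l : ℤ) (β : ℝ), 0 < β ∧ β < 1 ∧ l + es + js = U0 + u ∧
      tterm p α ω l es js = β ^ p ^ (h + r) ∧
      (∀ (e : ℤ) (j : ℕ), j < h → ((h + r : ℕ) : ℤ) ∣ e + j - (es + js) → (e, j) ≠ (es, js) →
        tterm p α ω l e j < β ^ p ^ (h + r)) ∧
      ∀ (e : ℤ) (j i : ℕ), j < h → 1 ≤ i → i < h + r →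
        ((h + r : ℕ) : ℤ) ∣ e + j - (es + js + i) → tterm p α ω l e j < β ^ p ^ i := by
  have hp1 : (1 : ℝ) < p := by exact_mod_cast (by omega : 1 < p)
  have hp0 : (0 : ℝ) < p := by linarith
  have hstep : ∀ e : ℤ, (0 < α (e - r) ↔ 0 < α e) ∧
      -Real.log (α (e - r)) = (p : ℝ) ^ (h : ℤ) * -Real.log (α e) := fun e => by
    rw [hper, Real.log_pow]
    refine ⟨⟨fun h1 => (hα e).1.lt_of_ne fun h2 => ?_, fun h1 => pow_pos h1 _⟩, ?_⟩
    · rw [← h2, zero_pow (pow_ne_zero _ (by omega))] at h1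
      exact lt_irrefl _ h1
    · push_cast
      rw [zpow_natCast]
      ring
  have hall : ∀ e k : ℤ, (0 < α (e + r * k) ↔ 0 < α e) ∧
      -Real.log (α (e + r * k)) = (p : ℝ) ^ (-(h * k)) * -Real.log (α e) := fun e k => by
    induction k using Int.induction_on with
    | zero => simp
    | succ k ih =>
      have h1 := hstep (e + r * (k + 1))
      rw [show e + r * ((k : ℤ) + 1) - r = e + r * k by ring] at h1
      refine ⟨h1.1.symm.trans ih.1, ?_⟩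
      apply mul_left_cancel₀ (zpow_pos hp0 (h : ℤ)).ne'
      rw [← h1.2, ih.2, ← mul_assoc, ← zpow_add₀ hp0.ne']
      congr 2
      ring
    | pred k ih =>
      have h1 := hstep (e + r * (-k))
      rw [show e + r * (-(k : ℤ)) - r = e + r * (-k - 1) by ring] at h1
      refine ⟨h1.1.trans ih.1, ?_⟩
      rw [h1.2, ih.2, ← mul_assoc, ← zpow_add₀ hp0.ne']
      congr 2
      ring
  obtain ⟨js, hjs, hjsW, U0, hU⟩ := select_lemma_core hp1 h r hh hr {e | 0 < α e}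
    (fun e => -Real.log (α e)) (fun e k => (hall e k).1)
    (fun e he => neg_pos.2 (Real.log_neg he (hα e).2)) (fun e k => (hall e k).2) hα0
    {j | 0 < ω j} (fun j => -Real.log (ω j))
    (fun j hj => neg_pos.2 (Real.log_neg hj (hω j).2)) hω0
  refine ⟨js, hjs, U0, fun u => ?_⟩
  obtain ⟨es, l, hes, hl, hmain⟩ := hU u
  obtain ⟨T, hT⟩ : ∃ T : ℝ, T = (p : ℝ) ^ js * (-Real.log (α es)) +
      (p : ℝ) ^ (l + es + js) * (-Real.log (ω js)) := ⟨_, rfl⟩
  have hT0 : 0 < T := by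
    rw [hT]
    exact add_pos (mul_pos (pow_pos hp0 _) (neg_pos.2 (Real.log_neg hes (hα es).2)))
      (mul_pos (zpow_pos hp0 _) (neg_pos.2 (Real.log_neg hjsW (hω js).2)))
  have hβ : ∀ i : ℕ, Real.exp (-(T / (p : ℝ) ^ (h + r))) ^ p ^ i =
      Real.exp (-((p : ℝ) ^ ((i : ℤ) - (h + r : ℕ)) * T)) := fun i => by
    rw [← Real.exp_nat_mul, zpow_sub₀ hp0.ne', zpow_natCast, zpow_natCast]
    congr 1
    push_cast
    ring
  have hlt : ∀ (e : ℤ) (j i : ℕ), j < h → i ≤ h + r →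
      ((h + r : ℕ) : ℤ) ∣ e + j - (es + js + ((i : ℤ) - (h + r : ℕ))) →
      (i < h + r ∨ (e, j) ≠ (es, js)) →
      tterm p α ω l e j < Real.exp (-(T / (p : ℝ) ^ (h + r))) ^ p ^ i := by
    intro e j i hj hi hd hor
    rw [hβ]
    rcases (hα e).1.eq_or_lt with h1 | h1
    · rw [select_lemma_tterm_zero p hp α ω l e j (Or.inl h1.symm)]
      exact Real.exp_pos _
    rcases (hω j).1.eq_or_lt with h2 | h2
    · rw [select_lemma_tterm_zero p hp α ω l e j (Or.inr h2.symm)]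
      exact Real.exp_pos _
    rw [select_lemma_tterm p α ω l e j h1 h2, Real.exp_lt_exp, neg_lt_neg_iff, hT]
    exact hmain e h1 j h2 hj _ (by omega) hd (hor.imp_left fun _ => by omega)
  refine ⟨es, l, Real.exp (-(T / (p : ℝ) ^ (h + r))), Real.exp_pos _,
    Real.exp_lt_one_iff.2 (neg_neg_of_pos (div_pos hT0 (pow_pos hp0 _))), hl, ?_,
    fun e j hj hd hne => hlt e j _ hj le_rfl (by simpa using hd) (Or.inr hne),
    fun e j i hj _ hi hd => hlt e j i hj hi.le ?_ (Or.inl hi)⟩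
  · rw [hβ, select_lemma_tterm p α ω l es js hes hjsW, sub_self, zpow_zero, one_mul, hT]
  · have h1 := hd.add (dvd_refl _)
    rwa [show e + j - (es + js + i) + ((h + r : ℕ) : ℤ) =
      e + j - (es + js + ((i : ℤ) - (h + r : ℕ))) by ring] at h1

theorem moore_lemma_norm {K : Type*} [NormedField K] {Q : ℕ} (hQ : 2 ≤ Q) {c : K}
    (hc : c ^ Q = c) : c = 0 ∨ ‖c‖ = 1 := by
  by_cases h : c = 0
  · exact Or.inl h
  · right
    obtain ⟨Q', rfl⟩ : ∃ Q', Q = Q' + 1 := ⟨Q - 1, by omega⟩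
    have h1 : c ^ Q' = 1 := mul_right_cancel₀ h (by rw [← pow_succ, hc, one_mul])
    have h2 : ‖c‖ ^ Q' = 1 := by rw [← norm_pow, h1, norm_one]
    exact (pow_eq_one_iff_of_nonneg (norm_nonneg _) (by omega)).1 h2

theorem moore_lemma_ind {K : Type*} [NormedField K] [IsUltrametricDist K] (p : ℕ) [Fact p.Prime]
    [CharP K p] (h : ℕ) (hh : 1 ≤ h) {ι : Type*} (Z : ι → K) {B : ℝ} (s : Finset ι) :
    ∀ γ : ι → K, (∀ i, γ i ^ p ^ h = γ i) →
      (∀ c : ι → ℤ, ∑ i ∈ s, (c i : K) * γ i = 0 → ∀ i ∈ s, (p : ℤ) ∣ c i) →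
      (∀ v : ℕ, ‖∑ i ∈ s, γ i ^ p ^ v * Z i‖ < B) → ∀ i ∈ s, ‖Z i‖ < B := by
  classical
  have hp : p.Prime := Fact.out
  have hQ : 2 ≤ p ^ h := Nat.one_lt_pow (by omega) hp.one_lt
  induction s using Finset.induction_on with
  | empty => simp
  | insert j s hj ih =>
    intro γ hγ hind hB
    have hj0 : γ j ≠ 0 := by
      intro h0
      have := hind (fun i => if i = j then 1 else 0) (by
        refine Finset.sum_eq_zero fun i _ => ?_
        by_cases hi : i = j <;> simp [hi, h0]) j (Finset.mem_insert_self _ _)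
      simp only [if_true] at this
      exact hp.not_dvd_one (by exact_mod_cast this)
    have hj1 : ‖γ j‖ = 1 := (moore_lemma_norm hQ (hγ j)).resolve_left hj0
    obtain ⟨g, hg⟩ : ∃ g : ι → K, g = fun i => γ i / γ j := ⟨_, rfl⟩
    have hgp : ∀ i, g i ^ p ^ h = g i := fun i => by rw [hg]; simp only [div_pow, hγ]
    have hB' : ∀ v : ℕ, ‖Z j + ∑ i ∈ s, g i ^ p ^ v * Z i‖ < B := by
      intro v
      have e : Z j + ∑ i ∈ s, g i ^ p ^ v * Z i =
          (∑ i ∈ insert j s, γ i ^ p ^ v * Z i) / γ j ^ p ^ v := by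
        have := pow_ne_zero (p ^ v) hj0
        rw [Finset.sum_insert hj, add_div, Finset.sum_div, hg]
        congr 1
        · field_simp
        · exact Finset.sum_congr rfl fun i _ => by simp only [div_pow]; ring
      rw [e, norm_div, norm_pow, hj1, one_pow, div_one]
      exact hB v
    have hs : ∀ i ∈ s, ‖Z i‖ < B := by
      refine ih (fun i => g i ^ p - g i) (fun i => ?_) (fun c hc => ?_) fun v => ?_
      · rw [sub_pow_char_pow, ← pow_mul, mul_comm, pow_mul, hgp]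
      · have h1 : (∑ i ∈ s, (c i : K) * g i) ^ p = ∑ i ∈ s, (c i : K) * g i := by
          rw [sum_pow_char, ← sub_eq_zero, ← Finset.sum_sub_distrib, ← hc]
          refine Finset.sum_congr rfl fun i _ => ?_
          have : (c i : K) ^ p = c i := by
            rw [← frobenius_def, map_intCast]
          rw [mul_pow, this]
          ring
        obtain ⟨c0, hc0⟩ := (mem_bot_iff_intCast p K).1
          ((Subfield.mem_bot_iff_pow_eq_self K p).2 h1)
        have h2 := hind (fun i => if i = j then -c0 else c i) (by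
          rw [Finset.sum_insert hj, if_pos rfl]
          have : ∑ i ∈ s, ((if i = j then -c0 else c i : ℤ) : K) * γ i =
              (∑ i ∈ s, (c i : K) * g i) * γ j := by
            rw [Finset.sum_mul]
            refine Finset.sum_congr rfl fun i hi => ?_
            rw [if_neg (fun h : i = j => hj (h ▸ hi)), hg]
            field_simp
          rw [this, ← hc0]
          push_cast
          ring)
        intro i hi
        have := h2 i (Finset.mem_insert_of_mem hi)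
        rwa [if_neg (fun h : i = j => hj (h ▸ hi))] at this
      · have e : ∑ i ∈ s, (g i ^ p - g i) ^ p ^ v * Z i =
            (Z j + ∑ i ∈ s, g i ^ p ^ (v + 1) * Z i) + -(Z j + ∑ i ∈ s, g i ^ p ^ v * Z i) := by
          rw [← sub_eq_add_neg, add_sub_add_left_eq_sub, ← Finset.sum_sub_distrib]
          refine Finset.sum_congr rfl fun i _ => ?_
          rw [sub_pow_char_pow, ← pow_mul, ← pow_succ', sub_mul]
        rw [e]
        refine (IsUltrametricDist.norm_add_le_max _ _).trans_lt (max_lt (hB' _) ?_)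
        rw [norm_neg]
        exact hB' _
    intro i hi
    rcases Finset.mem_insert.1 hi with rfl | hi
    · have hB0 : 0 < B := (norm_nonneg _).trans_lt (hB 0)
      have h1 : ‖∑ k ∈ s, g k ^ p ^ 0 * Z k‖ < B := by
        rcases s.eq_empty_or_nonempty with rfl | hne
        · simpa using hB0
        · obtain ⟨k, hk, hle⟩ := IsUltrametricDist.exists_norm_finsetSum_le_of_nonempty hne
            fun k => g k ^ p ^ 0 * Z k
          refine hle.trans_lt ?_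
          rw [pow_zero, pow_one, norm_mul]
          rcases moore_lemma_norm hQ (hgp k) with h0 | h0
          · simpa [h0] using hB0
          · simpa [h0] using hs k hk
      have h2 := IsUltrametricDist.norm_add_le_max (Z i + ∑ k ∈ s, g k ^ p ^ 0 * Z k)
        (-∑ k ∈ s, g k ^ p ^ 0 * Z k)
      rw [add_neg_cancel_right, norm_neg] at h2
      exact h2.trans_lt (max_lt (hB' 0) h1)
    · exact hs i hi

/-- Normalise `ω = 1`. If all sums are small, raise to `p^{h-u}`: `∑ γ_i^{p^v} Z_i` is small for all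
`v` (periodic mod `h`), `Z_i = z_i^Q`. Reduce to the residue field of the unit ball and use Artin's
minimal-relation argument (or the trace form of the finite field). -/
theorem moore_lemma {K : Type*} [NormedField K] [IsUltrametricDist K] (p : ℕ) [Fact p.Prime]
    [CharP K p] (h : ℕ) (hh : 1 ≤ h) {ι : Type*} [Fintype ι] (γ : ι → K)
    (hγ : ∀ i, γ i ^ p ^ h = γ i)
    (hind : ∀ c : ι → ℤ, ∑ i, (c i : K) * γ i = 0 → ∀ i, (p : ℤ) ∣ c i) (z : ι → K) (ω : ℝ)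
    (hω : 0 < ω) (hz : ∀ i, ‖z i‖ ≤ ω) (hz0 : ∃ i, ‖z i‖ = ω) :
    ∃ u < h, ‖∑ i, γ i * z i ^ p ^ u‖ = ω ^ p ^ u := by
  have hp : p.Prime := Fact.out
  have hQ : 2 ≤ p ^ h := Nat.one_lt_pow (by omega) hp.one_lt
  by_contra hcon
  push Not at hcon
  have hlt : ∀ u < h, ‖∑ i, γ i * z i ^ p ^ u‖ < ω ^ p ^ u := by
    intro u hu
    refine lt_of_le_of_ne ?_ (hcon u hu)
    refine IsUltrametricDist.norm_sum_le_of_forall_le_of_nonneg (by positivity) fun i _ => ?_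
    rw [norm_mul, norm_pow]
    have h1 : ‖γ i‖ ≤ 1 := by
      rcases moore_lemma_norm hQ (hγ i) with h0 | h0 <;> simp [h0]
    exact (mul_le_of_le_one_left (by positivity) h1).trans
      (pow_le_pow_left₀ (norm_nonneg _) (hz i) _)
  have h1 : ∀ v, 1 ≤ v → v ≤ h → ‖∑ i, γ i ^ p ^ v * z i ^ p ^ h‖ < ω ^ p ^ h := by
    intro v hv1 hv
    obtain ⟨u, rfl⟩ : ∃ u, h = u + v := ⟨h - v, by omega⟩
    have := pow_lt_pow_left₀ (hlt u (by omega)) (norm_nonneg _) (pow_ne_zero v hp.ne_zero)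
    rw [← norm_pow, sum_pow_char_pow] at this
    simpa only [mul_pow, ← pow_mul, ← pow_add] using this
  have h2 : ∀ v, ‖∑ i, γ i ^ p ^ v * z i ^ p ^ h‖ < ω ^ p ^ h := by
    intro v
    induction v using Nat.strong_induction_on with
    | _ v ih =>
      by_cases hv : h ≤ v
      · obtain ⟨w, rfl⟩ : ∃ w, v = h + w := ⟨v - h, by omega⟩
        simpa only [pow_add, pow_mul, hγ] using ih w (by omega)
      · rcases Nat.eq_zero_or_pos v with rfl | hv0
        · simpa only [hγ, pow_zero, pow_one] using h1 h hh le_rfl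
        · exact h1 v hv0 (by omega)
  obtain ⟨i, hi⟩ := hz0
  have := moore_lemma_ind p h hh (fun i => z i ^ p ^ h) Finset.univ γ hγ
    (fun c hc i _ => hind c hc i) h2 i (Finset.mem_univ i)
  rw [norm_pow, hi] at this
  exact lt_irrefl _ this

end Crest.R227
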