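import Crest.Agent.R227.FG2
import Crest.Agent.R227.Ob

/-! Row 227. Graded bounds on coefficients; Fourier extraction of a residue class of exponents. -/

set_option autoImplicit false

namespace Crest.R227

open MvPowerSeries Crest.LubinTate

/-- Terms of degree `≥ 2` in a substitution get the strict bound (`MvPowerSeries.coeff_subst`). -/
theorem sub_lemma {R σ τ : Type*} [CommRing R] [Fintype σ] [Finite τ] (N Np : ℕ → Ideal R)
    (h0 : N 0 = ⊥) (hle : ∀ k, Np k ≤ N k) (hmul : ∀ i j, N i * N j ≤ Np (i + j))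
    (a : σ → MvPowerSeries τ R) (ha : ∀ s γ, coeff γ (a s) ∈ N γ.degree)
    (G : MvPowerSeries σ R) (hG : constantCoeff G = 0) (γ : τ →₀ ℕ) :
    coeff γ (subst a G - ∑ s, C (coeff (Finsupp.single s 1) G) * a s) ∈ Np γ.degree := by
  classical
  have hmul' : ∀ f g : MvPowerSeries τ R, (∀ γ, coeff γ f ∈ N γ.degree) →
      (∀ γ, coeff γ g ∈ N γ.degree) → ∀ γ, coeff γ (f * g) ∈ Np γ.degree := by
    intro f g hf hg γ
    rw [coeff_mul]
    refine Ideal.sum_mem _ fun q hq => ?_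
    rw [← Finset.HasAntidiagonal.mem_antidiagonal.1 hq, map_add]
    exact hmul _ _ (Ideal.mul_mem_mul (hf _) (hg _))
  have hsingle : ∀ s : σ, ((Finsupp.single s 1).prod fun s e => a s ^ e) = a s := fun s => by
    rw [Finsupp.prod_single_index (h := fun s e => a s ^ e) (pow_zero _), pow_one]
  have hprod : ∀ (m : ℕ) (d : σ →₀ ℕ), d.degree = m + 1 →
      (∀ γ, coeff γ (d.prod fun s e => a s ^ e) ∈ N γ.degree) ∧
        (1 ≤ m → ∀ γ, coeff γ (d.prod fun s e => a s ^ e) ∈ Np γ.degree) := by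
    intro m
    induction m with
    | zero =>
      intro d hd
      have h1 : d ∈ Set.range fun s : σ => Finsupp.single s 1 := by
        rw [Finsupp.range_single_one]
        exact hd
      obtain ⟨s, rfl⟩ := h1
      refine ⟨fun γ => ?_, fun h => by omega⟩
      rw [hsingle]
      exact ha s γ
    | succ m ih =>
      intro d hd
      obtain ⟨μ, hμ, hμ1⟩ := Finsupp.exists_le_degree_eq d 1 (by omega)
      have h1 : μ ∈ Set.range fun s : σ => Finsupp.single s 1 := by
        rw [Finsupp.range_single_one]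
        exact hμ1
      obtain ⟨s, rfl⟩ := h1
      obtain ⟨d', rfl⟩ := exists_add_of_le hμ
      rw [map_add, hμ1] at hd
      have h2 := hmul' _ _ (ha s) (ih d' (by omega)).1
      rw [Finsupp.prod_add_index' (fun _ => pow_zero _) (fun _ _ _ => pow_add _ _ _), hsingle]
      exact ⟨fun γ => hle _ (h2 γ), fun _ => h2⟩
  have hs : HasSubst a := hasSubst_of_constantCoeff_zero fun s => by
    have := ha s 0
    rwa [map_zero, h0, Ideal.mem_bot] at this
  have e : subst a G - ∑ s, C (coeff (Finsupp.single s 1) G) * a s =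
      subst a (G - ∑ s, C (coeff (Finsupp.single s 1) G) * X s) := by
    rw [← substAlgHom_apply hs, ← substAlgHom_apply hs, map_sub, map_sum]
    congr 1
    refine Finset.sum_congr rfl fun s _ => ?_
    rw [map_mul, substAlgHom_X]
    congr 1
    exact ((substAlgHom hs).commutes _).symm
  rw [e, coeff_subst hs]
  refine finsum_induction (fun x => x ∈ Np γ.degree) (Ideal.zero_mem _)
    (fun x y hx hy => Ideal.add_mem _ hx hy) fun d => ?_
  by_cases hd : 2 ≤ d.degree
  · exact Ideal.mul_mem_left _ _ ((hprod (d.degree - 1) d (by omega)).2 (by omega) γ)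
  · have : coeff d (G - ∑ s, C (coeff (Finsupp.single s 1) G) * X s) = 0 := by
      by_cases hd0 : d.degree = 0
      · have : d = 0 := (Finsupp.degree_eq_zero_iff d).1 hd0
        subst this
        simp [hG]
      · have h1 : d ∈ Set.range fun s : σ => Finsupp.single s 1 := by
          rw [Finsupp.range_single_one]
          change d.degree = 1
          omega
        obtain ⟨t, rfl⟩ := h1
        simp only [map_sub, map_sum, coeff_C_mul, coeff_X, Finsupp.single_left_inj one_ne_zero]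
        simp
    rw [this, zero_smul]
    exact Ideal.zero_mem _

theorem ind_lemma_hom {R : Type*} [CommRing R] (d : ℕ) (f : MvPowerSeries (Fin 2) R)
    (hhom : ∀ γ : Fin 2 →₀ ℕ, coeff γ f ≠ 0 → γ.degree ≡ 1 [MOD d]) (m : ℕ) :
    ∀ γ : Fin 2 →₀ ℕ, coeff γ (f ^ m) ≠ 0 → γ.degree ≡ m [MOD d] := by
  classical
  induction m with
  | zero =>
    intro γ hγ
    rw [pow_zero, coeff_one] at hγ
    have : γ = 0 := by
      by_contra h
      exact hγ (if_neg h)
    subst this
    rw [map_zero]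
  | succ m ih =>
    intro γ hγ
    rw [pow_succ, coeff_mul] at hγ
    obtain ⟨q, hq, hq0⟩ := Finset.exists_ne_zero_of_sum_ne_zero hγ
    have h1 := ih q.1 (left_ne_zero_of_mul hq0)
    have h2 := hhom q.2 (right_ne_zero_of_mul hq0)
    rw [← Finset.HasAntidiagonal.mem_antidiagonal.1 hq, map_add]
    exact h1.add h2

theorem ind_lemma_pow {A : Type*} [CommRing A] (I : Ideal A) {a b : A} (ha : a ∈ I) (hb : b ∈ I)
    (hab : a - b ∈ I ^ 2) (k : ℕ) : a ^ k - b ^ k ∈ I ^ (k + 1) := by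
  induction k with
  | zero => simp
  | succ k ih =>
    have e : a ^ (k + 1) - b ^ (k + 1) = (a ^ k - b ^ k) * a + b ^ k * (a - b) := by ring
    rw [e]
    refine Ideal.add_mem _ ?_ ?_
    · rw [pow_succ I (k + 1)]
      exact Ideal.mul_mem_mul ih ha
    · rw [show k + 1 + 1 = k + 2 from rfl, pow_add]
      exact Ideal.mul_mem_mul (Ideal.pow_mem_pow hb k) hab

theorem ind_lemma_X_mem {R : Type*} [CommRing R] (s : Fin 2) :
    (X s : MvPowerSeries (Fin 2) R) ∈
      Ideal.span (Set.range (X : Fin 2 → MvPowerSeries (Fin 2) R)) :=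
  Ideal.subset_span ⟨s, rfl⟩

theorem ind_lemma_mem {R : Type*} [CommRing R] (G0 : FormalGroup R) :
    G0.toPowerSeries ∈ Ideal.span (Set.range (X : Fin 2 → MvPowerSeries (Fin 2) R)) := by
  obtain ⟨H, hH⟩ := fg_shape G0
  rw [hH]
  exact Ideal.add_mem _ (Ideal.add_mem _ (ind_lemma_X_mem 0) (ind_lemma_X_mem 1))
    (Ideal.mul_mem_right _ _ (Ideal.mul_mem_right _ _ (ind_lemma_X_mem 0)))

theorem ind_lemma_top {R : Type*} [CommRing R] (G0 : FormalGroup R) (γ : Fin 2 →₀ ℕ) :
    coeff γ (G0.toPowerSeries ^ γ.degree) = ((γ.degree.choose (γ 0) : ℕ) : R) := by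
  classical
  obtain ⟨H, hH⟩ := fg_shape G0
  have h1 := ind_lemma_pow _ (ind_lemma_mem G0)
    (Ideal.add_mem _ (ind_lemma_X_mem 0) (ind_lemma_X_mem 1)) (by
      rw [hH, add_sub_cancel_left, sq]
      exact Ideal.mul_mem_right _ _ (Ideal.mul_mem_mul (ind_lemma_X_mem 0) (ind_lemma_X_mem 1)))
    γ.degree
  have h2 := coeff_eq_zero_of_mem_span_X_pow h1 γ (Nat.lt_succ_self _)
  rw [map_sub, sub_eq_zero] at h2
  rw [h2, ← MvPolynomial.coe_X, ← MvPolynomial.coe_X, ← MvPolynomial.coe_add,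
    ← MvPolynomial.coe_pow, MvPolynomial.coeff_coe, MvPolynomial.coeff_add_pow, if_pos]
  rw [Finset.HasAntidiagonal.mem_antidiagonal, Finsupp.degree_eq_sum, Fin.sum_univ_two]

theorem ind_lemma_unit {R : Type*} [CommRing R] (p : ℕ) [Fact p.Prime] (hp : (p : R) = 0) (c : ℕ)
    (hc : ¬ p ∣ c) : IsUnit (c : R) := by
  have h : IsCoprime (p : ℤ) (c : ℤ) :=
    Nat.isCoprime_iff_coprime.2 ((Nat.Prime.coprime_iff_not_dvd Fact.out).2 hc)
  obtain ⟨u, v, huv⟩ := h
  have := congrArg (Int.cast : ℤ → R) huv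
  push_cast at this
  rw [hp, mul_zero, zero_add] at this
  exact IsUnit.of_mul_eq_one_right _ this

theorem ind_lemma_rhs {R : Type*} [CommRing R] (G : FormalGroup R) (Ψ : PowerSeries R)
    (N Np : ℕ → Ideal R) (h0 : N 0 = ⊥) (hle : ∀ k, Np k ≤ N k)
    (hmul : ∀ i j, N i * N j ≤ Np (i + j)) (γ : Fin 2 →₀ ℕ) (hγ0 : γ 0 ≠ 0) (hγ1 : γ 1 ≠ 0)
    (ih : ∀ m, m < γ.degree → PowerSeries.coeff m Ψ ∈ N m) :
    coeff γ (G.toPowerSeries.subst
      ![PowerSeries.subst (X 0 : MvPowerSeries (Fin 2) R) Ψ,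
        PowerSeries.subst (X 1 : MvPowerSeries (Fin 2) R) Ψ]) ∈ Np γ.degree := by
  classical
  have hk : 0 < γ.degree := by
    rw [Finsupp.degree_eq_sum, Fin.sum_univ_two]
    omega
  have hs : (![PowerSeries.subst (X 0 : MvPowerSeries (Fin 2) R) Ψ,
      PowerSeries.subst (X 1 : MvPowerSeries (Fin 2) R) Ψ] : Fin 2 → MvPowerSeries (Fin 2) R) =
      fun s => PowerSeries.subst (X s : MvPowerSeries (Fin 2) R) Ψ := by
    funext s
    fin_cases s <;> rfl
  rw [hs]
  have h := sub_lemma (fun m => if m < γ.degree then N m else ⊤)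
    (fun m => if m ≤ γ.degree then Np m else ⊤) (by simp only [if_pos hk, h0])
    (fun m => by
      split_ifs with h1 h2 h2
      · exact hle m
      · exact le_top
      · omega
      · exact le_rfl)
    (fun i j => by
      by_cases hij : i + j ≤ γ.degree
      · rw [if_pos hij]
        by_cases hi : i < γ.degree
        · by_cases hj : j < γ.degree
          · rw [if_pos hi, if_pos hj]
            exact hmul i j
          · have : i = 0 := by omega
            subst this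
            rw [if_pos hi, h0, Ideal.bot_mul]
            exact bot_le
        · have : j = 0 := by omega
          subst this
          rw [if_pos hk, h0, Ideal.mul_bot]
          exact bot_le
      · rw [if_neg hij]
        exact le_top)
    (fun s => PowerSeries.subst (X s : MvPowerSeries (Fin 2) R) Ψ)
    (fun s δ => by
      rw [PowerSeries.coeff_subst_single]
      by_cases hδ : δ = Finsupp.single s (δ s)
      · rw [if_pos hδ]
        have hd : δ.degree = δ s := by
          conv_lhs => rw [hδ]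
          exact Finsupp.degree_single _ _
        rw [hd]
        split_ifs with h1
        · exact ih _ h1
        · exact Submodule.mem_top
      · rw [if_neg hδ]
        exact Ideal.zero_mem _)
    G.toPowerSeries G.zero_constantCoeff γ
  rw [if_pos le_rfl, map_sub, map_sum, Finset.sum_eq_zero, sub_zero] at h
  · exact h
  intro s _
  rw [coeff_C_mul, PowerSeries.coeff_subst_single, if_neg, mul_zero]
  intro hδ
  fin_cases s
  · apply hγ1
    rw [hδ]
    simp
  · apply hγ0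
    rw [hδ]
    simp

/-- Strong induction on `k`. If `k ≥ 2` is not a power of `p`, some `C(k,i)`, `0 < i < k`, is prime
to `p`. Compare the coefficients of `X^i Y^{k-i}` in `Ψ(G0(X,Y)) ≡ G(ΨX,ΨY)`. -/
theorem ind_lemma {R : Type*} [CommRing R] (p : ℕ) [Fact p.Prime] (hp : (p : R) = 0) (d : ℕ)
    (G0 G : FormalGroup R)
    (hhom : ∀ γ : Fin 2 →₀ ℕ, coeff γ G0.toPowerSeries ≠ 0 → γ.degree ≡ 1 [MOD d])
    (Ψ : PowerSeries R) (hΨ0 : PowerSeries.constantCoeff Ψ = 0) (e : Ideal R)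
    (hΨ : IsFGHom (G0.map (Ideal.Quotient.mk e)) (G.map (Ideal.Quotient.mk e))
      (PowerSeries.map (Ideal.Quotient.mk e) Ψ))
    (N Np : ℕ → Ideal R) (h0 : N 0 = ⊥) (hle : ∀ k, Np k ≤ N k)
    (hmul : ∀ i j, N i * N j ≤ Np (i + j))
    (hshift : ∀ k' k, k' < k → k' ≡ k [MOD d] → N k' ≤ Np k) (he : ∀ k, 1 ≤ k → e ≤ Np k)
    (hpow : ∀ j, PowerSeries.coeff (p ^ j) Ψ ∈ N (p ^ j)) (k : ℕ) :
    PowerSeries.coeff k Ψ ∈ N k ∧ ((¬ ∃ j, k = p ^ j) → PowerSeries.coeff k Ψ ∈ Np k) := by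
  classical
  induction k using Nat.strong_induction_on with
  | _ k ih =>
  have key : (¬ ∃ j, k = p ^ j) → PowerSeries.coeff k Ψ ∈ Np k := by
    intro hk
    rcases Nat.eq_zero_or_pos k with rfl | hk0
    · rw [PowerSeries.coeff_zero_eq_constantCoeff_apply, hΨ0]
      exact Ideal.zero_mem _
    obtain ⟨i, hi, hpi⟩ : ∃ i ∈ Finset.Icc 1 (k - 1), ¬ k.choose i ≡ 0 [MOD p] := by
      by_contra! hcon
      exact hk ⟨_, Choose.eq_pow_multiplicity_of_choose_modEq_zero_nat hk0 hcon⟩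
    rw [Finset.mem_Icc] at hi
    have hu : IsUnit ((k.choose i : ℕ) : R) :=
      ind_lemma_unit p hp _ fun h => hpi (Nat.modEq_zero_iff_dvd.2 h)
    obtain ⟨γ, hγ0, hγ1⟩ : ∃ γ : Fin 2 →₀ ℕ, γ 0 = i ∧ γ 1 = k - i :=
      ⟨Finsupp.single 0 i + Finsupp.single 1 (k - i), by simp, by simp⟩
    have hγ : γ.degree = k := by
      rw [Finsupp.degree_eq_sum, Fin.sum_univ_two]
      omega
    have hR := ind_lemma_rhs G Ψ N Np h0 hle hmul γ (by omega) (by omega)
      (fun m hm => (ih m (hγ ▸ hm)).1)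
    rw [hγ] at hR
    have h2 := hΨ.2
    rw [← isFGHom_map_lhs, ← isFGHom_map_rhs G hΨ0] at h2
    have h3 := congrArg (coeff γ) h2
    rw [coeff_map, coeff_map, Ideal.Quotient.eq] at h3
    have hL : coeff γ (PowerSeries.subst G0.toPowerSeries Ψ) ∈ Np k := by
      have := Ideal.add_mem _ (he k hk0 h3) hR
      rwa [sub_add_cancel] at this
    have hs := PowerSeries.HasSubst.of_constantCoeff_zero G0.zero_constantCoeff
    rw [PowerSeries.coeff_subst hs, finsum_eq_sum_of_support_subset (s := Finset.range (k + 1)),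
      Finset.sum_range_succ] at hL
    · have hlow : ∑ m ∈ Finset.range k,
          PowerSeries.coeff m Ψ • coeff γ (G0.toPowerSeries ^ m) ∈ Np k := by
        refine Ideal.sum_mem _ fun m hm => ?_
        rw [Finset.mem_range] at hm
        by_cases hc : coeff γ (G0.toPowerSeries ^ m) = 0
        · rw [hc, smul_zero]
          exact Ideal.zero_mem _
        · have h4 := ind_lemma_hom d _ hhom m γ hc
          rw [hγ] at h4
          rw [smul_eq_mul]
          exact Ideal.mul_mem_right _ _ (hshift m k hm h4.symm (ih m hm).1)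
      have h5 := Ideal.sub_mem _ hL hlow
      have h6 := ind_lemma_top G0 γ
      rw [hγ, hγ0] at h6
      rw [add_sub_cancel_left, h6, smul_eq_mul] at h5
      exact (Ideal.mul_unit_mem_iff_mem _ hu).1 h5
    · intro m hm
      rw [Finset.coe_range, Set.mem_Iio]
      by_contra hmk
      apply hm
      have := coeff_eq_zero_of_mem_span_X_pow (Ideal.pow_mem_pow (ind_lemma_mem G0) m) γ
        (by omega)
      simp only [this, smul_zero]
  refine ⟨?_, key⟩
  by_cases hk : ∃ j, k = p ^ j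
  · obtain ⟨j, rfl⟩ := hk
    exact hpow j
  · exact hle k (key hk)

/-- `∑_{c ∈ F_q^×} c^{-k₀} f(c η) = -∑_{k ≡ k₀} f_k η^k` (truncate with `ev1_sub_trunc_mem`). -/
theorem fourier_lemma {K : Type*} [NormedField K] [IsUltrametricDist K] [CompleteSpace K]
    [IsAlgClosed K] (p : ℕ) [Fact p.Prime] [CharP K p] (n : ℕ) (hn : 1 ≤ n) (u : Unif K)
    (f : PowerSeries (Ob K)) (η : Ob K) (hη : ‖(η : K)‖ < 1) (k0 : ℕ) (b : ℝ) (hb : 0 < b)
    (h1 : ‖((PowerSeries.coeff k0 f * η ^ k0 : Ob K) : K)‖ = b)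
    (h2 : ∀ k, k ≠ k0 → k ≡ k0 [MOD p ^ n - 1] →
      ‖((PowerSeries.coeff k f * η ^ k : Ob K) : K)‖ < b) :
    ∃ c : Ob K, c ^ p ^ n = c ∧ c ≠ 0 ∧ b ≤ ‖((ev1 u.I (RingHom.id _) (c * η) f : Ob K) : K)‖ := by
  have hp := (Fact.out : p.Prime)
  obtain ⟨Q, hQ⟩ : ∃ Q, p ^ n = Q + 1 := ⟨p ^ n - 1, by have := pow_pos hp.pos n; omega⟩
  have hQ0 : Q ≠ 0 := by
    have := Nat.one_lt_pow (n := n) (by omega) hp.one_lt
    omega
  have hQK : (Q : K) = -1 := by
    have h := congrArg (Nat.cast : ℕ → K) hQ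
    push_cast at h
    rw [CharP.cast_eq_zero, zero_pow (by omega)] at h
    linear_combination -h
  have : NeZero Q := ⟨hQ0⟩
  have : NeZero (Q : K) := ⟨by rw [hQK]; simp⟩
  obtain ⟨ζ, hζ⟩ := HasEnoughRootsOfUnity.exists_primitiveRoot K Q
  have hζn : ‖ζ‖ = 1 := (pow_eq_one_iff_of_nonneg (norm_nonneg _) hQ0).1 (by
    rw [← norm_pow, hζ.pow_eq_one, norm_one])
  rw [hQ, Nat.add_sub_cancel] at h2
  rw [hQ]
  let z : Ob K := ⟨ζ, hζn.le⟩
  by_contra hcon
  push Not at hcon
  let A : AddSubgroup K :=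
    { carrier := {x | ‖x‖ < b}
      add_mem' := fun hx hy => (IsUltrametricDist.norm_add_le_max _ _).trans_lt (max_lt hx hy)
      zero_mem' := by simpa using hb
      neg_mem' := fun hx => by simpa using hx }
  have hA : ∀ x, x ∈ A ↔ ‖x‖ < b := fun _ => Iff.rfl
  obtain ⟨d0, hd0⟩ := exists_pow_lt_of_lt_one hb hη
  obtain ⟨d, hd, hdb⟩ : ∃ d, k0 < d ∧ ‖(η : K)‖ ^ d < b :=
    ⟨d0 + k0 + 1, by omega,
      (pow_le_pow_of_le_one (norm_nonneg _) hη.le (by omega)).trans_lt hd0⟩
  have hT : ∀ j : ℕ, ∑ k ∈ Finset.range d,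
      ((PowerSeries.coeff k f * η ^ k : Ob K) : K) * (ζ ^ k) ^ j ∈ A := by
    intro j
    have hn1 : ‖((z ^ j * η : Ob K) : K)‖ = ‖(η : K)‖ := by
      simp [z, hζn]
    have h3 := hcon (z ^ j) (Subtype.ext (by
      change (ζ ^ j) ^ (Q + 1) = ζ ^ j
      rw [pow_succ, ← pow_mul, mul_comm j, pow_mul, hζ.pow_eq_one, one_pow, one_mul]))
      (fun h => pow_ne_zero j (hζ.ne_zero hQ0) (congrArg Subtype.val h))
    have h4 := Ob.mem_span_iff.1 (ev1_sub_trunc_mem u.I (RingHom.id _)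
      (u.mem_radical.2 (hn1.trans_lt hη)) d f)
    rw [SubmonoidClass.coe_pow, norm_pow, hn1] at h4
    have h5 := A.sub_mem ((hA _).2 h3) ((hA _).2 (h4.trans_lt hdb))
    rw [AddSubgroupClass.coe_sub, sub_sub_cancel, AddSubmonoidClass.coe_finsetSum] at h5
    convert h5 using 2 with k
    simp only [z, RingHom.id_apply, MulMemClass.coe_mul, SubmonoidClass.coe_pow]
    ring
  have hS : ∑ k ∈ Finset.range d, ((PowerSeries.coeff k f * η ^ k : Ob K) : K) *
      ∑ j ∈ Finset.range Q, (ζ ^ k * (ζ ^ k0)⁻¹) ^ j ∈ A := by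
    simp only [Finset.mul_sum]
    rw [Finset.sum_comm]
    refine A.sum_mem fun j _ => ?_
    have e : ∑ k ∈ Finset.range d, ((PowerSeries.coeff k f * η ^ k : Ob K) : K) *
        (ζ ^ k * (ζ ^ k0)⁻¹) ^ j = (∑ k ∈ Finset.range d,
          ((PowerSeries.coeff k f * η ^ k : Ob K) : K) * (ζ ^ k) ^ j) * ((ζ ^ k0)⁻¹) ^ j := by
      rw [Finset.sum_mul]
      exact Finset.sum_congr rfl fun k _ => by ring
    rw [e, hA, norm_mul]
    simpa [hζn] using (hA _).1 (hT j)
  have hz0 : ζ ^ k0 ≠ 0 := pow_ne_zero _ (hζ.ne_zero hQ0)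
  rw [← Finset.add_sum_erase _ _ (Finset.mem_range.2 hd)] at hS
  have hR : ∑ k ∈ (Finset.range d).erase k0, ((PowerSeries.coeff k f * η ^ k : Ob K) : K) *
      ∑ j ∈ Finset.range Q, (ζ ^ k * (ζ ^ k0)⁻¹) ^ j ∈ A := by
    refine A.sum_mem fun k hk => ?_
    by_cases hw : ζ ^ k * (ζ ^ k0)⁻¹ = 1
    · have hk' : k ≡ k0 [MOD Q] := by
        rw [mul_inv_eq_one₀ hz0] at hw
        have h6 : ζ ^ (k % Q) = ζ ^ (k0 % Q) := by
          rw [← pow_eq_pow_mod k hζ.pow_eq_one, ← pow_eq_pow_mod k0 hζ.pow_eq_one, hw]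
        exact hζ.pow_inj (Nat.mod_lt _ (Nat.pos_of_ne_zero hQ0))
          (Nat.mod_lt _ (Nat.pos_of_ne_zero hQ0)) h6
      rw [hw, hA, norm_mul]
      simpa [hQK] using h2 k (Finset.ne_of_mem_erase hk) hk'
    · have h6 : (ζ ^ k * (ζ ^ k0)⁻¹) ^ Q = 1 := by
        rw [mul_pow, inv_pow, ← pow_mul, ← pow_mul, mul_comm k, mul_comm k0, pow_mul, pow_mul,
          hζ.pow_eq_one]
        simp
      rw [geom_sum_eq hw, h6, sub_self, zero_div, mul_zero]
      exact A.zero_mem
  have h7 := (hA _).1 (A.sub_mem hS hR)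
  rw [add_sub_cancel_right, mul_inv_cancel₀ hz0, norm_mul, h1] at h7
  simp [hQK] at h7

end Crest.R227
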