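import Crest.Agent.R227.Trop1
import Crest.Agent.R227.Trop2
import Crest.Agent.R227.Pt
import Crest.Agent.R227.FR

/-! Row 227. Lemmas for the leading-term argument. -/

set_option autoImplicit false

namespace Crest.R227

open MvPowerSeries Crest.LubinTate

theorem rep_lemma_aux (m : ℕ) (hm : 2 ≤ m) (y : ℕ) :
    (y + m - 2) % m + 2 ≡ y [MOD m] := by
  have h1 : (y + m - 2) % m + 2 ≡ (y + m - 2) + 2 [MOD m] := (Nat.mod_modEq _ _).add_right 2
  rw [show y + m - 2 + 2 = y + m by omega] at h1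
  exact h1.trans (Nat.add_modEq_right)

theorem rep_lemma_le (m : ℕ) (hm : 2 ≤ m) (y x : ℕ) (hx : 2 ≤ x) (h : x ≡ y [MOD m]) :
    (y + m - 2) % m + 2 ≤ x := by
  obtain ⟨x, rfl⟩ : ∃ x', x = x' + 2 := ⟨x - 2, by omega⟩
  have h1 := (h.trans (rep_lemma_aux m hm y).symm)
  have h2 : x ≡ (y + m - 2) % m [MOD m] := Nat.ModEq.add_right_cancel' 2 h1
  have h3 : x % m = (y + m - 2) % m := by rw [h2, Nat.mod_mod]
  have := Nat.mod_le x m
  omega

theorem rep_lemma_eq (m : ℕ) (hm : 2 ≤ m) (y x : ℕ) (hx : 2 ≤ x) (hx' : x ≤ m + 1)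
    (h : x ≡ y [MOD m]) : (y + m - 2) % m + 2 = x := by
  obtain ⟨x, rfl⟩ : ∃ x', x = x' + 2 := ⟨x - 2, by omega⟩
  have h1 := (h.trans (rep_lemma_aux m hm y).symm)
  have h2 : x ≡ (y + m - 2) % m [MOD m] := Nat.ModEq.add_right_cancel' 2 h1
  have h3 : x % m = (y + m - 2) % m := by rw [h2, Nat.mod_mod]
  rw [Nat.mod_eq_of_lt (show x < m by omega)] at h3
  omega

theorem rep_lemma_pow (p n : ℕ) (hp : 1 ≤ p) {a b : ℕ} (h : a ≡ b [MOD n]) :
    p ^ a ≡ p ^ b [MOD p ^ n - 1] := by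
  have h1 : p ^ n ≡ 1 [MOD p ^ n - 1] :=
    ((Nat.modEq_iff_dvd' (Nat.one_le_pow _ _ hp)).2 dvd_rfl).symm
  have h2 : ∀ a : ℕ, p ^ a ≡ p ^ (a % n) [MOD p ^ n - 1] := by
    intro a
    conv_lhs => rw [← Nat.div_add_mod a n, pow_add, pow_mul]
    have := (h1.pow (a / n)).mul_right (p ^ (a % n))
    rwa [one_pow, one_mul] at this
  refine (h2 a).trans ?_
  rw [h]
  exact (h2 b).symm

/-- `R k ∈ [2, q]` is the representative of `k p^{-E}` modulo `q - 1`, e.g.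
`R k = (k * p^((n-1)*E) + (q-1) - 2) % (q-1) + 2`. -/
theorem rep_lemma (p n : ℕ) (hp : 2 ≤ p) (hn : 2 ≤ n) (E : ℕ) :
    ∃ R : ℕ → ℕ, (∀ k, 2 ≤ R k ∧ R k ≤ p ^ n) ∧
      (∀ k k', k ≡ k' [MOD p ^ n - 1] → R k = R k') ∧ (∀ k k', R (k + k') ≤ R k + R k') ∧
      R (p ^ E) = p ^ n ∧
      ∀ E' : ℕ, ∃ i : ℕ, 1 ≤ i ∧ i ≤ n ∧ R (p ^ E') = p ^ i ∧ (n : ℤ) ∣ (E' : ℤ) - (E + i) := by
  have hq : 4 ≤ p ^ n :=
    calc 4 = 2 ^ 2 := rfl
      _ ≤ p ^ 2 := Nat.pow_le_pow_left hp 2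
      _ ≤ p ^ n := Nat.pow_le_pow_right (by omega) hn
  have hm : 2 ≤ p ^ n - 1 := by omega
  have hrange : ∀ y, (y + (p ^ n - 1) - 2) % (p ^ n - 1) + 2 ≤ p ^ n := fun y => by
    have := Nat.mod_lt (y + (p ^ n - 1) - 2) (show 0 < p ^ n - 1 by omega)
    omega
  have hE : ∀ E' i : ℕ, 1 ≤ i → i ≤ n → i ≡ E' + (n - 1) * E [MOD n] →
      (p ^ E' * p ^ ((n - 1) * E) + (p ^ n - 1) - 2) % (p ^ n - 1) + 2 = p ^ i := by
    intro E' i hi1 hin hi
    refine rep_lemma_eq _ hm _ _ ?_ ?_ ?_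
    · calc 2 ≤ p ^ 1 := by simpa using hp
        _ ≤ p ^ i := Nat.pow_le_pow_right (by omega) hi1
    · have := Nat.pow_le_pow_right (show 0 < p by omega) hin
      omega
    · rw [← pow_add]
      exact rep_lemma_pow p n (by omega) hi
  refine ⟨fun k => (k * p ^ ((n - 1) * E) + (p ^ n - 1) - 2) % (p ^ n - 1) + 2,
    fun k => ⟨Nat.le_add_left _ _, hrange _⟩, fun k k' h => ?_, fun k k' => ?_, ?_, fun E' => ?_⟩
  · exact rep_lemma_eq _ hm _ _ (Nat.le_add_left _ _)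
      ((hrange (k' * p ^ ((n - 1) * E))).trans (by omega))
      ((rep_lemma_aux _ hm _).trans (h.symm.mul_right _))
  · refine rep_lemma_le _ hm _ _ ((Nat.le_add_left _ _).trans (Nat.le_add_left _ _)) ?_
    rw [add_mul]
    exact (rep_lemma_aux _ hm _).add (rep_lemma_aux _ hm _)
  · refine hE E n (by omega) le_rfl ?_
    obtain ⟨n', rfl⟩ : ∃ n', n = n' + 1 := ⟨n - 1, by omega⟩
    rw [Nat.add_sub_cancel, show E + n' * E = (n' + 1) * E by ring]
    exact (Nat.modEq_zero_iff_dvd.2 dvd_rfl).trans (Nat.modEq_zero_iff_dvd.2 (dvd_mul_right _ _)).symm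
  · obtain ⟨n', rfl⟩ : ∃ n', n = n' + 1 := ⟨n - 1, by omega⟩
    have hlt := Nat.mod_lt (E' + n' * E + n') (show 0 < n' + 1 by omega)
    have hc : (E' + n' * E + n') % (n' + 1) + 1 ≡ E' + n' * E [MOD n' + 1] := by
      have h1 := (Nat.mod_modEq (E' + n' * E + n') (n' + 1)).add_right 1
      rw [add_assoc (E' + n' * E)] at h1
      exact h1.trans Nat.add_modEq_right
    refine ⟨(E' + n' * E + n') % (n' + 1) + 1, by omega, by omega,
      hE E' _ (by omega) (by omega) (by simpa using hc), ?_⟩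
    generalize (E' + n' * E + n') % (n' + 1) + 1 = i at hc
    have h2 := (Nat.modEq_iff_dvd.1 hc)
    have h3 : (E' : ℤ) - (E + i) = ((E' + n' * E : ℕ) : ℤ) - i - ((n' + 1 : ℕ) : ℤ) * E := by
      push_cast
      ring
    rw [h3]
    exact dvd_sub h2 (dvd_mul_right _ _)

theorem sum_lemma_sub {B σ : Type*} [CommRing B] [Fintype σ] (N Np : ℕ → Ideal B) (h0 : N 0 = ⊥)
    (hle : ∀ k, Np k ≤ N k) (hmul : ∀ i j, N i * N j ≤ Np (i + j)) (a : σ → PowerSeries B)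
    (ha : ∀ s k, PowerSeries.coeff k (a s) ∈ N k) (G : MvPowerSeries σ B)
    (hG : constantCoeff G = 0) (k : ℕ) :
    PowerSeries.coeff k (subst a G) -
      ∑ s, coeff (Finsupp.single s 1) G * PowerSeries.coeff k (a s) ∈ Np k := by
  have h := sub_lemma N Np h0 hle hmul (τ := Unit) a (fun s γ => by
    rw [Finsupp.unique_single γ, Finsupp.degree_single]
    exact ha s _) G hG (Finsupp.single () k)
  rw [Finsupp.degree_single, map_sub, map_sum] at h
  simp only [coeff_C_mul] at h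
  exact h

/-- A formal sum of `d_i(f_i)` is `∑ γ_i f_i` up to the strict bound (induction on the finite set,
`sub_lemma` for `Unit` and for `Fin 2`; `S` is built with `fadd`). -/
theorem sum_lemma {B : Type*} [CommRing B] (I : Ideal B) [IsAdicComplete I B] (G : FormalGroup B)
    [G.IsComm] (N Np : ℕ → Ideal B) (h0 : N 0 = ⊥) (hle : ∀ k, Np k ≤ N k)
    (hmul : ∀ i j, N i * N j ≤ Np (i + j)) {ι : Type*} (A : Finset ι) (f d : ι → PowerSeries B)
    (hf : ∀ i k, PowerSeries.coeff k (f i) ∈ N k) (hd : ∀ i, PowerSeries.constantCoeff (d i) = 0) :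
    ∃ S : PowerSeries B, (∀ k, PowerSeries.coeff k S ∈ N k) ∧
      (∀ k, PowerSeries.coeff k S -
        ∑ i ∈ A, PowerSeries.coeff 1 (d i) * PowerSeries.coeff k (f i) ∈ Np k) ∧
      ∀ z ∈ I.radical, ∀ P : ι → Pt I G,
        (∀ i, (P i).val = ev1 I (RingHom.id B) (ev1 I (RingHom.id B) z (f i)) (d i)) →
        (∑ i ∈ A, P i).val = ev1 I (RingHom.id B) z S := by
  classical
  have hc0 : ∀ g : PowerSeries B, (∀ k, PowerSeries.coeff k g ∈ N k) →
      PowerSeries.constantCoeff g = 0 := fun g hg => by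
    have := hg 0
    rwa [h0, Ideal.mem_bot, PowerSeries.coeff_zero_eq_constantCoeff] at this
  induction A using Finset.induction_on with
  | empty => exact ⟨0, by simp, by simp, fun z _ P _ => by simp⟩
  | insert i A hi ih =>
    obtain ⟨S, hS1, hS2, hS3⟩ := ih
    have hT2 : ∀ k, PowerSeries.coeff k (cmp (d i) (f i)) -
        PowerSeries.coeff 1 (d i) * PowerSeries.coeff k (f i) ∈ Np k := fun k => by
      have := sum_lemma_sub N Np h0 hle hmul (fun _ : Unit => f i) (fun _ => hf i) (d i) (hd i) k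
      rw [Fintype.sum_unique] at this
      exact this
    have hT1 : ∀ k, PowerSeries.coeff k (cmp (d i) (f i)) ∈ N k := fun k => by
      have := (N k).add_mem (hle k (hT2 k)) ((N k).mul_mem_left (PowerSeries.coeff 1 (d i)) (hf i k))
      rwa [sub_add_cancel] at this
    have hU : ∀ k, PowerSeries.coeff k (fadd G (cmp (d i) (f i)) S) -
        (PowerSeries.coeff k (cmp (d i) (f i)) + PowerSeries.coeff k S) ∈ Np k := fun k => by
      have := sum_lemma_sub N Np h0 hle hmul ![cmp (d i) (f i), S]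
        (fun s => by fin_cases s; exacts [hT1, hS1]) G.toPowerSeries G.zero_constantCoeff k
      rw [Fin.sum_univ_two, G.lin_coeff_X, G.lin_coeff_Y, one_mul, one_mul] at this
      exact this
    refine ⟨fadd G (cmp (d i) (f i)) S, fun k => ?_, fun k => ?_, fun z hz P hP => ?_⟩
    · have := (N k).add_mem (hle k (hU k)) ((N k).add_mem (hT1 k) (hS1 k))
      rwa [sub_add_cancel] at this
    · rw [Finset.sum_insert hi]
      convert (Np k).add_mem (hU k) ((Np k).add_mem (hT2 k) (hS2 k)) using 1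
      ring
    · rw [Finset.sum_insert hi, Pt.val_add, hS3 z hz P hP, hP,
        ← ev1_subst I _ hz (hc0 _ (hf i))]
      refine Eq.trans ?_ (ev_subst I (RingHom.id B) (a := fun _ : Unit => z) (fun _ => hz)
        (b := ![cmp (d i) (f i), S])
        (fun s => by fin_cases s; exacts [hc0 _ hT1, hc0 _ hS1]) G.toPowerSeries).symm
      congr 2
      funext s
      fin_cases s <;> rfl

variable {K : Type*} [NormedField K] [IsUltrametricDist K]

/-- The ideal cut out by a down-closed condition on the norm. -/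
def coeff_bound_ideal (K : Type*) [NormedField K] [IsUltrametricDist K] (P : ℝ → Prop) (h0 : P 0)
    (hP : ∀ x y, 0 ≤ x → x ≤ y → P y → P x) : Ideal (Ob K) where
  carrier := {a | P ‖(a : K)‖}
  add_mem' := by
    intro a b ha hb
    simp only [Set.mem_ofPred_eq, Subring.coe_add] at *
    rcases le_max_iff.1 (IsUltrametricDist.norm_add_le_max (a : K) b) with h | h
    · exact hP _ _ (norm_nonneg _) h ha
    · exact hP _ _ (norm_nonneg _) h hb
  zero_mem' := by simpa using h0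
  smul_mem' := by
    intro c a ha
    simp only [Set.mem_ofPred_eq, smul_eq_mul, Subring.coe_mul, norm_mul] at *
    exact hP _ _ (mul_nonneg (norm_nonneg _) (norm_nonneg _))
      (mul_le_of_le_one_left (norm_nonneg _) c.2) ha

theorem coeff_bound_exists (K : Type*) [NormedField K] [IsUltrametricDist K] (m : ℕ) (hm : m ≠ 0)
    (c b : ℕ → ℝ) (hc : ∀ k, 0 ≤ c k) (hb : ∀ k, 0 < b k) (S : ℕ → Prop) :
    ∃ N : ℕ → Ideal (Ob K), N 0 = ⊥ ∧ ∀ k, k ≠ 0 → ∀ a, a ∈ N k ↔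
      ‖(a : K)‖ ^ m * c k ≤ b k ∧ (S k → ‖(a : K)‖ ^ m * c k < b k) := by
  classical
  refine ⟨fun k => if k = 0 then ⊥ else coeff_bound_ideal K
    (fun x => x ^ m * c k ≤ b k ∧ (S k → x ^ m * c k < b k)) ?_ ?_, by simp, fun k hk a => ?_⟩
  · rw [zero_pow hm, zero_mul]
    exact ⟨(hb k).le, fun _ => hb k⟩
  · intro x y hx hxy hy
    have := mul_le_mul_of_nonneg_right (pow_le_pow_left₀ hx hxy m) (hc k)
    exact ⟨this.trans hy.1, fun h => this.trans_lt (hy.2 h)⟩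
  · simp only [if_neg hk]
    rfl

/-- `ind_lemma` with `N k = {a | ‖a‖^{p^j} ‖w‖^{k p^j} ≤ β^{R(k p^j)}, strictly if R < q}` and `Np k`
the strict version (`k ≥ 1`; both `⊥` for `k = 0`). -/
theorem coeff_bound (p : ℕ) [Fact p.Prime] [CharP K p] (q : ℕ) (R : ℕ → ℕ)
    (hR1 : ∀ k, 2 ≤ R k ∧ R k ≤ q) (hR2 : ∀ k k', k ≡ k' [MOD q - 1] → R k = R k')
    (hR3 : ∀ k k', R (k + k') ≤ R k + R k') (β : ℝ) (hβ0 : 0 < β) (hβ1 : β < 1)
    (G0 G : FormalGroup (Ob K))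
    (hhom : ∀ γ : Fin 2 →₀ ℕ, coeff γ G0.toPowerSeries ≠ 0 → γ.degree ≡ 1 [MOD q - 1])
    (Ψ : PowerSeries (Ob K)) (hΨ0 : PowerSeries.constantCoeff Ψ = 0) (e : Ideal (Ob K))
    (hΨ : IsFGHom (G0.map (Ideal.Quotient.mk e)) (G.map (Ideal.Quotient.mk e))
      (PowerSeries.map (Ideal.Quotient.mk e) Ψ))
    (he : ∀ a ∈ e, ‖(a : K)‖ < β ^ q) (t : ℝ) (ht0 : 0 ≤ t) (ht1 : t < 1) (j : ℕ)
    (hpow : ∀ e' : ℕ,
      ‖((PowerSeries.coeff (p ^ e') Ψ : Ob K) : K)‖ ^ p ^ j * t ^ (p ^ e' * p ^ j) ≤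
          β ^ R (p ^ e' * p ^ j) ∧
        (R (p ^ e' * p ^ j) < q →
          ‖((PowerSeries.coeff (p ^ e') Ψ : Ob K) : K)‖ ^ p ^ j * t ^ (p ^ e' * p ^ j) <
            β ^ R (p ^ e' * p ^ j))) (k : ℕ) :
    ‖((PowerSeries.coeff k Ψ : Ob K) : K)‖ ^ p ^ j * t ^ (k * p ^ j) ≤ β ^ R (k * p ^ j) ∧
      ((R (k * p ^ j) < q ∨ ¬ ∃ e', k = p ^ e') →
        ‖((PowerSeries.coeff k Ψ : Ob K) : K)‖ ^ p ^ j * t ^ (k * p ^ j) < β ^ R (k * p ^ j)) := by
  have hp0 : p ≠ 0 := (Fact.out : p.Prime).ne_zero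
  have hm : p ^ j ≠ 0 := pow_ne_zero _ hp0
  obtain ⟨N, hN0, hN⟩ := coeff_bound_exists K (p ^ j) hm (fun k => t ^ (k * p ^ j))
    (fun k => β ^ R (k * p ^ j)) (fun k => pow_nonneg ht0 _) (fun k => pow_pos hβ0 _)
    (fun k => R (k * p ^ j) < q)
  obtain ⟨Np, hNp0, hNp'⟩ := coeff_bound_exists K (p ^ j) hm (fun k => t ^ (k * p ^ j))
    (fun k => β ^ R (k * p ^ j)) (fun k => pow_nonneg ht0 _) (fun k => pow_pos hβ0 _)
    (fun _ => True)
  have hNp : ∀ k, k ≠ 0 → ∀ a : Ob K, a ∈ Np k ↔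
      ‖(a : K)‖ ^ p ^ j * t ^ (k * p ^ j) < β ^ R (k * p ^ j) := fun k hk a =>
    (hNp' k hk a).trans ⟨fun h => h.2 trivial, fun h => ⟨h.le, fun _ => h⟩⟩
  rcases eq_or_ne k 0 with rfl | hk
  · rw [PowerSeries.coeff_zero_eq_constantCoeff_apply, hΨ0, Subring.coe_zero, norm_zero,
      zero_pow hm, zero_mul]
    exact ⟨(pow_pos hβ0 _).le, fun _ => pow_pos hβ0 _⟩
  have hpK : (p : Ob K) = 0 := Subtype.ext (by simp)
  have hv0 : ∀ (a : Ob K) (k : ℕ), 0 ≤ ‖(a : K)‖ ^ p ^ j * t ^ (k * p ^ j) := fun a k =>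
    mul_nonneg (pow_nonneg (norm_nonneg _) _) (pow_nonneg ht0 _)
  have key := ind_lemma p hpK (q - 1) G0 G hhom Ψ hΨ0 e hΨ N Np hN0 ?_ ?_ ?_ ?_ ?_ k
  · have h1 := (hN k hk _).1 key.1
    refine ⟨h1.1, ?_⟩
    rintro (h | h)
    · exact h1.2 h
    · exact (hNp k hk _).1 (key.2 h)
  · intro k a ha
    rcases eq_or_ne k 0 with rfl | hk
    · rwa [hN0, ← hNp0]
    · have := (hNp k hk a).1 ha
      exact (hN k hk a).2 ⟨this.le, fun _ => this⟩
  · intro i i'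
    rcases eq_or_ne i 0 with rfl | hi
    · rw [hN0, Ideal.bot_mul]
      exact bot_le
    rcases eq_or_ne i' 0 with rfl | hi'
    · rw [hN0, Ideal.mul_bot]
      exact bot_le
    refine Ideal.mul_le.2 fun a ha b hb => (hNp _ (by omega) _).2 ?_
    have ha' := (hN i hi a).1 ha
    have hb' := (hN i' hi' b).1 hb
    have e1 : ‖((a * b : Ob K) : K)‖ ^ p ^ j * t ^ ((i + i') * p ^ j) =
        (‖(a : K)‖ ^ p ^ j * t ^ (i * p ^ j)) * (‖(b : K)‖ ^ p ^ j * t ^ (i' * p ^ j)) := by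
      rw [Subring.coe_mul, norm_mul, mul_pow, add_mul, pow_add]
      ring
    rw [e1, add_mul]
    have h3 := hR3 (i * p ^ j) (i' * p ^ j)
    rcases h3.lt_or_eq with h4 | h4
    · refine (mul_le_mul ha'.1 hb'.1 (hv0 _ _) (pow_pos hβ0 _).le).trans_lt ?_
      rw [← pow_add]
      exact pow_lt_pow_right_of_lt_one₀ hβ0 hβ1 h4
    · have h5 := (hR1 (i * p ^ j + i' * p ^ j)).2
      have h6 := (hR1 (i' * p ^ j)).1
      rw [h4, pow_add]
      exact mul_lt_mul_of_lt_of_le_of_nonneg_of_pos (ha'.2 (by omega)) hb'.1 (hv0 _ _)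
        (pow_pos hβ0 _)
  · intro k' k hk' hmod
    rcases eq_or_ne k' 0 with rfl | hk0
    · rw [hN0]
      exact bot_le
    intro a ha
    refine (hNp k (by omega) a).2 ?_
    have ha' := ((hN k' hk0 a).1 ha).1
    obtain ⟨d, rfl⟩ := Nat.exists_eq_add_of_lt hk'
    rw [← hR2 _ _ (hmod.mul_right (p ^ j)), add_assoc, add_mul, pow_add, ← mul_assoc]
    have h1 : t ^ ((d + 1) * p ^ j) < 1 := pow_lt_one₀ ht0 ht1 (mul_ne_zero (by omega) hm)
    calc _ ≤ β ^ R (k' * p ^ j) * t ^ ((d + 1) * p ^ j) :=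
          mul_le_mul_of_nonneg_right ha' (pow_nonneg ht0 _)
      _ < _ := mul_lt_of_lt_one_right (pow_pos hβ0 _) h1
  · intro k hk a ha
    refine (hNp k (by omega) a).2 ?_
    calc _ ≤ ‖(a : K)‖ ^ p ^ j :=
          mul_le_of_le_one_right (pow_nonneg (norm_nonneg _) _) (pow_le_one₀ ht0 ht1.le)
      _ ≤ ‖(a : K)‖ := pow_le_of_le_one (norm_nonneg _) a.2 hm
      _ < β ^ q := he a ha
      _ ≤ _ := pow_le_pow_of_le_one hβ0.le hβ1.le (hR1 _).2
  · intro e'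
    exact (hN _ (pow_ne_zero _ hp0) _).2 (hpow e')

/-- The data of the leading-term argument. -/
structure TropData (p : ℕ) [Fact p.Prime] (h r : ℕ) (u : Unif K) (G0 G1 : FormalGroup (Ob K))
    (ψ : PowerSeries (Ob K)) : Prop where
  hh : 1 ≤ h
  hr : 1 ≤ r
  mul0 : mulSeries G0 p = PowerSeries.X ^ p ^ (h + r)
  mul1 : mulSeries G1 p = PowerSeries.X ^ p ^ h
  frob0 : ∀ γ : Fin 2 →₀ ℕ, coeff γ G0.toPowerSeries ^ p = coeff γ G0.toPowerSeries
  frob1 : ∀ γ : Fin 2 →₀ ℕ, coeff γ G1.toPowerSeries ^ p ^ h = coeff γ G1.toPowerSeries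
  hom0 : ∀ γ : Fin 2 →₀ ℕ, coeff γ G0.toPowerSeries ≠ 0 → γ.degree ≡ 1 [MOD p ^ (h + r) - 1]
  const : PowerSeries.constantCoeff ψ = 0
  hom : IsFGHom (G0.map (Ideal.Quotient.mk u.I)) (G1.map (Ideal.Quotient.mk u.I))
    (PowerSeries.map (Ideal.Quotient.mk u.I) ψ)
  ne : PowerSeries.map (Ideal.Quotient.mk u.I) ψ ≠ 0

variable {p : ℕ} [Fact p.Prime] [CharP K p] {h r : ℕ} {u : Unif K} {G0 G1 : FormalGroup (Ob K)}
  {ψ : PowerSeries (Ob K)}

/-- Modulo `ϖ`: `ψ(X^q) = ψ^Q` (`isFGHom_cmp_mulSeries`); compare coefficients at `p^{e+n}` and at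
`p^{e+h}` (`e < r`); `eq_zero_of_coeff_pow` for the last claim. -/
theorem TropData.alpha_hyp (D : TropData p h r u G0 G1 ψ) :
    (∀ e, ‖((PowerSeries.coeff (p ^ e) ψ : Ob K) : K) -
      ((PowerSeries.coeff (p ^ (e + r)) ψ : Ob K) : K) ^ p ^ h‖ ≤ ‖(u.ϖ : K)‖) ∧
    (∀ e < r, ‖((PowerSeries.coeff (p ^ e) ψ : Ob K) : K)‖ < 1) ∧
    ∃ e, ‖(u.ϖ : K)‖ < ‖((PowerSeries.coeff (p ^ e) ψ : Ob K) : K)‖ := by
  have hp := (Fact.out : p.Prime)
  have key : ∀ k, PowerSeries.coeff k (PowerSeries.expand (p ^ (h + r)) (pow_ne_zero _ hp.ne_zero) ψ)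
      - PowerSeries.coeff k (PowerSeries.expand (p ^ h) (pow_ne_zero _ hp.ne_zero) ψ) ^ p ^ h ∈
        u.I := fun k => by
    have h1 := isFGHom_cmp_mulSeries D.hom p
    rw [← map_mulSeries, ← map_mulSeries, D.mul0, D.mul1,
      ← map_cmp _ (by simp [hp.ne_zero]), ← map_cmp _ D.const] at h1
    have h2 : cmp (PowerSeries.X ^ p ^ h) ψ = ψ ^ p ^ h := by
      have hs := PowerSeries.HasSubst.of_constantCoeff_zero' D.const
      rw [cmp, PowerSeries.subst_pow hs, PowerSeries.subst_X hs]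
    have h3 : PowerSeries.map (iterateFrobenius (Ob K) p h)
        (PowerSeries.expand (p ^ h) (pow_ne_zero _ hp.ne_zero) ψ) = ψ ^ p ^ h :=
      MvPowerSeries.map_iterateFrobenius_expand p hp.ne_zero ψ h
    rw [h2, ← h3, cmp, ← PowerSeries.expand_apply _ (pow_ne_zero _ hp.ne_zero)] at h1
    have h4 := congrArg (PowerSeries.coeff k) h1
    rw [PowerSeries.coeff_map, PowerSeries.coeff_map, PowerSeries.coeff_map,
      iterateFrobenius_def, Ideal.Quotient.eq] at h4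
    exact h4
  refine ⟨fun e => ?_, fun e he => ?_, ?_⟩
  · have h1 := key (p ^ (h + r) * p ^ e)
    rw [PowerSeries.coeff_expand_mul, show p ^ (h + r) * p ^ e = p ^ h * p ^ (e + r) by ring,
      PowerSeries.coeff_expand_mul, Ob.mem_span_iff] at h1
    simpa using h1
  · have h1 := key (p ^ h * p ^ e)
    rw [PowerSeries.coeff_expand_mul, PowerSeries.coeff_expand_of_not_dvd _ _ _ (by
      rw [← pow_add, Nat.pow_dvd_pow_iff_le_right hp.one_lt]
      omega), zero_sub, neg_mem_iff] at h1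
    exact u.mem_radical.1 ⟨_, h1⟩
  · by_contra hcon
    push Not at hcon
    have : Nontrivial (Ob K ⧸ u.I) := Ideal.Quotient.nontrivial_iff.2 fun htop => by
      have h1 := Ob.mem_span_iff.1 ((Ideal.eq_top_iff_one _).1 htop)
      rw [Subring.coe_one, norm_one] at h1
      exact absurd u.lt (not_lt.2 h1)
    have : CharP (Ob K ⧸ u.I) p := (CharP.charP_iff_prime_eq_zero hp).2 (by
      rw [← map_natCast (Ideal.Quotient.mk u.I), CharP.cast_eq_zero, map_zero])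
    refine D.ne (eq_zero_of_coeff_pow p D.hom fun j => ?_)
    rw [PowerSeries.coeff_map, Ideal.Quotient.eq_zero_iff_mem]
    exact Ob.mem_span_iff.2 (hcon j)

theorem hom_level_pow {M : Type*} [Monoid M] {c : M} {Q : ℕ} (hc : c ^ Q = c) (N : ℕ) :
    c ^ Q ^ N = c := by
  induction N with
  | zero => simp
  | succ N ih => rw [pow_succ, pow_mul, ih, hc]

/-- `Frob^{hN}` induces a ring map `O/ϖ → O/ϖ^{Q^N}` fixing both laws. -/
theorem TropData.hom_level (D : TropData p h r u G0 G1 ψ) (N : ℕ) :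
    IsFGHom (G0.map (Ideal.Quotient.mk (u.I ^ (p ^ h) ^ N)))
      (G1.map (Ideal.Quotient.mk (u.I ^ (p ^ h) ^ N)))
      (PowerSeries.map (Ideal.Quotient.mk (u.I ^ (p ^ h) ^ N))
        (PowerSeries.map (iterateFrobenius (Ob K) p (h * N)) ψ)) := by
  let ρ : Ob K ⧸ u.I →+* Ob K ⧸ u.I ^ (p ^ h) ^ N := Ideal.Quotient.lift u.I
    ((Ideal.Quotient.mk _).comp (iterateFrobenius (Ob K) p (h * N))) fun a ha => by
      rw [RingHom.comp_apply, Ideal.Quotient.eq_zero_iff_mem, iterateFrobenius_def, pow_mul]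
      exact Ideal.pow_mem_pow ha _
  have hρ : ρ.comp (Ideal.Quotient.mk u.I) =
      (Ideal.Quotient.mk _).comp (iterateFrobenius (Ob K) p (h * N)) := RingHom.ext fun _ => rfl
  have hfix : ∀ G : FormalGroup (Ob K), (∀ γ : Fin 2 →₀ ℕ,
      coeff γ G.toPowerSeries ^ p ^ h = coeff γ G.toPowerSeries) →
      G.map (iterateFrobenius (Ob K) p (h * N)) = G := fun G hG => by
    ext γ : 2
    rw [FormalGroup.map_toPowerSeries, coeff_map, iterateFrobenius_def, pow_mul]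
    exact hom_level_pow (hG γ) N
  have h1 := isFGHom_map D.hom ρ
  rw [fg_map_map, fg_map_map, hρ, ← fg_map_map, ← fg_map_map,
    hfix G0 fun γ => hom_level_pow (D.frob0 γ) h, hfix G1 D.frob1] at h1
  exact h1

theorem lam_level_nsmul {B : Type*} [CommRing B] {I : Ideal B} [IsAdicComplete I B]
    {G : FormalGroup B} [G.IsComm] {p q : ℕ} (hG : mulSeries G p = PowerSeries.X ^ q) (N : ℕ)
    (a : Pt I G) : (p ^ N • a).val = a.val ^ q ^ N := by
  induction N with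
  | zero => simp
  | succ N ih =>
    rw [pow_succ', mul_smul, Pt.val_nsmul, hG, map_pow, ev1_X _ _ (p ^ N • a).mem, ih, ← pow_mul,
      pow_succ]

/-- `y = p^N • y'` with `y'^{Q^N} = w`; `λ y = (λ y')^{Q^N}`. -/
theorem TropData.lam_level [CompleteSpace K] [IsAlgClosed K] [G0.IsComm] [G1.IsComm]
    (D : TropData p h r u G0 G1 ψ) (lam : Pt u.I G0 →+ Pt u.I G1)
    (hlam : ∀ y, (lam y).val - ev1 u.I (RingHom.id _) y.val ψ ∈ u.I) (N : ℕ) (y : Pt u.I G0)
    (w : Ob K) (hw : y.val = w ^ p ^ (r * N)) :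
    (lam y).val - ev1 u.I (RingHom.id _) w
      (PowerSeries.map (iterateFrobenius (Ob K) p (h * N)) ψ) ∈ u.I ^ (p ^ h) ^ N := by
  have hp := (Fact.out : p.Prime)
  obtain ⟨w', hw'⟩ := (iterateFrobeniusEquiv (Ob K) p (h * N)).surjective w
  rw [iterateFrobeniusEquiv_def] at hw'
  have hwr : w ∈ u.I.radical := Ideal.radical_isRadical _ ⟨_, hw ▸ y.mem⟩
  have hwr' : w' ∈ u.I.radical := Ideal.radical_isRadical _ ⟨_, hw' ▸ hwr⟩
  let y' : Pt u.I G0 := ⟨w', hwr'⟩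
  have hy : y = p ^ N • y' := by
    refine Pt.ext ?_
    rw [lam_level_nsmul D.mul0, hw, ← hw', ← pow_mul, ← pow_add, ← pow_mul, add_mul]
  have h1 : ev1 u.I (RingHom.id _) w (PowerSeries.map (iterateFrobenius (Ob K) p (h * N)) ψ) =
      ev1 u.I (RingHom.id _) w' ψ ^ (p ^ h) ^ N := by
    have h2 := comp_ev1 u.I (RingHom.id _) u.I (iterateFrobenius (Ob K) p (h * N)) hwr'
      (by rw [iterateFrobenius_def, hw']; exact hwr) ψ
    rw [iterateFrobenius_def, iterateFrobenius_def, hw', pow_mul] at h2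
    rw [ev1_map _ _ hwr, h2]
    rfl
  rw [hy, map_nsmul, lam_level_nsmul D.mul1, h1, ← pow_mul, ← sub_pow_char_pow]
  exact Ideal.pow_mem_pow (hlam y') _

end Crest.R227
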