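import Crest.Agent.R227.Ob

/-! Row 227. Weierstrass preparation over the unit ball and root counting. For the preparation use
`PowerSeries.IsWeierstrassDivisorAt` for the ideal of a pseudo-uniformizer `ϖ'` whose norm bounds
the lower coefficients (divide `X ^ d` by `f`). -/

set_option autoImplicit false

namespace Crest.R227

variable {K : Type*} [NormedField K] [IsUltrametricDist K] [CompleteSpace K] (u : Unif K)

omit [CompleteSpace K] in
include u in
theorem exists_weierstrass_unif (c : ℕ → Ob K) (d : ℕ) (h : ∀ i < d, ‖(c i : K)‖ < 1) :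
    ∃ u' : Unif K, ∀ i < d, ‖(c i : K)‖ ≤ ‖(u'.ϖ : K)‖ := by
  induction d with
  | zero => exact ⟨u, fun i hi => absurd hi (Nat.not_lt_zero i)⟩
  | succ d ih =>
    obtain ⟨v, hv⟩ := ih fun i hi => h i (Nat.lt_succ_of_lt hi)
    rcases le_total ‖(c d : K)‖ ‖(v.ϖ : K)‖ with h1 | h1
    · refine ⟨v, fun i hi => ?_⟩
      rcases Nat.lt_succ_iff_lt_or_eq.1 hi with hi | rfl
      exacts [hv i hi, h1]
    · refine ⟨⟨c d, v.pos.trans_le h1, h d (Nat.lt_succ_self d)⟩, fun i hi => ?_⟩
      rcases Nat.lt_succ_iff_lt_or_eq.1 hi with hi | rfl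
      exacts [(hv i hi).trans h1, le_rfl]

include u in
theorem exists_weierstrass {f : PowerSeries (Ob K)} {d : ℕ}
    (h1 : ∀ i < d, ‖((PowerSeries.coeff i f : Ob K) : K)‖ < 1)
    (h2 : ‖((PowerSeries.coeff d f : Ob K) : K)‖ = 1) :
    ∃ (P : Polynomial (Ob K)) (U : PowerSeries (Ob K)), P.Monic ∧ P.natDegree = d ∧
      (∀ i < d, ‖((P.coeff i : Ob K) : K)‖ < 1) ∧ IsUnit U ∧ f = (P : PowerSeries (Ob K)) * U := by
  obtain ⟨v, hv⟩ := exists_weierstrass_unif u (fun i => PowerSeries.coeff i f) d h1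
  have hlt : ∀ a : Ob K, a ∈ v.I → ‖(a : K)‖ < 1 := fun a ha =>
    (Ob.mem_span_iff.1 ha).trans_lt v.lt
  have hlow : ∀ i < d, PowerSeries.coeff i f ∈ v.I := fun i hi => Ob.mem_span_iff.2 (hv i hi)
  have hord : (f.map (Ideal.Quotient.mk v.I)).order = d := by
    rw [PowerSeries.order_eq_nat]
    refine ⟨?_, fun i hi => ?_⟩
    · rw [PowerSeries.coeff_map, Ne, Ideal.Quotient.eq_zero_iff_mem]
      exact fun h => (hlt _ h).ne h2
    · rw [PowerSeries.coeff_map, Ideal.Quotient.eq_zero_iff_mem]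
      exact hlow i hi
  have hord' : (f.map (Ideal.Quotient.mk v.I)).order.toNat = d := by rw [hord]; rfl
  have H : f.IsWeierstrassDivisorAt v.I := by
    rw [PowerSeries.IsWeierstrassDivisorAt, hord']
    exact Ob.isUnit_iff.2 h2
  obtain ⟨q, r, hD⟩ : ∃ q r, (PowerSeries.X ^ d : PowerSeries (Ob K)).IsWeierstrassDivisionAt
      f q r v.I := ⟨_, _, H.isWeierstrassDivisionAt_div_mod _⟩
  have hdeg : r.degree < d := hord' ▸ hD.degree_lt
  have hP : ((Polynomial.X ^ d - r : Polynomial (Ob K)) : PowerSeries (Ob K)) = f * q := by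
    rw [Polynomial.coe_sub, Polynomial.coe_pow, Polynomial.coe_X, hD.eq_mul_add]
    ring
  have hm : (Polynomial.X ^ d - r : Polynomial (Ob K)).Monic := Polynomial.monic_X_pow_sub hdeg
  have hn : (Polynomial.X ^ d - r : Polynomial (Ob K)).natDegree = d := by
    refine Polynomial.natDegree_eq_of_degree_eq_some ?_
    rw [Polynomial.degree_sub_eq_left_of_degree_lt (by rwa [Polynomial.degree_X_pow]),
      Polynomial.degree_X_pow]
  have hq : IsUnit q := by
    rw [PowerSeries.isUnit_iff_constantCoeff, ← PowerSeries.coeff_zero_eq_constantCoeff_apply]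
    have e1 : PowerSeries.coeff d (f * q) = 1 := by
      rw [← hP, Polynomial.coeff_coe]
      have := hm.coeff_natDegree
      rwa [hn] at this
    have e2 : Ideal.Quotient.mk v.I (PowerSeries.coeff d (f * q)) =
        Ideal.Quotient.mk v.I (PowerSeries.coeff d f * PowerSeries.coeff 0 q) := by
      rw [PowerSeries.coeff_mul, map_sum, Finset.sum_eq_single (d, 0)]
      · rintro ⟨i, j⟩ hij hne
        rw [Finset.HasAntidiagonal.mem_antidiagonal] at hij
        have hi : i < d := by
          by_contra hi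
          exact hne (Prod.ext (by simp only at hij ⊢; omega) (by simp only at hij ⊢; omega))
        rw [Ideal.Quotient.eq_zero_iff_mem]
        exact Ideal.mul_mem_right _ _ (hlow i hi)
      · intro h
        exact absurd (by simp) h
    rw [e1, Ideal.Quotient.eq] at e2
    have e3 := hlt _ e2
    refine isUnit_of_mul_isUnit_right (x := PowerSeries.coeff d f) (Ob.isUnit_iff.2 ?_)
    refine le_antisymm (Ob.norm_le _) (not_lt.1 fun h => ?_)
    have e4 := IsUltrametricDist.norm_add_le_max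
      ((1 - PowerSeries.coeff d f * PowerSeries.coeff 0 q : Ob K) : K)
      ((PowerSeries.coeff d f * PowerSeries.coeff 0 q : Ob K) : K)
    rw [← Subring.coe_add, sub_add_cancel, Subring.coe_one, norm_one] at e4
    exact absurd (max_lt e3 h) (not_lt.2 e4)
  obtain ⟨q, rfl⟩ := hq
  refine ⟨Polynomial.X ^ d - r, (q⁻¹ : (PowerSeries (Ob K))ˣ), hm, hn, fun i hi => ?_,
    Units.isUnit _, ?_⟩
  · refine hlt _ ?_
    have := hD.coeff_f_sub_r_mem (i := i) (by rwa [hord'])
    rwa [← Polynomial.coe_X, ← Polynomial.coe_pow, ← Polynomial.coe_sub, Polynomial.coeff_coe]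
      at this
  · rw [hP, Units.mul_inv_cancel_right]

theorem exists_root_ev {z : Ob K} (hz : ‖(z : K)‖ < 1) (P : Polynomial (Ob K)) :
    ev1 u.I (RingHom.id _) z (P : PowerSeries (Ob K)) = P.eval z := by
  have : (ev1 u.I (RingHom.id _) z).comp Polynomial.coeToPowerSeries.ringHom =
      Polynomial.evalRingHom z := by
    refine Polynomial.ringHom_ext (fun a => ?_) ?_
    · simp [ev1_C]
    · simp [ev1_X u.I _ (u.mem_radical.2 hz)]
  exact RingHom.congr_fun this P

theorem exists_root_iff {z : Ob K} (hz : ‖(z : K)‖ < 1) (P : Polynomial (Ob K))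
    {U : PowerSeries (Ob K)} (hU : IsUnit U) :
    ev1 u.I (RingHom.id _) z ((P : PowerSeries (Ob K)) * U) = 0 ↔ P.eval z = 0 := by
  rw [map_mul, (hU.map _).mul_left_eq_zero, exists_root_ev u hz]

omit [CompleteSpace K] in
theorem exists_root_sum_lt {ι : Type*} (s : Finset ι) (a : ι → K) {B : ℝ} (hB : 0 < B)
    (h : ∀ i ∈ s, ‖a i‖ < B) : ‖∑ i ∈ s, a i‖ < B := by
  classical
  induction s using Finset.induction_on with
  | empty => simpa using hB
  | insert i s hi ih =>
    rw [Finset.sum_insert hi]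
    exact (IsUltrametricDist.norm_add_le_max _ _).trans_lt (max_lt (h i (by simp))
      (ih fun j hj => h j (Finset.mem_insert_of_mem hj)))

omit [CompleteSpace K] in
theorem exists_root_norm_lt {P : Polynomial (Ob K)} (hm : P.Monic)
    (h : ∀ i < P.natDegree, ‖((P.coeff i : Ob K) : K)‖ < 1) {z : K}
    (hz : (P.map (Ob K).subtype).eval z = 0) : ‖z‖ < 1 := by
  by_contra h1
  rw [not_lt] at h1
  have h0 : 0 < ‖z‖ := one_pos.trans_le h1
  rw [Polynomial.eval_map, Polynomial.eval₂_eq_sum_range, Finset.sum_range_succ,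
    hm.coeff_natDegree, map_one, one_mul, add_eq_zero_iff_eq_neg] at hz
  have := exists_root_sum_lt (Finset.range P.natDegree)
    (fun i => (Ob K).subtype (P.coeff i) * z ^ i) (pow_pos h0 P.natDegree) fun i hi => by
      rw [Finset.mem_range] at hi
      rw [norm_mul, norm_pow]
      exact (mul_lt_of_lt_one_left (pow_pos h0 i) (h i hi)).trans_le
        (pow_le_pow_right₀ h1 hi.le)
  rw [hz, norm_neg, norm_pow] at this
  exact lt_irrefl _ this

omit [CompleteSpace K] in
theorem exists_root_eval (P : Polynomial (Ob K)) (z : Ob K) :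
    (P.map (Ob K).subtype).eval (z : K) = ((P.eval z : Ob K) : K) := by
  rw [Polynomial.eval_map]
  exact Polynomial.eval₂_at_apply (Ob K).subtype z

theorem exists_root [IsAlgClosed K] {f : PowerSeries (Ob K)} {d : ℕ} (hd : 1 ≤ d)
    (h1 : ∀ i < d, ‖((PowerSeries.coeff i f : Ob K) : K)‖ < 1)
    (h2 : ‖((PowerSeries.coeff d f : Ob K) : K)‖ = 1) :
    ∃ z : Ob K, ‖(z : K)‖ < 1 ∧ ev1 u.I (RingHom.id _) z f = 0 := by
  obtain ⟨P, U, hm, hn, hc, hU, rfl⟩ := exists_weierstrass u h1 h2
  obtain ⟨z, hz⟩ := IsAlgClosed.exists_root (P.map (Ob K).subtype) (by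
    rw [hm.degree_map, Polynomial.degree_eq_natDegree hm.ne_zero, hn]
    exact_mod_cast (by omega : d ≠ 0))
  have h3 : ‖z‖ < 1 := exists_root_norm_lt hm (hn ▸ hc) hz
  refine ⟨⟨z, h3.le⟩, h3, (exists_root_iff u h3 P hU).2 (Subtype.ext ?_)⟩
  rw [← exists_root_eval]
  exact hz

theorem card_roots_le {f : PowerSeries (Ob K)} {d : ℕ}
    (h1 : ∀ i < d, ‖((PowerSeries.coeff i f : Ob K) : K)‖ < 1)
    (h2 : ‖((PowerSeries.coeff d f : Ob K) : K)‖ = 1) (s : Finset (Ob K))
    (hs : ∀ z ∈ s, ‖(z : K)‖ < 1 ∧ ev1 u.I (RingHom.id _) z f = 0) : s.card ≤ d := by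
  obtain ⟨P, U, hm, hn, -, hU, rfl⟩ := exists_weierstrass u h1 h2
  rw [← hn]
  refine Polynomial.card_le_degree_of_subset_roots fun z hz => ?_
  rw [Polynomial.mem_roots hm.ne_zero]
  exact (exists_root_iff u (hs z hz).1 P hU).1 (hs z hz).2

theorem exists_roots_of_simple [IsAlgClosed K] {f : PowerSeries (Ob K)} {d : ℕ}
    (h1 : ∀ i < d, ‖((PowerSeries.coeff i f : Ob K) : K)‖ < 1)
    (h2 : ‖((PowerSeries.coeff d f : Ob K) : K)‖ = 1)
    (hs : ∀ z : Ob K, ‖(z : K)‖ < 1 → ev1 u.I (RingHom.id _) z f = 0 →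
      ev1 u.I (RingHom.id _) z (PowerSeries.derivative _ f) ≠ 0) :
    ∃ s : Finset (Ob K), s.card = d ∧
      ∀ z ∈ s, ‖(z : K)‖ < 1 ∧ ev1 u.I (RingHom.id _) z f = 0 := by
  classical
  obtain ⟨P, U, hm, hn, hc, hU, rfl⟩ := exists_weierstrass u h1 h2
  have hlt : ∀ z : K, (P.map (Ob K).subtype).eval z = 0 → ‖z‖ < 1 := fun z hz =>
    exists_root_norm_lt hm (hn ▸ hc) hz
  have hsep : (P.map (Ob K).subtype).Separable := by
    rw [Polynomial.separable_def, Polynomial.isCoprime_iff_aeval_ne_zero_of_isAlgClosed K K]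
    intro z
    rw [Polynomial.coe_aeval_eq_eval, or_iff_not_imp_left, not_not]
    intro hz hz'
    have h3 := hlt z hz
    have e1 : P.eval (⟨z, h3.le⟩ : Ob K) = 0 := Subtype.ext (by
      rw [← exists_root_eval]
      exact hz)
    have e2 : P.derivative.eval (⟨z, h3.le⟩ : Ob K) = 0 := Subtype.ext (by
      rw [← exists_root_eval, ← Polynomial.derivative_map]
      exact hz')
    refine hs ⟨z, h3.le⟩ h3 ((exists_root_iff u h3 P hU).2 e1) ?_
    rw [Derivation.leibniz, PowerSeries.derivative_coe, smul_eq_mul, smul_eq_mul, map_add,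
      map_mul, map_mul, exists_root_ev u h3, exists_root_ev u h3, e1, e2, zero_mul, mul_zero,
      add_zero]
  have hm' := hm.map (Ob K).subtype
  refine ⟨(P.map (Ob K).subtype).roots.toFinset.subtype (· ∈ Ob K), ?_, fun z hz => ?_⟩
  · rw [Finset.card_subtype, Finset.filter_true_of_mem, Multiset.toFinset_card_of_nodup
      (Polynomial.nodup_roots hsep), IsAlgClosed.card_roots_eq_natDegree, hm.natDegree_map, hn]
    intro z hz
    rw [Multiset.mem_toFinset, Polynomial.mem_roots hm'.ne_zero] at hz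
    exact (hlt z hz).le
  · rw [Finset.mem_subtype, Multiset.mem_toFinset, Polynomial.mem_roots hm'.ne_zero] at hz
    have h3 := hlt z hz
    refine ⟨h3, (exists_root_iff u h3 P hU).2 (Subtype.ext ?_)⟩
    rw [← exists_root_eval]
    exact hz

end Crest.R227
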